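import Vale.Agent.P217.ROrb

/-!
# P217: every element of the extended stabilizer group acts, by a unique automorphism
-/

namespace Vale.Agent.P217

open MvPowerSeries

section

variable {p n : ℕ} [Fact p.Prime] {k : Type} [Field k] [CharP k p] [PerfectRing k p]
  {Γ : FormalGroup (ZMod p)} {F : FormalGroup (E0 p n k)}

omit [CharP k p] [PerfectRing k p] in
theorem act_univ {Γ' : FormalGroup k} (hU : IsUniversal Γ' F) {R : Type} [CommRing R]
    [IsLocalRing R] [IsNoetherianRing R] [IsAdicComplete (IsLocalRing.maximalIdeal R) R]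
    (α : WittVector p k →+* R) (ρ : R →+* k) (hρ : ρ.comp α = WittVector.constantCoeff)
    {G : FormalGroup R} (hG : G.IsComm) (hGρ : G.map ρ = Γ') :
    ∃! φ : E0 p n k →+* R, (∀ c, φ (C c) = α c) ∧ ρ.comp φ = res ∧
      ∃ s, IsIso (F.map φ) G s ∧ PowerSeries.map ρ s = PowerSeries.X := by
  let _ := α.toAlgebra
  obtain ⟨φ, h1, h2⟩ := hU.universal R ρ hρ G hG hGρ
  exact ⟨φ.toRingHom, ⟨φ.commutes, h1⟩, fun ψ hψ =>
    congrArg AlgHom.toRingHom (h2 ⟨ψ, hψ.1⟩ hψ.2)⟩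

omit [Fact p.Prime] [PerfectRing k p] in
theorem act_fix (Γ : FormalGroup (ZMod p)) (τ : k →+* k) :
    (Γ.map (ZMod.castHom dvd_rfl k)).map τ = Γ.map (ZMod.castHom dvd_rfl k) := by
  rw [map_map_fg, RingHom.ext_zmod (τ.comp _)]

theorem act_map_psubst {R R' : Type*} [CommRing R] [CommRing R'] (ρ : R →+* R')
    {t : PowerSeries R} (ht : PowerSeries.constantCoeff t = 0) (s : PowerSeries R) :
    PowerSeries.map ρ (s.subst t) = (PowerSeries.map ρ s).subst (PowerSeries.map ρ t) :=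
  map_psubst ρ ht s

/-- `σ` is a ring endomorphism of `E0` inducing the pair `(τ, a)` -/
def ActH (F : FormalGroup (E0 p n k)) (τ : k →+* k) (a : PowerSeries k)
    (σ : E0 p n k →+* E0 p n k) : Prop :=
  (∀ c, σ (C c) = C (WittVector.map τ c)) ∧ res.comp σ = τ.comp res ∧
    ∃ w, IsIso F (F.map σ) w ∧ PowerSeries.map res w = a

theorem act_hom (hU : IsUniversal (Γ.map (ZMod.castHom dvd_rfl k)) F) (τ : k ≃+* k)
    {a : PowerSeries k}
    (ha : IsIso (Γ.map (ZMod.castHom dvd_rfl k)) (Γ.map (ZMod.castHom dvd_rfl k)) a) :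
    ∃! σ, ActH F τ.toRingHom a σ := by
  obtain ⟨b, hb⟩ := PowerSeries.map_surjective res (res_surjective (p := p) (n := n)) a
  obtain ⟨c, c0, hc⟩ : ∃ c : PowerSeries (E0 p n k), PowerSeries.constantCoeff c = 0 ∧
      PowerSeries.map res c = a := by
    refine ⟨b - PowerSeries.C (PowerSeries.constantCoeff b), by simp, ?_⟩
    rw [map_sub, PowerSeries.map_C, ← PowerSeries.coeff_zero_eq_constantCoeff_apply,
      ← PowerSeries.coeff_map, hb, PowerSeries.coeff_zero_eq_constantCoeff_apply, ha.1.1, map_zero,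
      sub_zero]
  have c1 : IsUnit (PowerSeries.coeff 1 c) := by
    by_contra h
    have h1 := mem_mE.1 ((IsLocalRing.mem_maximalIdeal _).2 h)
    rw [← PowerSeries.coeff_map, hc] at h1
    exact ha.2.ne_zero h1
  obtain ⟨G, hG, hFG⟩ := exists_transport hU.comm c0 c1
  have hGr : G.map res = Γ.map (ZMod.castHom dvd_rfl k) := by
    have h1 := hFG.map res
    rw [hU.special, hc] at h1
    exact rt_unique h1 ha.1
  have hX : ∀ s : PowerSeries (E0 p n k), PowerSeries.map (τ.symm.toRingHom.comp res) s =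
      PowerSeries.X ↔ PowerSeries.map res s = PowerSeries.X := fun s => by
    rw [← orb_map_map]
    exact (PowerSeries.map_injective τ.symm.toRingHom τ.symm.injective).eq_iff'
      (PowerSeries.map_X _)
  have hr : ∀ σ : E0 p n k →+* E0 p n k, (τ.symm.toRingHom.comp res).comp σ = res ↔
      res.comp σ = τ.toRingHom.comp res := fun σ => by
    simp only [RingHom.ext_iff]
    exact forall_congr' fun f => τ.symm_apply_eq
  refine (existsUnique_congr fun σ => and_congr_right' (and_congr (hr σ) ⟨?_, ?_⟩)).1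
    (act_univ hU (C.comp (WittVector.map τ.toRingHom)) (τ.symm.toRingHom.comp res)
      (RingHom.ext fun x => τ.symm_apply_eq.2 (res_C _)) hG (by rw [← map_map_fg, hGr, act_fix]))
  · rintro ⟨s, hs, hs'⟩
    have h1 := hFG.comp hs.symm
    refine ⟨_, h1, ?_⟩
    have h2 := act_map_psubst res h1.1.1 s
    rw [rt_right hs.1.1 hs.2 c0, (hX s).1 hs', hc] at h2
    exact (h2.trans (PowerSeries.subst_X (hs1 (c0_map res h1.1.1)))).symm
  · rintro ⟨w, hw, hw'⟩
    have h1 := hw.symm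
    refine ⟨_, h1.comp hFG, (hX _).2 ?_⟩
    rw [act_map_psubst res h1.1.1, hc, ← hw', ← act_map_psubst res h1.1.1,
      PowerSeries.subst_substInvOfIsUnit_right _ hw.1.1, PowerSeries.map_X]

theorem act_left (hU : IsUniversal (Γ.map (ZMod.castHom dvd_rfl k)) F) {τ : k ≃+* k}
    {a : PowerSeries k}
    (ha : IsIso (Γ.map (ZMod.castHom dvd_rfl k)) (Γ.map (ZMod.castHom dvd_rfl k)) a)
    {σ : E0 p n k →+* E0 p n k} (hσ : ActH F τ.toRingHom a σ) :
    ∃ a' σ', IsIso (Γ.map (ZMod.castHom dvd_rfl k)) (Γ.map (ZMod.castHom dvd_rfl k)) a' ∧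
      ActH F τ.symm.toRingHom a' σ' ∧ Function.LeftInverse σ' σ := by
  have h1 := ha.map τ.symm.toRingHom
  rw [act_fix] at h1
  obtain ⟨σ', ⟨h2, h3, w', hw', h4⟩, -⟩ := act_hom hU τ.symm h1.symm
  obtain ⟨h5, h6, w, hw, h7⟩ := hσ
  refine ⟨_, σ', h1.symm, ⟨h2, h3, w', hw', h4⟩, RingHom.congr_fun
    ((act_hom hU (RingEquiv.refl k) (a := PowerSeries.X) ⟨isHom_X, by simp⟩).unique
      (y₁ := σ'.comp σ) (y₂ := RingHom.id _) ⟨fun c => ?_, RingHom.ext fun f => ?_, _,
        map_map_fg σ σ' ▸ hw'.comp (hw.map σ'), ?_⟩ ⟨fun c => ?_, rfl, PowerSeries.X, ?_,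
        PowerSeries.map_X _⟩)⟩
  · rw [RingHom.comp_apply, h5, h2]
    exact congrArg C (by ext i; exact τ.symm_apply_apply _)
  · exact (RingHom.congr_fun h3 _).trans (τ.symm_apply_eq.2 (RingHom.congr_fun h6 f))
  · rw [act_map_psubst res hw'.1.1, orb_map_map, h3, ← orb_map_map, h7, h4,
      PowerSeries.subst_substInvOfIsUnit_right _ h1.1.1]
  · exact congrArg C (by ext i; rfl)
  · rw [show F.map (RingHom.id _) = F from FormalGroup.ext (by simp)]
    exact ⟨isHom_X, by simp⟩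

theorem act_res {τ : k →+* k} (σ : E0 p n k ≃+* E0 p n k)
    (h : ∀ c : WittVector p k, σ (C c) = C (WittVector.map τ c)) :
    res.comp σ.toRingHom = τ.comp res := by
  refine RingHom.ext fun f => ?_
  have h1 : f - C (constantCoeff f) ∈ mE p n k := mem_mE.2 (by
    rw [map_sub, res_C, re_res_apply, sub_self])
  have h2 : σ (f - C (constantCoeff f)) ∈ mE p n k := by
    rw [IsLocalRing.mem_maximalIdeal, mem_nonunits_iff] at h1 ⊢
    rwa [MulEquiv.isUnit_map]
  rw [mem_mE, map_sub, map_sub, h, res_C, sub_eq_zero] at h2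
  exact h2

end

variable {p n : ℕ} [Fact p.Prime] {k : Type} [Field k] [Fintype k] [CharP k p]
  {Γ : FormalGroup (ZMod p)} {F : FormalGroup (E0 p n k)}

theorem act_existsUnique (hU : IsUniversal (Γ.map (ZMod.castHom dvd_rfl k)) F) (τ : k ≃+* k)
    (a : PowerSeries k)
    (ha : IsIso (Γ.map (ZMod.castHom dvd_rfl k)) (Γ.map (ZMod.castHom dvd_rfl k)) a) :
    ∃! σ : E0 p n k ≃+* E0 p n k,
      (∀ c : WittVector p k, σ (C c) = C (WittVector.map τ.toRingHom c)) ∧
      ∃ w : PowerSeries (E0 p n k), IsIso F (F.map σ.toRingHom) w ∧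
        PowerSeries.map res w = a := by
  obtain ⟨σ, hσ, h1⟩ := act_hom hU τ ha
  obtain ⟨a', σ', ha', hσ', h2⟩ := act_left hU ha hσ
  obtain ⟨-, σ'', -, -, h3⟩ := act_left hU ha' hσ'
  refine ⟨RingEquiv.ofBijective σ ⟨h2.injective, fun y => ⟨σ' y, h3.injective (h2 _)⟩⟩,
    ⟨hσ.1, hσ.2.2⟩, fun ψ hψ => RingEquiv.ext (RingHom.congr_fun
      (h1 ψ.toRingHom ⟨hψ.1, act_res ψ hψ.1, hψ.2⟩))⟩

theorem inStab_iff (hU : IsUniversal (Γ.map (ZMod.castHom dvd_rfl k)) F)
    (σ : E0 p n k ≃+* E0 p n k) :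
    InStab F σ ↔ ∃ (τ : k ≃+* k) (a : PowerSeries k),
      IsIso (Γ.map (ZMod.castHom dvd_rfl k)) (Γ.map (ZMod.castHom dvd_rfl k)) a ∧
      (∀ c : WittVector p k, σ (C c) = C (WittVector.map τ.toRingHom c)) ∧
      ∃ w : PowerSeries (E0 p n k), IsIso F (F.map σ.toRingHom) w ∧
        PowerSeries.map res w = a := by
  refine ⟨fun ⟨⟨τ, hτ⟩, w, hw⟩ => ⟨τ, _, ?_, hτ, w, hw, rfl⟩,
    fun ⟨τ, _, _, hτ, w, hw, _⟩ => ⟨⟨τ, hτ⟩, w, hw⟩⟩
  have h1 := hw.map res
  rwa [map_map_fg, act_res σ hτ, ← map_map_fg, hU.special, act_fix] at h1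

end Vale.Agent.P217
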