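import Vale.Agent.P217.DEv

/-!
# P217: analytic functions on the open polydisc, shifts, Lipschitz and Taylor bounds
-/

set_option linter.unusedSectionVars false

noncomputable section

namespace Vale.Agent.P217.D

open MvPowerSeries

variable {C : Type} [NontriviallyNormedField C] [IsUltrametricDist C] [CompleteSpace C]
variable {σ τ : Type*} [Fintype σ] [Fintype τ]

open scoped MvPowerSeries.WithPiTopology in
lemma dan_hom (a : σ → MvPowerSeries τ (O C)) (ha : ∀ s, ‖constantCoeff (a s)‖ < 1) :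
    ∃ Φ : MvPowerSeries σ (O C) →ₐ[O C] MvPowerSeries τ (O C), ∀ s, Φ (X s) = a s := by
  have h : HasEval a := ⟨fun s => LinearTopology.isTopologicallyNilpotent_of_constantCoeff
    (tendsto_pow_atTop_nhds_zero_of_norm_lt_one (ha s)), by simp [Filter.cofinite_eq_bot]⟩
  exact ⟨aeval h, fun s => by rw [← MvPolynomial.coe_X, aeval_coe, MvPolynomial.aeval_X]⟩

/-- Composition of integral series whose constant terms lie in the open disc. -/
lemma exists_comp (a : σ → MvPowerSeries τ (O C)) (ha : ∀ s, ‖constantCoeff (a s)‖ < 1)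
    (f : MvPowerSeries σ (O C)) :
    ∃ g : MvPowerSeries τ (O C), ∀ x, ev x g = ev (fun s => evM x (a s) (ha s)) f := by
  obtain ⟨Φ, h1⟩ := dan_hom a ha
  refine ⟨Φ f, fun x => ?_⟩
  have := hom_ext ((ev x).toRingHom.comp Φ.toRingHom) (ev fun s => evM x (a s) (ha s)).toRingHom
    (fun c => by simp [MvPowerSeries.c_eq_algebraMap])
    (fun s => by simp [h1]) (fun s => by simpa [h1] using mem_M.1 (ev_mem_M x (ha s)))
  exact DFunLike.congr_fun this f

/-- Functions on the open polydisc given by an integral power series. -/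
def An (φ : (σ → M C) → O C) : Prop := ∃ P : MvPowerSeries σ (O C), ∀ x, φ x = ev x P

lemma An.const (c : O C) : An (fun _ : σ → M C => c) := by
  exact ⟨MvPowerSeries.C c, fun x => (ev_C x c).symm⟩

lemma An.coord (s : σ) : An (fun x : σ → M C => (x s : O C)) := by
  exact ⟨X s, fun x => (ev_X x s).symm⟩

lemma An.add {φ ψ : (σ → M C) → O C} (hφ : An φ) (hψ : An ψ) : An (fun x => φ x + ψ x) := by
  obtain ⟨P, hP⟩ := hφ
  obtain ⟨Q, hQ⟩ := hψ
  exact ⟨P + Q, fun x => by rw [map_add, ← hP, ← hQ]⟩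

lemma An.sub {φ ψ : (σ → M C) → O C} (hφ : An φ) (hψ : An ψ) : An (fun x => φ x - ψ x) := by
  obtain ⟨P, hP⟩ := hφ
  obtain ⟨Q, hQ⟩ := hψ
  exact ⟨P - Q, fun x => by rw [map_sub, ← hP, ← hQ]⟩

lemma An.mul {φ ψ : (σ → M C) → O C} (hφ : An φ) (hψ : An ψ) : An (fun x => φ x * ψ x) := by
  obtain ⟨P, hP⟩ := hφ
  obtain ⟨Q, hQ⟩ := hψ
  exact ⟨P * Q, fun x => by rw [map_mul, ← hP, ← hQ]⟩

lemma An.pow {φ : (σ → M C) → O C} (hφ : An φ) (j : ℕ) : An (fun x => φ x ^ j) := by
  obtain ⟨P, hP⟩ := hφ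
  exact ⟨P ^ j, fun x => by rw [map_pow, ← hP]⟩

lemma An.sum {ι : Type*} (S : Finset ι) {φ : ι → (σ → M C) → O C} (hφ : ∀ i ∈ S, An (φ i)) :
    An (fun x => ∑ i ∈ S, φ i x) := by
  choose! P hP using hφ
  exact ⟨∑ i ∈ S, P i, fun x => by
    rw [map_sum]
    exact Finset.sum_congr rfl fun i hi => hP i hi x⟩

lemma An.ev (f : MvPowerSeries σ (O C)) {a : (τ → M C) → σ → M C}
    (ha : ∀ s, An (fun x => (a x s : O C))) : An (fun x => ev (a x) f) := by
  choose P hP using ha
  have h0 : ∀ s, ‖constantCoeff (P s)‖ < 1 := fun s => by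
    rw [← ev_zero, ← hP s 0]
    exact M.norm_lt_one _
  obtain ⟨g, hg⟩ := exists_comp P h0 f
  refine ⟨g, fun x => ?_⟩
  rw [hg, ← show a x = fun s => evM x (P s) (h0 s) from funext fun s => Subtype.ext (hP s x)]

lemma An.comp {φ : (σ → M C) → O C} (hφ : An φ) {a : (τ → M C) → σ → M C}
    (ha : ∀ s, An (fun x => (a x s : O C))) : An (fun x => φ (a x)) := by
  obtain ⟨P, hP⟩ := hφ
  simp only [hP]
  exact An.ev P ha

lemma An.ev1 (f : PowerSeries (O C)) {b : (τ → M C) → M C}
    (hb : An (fun x => (b x : O C))) : An (fun x => ev1 (b x) f) := by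
  exact An.ev (σ := Unit) f (a := fun x _ => b x) fun _ => hb

lemma dan_fub (E : MvPowerSeries τ (O C) ≃ₐ[O C] PowerSeries (MvPowerSeries σ (O C))) (o : τ)
    (i : σ → τ) (h1 : ∀ c, E (MvPowerSeries.C c) = PowerSeries.C (MvPowerSeries.C c))
    (h2 : E (X o) = PowerSeries.X) (h3 : ∀ s, E (X (i s)) = PowerSeries.C (X s)) (y : τ → M C)
    (K : PowerSeries (MvPowerSeries σ (O C))) :
    ev y (E.symm K) = ev1 (y o) (PowerSeries.map (ev fun s => y (i s)).toRingHom K) := by
  have e1 := hom_ext (((ev y).toRingHom.comp E.symm.toRingEquiv.toRingHom).comp PowerSeries.C)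
    (ev fun s => y (i s)).toRingHom (fun c => by simp [← h1]) (fun s => by simp [← h3])
    (fun s => by simpa [← h3] using M.norm_lt_one (y (i s)))
  have e2 := hom_ext1 ((ev y).toRingHom.comp E.symm.toRingEquiv.toRingHom)
    ((ev1 (y o)).toRingHom.comp (PowerSeries.map (ev fun s => y (i s)).toRingHom))
    (fun c => by simpa using DFunLike.congr_fun e1 c)
    (by simp only [RingHom.comp_apply, PowerSeries.map_X]; simp [← h2])
    (by simpa [← h2] using M.norm_lt_one (y o))
  exact DFunLike.congr_fun e2 K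

/-- Fubini: a series in one more variable. -/
lemma ev_optionEquivLeft_symm (x : σ → M C) (t : M C)
    (K : PowerSeries (MvPowerSeries σ (O C))) :
    ev (fun o : Option σ => o.elim t x) ((optionEquivLeft σ (O C)).symm K) =
      ev1 t (PowerSeries.map (ev x).toRingHom K) := by
  exact dan_fub (optionEquivLeft σ (O C)) none some optionEquivLeft_C optionEquivLeft_X_none
    optionEquivLeft_X_some _ K

lemma ev_finSuccEquiv_symm {m : ℕ} (x : Fin m → M C) (t : M C)
    (K : PowerSeries (MvPowerSeries (Fin m) (O C))) :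
    ev (Fin.cons t x : Fin (m + 1) → M C) ((MvPowerSeries.finSuccEquiv (O C) m).symm K) =
      ev1 t (PowerSeries.map (ev x).toRingHom K) := by
  exact dan_fub (MvPowerSeries.finSuccEquiv (O C) m) 0 Fin.succ finSuccEquiv_C finSuccEquiv_X_zero
    finSuccEquiv_X_succ (Fin.cons t x : Fin (m + 1) → M C) K

lemma An.ev1_map (K : PowerSeries (MvPowerSeries σ (O C))) {a : (τ → M C) → σ → M C}
    (ha : ∀ s, An (fun x => (a x s : O C))) {b : (τ → M C) → M C}
    (hb : An (fun x => (b x : O C))) :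
    An (fun x => D.ev1 (b x) (PowerSeries.map (D.ev (a x)).toRingHom K)) := by
  simp only [← ev_optionEquivLeft_symm]
  refine An.ev _ fun o => ?_
  cases o with
  | none => exact hb
  | some s => exact ha s

lemma An.exists_series1 {φ : M C → O C} (hφ : An (fun x : Unit → M C => φ (x ()))) :
    ∃ e : PowerSeries (O C), ∀ t, φ t = D.ev1 t e := by
  obtain ⟨P, hP⟩ := hφ
  exact ⟨P, fun t => hP fun _ => t⟩

lemma exists_shift (c : σ → M C) (f : MvPowerSeries σ (O C)) :
    ∃ g : MvPowerSeries σ (O C), ∀ δ, ev δ g = ev (c + δ) f := by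
  obtain ⟨P, hP⟩ := An.ev f (a := fun δ : σ → M C => c + δ) fun s =>
    (An.const (c s : O C)).add (An.coord s)
  exact ⟨P, fun δ => (hP δ).symm⟩

/-- Taylor expansion at the point `c`. -/
def shift (c : σ → M C) (f : MvPowerSeries σ (O C)) : MvPowerSeries σ (O C) :=
  (exists_shift c f).choose

lemma ev_shift (c δ : σ → M C) (f : MvPowerSeries σ (O C)) :
    ev δ (shift c f) = ev (c + δ) f := (exists_shift c f).choose_spec δ

lemma norm_ev_sub_ev (x y : σ → M C) (f : MvPowerSeries σ (O C)) :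
    ‖ev x f - ev y f‖ ≤ ‖x - y‖ := by
  have h := norm_ev_sub_const (x - y) (shift y f) (norm_nonneg _) (M.pi_norm_lt_one _).le
    (norm_le_pi_norm (x - y))
  rwa [← ev_zero, ev_shift, ev_shift, add_zero, add_sub_cancel] at h

lemma norm_ev1_sub_ev1 (x y : M C) (f : PowerSeries (O C)) :
    ‖ev1 x f - ev1 y f‖ ≤ ‖(x : O C) - y‖ := by
  refine (norm_ev_sub_ev (fun _ : Unit => x) (fun _ => y) f).trans ?_
  exact (pi_norm_le_iff_of_nonneg (norm_nonneg _)).2 fun _ => le_rfl

lemma dan_taylor (δ : σ → M C) (g : MvPowerSeries σ (O C)) {r : ℝ} (h0 : 0 ≤ r) (h1 : r ≤ 1)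
    (hr : ∀ s, ‖δ s‖ ≤ r) :
    ‖ev δ g - constantCoeff g - ∑ s, coeff (Finsupp.single s 1) g * δ s‖ ≤ r ^ 2 := by
  classical
  have h := norm_ev_le_pow δ (g - MvPowerSeries.C (constantCoeff g) -
    ∑ s, monomial (Finsupp.single s 1) (coeff (Finsupp.single s 1) g)) h0 h1 hr (j := 2)
    fun d hd => by
      simp only [map_sub, map_sum, coeff_C, coeff_monomial]
      rcases Nat.lt_succ_iff_lt_or_eq.1 hd with h | h
      · obtain rfl : d = 0 := by simpa [Finsupp.degree_eq_zero_iff] using h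
        simp [eq_comm (a := (0 : σ →₀ ℕ))]
      · obtain ⟨s, rfl⟩ := (Finsupp.sum_eq_one_iff d).1 h
        simp [Finsupp.single_left_inj]
  simpa [ev_monomial] using h

/-- First order Taylor estimate. -/
lemma taylor2 (x δ : σ → M C) (f : MvPowerSeries σ (O C)) :
    ‖ev (x + δ) f - ev x f - ∑ s, coeff (Finsupp.single s 1) (shift x f) * δ s‖ ≤ ‖δ‖ ^ 2 := by
  have h := dan_taylor δ (shift x f) (norm_nonneg _) (M.pi_norm_lt_one _).le (norm_le_pi_norm δ)
  rwa [← ev_zero, ev_shift, ev_shift, add_zero] at h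

/-- First order Taylor estimate at the origin in one variable. -/
lemma taylor2_one (t : M C) (f : PowerSeries (O C)) :
    ‖ev1 t f - PowerSeries.constantCoeff f - PowerSeries.coeff 1 f * t‖ ≤ ‖(t : O C)‖ ^ 2 := by
  have h := dan_taylor (fun _ : Unit => t) f (norm_nonneg (t : O C)) (M.norm_lt_one t).le
    fun _ => le_rfl
  rwa [Fintype.sum_unique] at h

/-- Truncation error. -/
lemma norm_ev_sub_trunc (x : σ → M C) (f : MvPowerSeries σ (O C)) (j : ℕ) :
    ‖ev x f - MvPolynomial.eval (fun s => (x s : O C)) (truncTotal j f)‖ ≤ ‖x‖ ^ j := by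
  rw [← ev_coe, ← map_sub]
  refine norm_ev_le_pow x _ (norm_nonneg _) (M.pi_norm_lt_one _).le (norm_le_pi_norm x)
    fun d hd => ?_
  rw [map_sub, MvPolynomial.coeff_coe, coeff_truncTotal _ hd, sub_self]

end Vale.Agent.P217.D
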