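import Mathlib

/-!
# P217: Lazard's symmetric 2-cocycle lemma in characteristic `p`
-/

namespace Vale.Agent.P217.D

open Finset

section aux

variable {K : Type*} [Field K]

theorem dcoc_coeff (n : ℕ) (a : ℕ → K) {j : ℕ} (hj : j < n) :
    (∑ i ∈ range n, Polynomial.monomial i (a i)).coeff j = a j := by
  rw [Polynomial.finsetSum_coeff, Finset.sum_eq_single j]
  · exact Polynomial.coeff_monomial_same _ _
  · intro i _ hi
    exact Polynomial.coeff_monomial_of_ne _ (Ne.symm hi)
  · intro h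
    exact absurd (mem_range.2 hj) h

theorem dcoc_eval (n : ℕ) (a : ℕ → K) (x : K) :
    (∑ i ∈ range n, Polynomial.monomial i (a i)).eval x = ∑ i ∈ range n, a i * x ^ i := by
  rw [Polynomial.eval_finsetSum]
  exact sum_congr rfl fun i _ => Polynomial.eval_monomial

theorem dcoc_unique [Infinite K] (n : ℕ) (a b : ℕ → K)
    (h : ∀ x : K, ∑ i ∈ range n, a i * x ^ i = ∑ i ∈ range n, b i * x ^ i) {j : ℕ} (hj : j < n) :
    a j = b j := by
  rw [← dcoc_coeff n a hj, ← dcoc_coeff n b hj]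
  congr 1
  exact Polynomial.funext fun x => by rw [dcoc_eval, dcoc_eval, h]

theorem dcoc_sym [Infinite K] {d : ℕ} {c : ℕ → K} {D : K → K → K}
    (hD : ∀ x y, D x y = ∑ j ∈ range (d + 1), c j * x ^ j * y ^ (d - j))
    (hsym : ∀ x y, D x y = D y x) {j : ℕ} (hj : j ≤ d) : c j = c (d - j) := by
  refine dcoc_unique (d + 1) c (fun j => c (d - j)) (fun x => ?_) (Nat.lt_succ_of_le hj)
  have h := hsym x 1
  rw [hD, hD, ← sum_range_reflect (fun j => c j * 1 ^ j * x ^ (d - j))] at h
  simp only [one_pow, mul_one] at h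
  rw [h]
  refine sum_congr rfl fun i hi => ?_
  rw [mem_range] at hi
  rw [Nat.add_sub_cancel, Nat.sub_sub_self (Nat.le_of_lt_succ hi)]

theorem dcoc_top {d : ℕ} (hd : 1 ≤ d) {c : ℕ → K} {D : K → K → K}
    (hD : ∀ x y, D x y = ∑ j ∈ range (d + 1), c j * x ^ j * y ^ (d - j))
    (hcoc : ∀ x y z, D x y + D (x + y) z = D y z + D x (y + z)) : c d = 0 := by
  have h0 : ∀ x, D x 0 = c d * x ^ d := fun x => by
    rw [hD, sum_range_succ, Nat.sub_self, pow_zero, mul_one, sum_eq_zero, zero_add]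
    intro i hi
    rw [zero_pow (Nat.sub_ne_zero_of_lt (mem_range.1 hi)), mul_zero]
  have h := hcoc 1 0 0
  rw [add_zero, add_zero, h0, h0, one_pow, zero_pow (by omega)] at h
  linear_combination h

theorem dcoc_der [Infinite K] {d : ℕ} {c : ℕ → K} {D : K → K → K}
    (hD : ∀ x y, D x y = ∑ j ∈ range (d + 1), c j * x ^ j * y ^ (d - j))
    (hcoc : ∀ x y z, D x y + D (x + y) z = D y z + D x (y + z)) {j : ℕ} (hj : j + 1 < d) :
    c (j + 1) * (j + 1) = c 1 * ((d - 1).choose j : ℕ) := by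
  set f := ∑ i ∈ range (d + 1), Polynomial.monomial i (c i) with hf
  have h1 : ∀ x, D x 1 = f.eval x := fun x => by
    rw [hD, hf, dcoc_eval]
    simp only [one_pow, mul_one]
  have h2 : ∀ x y, D x y =
      (∑ i ∈ range (d + 1), Polynomial.monomial i (c i * y ^ (d - i))).eval x := fun x y => by
    rw [hD, dcoc_eval]
    exact sum_congr rfl fun i _ => by ring
  have h3 : ∀ y, c 1 * y ^ (d - 1) + f.derivative.eval y = c 1 * (y + 1) ^ (d - 1) := by
    intro y
    have e : (∑ i ∈ range (d + 1), Polynomial.monomial i (c i * y ^ (d - i))) +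
        Polynomial.taylor y f = Polynomial.C (D y 1) +
        ∑ i ∈ range (d + 1), Polynomial.monomial i (c i * (y + 1) ^ (d - i)) :=
      Polynomial.funext fun x => by
        rw [Polynomial.eval_add, Polynomial.eval_add, Polynomial.eval_C, Polynomial.taylor_eval,
          ← h1, ← h2, ← h2, hcoc]
    have e1 := congrArg (fun q => Polynomial.coeff q 1) e
    simp only [Polynomial.coeff_add] at e1
    rwa [dcoc_coeff _ _ (by omega), dcoc_coeff _ _ (by omega), Polynomial.taylor_coeff_one,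
      Polynomial.coeff_C_of_ne_zero one_ne_zero, zero_add] at e1
  have h4 : Polynomial.C (c 1) * Polynomial.X ^ (d - 1) + f.derivative =
      Polynomial.C (c 1) * (Polynomial.X + 1) ^ (d - 1) :=
    Polynomial.funext fun y => by simpa using h3 y
  have h5 := congrArg (fun q => Polynomial.coeff q j) h4
  simp only [Polynomial.coeff_add, Polynomial.coeff_C_mul] at h5
  rwa [Polynomial.coeff_X_pow, if_neg (by omega), mul_zero, zero_add, Polynomial.coeff_derivative,
    hf, dcoc_coeff _ _ (by omega), Polynomial.coeff_X_add_one_pow] at h5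

theorem dcoc_of_coef {d : ℕ} (hd : 1 ≤ d) {c : ℕ → K} {lam : K} (h0 : c 0 = 0) (h1 : c d = 0)
    (h : ∀ j, 0 < j → j < d → c j = lam * (d.choose j : ℕ)) (x y : K) :
    ∑ j ∈ range (d + 1), c j * x ^ j * y ^ (d - j) = lam * ((x + y) ^ d - x ^ d - y ^ d) := by
  obtain ⟨e, rfl⟩ := Nat.exists_eq_add_of_le' hd
  rw [add_pow, sum_range_succ, sum_range_succ', sum_range_succ, sum_range_succ', h0, h1]
  simp only [zero_mul, add_zero, pow_zero, Nat.sub_zero, Nat.choose_zero_right, Nat.cast_one,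
    mul_one, one_mul, Nat.sub_self, Nat.choose_self]
  rw [add_sub_cancel_right, add_sub_cancel_right, mul_sum]
  refine sum_congr rfl fun i hi => ?_
  rw [h (i + 1) (by omega) (by have := mem_range.1 hi; omega)]
  ring

theorem dcoc_choose (d j : ℕ) (hd : 1 ≤ d) :
    (d : K) * ((d - 1).choose j : ℕ) = (d.choose (j + 1) : ℕ) * (j + 1) := by
  obtain ⟨e, rfl⟩ := Nat.exists_eq_add_of_le' hd
  exact_mod_cast congrArg (Nat.cast : ℕ → K) (Nat.add_one_mul_choose_eq e j)

theorem dcoc_neg {p : ℕ} [CharP K p] {d : ℕ} (hd : 1 ≤ d) (hpd : p ∣ d) :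
    ∀ j, j < p → (((d - 1).choose j : ℕ) : K) = (-1) ^ j := by
  intro j
  induction j with
  | zero => simp
  | succ j ih =>
    intro hj
    have h1 := dcoc_choose (K := K) d j hd
    have h2 : ((j + 1 : ℕ) : K) ≠ 0 := by
      rw [Ne, CharP.cast_eq_zero_iff K p]
      exact Nat.not_dvd_of_pos_of_lt (by omega) hj
    rw [(CharP.cast_eq_zero_iff K p d).2 hpd, zero_mul, eq_comm, mul_eq_zero] at h1
    have h3 : ((d.choose (j + 1) : ℕ) : K) = 0 := h1.resolve_right (by exact_mod_cast h2)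
    obtain ⟨e, rfl⟩ := Nat.exists_eq_add_of_le' hd
    rw [Nat.choose_succ_succ, Nat.cast_add] at h3
    rw [Nat.add_sub_cancel] at ih ⊢
    rw [ih (by omega)] at h3
    rw [pow_succ]
    linear_combination h3

theorem dcoc_sum_pow {p : ℕ} [Fact p.Prime] [CharP K p] {j : ℕ} (hj : j < p - 1) :
    ∑ i ∈ range p, (i : K) ^ j = 0 := by
  have h := FiniteField.sum_pow_lt_card_sub_one (ZMod p) j (by rwa [ZMod.card])
  have h1 := congrArg (ZMod.castHom (dvd_refl p) K) h
  rw [map_sum, map_zero] at h1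
  rw [← h1]
  refine sum_nbij' (fun i => (i : ZMod p)) ZMod.val (fun _ _ => mem_univ _)
    (fun x _ => mem_range.2 (ZMod.val_lt x)) (fun i hi => ZMod.val_cast_of_lt (mem_range.1 hi))
    (fun x _ => ZMod.natCast_zmod_val x) fun i _ => ?_
  rw [map_pow, map_natCast]

theorem dcoc_sum_top {p : ℕ} [Fact p.Prime] [CharP K p] :
    ∑ i ∈ range p, (i : K) ^ (p - 1) = -1 := by
  obtain ⟨q, rfl⟩ := Nat.exists_eq_add_of_le' (Fact.out : p.Prime).pos
  have hq : q ≠ 0 := by have := (Fact.out : (q + 1).Prime).two_le; omega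
  rw [sum_range_succ', Nat.add_sub_cancel, Nat.cast_zero, zero_pow hq, add_zero,
    sum_congr rfl (g := fun _ => (1 : K)), sum_const, card_range, nsmul_eq_mul, mul_one]
  · have := CharP.cast_eq_zero K (q + 1)
    rw [Nat.cast_add, Nat.cast_one] at this
    linear_combination this
  · intro i hi
    have h2 : ((i + 1 : ℕ) : K) ≠ 0 := by
      rw [Ne, CharP.cast_eq_zero_iff K (q + 1)]
      exact Nat.not_dvd_of_pos_of_lt (by omega) (by have := mem_range.1 hi; omega)
    have h3 := map_natCast (frobenius K (q + 1)) (i + 1)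
    rw [frobenius_def, pow_succ] at h3
    exact mul_right_cancel₀ h2 (h3.trans (one_mul _).symm)

theorem dcoc_sum_mul {p : ℕ} (hp : 0 < p) (e : ℕ) (g : ℕ → K)
    (hg : ∀ j, j ≤ p * e → ¬ p ∣ j → g j = 0) :
    ∑ j ∈ range (p * e + 1), g j = ∑ i ∈ range (e + 1), g (p * i) := by
  symm
  refine sum_of_injOn (fun i => p * i) (fun a _ b _ h => Nat.eq_of_mul_eq_mul_left hp h)
    (fun i hi => ?_) (fun j hj hj' => ?_) fun _ _ => rfl
  · rw [mem_coe, mem_range, Nat.lt_succ_iff] at hi ⊢
    exact Nat.mul_le_mul_left p hi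
  · rw [mem_range, Nat.lt_succ_iff] at hj
    refine hg j hj ?_
    rintro ⟨i, rfl⟩
    exact hj' ⟨i, mem_coe.2 (mem_range.2 (Nat.lt_succ_of_le (Nat.le_of_mul_le_mul_left hj hp))), rfl⟩

end aux

theorem cocycle {K : Type*} [Field K] [IsAlgClosed K] {p : ℕ} [Fact p.Prime] [CharP K p]
    (d : ℕ) (hd : 1 ≤ d) (c : ℕ → K) (D : K → K → K)
    (hD : ∀ x y, D x y = ∑ j ∈ range (d + 1), c j * x ^ j * y ^ (d - j))
    (hsym : ∀ x y, D x y = D y x)
    (hcoc : ∀ x y z, D x y + D (x + y) z = D y z + D x (y + z))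
    (hp : ∑ i ∈ range p, D i 1 = 0) :
    ∃ lam : K, (∀ x y, D x y = lam * ((x + y) ^ d - x ^ d - y ^ d)) ∧
      (lam = 0 ∨ ∃ j u : ℕ, j ≤ d ∧ ¬ p ∣ u ∧ lam * u = c j) := by
  induction d using Nat.strong_induction_on generalizing c D with
  | _ d ih =>
  have hpp : p.Prime := Fact.out
  have hcd : c d = 0 := dcoc_top hd hD hcoc
  have hc0 : c 0 = 0 := (dcoc_sym hD hsym (Nat.zero_le d)).trans hcd
  by_cases hpd : p ∣ d
  · by_cases hc1 : c 1 = 0
    · obtain ⟨e, rfl⟩ := hpd
      have he : 1 ≤ e := Nat.pos_of_mul_pos_left hd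
      have hz : ∀ j, j ≤ p * e → ¬ p ∣ j → c j = 0 := by
        intro j hj hpj
        obtain ⟨i, rfl⟩ := Nat.exists_eq_add_of_le' (Nat.pos_of_ne_zero (by
          rintro rfl
          exact hpj (dvd_zero p)) : 1 ≤ j)
        have h1 := dcoc_der hD hcoc (j := i) (lt_of_le_of_ne hj fun h => hpj ⟨e, h⟩)
        rw [hc1, zero_mul, mul_eq_zero] at h1
        refine h1.resolve_right fun h2 => hpj ((CharP.cast_eq_zero_iff K p _).1 ?_)
        exact_mod_cast h2
      let D' : K → K → K := fun x y => ∑ j ∈ range (e + 1), c (p * j) * x ^ j * y ^ (e - j)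
      have hDD : ∀ x y, D x y = D' (x ^ p) (y ^ p) := fun x y => by
        rw [hD, dcoc_sum_mul hpp.pos e _ fun j hj hpj => by rw [hz j hj hpj, zero_mul, zero_mul]]
        refine sum_congr rfl fun i _ => ?_
        rw [← Nat.mul_sub, pow_mul, pow_mul]
      have hsurj : ∀ x : K, ∃ y, y ^ p = x := fun x => IsAlgClosed.exists_pow_nat_eq x hpp.pos
      obtain ⟨lam, h1, h2⟩ := ih e (by nlinarith [hpp.two_le]) he (fun j => c (p * j)) D'
        (fun _ _ => rfl) (fun x y => by
          obtain ⟨x, rfl⟩ := hsurj x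
          obtain ⟨y, rfl⟩ := hsurj y
          rw [← hDD, ← hDD, hsym]) (fun x y z => by
          obtain ⟨x, rfl⟩ := hsurj x
          obtain ⟨y, rfl⟩ := hsurj y
          obtain ⟨z, rfl⟩ := hsurj z
          rw [← add_pow_char, ← add_pow_char, ← hDD, ← hDD, ← hDD, ← hDD, hcoc]) (by
          rw [← hp]
          refine sum_congr rfl fun i _ => ?_
          have h3 := map_natCast (frobenius K p) i
          rw [frobenius_def] at h3
          rw [hDD, h3, one_pow])
      refine ⟨lam, fun x y => ?_, h2.imp id fun ⟨j, u, hj, hu, h3⟩ =>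
        ⟨p * j, u, Nat.mul_le_mul_left p hj, hu, h3⟩⟩
      rw [hDD, h1, ← add_pow_char, pow_mul, pow_mul, pow_mul]
    · exfalso
      have hdp : d = p := by
        refine le_antisymm (not_lt.1 fun hlt => hc1 ?_) (Nat.le_of_dvd hd hpd)
        have h1 := dcoc_der hD hcoc (j := p - 1) (by have := hpp.pos; omega)
        have h2 : ((p - 1 : ℕ) : K) + 1 = 0 := by
          have h3 := CharP.cast_eq_zero K p
          rw [← Nat.sub_add_cancel hpp.pos] at h3
          exact_mod_cast h3
        rw [h2, mul_zero, dcoc_neg hd hpd _ (by have := hpp.pos; omega), eq_comm,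
          mul_eq_zero] at h1
        exact h1.resolve_right (pow_ne_zero _ (neg_ne_zero.2 one_ne_zero))
      subst hdp
      apply hc1
      simp only [hD, one_pow, mul_one] at hp
      rw [sum_comm, sum_range_succ, ← mul_sum, hcd, zero_mul, add_zero,
        sum_eq_single (d - 1), ← mul_sum, dcoc_sum_top, ← dcoc_sym hD hsym hd] at hp
      · linear_combination -hp
      · intro j hj hj'
        rw [← mul_sum, dcoc_sum_pow (by have := mem_range.1 hj; omega), mul_zero]
      · intro h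
        exact absurd (mem_range.2 (by omega)) h
  · have hd0 : (d : K) ≠ 0 := fun h => hpd ((CharP.cast_eq_zero_iff K p d).1 h)
    have h1 : ∀ j, j < d → ¬ p ∣ j → c j = c 1 / d * (d.choose j : ℕ) := by
      intro j hj hpj
      obtain ⟨i, rfl⟩ := Nat.exists_eq_add_of_le' (Nat.pos_of_ne_zero (by
        rintro rfl
        exact hpj (dvd_zero p)) : 1 ≤ j)
      have h2 : (i : K) + 1 ≠ 0 := fun h => hpj ((CharP.cast_eq_zero_iff K p _).1 (by
        exact_mod_cast h))
      refine mul_right_cancel₀ h2 ?_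
      rw [dcoc_der hD hcoc hj, mul_assoc, ← dcoc_choose d i hd, ← mul_assoc,
        div_mul_cancel₀ _ hd0]
    refine ⟨c 1 / d, fun x y => ?_, Or.inr ⟨1, d, hd, hpd, div_mul_cancel₀ _ hd0⟩⟩
    rw [hD]
    refine dcoc_of_coef hd hc0 hcd (fun j hj0 hj => ?_) x y
    by_cases hpj : p ∣ j
    · rw [dcoc_sym hD hsym hj.le, h1 (d - j) (by omega), Nat.choose_symm hj.le]
      intro h
      exact hpd (by simpa [Nat.sub_add_cancel hj.le] using Nat.dvd_add h hpj)
    · exact h1 j hj hpj

end Vale.Agent.P217.D
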