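import Vale.Agent.P217.DPt
import Vale.Agent.P217.DCoc

/-!
# P217: comparison of formal group laws degree by degree
-/

set_option linter.unusedSectionVars false

noncomputable section

namespace Vale.Agent.P217.D

variable {C : Type} [NontriviallyNormedField C] [IsUltrametricDist C] [CompleteSpace C]
  [IsAlgClosed C] {p : ℕ} [Fact p.Prime] [CharP C p]

open PowerSeries

lemma dcmp_pow {r : ℝ} (hr : 0 ≤ r) {x x' : O C} (hx : ‖x‖ ≤ r) (hx' : ‖x'‖ ≤ r)
    (h : ‖x - x'‖ ≤ r ^ 2) (j : ℕ) : ‖x ^ j - x' ^ j‖ ≤ r ^ (j + 1) := by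
  induction j with
  | zero => simpa using hr
  | succ j ih =>
    rw [show x ^ (j + 1) - x' ^ (j + 1) = x * (x ^ j - x' ^ j) + (x - x') * x' ^ j by ring]
    refine (IsUltrametricDist.norm_add_le_max _ _).trans (max_le ?_ ?_)
    · rw [norm_mul, pow_succ' r]
      exact mul_le_mul hx ih (norm_nonneg _) hr
    · rw [norm_mul, norm_pow, show j + 1 + 1 = 2 + j by ring, pow_add]
      exact mul_le_mul h (pow_le_pow_left₀ (norm_nonneg _) hx' j) (by positivity) (by positivity)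

/-- A binary form of degree `d`. -/
def dcmpD {R : Type*} [CommRing R] (d : ℕ) (c : ℕ → R) (x y : R) : R :=
  ∑ j ∈ Finset.range (d + 1), c j * x ^ j * y ^ (d - j)

lemma dcmpD_coe (d : ℕ) (c : ℕ → O C) (x y : O C) :
    ((dcmpD d c x y : O C) : C) = dcmpD d (fun j => (c j : C)) x y := by
  simp [dcmpD]

lemma dcmpD_hom {R : Type*} [CommRing R] (d : ℕ) (c : ℕ → R) (t x y : R) :
    dcmpD d c (t * x) (t * y) = t ^ d * dcmpD d c x y := by
  rw [dcmpD, dcmpD, Finset.mul_sum]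
  refine Finset.sum_congr rfl fun j hj => ?_
  obtain ⟨k, rfl⟩ := Nat.exists_eq_add_of_le (Nat.lt_succ_iff.1 (Finset.mem_range.1 hj))
  rw [Nat.add_sub_cancel_left]
  ring

lemma dcmpD_sub {r : ℝ} (hr : 0 ≤ r) (d : ℕ) (c : ℕ → O C) {x x' y y' : O C} (hx : ‖x‖ ≤ r)
    (hx' : ‖x'‖ ≤ r) (hy : ‖y‖ ≤ r) (hy' : ‖y'‖ ≤ r) (h : ‖x - x'‖ ≤ r ^ 2)
    (h' : ‖y - y'‖ ≤ r ^ 2) : ‖dcmpD d c x y - dcmpD d c x' y'‖ ≤ r ^ (d + 1) := by
  rw [dcmpD, dcmpD, ← Finset.sum_sub_distrib]
  refine (ballIdeal C (r ^ (d + 1)) (by positivity)).sum_mem fun j hj => ?_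
  obtain ⟨k, rfl⟩ := Nat.exists_eq_add_of_le (Nat.lt_succ_iff.1 (Finset.mem_range.1 hj))
  rw [Nat.add_sub_cancel_left, show c j * x ^ j * y ^ k - c j * x' ^ j * y' ^ k =
    c j * ((x ^ j - x' ^ j) * y ^ k + x' ^ j * (y ^ k - y' ^ k)) by ring]
  refine Ideal.mul_mem_left _ _ (add_mem (mem_ballIdeal.2 ?_) (mem_ballIdeal.2 ?_))
  · rw [norm_mul, norm_pow, show j + k + 1 = j + 1 + k by ring, pow_add]
    exact mul_le_mul (dcmp_pow hr hx hx' h j) (pow_le_pow_left₀ (norm_nonneg _) hy k)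
      (by positivity) (by positivity)
  · rw [norm_mul, norm_pow, add_assoc, pow_add]
    exact mul_le_mul (pow_le_pow_left₀ (norm_nonneg _) hx' j) (dcmp_pow hr hy hy' h' k)
      (by positivity) (by positivity)

lemma dcmp_zero (d : ℕ) (P : C → C → C → C)
    (hom : ∀ t x y z, P (t * x) (t * y) (t * z) = t ^ d * P x y z)
    (h : ∀ (r : ℝ) (a b c : M C), ‖(a : O C)‖ ≤ r → ‖(b : O C)‖ ≤ r → ‖(c : O C)‖ ≤ r →
      ‖P (a : O C) (b : O C) (c : O C)‖ ≤ r ^ (d + 1)) (x y z : C) : P x y z = 0 := by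
  by_contra hw
  have hw' := norm_pos_iff.2 hw
  obtain ⟨K, hK, hx, hy, hz⟩ : ∃ K : ℝ, 0 < K ∧ ‖x‖ ≤ K ∧ ‖y‖ ≤ K ∧ ‖z‖ ≤ K := by
    have := norm_nonneg x
    have := norm_nonneg y
    have := norm_nonneg z
    exact ⟨‖x‖ + ‖y‖ + ‖z‖ + 1, by positivity, by linarith, by linarith, by linarith⟩
  obtain ⟨t, ht0, ht⟩ := NormedField.exists_norm_lt C
    (r := min (1 / K) (‖P x y z‖ / K ^ (d + 1))) (by positivity)
  have h1 : ‖t‖ * K < 1 := (lt_div_iff₀ hK).1 (ht.trans_le (min_le_left _ _))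
  have h2 : ‖t‖ * K ^ (d + 1) < ‖P x y z‖ :=
    (lt_div_iff₀ (by positivity)).1 (ht.trans_le (min_le_right _ _))
  have h3 : ∀ w : C, ‖w‖ ≤ K → ‖t * w‖ ≤ ‖t‖ * K := fun w hw => by
    rw [norm_mul]
    exact mul_le_mul_of_nonneg_left hw ht0.le
  have h4 := h (‖t‖ * K) ⟨⟨t * x, ((h3 x hx).trans h1.le :)⟩, ((h3 x hx).trans_lt h1 :)⟩
    ⟨⟨t * y, ((h3 y hy).trans h1.le :)⟩, ((h3 y hy).trans_lt h1 :)⟩
    ⟨⟨t * z, ((h3 z hz).trans h1.le :)⟩, ((h3 z hz).trans_lt h1 :)⟩ (h3 x hx) (h3 y hy) (h3 z hz)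
  change ‖P (t * x) (t * y) (t * z)‖ ≤ _ at h4
  rw [hom, norm_mul, norm_pow, mul_pow, pow_succ ‖t‖, mul_assoc] at h4
  exact absurd (le_of_mul_le_mul_left h4 (by positivity)) (not_le.2 h2)

lemma dcmp_lead (H : MvPowerSeries (Fin 2) (O C)) {d : ℕ}
    (hH : ∀ m : Fin 2 →₀ ℕ, m.degree < d → MvPowerSeries.coeff m H = 0) (a b : M C) {r : ℝ}
    (hr : r ≤ 1) (ha : ‖a‖ ≤ r) (hb : ‖b‖ ≤ r) :
    ‖ev ![a, b] H - dcmpD d (fun j => MvPowerSeries.coeff
      (Finsupp.single 0 j + Finsupp.single 1 (d - j)) H) a b‖ ≤ r ^ (d + 1) := by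
  have h1 := norm_ev_le_pow ![a, b] (H - ∑ j ∈ Finset.range (d + 1),
      MvPowerSeries.monomial (Finsupp.single 0 j + Finsupp.single 1 (d - j))
        (MvPowerSeries.coeff (Finsupp.single 0 j + Finsupp.single 1 (d - j)) H))
    ((norm_nonneg _).trans ha) hr (fun s => by fin_cases s <;> assumption) (j := d + 1)
    fun m hm => by
      have hdeg : m.degree = m 0 + m 1 := by rw [Finsupp.degree_eq_sum, Fin.sum_univ_two]
      rw [map_sub, map_sum, sub_eq_zero]
      by_cases hm' : m.degree < d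
      · rw [hH m hm']
        refine (Finset.sum_eq_zero fun j hj => ?_).symm
        rw [MvPowerSeries.coeff_monomial, if_neg]
        rintro rfl
        have := Finset.mem_range.1 hj
        rw [map_add, Finsupp.degree_single, Finsupp.degree_single] at hm'
        omega
      · have e : Finsupp.single 0 (m 0) + Finsupp.single 1 (d - m 0) = m := by
          ext s
          fin_cases s
          · simp
          · simp
            omega
        rw [Finset.sum_eq_single (m 0), e, MvPowerSeries.coeff_monomial_same]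
        · intro j _ hj
          rw [MvPowerSeries.coeff_monomial, if_neg]
          rintro rfl
          simp at hj
        · intro h0
          exact absurd (Finset.mem_range.2 (by omega)) h0
  rw [map_sub, map_sum] at h1
  refine le_of_eq_of_le ?_ h1
  refine congrArg (fun w : O C => ‖ev ![a, b] H - w‖) (Finset.sum_congr rfl fun j _ => ?_)
  rw [ev_monomial, Finsupp.prod_add_index' (by simp) (by simp [pow_add]),
    Finsupp.prod_single_index (by simp), Finsupp.prod_single_index (by simp), mul_assoc]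
  rfl

variable {G G' : FormalGroup (O C)} [G.IsComm] [G'.IsComm]

lemma dcmp_pert {r : ℝ} {d : ℕ} (w u u' : Pt G) (hw : ‖w.v‖ ≤ r) (hu : ‖u.v - u'.v‖ ≤ r ^ d) :
    ‖(w + u).v - (w + u').v - (u.v - u'.v)‖ ≤ r ^ (d + 1) := by
  rw [show (w + u).v - (w + u').v - (u.v - u'.v) =
    ((w + u).v - u.v) - ((w + u').v - u'.v) by ring, pow_succ']
  exact (Pt.norm_add_sub_lip w u u').trans
    (mul_le_mul hw hu (norm_nonneg _) ((norm_nonneg _).trans hw))

lemma dcmp_sq {r : ℝ} (a b : Pt G) (ha : ‖a.v‖ ≤ r) (hb : ‖b.v‖ ≤ r) :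
    ‖(a + b).v - (a.v + b.v)‖ ≤ r ^ 2 := by
  rw [← sub_sub, sq]
  exact (Pt.norm_add_sub a b).trans
    (mul_le_mul ha hb (norm_nonneg _) ((norm_nonneg _).trans ha))

/-- Lazard comparison for a map that is a homomorphism up to degree `d`. -/
theorem cmp {E : Pt G → Pt G'} {e : PowerSeries (O C)} (hE : Rep E e) (h0 : E 0 = 0) {d : ℕ}
    (hd : 2 ≤ d)
    (hc : ∀ a b, ‖(E (a + b)).v - (E a + E b).v‖ ≤ max ‖a.v‖ ‖b.v‖ ^ d)
    (hp : ∀ a, ‖(E (p • a)).v - (p • E a).v‖ ≤ ‖a.v‖ ^ (d + 1)) :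
    ∃ lam : O C, ∀ a b, ‖(E (a + b)).v - (E a + E b).v -
      lam * ((a.v + b.v) ^ d - a.v ^ d - b.v ^ d)‖ ≤ max ‖a.v‖ ‖b.v‖ ^ (d + 1) := by
  have hA : An fun x : Fin 2 → M C => (E (⟨x 0⟩ + ⟨x 1⟩)).v - (E ⟨x 0⟩ + E ⟨x 1⟩).v :=
    (hE.an (an_add (a := fun x => ⟨x 0⟩) (b := fun x => ⟨x 1⟩) (An.coord 0) (An.coord 1))).sub
      (an_add (hE.an (a := fun x => ⟨x 0⟩) (An.coord 0))
        (hE.an (a := fun x => ⟨x 1⟩) (An.coord 1)))
  obtain ⟨H, hH⟩ := hA
  have hord := ord_of_growth H (j := d) (K := 1) one_pos fun x _ => by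
    rw [← hH, one_mul]
    exact (hc _ _).trans (pow_le_pow_left₀ (by positivity)
      (max_le (norm_le_pi_norm x 0) (norm_le_pi_norm x 1)) d)
  obtain ⟨c, hD⟩ : ∃ c : ℕ → O C, ∀ (a b : Pt G) (r : ℝ), ‖a.v‖ ≤ r → ‖b.v‖ ≤ r →
      ‖(E (a + b)).v - (E a + E b).v - dcmpD d c a.v b.v‖ ≤ r ^ (d + 1) := by
    refine ⟨_, fun a b r ha hb => ((congrArg (fun w => ‖w - _‖) (hH ![a.val, b.val])).trans_le
      (dcmp_lead H hord a.val b.val (max_le a.norm_lt_one.le b.norm_lt_one.le)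
        (le_max_left _ _) (le_max_right _ _))).trans ?_⟩
    exact pow_le_pow_left₀ (by positivity) (max_le ha hb) _
  have hc' : ∀ (a b : Pt G) (r : ℝ), ‖a.v‖ ≤ r → ‖b.v‖ ≤ r →
      ‖(E (a + b)).v - (E a + E b).v‖ ≤ r ^ d := fun a b r ha hb =>
    (hc a b).trans (pow_le_pow_left₀ (by positivity) (max_le ha hb) _)
  have hsym := dcmp_zero d (fun x y _ => dcmpD d (fun j => (c j : C)) x y -
    dcmpD d (fun j => (c j : C)) y x) (fun t x y _ => by simp only [dcmpD_hom]; ring)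
    fun r a b _ ha hb _ => by
      have hr := (norm_nonneg _).trans ha
      have h1 := (ballIdeal C (r ^ (d + 1)) (by positivity)).sub_mem
        (hD ⟨b⟩ ⟨a⟩ r hb ha) (hD ⟨a⟩ ⟨b⟩ r ha hb)
      rw [add_comm (⟨b⟩ : Pt G), add_comm (E ⟨b⟩), sub_sub_sub_cancel_left] at h1
      rw [← dcmpD_coe, ← dcmpD_coe]
      exact h1
  have hcoc := dcmp_zero d (fun x y z => dcmpD d (fun j => (c j : C)) x y +
    dcmpD d (fun j => (c j : C)) (x + y) z - (dcmpD d (fun j => (c j : C)) y z +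
      dcmpD d (fun j => (c j : C)) x (y + z)))
    (fun t x y z => by simp only [← mul_add, dcmpD_hom]; ring)
    fun r a' b' c' ha hb hc => by
      obtain ⟨a, rfl⟩ : ∃ a : Pt G, a.val = a' := ⟨⟨a'⟩, rfl⟩
      obtain ⟨b, rfl⟩ : ∃ b : Pt G, b.val = b' := ⟨⟨b'⟩, rfl⟩
      obtain ⟨z, rfl⟩ : ∃ z : Pt G, z.val = c' := ⟨⟨c'⟩, rfl⟩
      have hr := (norm_nonneg _).trans ha
      have hab := (Pt.norm_add_le a b).trans (max_le ha hb)
      have hbz := (Pt.norm_add_le b z).trans (max_le hb hc)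
      have hu := fun x y : O C => IsUltrametricDist.norm_add_le_max x y
      have h00 : ∀ x : O C, ‖x - x‖ ≤ r ^ 2 := fun x => by
        rw [sub_self, norm_zero]
        positivity
      let I := ballIdeal C (r ^ (d + 1)) (by positivity)
      have k1 : _ ∈ I := hD a b r ha hb
      have k2 : _ ∈ I := hD (a + b) z r hab hc
      have k3 : _ ∈ I := hD b z r hb hc
      have k4 : _ ∈ I := hD a (b + z) r ha hbz
      have k5 : _ ∈ I := dcmp_pert (E z) (E (a + b)) (E a + E b) ((hE.norm_le h0 z).trans hc)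
        (hc' a b r ha hb)
      have k6 : _ ∈ I := dcmp_pert (E a) (E (b + z)) (E b + E z) ((hE.norm_le h0 a).trans ha)
        (hc' b z r hb hc)
      have k7 : _ ∈ I := dcmpD_sub hr d c hab ((hu _ _).trans (max_le ha hb)) hc hc
        (dcmp_sq a b ha hb) (h00 _)
      have k8 : _ ∈ I := dcmpD_sub hr d c ha ha hbz ((hu _ _).trans (max_le hb hc)) (h00 _)
        (dcmp_sq b z hb hc)
      rw [add_comm (E z), add_comm (E z), add_assoc (E a)] at k5
      rw [add_assoc a] at k2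
      have k9 := I.sub_mem (I.add_mem (I.add_mem (I.add_mem k3 k4) k6) k8)
        (I.add_mem (I.add_mem (I.add_mem k1 k2) k5) k7)
      have e : dcmpD d c a.v b.v + dcmpD d c (a.v + b.v) z.v -
          (dcmpD d c b.v z.v + dcmpD d c a.v (b.v + z.v)) ∈ I := by
        refine (congrArg (· ∈ I) ?_).mp k9
        ring
      rw [← Subring.coe_add, ← Subring.coe_add, ← dcmpD_coe, ← dcmpD_coe, ← dcmpD_coe,
        ← dcmpD_coe]
      exact e
  have hsum := dcmp_zero d (fun x _ _ => ∑ i ∈ Finset.range p,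
    dcmpD d (fun j => (c j : C)) (i * x) x)
    (fun t x _ _ => by simp only [mul_left_comm _ t, dcmpD_hom, Finset.mul_sum])
    fun r a' _ _ ha _ _ => by
      obtain ⟨a, rfl⟩ : ∃ a : Pt G, a.val = a' := ⟨⟨a'⟩, rfl⟩
      have hr := (norm_nonneg _).trans ha
      let I := ballIdeal C (r ^ (d + 1)) (by positivity)
      have key : ∀ j : ℕ, ‖(E (j • a)).v - (j • E a).v‖ ≤ r ^ d ∧
          (E (j • a)).v - (j • E a).v - ∑ i ∈ Finset.range j, dcmpD d c (i * a.v) a.v ∈ I := by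
        intro j
        induction j with
        | zero =>
          rw [zero_smul, zero_smul, h0, sub_self, norm_zero, Finset.sum_range_zero, sub_self]
          exact ⟨by positivity, zero_mem _⟩
        | succ j ih =>
          have hj := (Pt.norm_nsmul_le j a).trans ha
          have k1 : _ ∈ I := hD (j • a) a r hj ha
          have k2 : _ ∈ I := dcmp_pert (E a) (E (j • a)) (j • E a) ((hE.norm_le h0 a).trans ha) ih.1
          have k3 : _ ∈ I := dcmpD_sub hr d c hj (x' := j * a.v)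
            (by rw [norm_mul]; exact (mul_le_of_le_one_left (norm_nonneg _)
              (O.norm_le_one _)).trans ha) ha ha
            ((Pt.norm_nsmul_sub j a).trans (pow_le_pow_left₀ (norm_nonneg _) ha 2))
            (by rw [sub_self, norm_zero]; positivity)
          have k4 := hc' (j • a) a r hj ha
          have k5 := (Pt.norm_add_left_sub (E a) (E (j • a)) (j • E a)).trans_le ih.1
          rw [add_comm (E a), add_comm (E a)] at k2 k5
          rw [succ_nsmul, succ_nsmul, Finset.sum_range_succ]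
          refine ⟨?_, (congrArg (· ∈ I) ?_).mp (I.add_mem (I.add_mem (I.add_mem k1 k2) k3) ih.2)⟩
          · rw [← sub_add_sub_cancel _ (E (j • a) + E a).v]
            exact (IsUltrametricDist.norm_add_le_max _ _).trans (max_le k4 k5)
          · ring
      have k6 : _ ∈ I := (hp a).trans (pow_le_pow_left₀ (norm_nonneg _) ha _)
      have k7 := I.sub_mem k6 (key p).2
      rw [sub_sub_cancel] at k7
      refine le_of_eq_of_le (congrArg norm ?_) ((O.norm_coe _).trans_le k7)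
      simp [dcmpD_coe]
  obtain ⟨lam, h1, h2⟩ := cocycle (p := p) d (by omega) (fun j => (c j : C))
    (dcmpD d fun j => (c j : C)) (fun _ _ => rfl) (fun x y => sub_eq_zero.1 (hsym x y 0))
    (fun x y z => sub_eq_zero.1 (hcoc x y z)) (by simpa using hsum 1 0 0)
  have h3 : ‖lam‖ ≤ 1 := by
    rcases h2 with rfl | ⟨j, u, -, hu, h2⟩
    · simp
    · have h4 : ‖(u : C)‖ = 1 := by simpa using (O.norm_coe _).trans (norm_natCast_eq_one (C := C) hu)
      have h5 := congrArg norm h2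
      rw [norm_mul, h4, mul_one] at h5
      exact h5.trans_le (c j).2
  refine ⟨⟨lam, h3⟩, fun a b => le_of_eq_of_le ?_ (hD a b _ (le_max_left _ _) (le_max_right _ _))⟩
  refine congrArg (fun w : O C => ‖(E (a + b)).v - (E a + E b).v - w‖) (Subtype.ext ?_)
  rw [dcmpD_coe, h1]
  simp

/-- A coordinate that is additive up to degree `p ^ h`. -/
theorem exists_beta {h : ℕ} (hh : 1 ≤ h) (hp : mulSeries G p = X ^ p ^ h) :
    ∃ β : PowerSeries (O C), constantCoeff β = 0 ∧ coeff 1 β = 1 ∧ ∀ a b : Pt G,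
      ‖ev1 (a + b).val β - ev1 a.val β - ev1 b.val β‖ ≤ max ‖a.v‖ ‖b.v‖ ^ p ^ h := by
  have hQ : 1 < p ^ h := Nat.one_lt_pow (by omega) (Fact.out : p.Prime).one_lt
  have hGa : ∀ (j : ℕ) (u : Pt (FormalGroup.𝔾ₐ (R := O C))), (j • u).v = j * u.v := fun j u => by
    induction j with
    | zero => simp
    | succ j ih =>
      rw [succ_nsmul, Pt.add_v_Ga, ih]
      push_cast
      ring
  have key : ∀ d, 2 ≤ d → d ≤ p ^ h → ∃ β : PowerSeries (O C), constantCoeff β = 0 ∧
      coeff 1 β = 1 ∧ ∀ a b : Pt G,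
      ‖ev1 (a + b).val β - ev1 a.val β - ev1 b.val β‖ ≤ max ‖a.v‖ ‖b.v‖ ^ d := by
    intro d hd
    induction d, hd using Nat.le_induction with
    | base =>
      refine fun _ => ⟨X, constantCoeff_X, coeff_one_X, fun a b => ?_⟩
      rw [ev1_X, ev1_X, ev1_X, sub_sub]
      exact dcmp_sq a b (le_max_left _ _) (le_max_right _ _)
    | succ d hd ih =>
      intro hdQ
      obtain ⟨β, h0, h1, h2⟩ := ih (by omega)
      obtain ⟨lam, h3⟩ := cmp (p := p) (rep_mapPt (G := G) (G' := FormalGroup.𝔾ₐ) β h0)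
        (Pt.ext_v ((ev1_zero β).trans h0)) hd
        (fun a b => by
          rw [Pt.add_v_Ga, ← sub_sub]
          exact h2 a b)
        (fun a => by
          rw [hGa, CharP.cast_eq_zero, zero_mul, sub_zero]
          refine (norm_ev1_le_self _ h0).trans ?_
          change ‖(p • a).v‖ ≤ _
          rw [Pt.nsmul_v, hp, map_pow, ev1_X, norm_pow]
          exact pow_le_pow_of_le_one (norm_nonneg _) a.norm_lt_one.le hdQ)
      refine ⟨β - PowerSeries.C lam * X ^ d, ?_, ?_, fun a b => ?_⟩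
      · rw [map_sub, map_mul, map_pow, constantCoeff_X, zero_pow (by omega), mul_zero, h0, sub_zero]
      · rw [map_sub, coeff_C_mul, coeff_X_pow, if_neg (by omega), mul_zero, h1, sub_zero]
      · let I := ballIdeal C (max ‖a.v‖ ‖b.v‖ ^ (d + 1)) (by positivity)
        have k1 : _ ∈ I := h3 a b
        have k2 : _ ∈ I := dcmp_pow (by positivity) (Pt.norm_add_le a b)
          (IsUltrametricDist.norm_add_le_max a.v b.v)
          (dcmp_sq a b (le_max_left _ _) (le_max_right _ _)) d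
        refine (congrArg (· ∈ I) ?_).mp (I.sub_mem k1 (I.mul_mem_left lam k2))
        simp only [Pt.add_v_Ga, mapPt_v, map_sub, map_mul, map_pow, ev1_C, ev1_X]
        ring
  exact key _ hQ le_rfl

end Vale.Agent.P217.D
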