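import Vale.Agent.P217.RCong

/-!
# P217: conjugation and descent of formal group laws
-/

noncomputable section

namespace Vale.Agent.P217.D

open PowerSeries

variable {R S : Type*} [CommRing R] [CommRing S]

theorem dc_key (F : FormalGroup R) {g φ : PowerSeries R} (hφ : constantCoeff φ = 0) {τ : Type*}
    {a b : MvPowerSeries τ R} (ha : MvPowerSeries.constantCoeff a = 0)
    (hb : MvPowerSeries.constantCoeff b = 0) :
    MvPowerSeries.subst ![a, b]
      (g.subst (fadd F (φ.subst (MvPowerSeries.X 0 : MvPowerSeries (Fin 2) R))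
        (φ.subst (MvPowerSeries.X 1 : MvPowerSeries (Fin 2) R))))
      = g.subst (fadd F (φ.subst a) (φ.subst b)) := by
  have hs := hs2 ha hb
  have h0 := c0_subst (rc_c0X (R := R) (0 : Fin 2)) hφ
  have h1 := c0_subst (rc_c0X (R := R) (1 : Fin 2)) hφ
  rw [subst_psubst hs (c0_fadd h0 h1), subst_fadd hs h0 h1, subst_psubst hs (rc_c0X _),
    subst_psubst hs (rc_c0X _), MvPowerSeries.subst_X hs, MvPowerSeries.subst_X hs]
  rfl

theorem exists_conj (F : FormalGroup R) (hF : F.IsComm) (g : PowerSeries R)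
    (hg0 : constantCoeff g = 0) (hg1 : IsUnit (coeff 1 g)) :
    ∃ G : FormalGroup R, G.IsComm ∧ IsHom F G g := by
  set φ := g.substInvOfIsUnit hg1 with hφ
  have hφ0 : constantCoeff φ = 0 := constantCoeff_substInvOfIsUnit g hg1
  have hφ1 : coeff 1 g * coeff 1 φ = 1 := by
    rw [hφ, coeff_one_substInvOfIsUnit]
    exact hg1.mul_val_inv
  have hl : ∀ {τ : Type} {x : MvPowerSeries τ R}, MvPowerSeries.constantCoeff x = 0 →
      φ.subst (g.subst x) = x := by
    intro τ x hx
    rw [← psubst_psubst hx hg0, hφ, subst_substInvOfIsUnit_left g hg0 hg1, subst_X (hs1 hx)]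
  have h0 := c0_subst (rc_c0X (R := R) (0 : Fin 2)) hφ0
  have h1 := c0_subst (rc_c0X (R := R) (1 : Fin 2)) hφ0
  let G : FormalGroup R :=
    { toPowerSeries := g.subst (fadd F (φ.subst (MvPowerSeries.X 0 : MvPowerSeries (Fin 2) R))
        (φ.subst (MvPowerSeries.X 1 : MvPowerSeries (Fin 2) R)))
      zero_constantCoeff := c0_subst (c0_fadd h0 h1) hg0
      lin_coeff_X := by
        rw [coeff_single_psubst (c0_fadd h0 h1), coeff_single_fadd F h0 h1,
          coeff_single_psubst (rc_c0X _), coeff_single_psubst (rc_c0X _)]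
        simpa [MvPowerSeries.coeff_index_single_X] using hφ1
      lin_coeff_Y := by
        rw [coeff_single_psubst (c0_fadd h0 h1), coeff_single_fadd F h0 h1,
          coeff_single_psubst (rc_c0X _), coeff_single_psubst (rc_c0X _)]
        simpa [MvPowerSeries.coeff_index_single_X] using hφ1
      assoc := by
        have y0 := c0_subst (rc_c0X (R := R) (0 : Fin 3)) hφ0
        have y1 := c0_subst (rc_c0X (R := R) (1 : Fin 3)) hφ0
        have y2 := c0_subst (rc_c0X (R := R) (2 : Fin 3)) hφ0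
        rw [dc_key F hφ0 (rc_c0X (0 : Fin 3)) (rc_c0X 1),
          dc_key F hφ0 (rc_c0X (1 : Fin 3)) (rc_c0X 2),
          dc_key F hφ0 (c0_subst (c0_fadd y0 y1) hg0) (rc_c0X 2),
          dc_key F hφ0 (rc_c0X 0) (c0_subst (c0_fadd y1 y2) hg0),
          hl (c0_fadd y0 y1), hl (c0_fadd y1 y2), fadd_assoc y0 y1 y2] }
  have hG : ∀ {τ : Type} {a b : MvPowerSeries τ R}, MvPowerSeries.constantCoeff a = 0 →
      MvPowerSeries.constantCoeff b = 0 →
      fadd G a b = g.subst (fadd F (φ.subst a) (φ.subst b)) := fun ha hb => dc_key F hφ0 ha hb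
  refine ⟨G, ⟨?_⟩, hg0, ?_⟩
  · have h := hG (rc_c0X (R := R) (1 : Fin 2)) (rc_c0X 0)
    rw [fadd_comm hF h1 h0] at h
    exact h.symm
  · rw [hG (c0_subst (rc_c0X _) hg0) (c0_subst (rc_c0X _) hg0), hl (rc_c0X _), hl (rc_c0X _),
      fadd_X_X]

theorem eq_of_subst_eq {g : PowerSeries R} (hg0 : constantCoeff g = 0) (hg1 : IsUnit (coeff 1 g))
    {u v : PowerSeries R} (h : u.subst g = v.subst g) : u = v := by
  have hφ0 := constantCoeff_substInvOfIsUnit g hg1
  have h1 := congrArg (fun x : PowerSeries R => x.subst (g.substInvOfIsUnit hg1)) h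
  simp only [psubst_psubst (σ := Unit) hφ0 hg0] at h1
  rwa [subst_substInvOfIsUnit_right g hg0 hg1, X_subst, X_subst] at h1

theorem dc_map_inj {τ : Type*} (φ : R →+* S) (hφ : Function.Injective φ) :
    Function.Injective (MvPowerSeries.map (σ := τ) φ) := fun f g h => by
  ext m
  exact hφ (by rw [← MvPowerSeries.coeff_map, ← MvPowerSeries.coeff_map, h])

theorem dc_map_subst2 {τ : Type*} (φ : R →+* S) (T : MvPowerSeries (Fin 2) R)
    {a b : MvPowerSeries τ R} (ha : MvPowerSeries.constantCoeff a = 0)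
    (hb : MvPowerSeries.constantCoeff b = 0) :
    MvPowerSeries.map φ (T.subst ![a, b])
      = (MvPowerSeries.map φ T).subst ![MvPowerSeries.map φ a, MvPowerSeries.map φ b] := by
  rw [MvPowerSeries.map_subst (hs2 ha hb)]
  congr 1
  funext i; fin_cases i <;> rfl

theorem exists_lift (φ : R →+* S) (hφ : Function.Injective φ) (G : FormalGroup S)
    (hG : ∀ d, MvPowerSeries.coeff d G.toPowerSeries ∈ φ.range) :
    ∃ G' : FormalGroup R, G'.map φ = G := by
  choose c hc using hG
  let T : MvPowerSeries (Fin 2) R := c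
  have hT : MvPowerSeries.map φ T = G.toPowerSeries := by
    ext d
    exact hc d
  have hT0 : MvPowerSeries.constantCoeff T = 0 := by
    apply hφ
    rw [← MvPowerSeries.constantCoeff_map, hT, G.zero_constantCoeff, map_zero]
  have hc2 : ∀ i j : Fin 3, MvPowerSeries.constantCoeff (T.subst
      ![(MvPowerSeries.X i : MvPowerSeries (Fin 3) R), MvPowerSeries.X j]) = 0 := fun i j =>
    MvPowerSeries.constantCoeff_subst_eq_zero (hs2 (rc_c0X _) (rc_c0X _))
      (fun l => by fin_cases l <;> simp) hT0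
  refine ⟨{ toPowerSeries := T
            zero_constantCoeff := hT0
            lin_coeff_X := ?_
            lin_coeff_Y := ?_
            assoc := ?_ }, ?_⟩
  · apply hφ
    rw [← MvPowerSeries.coeff_map, hT, G.lin_coeff_X, map_one]
  · apply hφ
    rw [← MvPowerSeries.coeff_map, hT, G.lin_coeff_Y, map_one]
  · apply dc_map_inj φ hφ
    rw [dc_map_subst2 φ T (hc2 _ _) (rc_c0X _), dc_map_subst2 φ T (rc_c0X _) (hc2 _ _),
      dc_map_subst2 φ T (rc_c0X _) (rc_c0X _), dc_map_subst2 φ T (rc_c0X _) (rc_c0X _), hT]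
    simp only [MvPowerSeries.map_X]
    exact G.assoc
  · ext1
    exact hT

theorem isComm_of_map (φ : R →+* S) (hφ : Function.Injective φ) {G : FormalGroup R}
    (hG : (G.map φ).IsComm) : G.IsComm := by
  constructor
  apply dc_map_inj φ hφ
  rw [dc_map_subst2 φ _ (rc_c0X _) (rc_c0X _), MvPowerSeries.map_X, MvPowerSeries.map_X]
  exact hG.comm

theorem isHom_of_map (φ : R →+* S) (hφ : Function.Injective φ) {F G : FormalGroup R}
    {w : PowerSeries R} (hw : IsHom (F.map φ) (G.map φ) (PowerSeries.map φ w)) : IsHom F G w := by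
  have h0 : constantCoeff w = 0 := by
    apply hφ
    have h := hw.1
    rw [← coeff_zero_eq_constantCoeff_apply, coeff_map, coeff_zero_eq_constantCoeff_apply] at h
    rw [h, map_zero]
  refine ⟨h0, ?_⟩
  apply dc_map_inj φ hφ
  rw [map_psubst φ F.zero_constantCoeff,
    map_fadd φ (c0_subst (rc_c0X _) h0) (c0_subst (rc_c0X _) h0),
    map_psubst φ (rc_c0X _), map_psubst φ (rc_c0X _), MvPowerSeries.map_X, MvPowerSeries.map_X]
  exact hw.2

theorem isHom_fadd {F G : FormalGroup R} (hG : G.IsComm) {a b : PowerSeries R}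
    (ha : IsHom F G a) (hb : IsHom F G b) : IsHom F G (fadd G a b) := by
  refine ⟨c0_fadd (σ := Unit) ha.1 hb.1, ?_⟩
  have a0 := c0_subst (rc_c0X (R := R) (0 : Fin 2)) ha.1
  have a1 := c0_subst (rc_c0X (R := R) (1 : Fin 2)) ha.1
  have b0 := c0_subst (rc_c0X (R := R) (0 : Fin 2)) hb.1
  have b1 := c0_subst (rc_c0X (R := R) (1 : Fin 2)) hb.1
  rw [psubst_fadd F.zero_constantCoeff ha.1 hb.1, psubst_fadd (rc_c0X _) ha.1 hb.1,
    psubst_fadd (rc_c0X _) ha.1 hb.1, ha.2, hb.2, fadd_assoc a0 a1 (c0_fadd b0 b1),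
    fadd_assoc a0 b0 (c0_fadd a1 b1), ← fadd_assoc a1 b0 b1, fadd_comm hG a1 b0,
    fadd_assoc b0 a1 b1]

theorem isHom_zero {F G : FormalGroup R} : IsHom F G 0 := by
  have h : ∀ x : MvPowerSeries (Fin 2) R, MvPowerSeries.constantCoeff x = 0 →
      (0 : PowerSeries R).subst x = 0 := fun x hx => by
    rw [← coe_substAlgHom (hs1 hx)]; exact map_zero _
  refine ⟨map_zero _, ?_⟩
  rw [h _ F.zero_constantCoeff, h _ (rc_c0X _), h _ (rc_c0X _), fadd_zero (map_zero _)]

variable {p : ℕ} [Fact p.Prime] [CharP R p]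

theorem subst_X_pow_frob (h : ℕ) (u : PowerSeries R) :
    (PowerSeries.map (iterateFrobenius R p h) u).subst (X ^ p ^ h : PowerSeries R) =
      u ^ p ^ h := by
  have hp : p ≠ 0 := (Fact.out : p.Prime).ne_zero
  rw [← expand_apply _ (pow_ne_zero h hp), ← map_expand]
  exact MvPowerSeries.map_iterateFrobenius_expand p hp u h

theorem dc_subst_X_pow {τ : Type*} (m : ℕ) {a : MvPowerSeries τ R}
    (ha : MvPowerSeries.constantCoeff a = 0) : (X ^ m : PowerSeries R).subst a = a ^ m := by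
  rw [subst_pow (hs1 ha), subst_X (hs1 ha)]

theorem dc_fadd_pow (G : FormalGroup R) {m : ℕ} (hm : m ≠ 0) :
    fadd G (MvPowerSeries.X 0 ^ m) (MvPowerSeries.X 1 ^ m)
      = MvPowerSeries.expand m hm G.toPowerSeries := by
  rw [MvPowerSeries.expand, MvPowerSeries.coe_substAlgHom, fadd]
  congr 1
  funext i; fin_cases i <;> rfl

/-- A formal group law with the endomorphism `X ^ p ^ h` has coefficients fixed by the
`p ^ h` power map. -/
theorem coeff_pow_eq_of_isHom {h : ℕ} {G : FormalGroup R} (hG : IsHom G G (X ^ p ^ h))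
    (d : Fin 2 →₀ ℕ) :
    MvPowerSeries.coeff d G.toPowerSeries ^ p ^ h = MvPowerSeries.coeff d G.toPowerSeries := by
  have hp : p ≠ 0 := (Fact.out : p.Prime).ne_zero
  have h2 := hG.2
  rw [dc_subst_X_pow _ G.zero_constantCoeff, dc_subst_X_pow _ (rc_c0X _),
    dc_subst_X_pow _ (rc_c0X _), dc_fadd_pow G (pow_ne_zero h hp),
    ← MvPowerSeries.map_iterateFrobenius_expand p hp] at h2
  have h3 := congrArg (MvPowerSeries.coeff (p ^ h • d)) h2
  rwa [MvPowerSeries.coeff_map, MvPowerSeries.coeff_expand_smul, iterateFrobenius_def] at h3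

theorem coeff_pow_eq_of_endo {h : ℕ} {G : FormalGroup R} (hG : mulSeries G p = X ^ p ^ h)
    {a : PowerSeries R} (ha : IsHom G G a) (j : ℕ) : coeff j a ^ p ^ h = coeff j a := by
  have hp : p ≠ 0 := (Fact.out : p.Prime).ne_zero
  have h1 := ha.nmul (σ := Unit) p (a := (X : PowerSeries R)) constantCoeff_X
  rw [nmul_X, nmul, hG, X_subst, dc_subst_X_pow (τ := Unit) _ ha.1] at h1
  have h2 : a.subst (X ^ p ^ h : PowerSeries R) = a ^ p ^ h := h1
  rw [← subst_X_pow_frob h a, ← expand_apply _ (pow_ne_zero h hp),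
    ← expand_apply _ (pow_ne_zero h hp)] at h2
  have h3 := congrArg (coeff (p ^ h * j)) h2
  rw [coeff_expand_mul, coeff_expand_mul, coeff_map, iterateFrobenius_def] at h3
  exact h3.symm

theorem isHom_frob (Γ : FormalGroup (ZMod p)) (φ : ZMod p →+* R) :
    IsHom (Γ.map φ) (Γ.map φ) (X ^ p) := by
  have hp : p ≠ 0 := (Fact.out : p.Prime).ne_zero
  have h : IsHom Γ Γ (X ^ p) := by
    refine ⟨by simp [hp], ?_⟩
    rw [dc_subst_X_pow _ Γ.zero_constantCoeff, dc_subst_X_pow _ (rc_c0X _),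
      dc_subst_X_pow _ (rc_c0X _), dc_fadd_pow Γ hp, ← MvPowerSeries.map_frobenius_expand p hp,
      Subsingleton.elim (frobenius _ _) (RingHom.id _), MvPowerSeries.map_id, RingHom.id_apply]
  simpa using h.map φ

end Vale.Agent.P217.D
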