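import Mathlib

/-!
# P217: potentials for the tropical Moore determinant
-/

namespace Vale.Agent.P217.D

open Finset

lemma exists_incr (inc : ℤ → ℝ) : ∃ b : ℤ → ℝ, ∀ t, b (t + 1) = b t + inc t := by
  refine ⟨fun t => (∑ u ∈ range t.toNat, inc u) - ∑ u ∈ range (-t).toNat, inc (-(u + 1)),
    fun t => ?_⟩
  rcases le_or_gt 0 t with ht | ht
  · obtain ⟨t, rfl⟩ := Int.eq_ofNat_of_zero_le ht
    have h1 : ((t : ℤ) + 1).toNat = t + 1 := by omega
    have h2 : (-((t : ℤ) + 1)).toNat = 0 := by omega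
    have h3 : (-(t : ℤ)).toNat = 0 := by omega
    simp only [h1, h2, h3, Int.toNat_natCast, sum_range_succ, range_zero, sum_empty]
    ring
  · obtain ⟨u, rfl⟩ : ∃ u : ℕ, t = -(u + 1) := ⟨(-t - 1).toNat, by omega⟩
    have h1 : (-((u : ℤ) + 1) + 1).toNat = 0 := by omega
    have h2 : (-(-((u : ℤ) + 1) + 1)).toNat = u := by omega
    have h3 : (-((u : ℤ) + 1)).toNat = 0 := by omega
    have h4 : (-(-((u : ℤ) + 1))).toNat = u + 1 := by omega
    simp only [h1, h2, h3, h4, sum_range_succ, range_zero, sum_empty]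
    ring

lemma pot_abs {P : ℝ} (hP : 1 < P) {W : ℤ → ℝ} (hW : Monotone W) (κ : ℤ) {b : ℤ → ℝ}
    (hb : ∀ t, b (t + 1) = b t + (P ^ (t + 1) - P ^ t) * ((W (κ - t - 1) + W (κ - t)) / 2))
    (e t : ℤ) :
    P ^ (κ - e) * W e - b (κ - e) ≤ P ^ t * W e - b t ∧
      (P ^ t * W e - b t = P ^ (κ - e) * W e - b (κ - e) → W (κ - t) = W e) := by
  have hΔ : ∀ t : ℤ, 0 < P ^ (t + 1) - P ^ t := fun t =>
    sub_pos.2 (zpow_lt_zpow_right₀ hP (by omega))
  set G : ℤ → ℝ := fun t => P ^ t * W e - b t with hG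
  have hstep : ∀ t, G (t + 1) - G t =
      (P ^ (t + 1) - P ^ t) * (W e - (W (κ - t - 1) + W (κ - t)) / 2) := fun t => by
    simp only [hG, hb]; ring
  have hr : ∀ t, κ - e ≤ t → G (κ - e) ≤ G t := fun t ht => by
    induction t, ht using Int.leInduction with
    | base => exact le_rfl
    | succ t ht ih =>
      have h1 := hW (show κ - t - 1 ≤ e by omega)
      have h2 := hW (show κ - t ≤ e by omega)
      have := mul_nonneg (hΔ t).le
        (show 0 ≤ W e - (W (κ - t - 1) + W (κ - t)) / 2 by linarith)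
      linarith [hstep t]
  have hl : ∀ t, t ≤ κ - e → G (κ - e) ≤ G t := fun t ht => by
    induction t, ht using Int.leInductionDown with
    | base => exact le_rfl
    | pred t ht ih =>
      have h1 := hW (show e ≤ κ - (t - 1) - 1 by omega)
      have h2 := hW (show e ≤ κ - (t - 1) by omega)
      have := mul_nonpos_of_nonneg_of_nonpos (hΔ (t - 1)).le
        (show W e - (W (κ - (t - 1) - 1) + W (κ - (t - 1))) / 2 ≤ 0 by linarith)
      have h3 := hstep (t - 1)
      rw [sub_add_cancel] at h3 this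
      linarith
  refine ⟨(le_total (κ - e) t).elim (hr t) (hl t), fun heq => ?_⟩
  change G t = G (κ - e) at heq
  by_contra hne
  rcases lt_trichotomy t (κ - e) with ht | ht | ht
  · have h1 := hW (show e ≤ κ - t - 1 by omega)
    have h2 := (hW (show e ≤ κ - t by omega)).lt_of_ne (Ne.symm hne)
    have := mul_neg_of_pos_of_neg (hΔ t)
      (show W e - (W (κ - t - 1) + W (κ - t)) / 2 < 0 by linarith)
    linarith [hstep t, hl (t + 1) (by omega)]
  · exact hne (by rw [ht, sub_sub_cancel])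
  · have h1 := (hW (show κ - t ≤ e by omega)).lt_of_ne hne
    have h2 := hW (show κ - (t - 1) ≤ e by omega)
    have h3 := hstep (t - 1)
    have h4 := hΔ (t - 1)
    rw [sub_add_cancel] at h3 h4
    rw [show κ - (t - 1) - 1 = κ - t by ring] at h3
    have := mul_pos h4 (show 0 < W e - (W (κ - t) + W (κ - (t - 1))) / 2 by linarith)
    linarith [hr (t - 1) (by omega)]

lemma exists_sorted {n : ℕ} (hn : 1 ≤ n) {q : ℝ} (hq : 1 < q) (U : Fin n → ℝ)
    (hU1 : ∀ e, 1 ≤ U e) (hUq : ∀ e, U e < q) :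
    ∃ (W : ℤ → ℝ) (σ : Equiv.Perm (Fin n)), Monotone W ∧ (∀ e, 0 < W e) ∧
      (∀ e α : ℤ, W (e + n * α) = q ^ α * W e) ∧ ∀ e : Fin n, W e = U (σ e) := by
  have hn0 : (0 : ℤ) < n := by exact_mod_cast hn
  have hlt : ∀ e : ℤ, (e % n).toNat < n := fun e => by
    have := Int.emod_lt_of_pos e hn0
    have := Int.emod_nonneg e hn0.ne'
    omega
  have hq0 : 0 < q := by linarith
  refine ⟨fun e => q ^ (e / n) * U (Tuple.sort U ⟨(e % n).toNat, hlt e⟩), Tuple.sort U,
    ?_, fun e => ?_, fun e α => ?_, fun e => ?_⟩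
  · intro e e' hee
    have hdiv : e / n ≤ e' / n := Int.ediv_le_ediv hn0 hee
    rcases hdiv.eq_or_lt with h | h
    · simp only [h]
      refine mul_le_mul_of_nonneg_left (Tuple.monotone_sort U ?_) (by positivity)
      have h1 := Int.emod_add_mul_ediv e n
      have h2 := Int.emod_add_mul_ediv e' n
      have := Int.emod_nonneg e hn0.ne'
      have := Int.emod_nonneg e' hn0.ne'
      rw [h] at h1
      simp only [Fin.mk_le_mk]
      omega
    · calc q ^ (e / n) * U _ ≤ q ^ (e / n) * q :=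
            mul_le_mul_of_nonneg_left (hUq _).le (by positivity)
        _ = q ^ (e / n + 1) := by rw [zpow_add_one₀ hq0.ne']
        _ ≤ q ^ (e' / n) := zpow_le_zpow_right₀ hq.le (by omega)
        _ ≤ q ^ (e' / n) * U _ := le_mul_of_one_le_right (by positivity) (hU1 _)
  · have := hU1 (Tuple.sort U ⟨(e % n).toNat, hlt e⟩)
    positivity
  · have h1 : (e + n * α) / n = e / n + α := Int.add_mul_ediv_left e α hn0.ne'
    have h2 : (e + n * α) % n = e % n := Int.add_mul_emod_self_left e n α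
    simp only [h1, h2, zpow_add₀ hq0.ne']
    ring
  · have h1 : ((e : ℕ) : ℤ) / n = 0 := Int.ediv_eq_zero_of_lt (by omega) (by omega)
    have h2 : ((e : ℕ) : ℤ) % n = e := Int.emod_eq_of_lt (by omega) (by omega)
    simp [h1, h2]

theorem potential {n : ℕ} (hn : 1 ≤ n) {P : ℝ} (hP : 1 < P) (U : Fin n → ℝ)
    (hU1 : ∀ e, 1 ≤ U e) (hUq : ∀ e, U e < P ^ n) (κ : ℤ) :
    ∃ (b : ℤ → ℝ) (s : ℝ) (A : Fin n → ℝ), (∀ t, b (t + n) = b t + s) ∧ StrictMono b ∧
      (∀ e t, A e ≤ P ^ t * U e - b t) ∧ (∀ e e', U e = U e' → A e = A e') ∧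
      ∀ e0, ∃ t0 : ℤ, ∀ u : ℕ, u < (univ.filter fun e => U e = U e0).card →
        t0 + u ≤ κ ∧ P ^ (t0 + u) * U e0 - b (t0 + u) = A e0 ∧
        ∀ e (α : ℤ), P ^ (t0 + u + n * α) * U e - b (t0 + u + n * α) = A e →
          α = 0 ∧ U e = U e0 := by
  have hP0 : 0 < P := by linarith
  have hq : 1 < P ^ n := one_lt_pow₀ hP (by omega)
  obtain ⟨W, σ, hW, hW0, hWper, hWU⟩ := exists_sorted hn hq U hU1 hUq
  obtain ⟨b, hb⟩ := exists_incr
    (fun t => (P ^ (t + 1) - P ^ t) * ((W (κ - t - 1) + W (κ - t)) / 2))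
  have hpos : ∀ e, W (σ.symm e : ℕ) = U e := fun e => by rw [hWU, Equiv.apply_symm_apply]
  have hd : ∀ t, b (t + 1 + n) - b (t + 1) = b (t + n) - b t := fun t => by
    rw [show t + 1 + n = t + n + 1 by ring, hb, hb]
    have h1 := hWper (κ - (t + n) - 1) 1
    have h2 := hWper (κ - (t + n)) 1
    rw [show κ - (t + n) - 1 + n * 1 = κ - t - 1 by ring] at h1
    rw [show κ - (t + n) + n * 1 = κ - t by ring] at h2
    simp only [h1, h2, zpow_add₀ hP0.ne', zpow_natCast, zpow_one]
    ring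
  have hper : ∀ t, b (t + n) = b t + (b (0 + n) - b 0) := fun t => by
    induction t using Int.induction_on with
    | zero => ring
    | succ t ih => linarith [hd t]
    | pred t ih =>
      have := hd (-(t : ℤ) - 1)
      rw [sub_add_cancel] at this
      linarith
  have hmin := pot_abs hP hW κ hb
  refine ⟨b, b (0 + n) - b 0,
    fun e => P ^ (κ - (σ.symm e : ℕ)) * U e - b (κ - (σ.symm e : ℕ)), hper, ?_, ?_, ?_, ?_⟩
  · refine strictMono_int_of_lt_succ fun t => ?_
    rw [hb]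
    have h1 : 0 < P ^ (t + 1) - P ^ t := sub_pos.2 (zpow_lt_zpow_right₀ hP (by omega))
    have := hW0 (κ - t - 1)
    have := hW0 (κ - t)
    have : 0 < (P ^ (t + 1) - P ^ t) * ((W (κ - t - 1) + W (κ - t)) / 2) := by positivity
    linarith
  · intro e t
    have := (hmin (σ.symm e : ℕ) t).1
    rwa [hpos] at this
  · intro e e' hee
    have h1 := (hmin (σ.symm e : ℕ) (κ - (σ.symm e' : ℕ))).1
    have h2 := (hmin (σ.symm e' : ℕ) (κ - (σ.symm e : ℕ))).1
    rw [hpos] at h1 h2
    beta_reduce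
    rw [← hee] at h2 ⊢
    exact le_antisymm h1 h2
  · intro e0
    set B := univ.filter fun e => U (σ e) = U e0 with hB
    have hcard : (univ.filter fun e => U e = U e0).card = B.card :=
      (card_bijective σ σ.bijective (by simp [hB])).symm
    have hne : B.Nonempty := ⟨σ.symm e0, by simp [hB]⟩
    set e2 := B.max' hne with he2
    have he2B : U (σ e2) = U e0 := (mem_filter.1 (B.max'_mem hne)).2
    refine ⟨κ - (e2 : ℕ), fun u hu => ?_⟩
    rw [hcard] at hu
    have hex : ∃ e ∈ B, ((e : ℕ) : ℤ) ≤ (e2 : ℕ) - u := by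
      by_contra hcon
      push Not at hcon
      have : B.card ≤ (Finset.Ioc (((e2 : ℕ) : ℤ) - u) (e2 : ℕ)).card := by
        refine card_le_card_of_injOn (fun e => ((e : ℕ) : ℤ)) (fun e he => ?_)
          (fun e _ e' _ h => Fin.ext (by simpa using h))
        have h1 := hcon e he
        have h2 : e ≤ e2 := B.le_max' e he
        simp only [coe_Ioc, Set.mem_Ioc]
        exact ⟨h1, by exact_mod_cast h2⟩
      rw [Int.card_Ioc] at this
      omega
    obtain ⟨e1, he1B, he1⟩ := hex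
    have hval : W (((e2 : ℕ) : ℤ) - u) = U e0 := by
      have h1 := hW he1
      have h2 := hW (show ((e2 : ℕ) : ℤ) - u ≤ (e2 : ℕ) by omega)
      rw [hWU, (mem_filter.1 he1B).2] at h1
      rw [hWU, he2B] at h2
      exact le_antisymm h2 h1
    refine ⟨by omega, ?_, fun e α heq => ?_⟩
    · have h1 := (hmin (σ.symm e0 : ℕ) (κ - (e2 : ℕ) + u)).1
      have h2 := (hmin (((e2 : ℕ) : ℤ) - u) (κ - (σ.symm e0 : ℕ))).1
      rw [hpos] at h1
      rw [hval, show κ - (((e2 : ℕ) : ℤ) - u) = κ - (e2 : ℕ) + u by ring] at h2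
      exact le_antisymm h2 h1
    · have h1 := (hmin (σ.symm e : ℕ) (κ - (e2 : ℕ) + u + n * α)).2 (by rw [hpos]; exact heq)
      rw [hpos, show κ - (κ - ((e2 : ℕ) : ℤ) + u + n * α) = (e2 : ℕ) - u + n * (-α) by ring,
        hWper, hval] at h1
      have hα : α = 0 := by
        by_contra hα
        rcases lt_or_gt_of_ne hα with h | h
        · have h2 : (P ^ n) ^ (1 : ℤ) ≤ (P ^ n) ^ (-α) := zpow_le_zpow_right₀ hq.le (by omega)
          rw [zpow_one] at h2
          have h3 := mul_le_mul h2 (hU1 e0) zero_le_one (by positivity)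
          linarith [hUq e]
        · have h2 : (P ^ n) ^ (-α) ≤ (P ^ n) ^ (-1 : ℤ) := zpow_le_zpow_right₀ hq.le (by omega)
          have h3 : (P ^ n) ^ (-1 : ℤ) * U e0 < 1 := by
            rw [zpow_neg_one, inv_mul_lt_iff₀ (by positivity), mul_one]
            exact hUq e0
          have h4 := mul_le_mul_of_nonneg_right h2 (show 0 ≤ U e0 by linarith [hU1 e0])
          linarith [hU1 e]
      subst hα
      refine ⟨rfl, ?_⟩
      rw [← h1]
      simp

lemma per_bound {n : ℕ} (hn : 1 ≤ n) {b : ℤ → ℝ} {s : ℝ} (hper : ∀ t, b (t + n) = b t + s)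
    (hb : StrictMono b) :
    0 < s ∧ (∀ t α : ℤ, b (t + n * α) = b t + α * s) ∧
      ∃ μ : ℝ, ∀ t : ℤ, μ ≤ b t - t * (s / n) ∧ b t - t * (s / n) < μ + s := by
  have hn0 : (0 : ℤ) < n := by exact_mod_cast hn
  have hnr : (0 : ℝ) < n := by exact_mod_cast hn
  have hs : 0 < s := by
    have := hb (show (0 : ℤ) < 0 + n by omega)
    linarith [hper 0]
  have hα : ∀ t α : ℤ, b (t + n * α) = b t + α * s := fun t α => by
    induction α using Int.induction_on with
    | zero => simp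
    | succ α ih =>
      rw [show t + n * ((α : ℤ) + 1) = t + n * α + n by ring, hper, ih]; push_cast; ring
    | pred α ih =>
      have := hper (t + n * (-(α : ℤ) - 1))
      rw [show t + n * (-(α : ℤ) - 1) + n = t + n * -α by ring, ih] at this
      push_cast at this ⊢
      linarith
  have hper' : ∀ t α : ℤ, b (t + n * α) - ((t + n * α : ℤ) : ℝ) * (s / n) = b t - t * (s / n) :=
    fun t α => by rw [hα]; push_cast; field_simp; ring
  obtain ⟨t1, -, ht1⟩ := (Finset.Ico (0 : ℤ) n).exists_min_image (fun t => b t - t * (s / n))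
    ⟨0, mem_Ico.2 ⟨le_rfl, hn0⟩⟩
  refine ⟨hs, hα, b t1 - t1 * (s / n), fun t => ⟨?_, ?_⟩⟩
  · have h1 := ht1 (t % n) (mem_Ico.2 ⟨Int.emod_nonneg _ hn0.ne', Int.emod_lt_of_pos _ hn0⟩)
    have h2 := hper' (t % n) (t / n)
    rw [Int.emod_add_mul_ediv] at h2
    linarith
  · have h0 := Int.emod_nonneg (t - t1) hn0.ne'
    have h1 := Int.emod_lt_of_pos (t - t1) hn0
    have h2 := hper' (t1 + (t - t1) % n) ((t - t1) / n)
    rw [add_assoc, Int.emod_add_mul_ediv, add_sub_cancel] at h2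
    have h3 := hb (show t1 + (t - t1) % n < t1 + n by omega)
    rw [hper] at h3
    have h4 : (0 : ℝ) ≤ (((t - t1) % n : ℤ) : ℝ) * (s / n) :=
      mul_nonneg (by exact_mod_cast h0) (by positivity)
    rw [h2]
    push_cast at h4 ⊢
    linarith

end Vale.Agent.P217.D
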