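import Vale.Agent.P217.DMoore
import Vale.Agent.P217.DPot

/-!
# P217: the tropical Moore determinant
-/

set_option linter.unusedSectionVars false

namespace Vale.Agent.P217.D

open Finset

variable {C : Type*} [NontriviallyNormedField C] [IsUltrametricDist C]

/-- Orthogonality of a family of Frobenius orbits. -/
def Orth (p n : ℕ) {m : ℕ} (x : Fin m → ℤ → C) : Prop :=
  ∀ (S : Finset (Fin m)) (a : Fin m → ℤ) (t : ℤ) (lam : Fin m → ℕ) (ρ : ℝ),
    (∀ l ∈ S, ‖x l (n * a l + t)‖ = ρ) → (∃ l ∈ S, ¬ p ∣ lam l) →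
      ρ ≤ ‖∑ l ∈ S, (lam l : C) * x l (n * a l + t)‖

lemma norm_tsum_lt {ι : Type*} {f : ι → C} (hf : Summable f) {B : ℝ} (hB : 0 < B)
    (h : ∀ a, ‖f a‖ < B) : ‖∑' a, f a‖ < B := by
  have hfin : {a | B / 2 ≤ ‖f a‖}.Finite := by
    have h1 := hf.tendsto_cofinite_zero.norm
    rw [norm_zero] at h1
    have h2 := h1.eventually (gt_mem_nhds (show (0 : ℝ) < B / 2 by positivity))
    simpa [Filter.eventually_cofinite] using h2
  obtain ⟨B', hB', hle⟩ : ∃ B' < B, ∀ a, ‖f a‖ ≤ max (B / 2) B' := by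
    rcases Set.eq_empty_or_nonempty {a | B / 2 ≤ ‖f a‖} with he | hne
    · refine ⟨0, hB, fun a => le_max_of_le_left ?_⟩
      by_contra hc
      exact (Set.eq_empty_iff_forall_notMem.1 he a) (not_le.1 hc).le
    · obtain ⟨a0, -, ha0⟩ := Set.exists_max_image _ (fun a => ‖f a‖) hfin hne
      refine ⟨‖f a0‖, h a0, fun a => ?_⟩
      rcases le_total (B / 2) ‖f a‖ with h1 | h1
      · exact le_max_of_le_right (ha0 a h1)
      · exact le_max_of_le_left h1
  exact (IsUltrametricDist.norm_tsum_le_of_forall_le_of_nonneg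
    (le_max_of_le_left (by positivity)) hle).trans_lt (max_lt (by linarith) hB')

lemma norm_sum_lt {ι : Type*} (S : Finset ι) {f : ι → C} {B : ℝ} (hB : 0 < B)
    (h : ∀ a ∈ S, ‖f a‖ < B) : ‖∑ a ∈ S, f a‖ < B := by
  classical
  induction S using Finset.induction_on with
  | empty => simpa using hB
  | insert a S ha ih =>
    rw [sum_insert ha]
    exact (IsUltrametricDist.norm_add_le_max _ _).trans_lt
      (max_lt (h a (by simp)) (ih fun b hb => h b (by simp [hb])))

lemma orbit_add_nat {p : ℕ} {x : ℤ → C} (hxp : ∀ j, x (j + 1) = x j ^ p) (j : ℤ) (u : ℕ) :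
    x (j + u) = x j ^ p ^ u := by
  induction u with
  | zero => simp
  | succ u ih => rw [Nat.cast_succ, ← add_assoc, hxp, ih, ← pow_mul, pow_succ]

lemma orbit_log {p : ℕ} (hp : 0 < p) {x : ℤ → C} (hxp : ∀ j, x (j + 1) = x j ^ p) (j : ℤ) :
    Real.log ‖x j‖ = Real.log ‖x 0‖ * (p : ℝ) ^ j := by
  have hp0 : (p : ℝ) ≠ 0 := by positivity
  induction j using Int.induction_on with
  | zero => simp
  | succ j ih => rw [hxp, norm_pow, Real.log_pow, ih, zpow_add_one₀ hp0]; ring
  | pred j ih =>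
    have := hxp (-(j : ℤ) - 1)
    rw [sub_add_cancel] at this
    rw [this, norm_pow, Real.log_pow] at ih
    rw [zpow_sub_one₀ hp0, ← mul_assoc, ← ih]
    field_simp

variable {p : ℕ} [Fact p.Prime] [CharP C p]

theorem trop [CompleteSpace C] {m n : ℕ} (hn : 1 ≤ n) (hmn : m ≤ n) (x : Fin m → ℤ → C)
    (hx0 : ∀ l j, x l j ≠ 0) (hx1 : ∀ l j, ‖x l j‖ < 1)
    (hxp : ∀ l j, x l (j + 1) = x l j ^ p) (horth : Orth p n x) (c : Fin m → ℕ → C)
    (hc : ∀ l i, ‖c l i‖ ≤ 1) (τ : ℤ)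
    (H : ∀ j ≤ τ, ∀ ι < n, ∀ B : ℝ, 0 ≤ B →
      (∀ l (i : ℕ), ‖c l i‖ * ‖x l (i + j + n)‖ ≤ B) →
      ‖∑ l, ∑' a : ℕ, c l (ι + n * a) * x l ((ι + n * a : ℕ) + j)‖ ≤ B) :
    ∀ l i, c l i = 0 := by
  classical
  have hp2 : 2 ≤ p := (Fact.out : p.Prime).two_le
  have hP : (1 : ℝ) < p := by exact_mod_cast hp2
  have hP0 : (0 : ℝ) < p := by linarith
  have hq : (1 : ℝ) < (p : ℝ) ^ n := one_lt_pow₀ hP (by omega)
  have hn0 : (0 : ℤ) < n := by exact_mod_cast hn
  have hnr : (0 : ℝ) < n := by exact_mod_cast hn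
  have hxpos : ∀ l j, 0 < ‖x l j‖ := fun l j => norm_pos_iff.2 (hx0 l j)
  have hv : ∀ l, 0 < -Real.log ‖x l 0‖ := fun l =>
    neg_pos.2 (Real.log_neg (hxpos l 0) (hx1 l 0))
  choose a ha using fun l => exists_mem_Ico_zpow (hv l) hq
  set V : Fin m → ℝ := fun l => -Real.log ‖x l 0‖ / ((p : ℝ) ^ n) ^ a l with hV
  have hV1 : ∀ l, 1 ≤ V l := fun l => (one_le_div (by positivity)).2 (ha l).1
  have hVq : ∀ l, V l < (p : ℝ) ^ n := fun l => by
    rw [hV, div_lt_iff₀ (by positivity), mul_comm, ← zpow_add_one₀ (by positivity)]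
    exact (ha l).2
  have hlog : ∀ l j, Real.log ‖x l j‖ = -((p : ℝ) ^ (j + n * a l) * V l) := fun l j => by
    rw [orbit_log (by omega) (hxp l), hV, zpow_add₀ hP0.ne', zpow_mul, zpow_natCast]
    field_simp
  set U : Fin n → ℝ := fun e => if h : (e : ℕ) < m then V ⟨e, h⟩ else 1 with hU
  have hUV : ∀ l, U (Fin.castLE hmn l) = V l := fun l => by simp [hU]
  obtain ⟨imin, himin⟩ : ∃ imin : ℤ, ∀ l, imin ≤ n * a l := by
    obtain ⟨i, hi⟩ := (Set.finite_range fun l => (n : ℤ) * a l).bddBelow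
    exact ⟨i, fun l => hi ⟨l, rfl⟩⟩
  obtain ⟨b, s, A, hper, hmono, hge, hAeq, hblk⟩ := potential hn hP U
    (fun e => by simp only [hU]; split_ifs; exacts [hV1 _, le_rfl])
    (fun e => by simp only [hU]; split_ifs; exacts [hVq _, hq]) (τ + imin)
  obtain ⟨hs, hα, μ, hμ⟩ := per_bound hn hper hmono
  set sc : Fin m × ℕ → ℝ := fun z => -Real.log ‖c z.1 z.2‖ + A (Fin.castLE hmn z.1) +
    ((z.2 + n * a z.1 : ℤ) : ℝ) * (s / n) with hsc
  by_contra hcon
  push Not at hcon
  obtain ⟨l1, i1, h1⟩ := hcon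
  obtain ⟨⟨l0, i0⟩, hz0, hmin⟩ : ∃ z0 : Fin m × ℕ, c z0.1 z0.2 ≠ 0 ∧
      ∀ z : Fin m × ℕ, c z.1 z.2 ≠ 0 → sc z0 ≤ sc z := by
    obtain ⟨A0, hA0⟩ := (Set.finite_range fun l => A (Fin.castLE hmn l) + a l * s).bddBelow
    obtain ⟨N, hN⟩ := exists_nat_gt ((sc (l1, i1) - A0) / (s / n))
    rw [div_lt_iff₀ (by positivity)] at hN
    have hfin : {z : Fin m × ℕ | c z.1 z.2 ≠ 0 ∧ sc z ≤ sc (l1, i1)}.Finite := by
      refine ((Set.finite_univ (α := Fin m)).prod (Set.finite_lt_nat N)).subset ?_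
      rintro ⟨l, i⟩ ⟨-, h2⟩
      refine ⟨trivial, ?_⟩
      have h3 : 0 ≤ -Real.log ‖c l i‖ := neg_nonneg.2 (Real.log_nonpos (norm_nonneg _) (hc l i))
      have h4 : A0 ≤ A (Fin.castLE hmn l) + a l * s := hA0 ⟨l, rfl⟩
      have h5 : sc (l, i) = -Real.log ‖c l i‖ + (A (Fin.castLE hmn l) + a l * s) +
          i * (s / n) := by
        simp only [hsc]; push_cast; field_simp; ring
      have h6 : (i : ℝ) * (s / n) < N * (s / n) := by linarith
      exact_mod_cast lt_of_mul_lt_mul_right h6 (by positivity)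
    obtain ⟨z0, hz0, hmin⟩ := Set.exists_min_image _ sc hfin ⟨(l1, i1), h1, le_rfl⟩
    refine ⟨z0, hz0.1, fun z hz => ?_⟩
    rcases le_total (sc z) (sc (l1, i1)) with h | h
    · exact hmin z ⟨hz, h⟩
    · exact hz0.2.trans h
  simp only at hz0
  set S0 := sc (l0, i0) with hS0
  -- the logarithm of a term
  have hterm : ∀ l (i : ℕ) (j : ℤ), c l i ≠ 0 → Real.log (‖c l i‖ * ‖x l (i + j)‖) =
      -(sc (l, i) + j * (s / n) +
        (b (i + j + n * a l) - ((i + j + n * a l : ℤ) : ℝ) * (s / n)) +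
        ((p : ℝ) ^ (i + j + n * a l) * V l - b (i + j + n * a l) - A (Fin.castLE hmn l))) :=
    fun l i j h => by
      rw [Real.log_mul (norm_pos_iff.2 h).ne' (hxpos _ _).ne', hlog]
      simp only [hsc]
      push_cast
      ring
  have hge' : ∀ l (T : ℤ), 0 ≤ (p : ℝ) ^ T * V l - b T - A (Fin.castLE hmn l) := fun l T => by
    have := hge (Fin.castLE hmn l) T
    rw [hUV] at this
    linarith
  obtain ⟨t0, ht0⟩ := hblk (Fin.castLE hmn l0)
  rw [hUV] at ht0
  set I0 : ℤ := i0 + n * a l0 with hI0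
  set S : Finset (Fin m) := univ.filter fun l => V l = V l0 with hS
  have hcard : S.card ≤ (univ.filter fun e => U e = V l0).card :=
    card_le_card_of_injOn (Fin.castLE hmn) (fun l hl => by
      simp only [hS, coe_filter, mem_univ, true_and, Set.mem_ofPred_eq] at hl ⊢
      rw [hUV, hl]) (Fin.castLE_injective hmn).injOn
  set c' : Fin m → C := fun l => if 0 ≤ I0 - n * a l then c l (I0 - n * a l).toNat else 0
    with hc'
  set y : Fin m → C := fun l => x l (n * (-a l) + t0) with hy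
  set ρ : ℝ := Real.exp (-((p : ℝ) ^ t0 * V l0)) with hρ
  have hyρ : ∀ l ∈ S, ‖y l‖ = ρ := fun l hl => by
    rw [hρ, ← Real.exp_log (hxpos l _), hlog, (mem_filter.1 hl).2]
    congr 4
    ring
  have hc0 : 0 < ‖c l0 i0‖ := norm_pos_iff.2 hz0
  have hmoore := moore (p := p) S y c' (A := ‖c l0 i0‖) (Real.exp_pos _) hyρ
    (fun lam hlam => horth S (fun l => -a l) t0 lam ρ hyρ hlam) ?_ ?_ l0 (by simp [hS])
  · have : c' l0 = c l0 i0 := by simp [hc', hI0]
    rw [this] at hmoore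
    exact lt_irrefl _ hmoore
  · intro l hl
    simp only [hc']
    split_ifs with h
    · by_cases h0 : c l (I0 - n * a l).toNat = 0
      · rw [h0, norm_zero]; exact hc0.le
      have h2 := hmin (l, (I0 - n * a l).toNat) h0
      have h3 : A (Fin.castLE hmn l) = A (Fin.castLE hmn l0) :=
        hAeq _ _ (by rw [hUV, hUV, (mem_filter.1 hl).2])
      simp only [hS0, hsc, Int.toNat_of_nonneg h, h3, sub_add_cancel, ← hI0] at h2
      exact (Real.log_le_log_iff (norm_pos_iff.2 h0) hc0).1 (by linarith)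
    · rw [norm_zero]; exact hc0.le
  intro u hu
  obtain ⟨htκ, hAe0, huniq⟩ := ht0 u (hu.trans_le hcard)
  set j : ℤ := t0 + u - I0 with hj
  have hjτ : j ≤ τ := by have := himin l0; omega
  set L : ℝ := S0 + j * (s / n) + (b (t0 + u) - ((t0 + u : ℤ) : ℝ) * (s / n)) with hL
  have hlev : ‖c l0 i0‖ * ρ ^ p ^ u = Real.exp (-L) := by
    rw [← Real.exp_log hc0, hρ, ← Real.exp_nat_mul, ← Real.exp_add]
    congr 1
    rw [zpow_add₀ hP0.ne', zpow_natCast] at hAe0
    simp only [hL, hS0, hsc, hj, ← hI0, ← hAe0]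
    push_cast
    ring
  rw [hlev]
  have hBL : Real.exp (-(S0 + j * (s / n) + s + μ)) < Real.exp (-L) := by
    rw [Real.exp_lt_exp, hL]
    linarith [(hμ (t0 + u)).2]
  have hH := H j hjτ (i0 % n) (Nat.mod_lt _ (by omega))
    (Real.exp (-(S0 + j * (s / n) + s + μ))) (Real.exp_pos _).le (fun l i => by
    by_cases h0 : c l i = 0
    · rw [h0, norm_zero, zero_mul]; exact (Real.exp_pos _).le
    rw [← Real.exp_log (mul_pos (norm_pos_iff.2 h0) (hxpos l _)), Real.exp_le_exp, add_assoc,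
      hterm l i (j + n) h0]
    have h2 := hmin (l, i) h0
    have h3 := (hμ (i + (j + n) + n * a l)).1
    have h4 := hge' l (i + (j + n) + n * a l)
    have h5 : ((j + n : ℤ) : ℝ) * (s / n) = j * (s / n) + s := by push_cast; field_simp
    change _ ≤ -(S0 + j * (s / n) + s + μ)
    linarith)
  set g : Fin m → ℕ → C := fun l α =>
    c l (i0 % n + n * α) * x l ((i0 % n + n * α : ℕ) + j) with hg
  have hgs : ∀ l, Summable (g l) := fun l => by
    refine Summable.of_norm_bounded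
      (summable_geometric_of_lt_one (norm_nonneg _) (hx1 l ((i0 % n : ℕ) + j))) fun α => ?_
    rw [hg, norm_mul, show ((i0 % n + n * α : ℕ) : ℤ) + j = (i0 % n : ℕ) + j + (n * α : ℕ) by
      push_cast; ring, orbit_add_nat (hxp l), norm_pow]
    refine (mul_le_of_le_one_left (by positivity) (hc _ _)).trans
      (pow_le_pow_of_le_one (norm_nonneg _) (hx1 _ _).le ?_)
    exact (Nat.le_mul_of_pos_left α hn).trans (Nat.lt_pow_self hp2).le
  set cond : Fin m → ℕ → Prop := fun l α =>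
    V l = V l0 ∧ ((i0 % n + n * α : ℕ) : ℤ) = I0 - n * a l with hcond
  have hsum1 : ∀ l, Summable fun α => if cond l α then g l α else 0 := fun l =>
    ((hgs l).indicator {α | cond l α}).congr fun α => by simp [Set.indicator_apply]
  have hsum2 : ∀ l, Summable fun α => if cond l α then 0 else g l α := fun l => by
    refine ((hgs l).sub (hsum1 l)).congr fun α => ?_
    split_ifs <;> simp
  have hsplit : ∀ l, ∑' α, g l α = (∑' α, if cond l α then g l α else 0) +
      ∑' α, if cond l α then 0 else g l α := fun l => by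
    rw [← (hsum1 l).tsum_add (hsum2 l)]
    congr 1
    ext α
    split_ifs <;> simp
  have hdm : (i0 : ℤ) = (i0 % n : ℕ) + n * (i0 / n : ℕ) := by
    exact_mod_cast (Nat.mod_add_div i0 n).symm
  have hmain : ∀ l, (∑' α, if cond l α then g l α else 0) =
      if V l = V l0 then c' l * y l ^ p ^ u else 0 := fun l => by
    split_ifs with hl
    · by_cases h0 : 0 ≤ I0 - n * a l
      · have hm0 : (0 : ℤ) ≤ (i0 / n : ℕ) + (a l0 - a l) := by
          have h1 : ((i0 % n : ℕ) : ℤ) < n := by exact_mod_cast Nat.mod_lt i0 (show 0 < n by omega)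
          by_contra hneg
          have h2 : (n : ℤ) * ((i0 / n : ℕ) + (a l0 - a l)) ≤ n * (-1) :=
            mul_le_mul_of_nonneg_left (by omega) hn0.le
          rw [hI0] at h0
          linarith
        obtain ⟨α0, hα0⟩ := Int.eq_ofNat_of_zero_le hm0
        have hc0' : ((i0 % n + n * α0 : ℕ) : ℤ) = I0 - n * a l := by
          rw [Nat.cast_add, Nat.cast_mul, ← hα0, hI0]
          linarith
        rw [tsum_eq_single α0]
        · rw [if_pos ⟨hl, hc0'⟩]
          simp only [hg, hc', hy, if_pos h0]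
          rw [← orbit_add_nat (hxp l), ← hc0', Int.toNat_natCast, hc0', hj]
          congr 2
          ring
        · intro α hα'
          rw [if_neg]
          rintro ⟨-, h2⟩
          rw [← hc0'] at h2
          have h3 : i0 % n + n * α = i0 % n + n * α0 := by exact_mod_cast h2
          exact hα' (Nat.eq_of_mul_eq_mul_left hn (Nat.add_left_cancel h3))
      · have : ∀ α, ¬ cond l α := fun α h => h0 (h.2 ▸ Int.natCast_nonneg _)
        simp only [this, hc', if_neg h0, if_false, tsum_zero, zero_mul]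
    · have : ∀ α, ¬ cond l α := fun α h => hl h.1
      simp [this]
  have hrest : ∀ l α, ‖if cond l α then 0 else g l α‖ < Real.exp (-L) := fun l α => by
    split_ifs with hcα
    · rw [norm_zero]; exact Real.exp_pos _
    rw [hg, norm_mul]
    by_cases h0 : c l (i0 % n + n * α) = 0
    · rw [h0, norm_zero, zero_mul]; exact Real.exp_pos _
    rw [← Real.exp_log (mul_pos (norm_pos_iff.2 h0) (hxpos l _)), Real.exp_lt_exp,
      hterm l _ j h0]
    have hT : ((i0 % n + n * α : ℕ) : ℤ) + j + n * a l =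
        t0 + u + n * (α - (i0 / n : ℕ) + a l - a l0) := by
      rw [Nat.cast_add, Nat.cast_mul, hj, hI0]
      linarith
    have h2 := hmin (l, i0 % n + n * α) h0
    have h3 := hge' l (((i0 % n + n * α : ℕ) : ℤ) + j + n * a l)
    have h4 : (p : ℝ) ^ (((i0 % n + n * α : ℕ) : ℤ) + j + n * a l) * V l -
        b (((i0 % n + n * α : ℕ) : ℤ) + j + n * a l) - A (Fin.castLE hmn l) ≠ 0 := by
      intro h
      rw [hT] at h
      obtain ⟨h5, h6⟩ := huniq (Fin.castLE hmn l) _ (by rw [hUV]; linarith)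
      rw [hUV] at h6
      refine hcα ⟨h6, ?_⟩
      rw [h5] at hT
      omega
    have h5 : b (((i0 % n + n * α : ℕ) : ℤ) + j + n * a l) -
        ((((i0 % n + n * α : ℕ) : ℤ) + j + n * a l : ℤ) : ℝ) * (s / n) =
        b (t0 + u) - ((t0 + u : ℤ) : ℝ) * (s / n) := by
      rw [hT, hα]
      push_cast
      field_simp
      ring
    have h6 := h3.lt_of_ne' h4
    rw [h5, hL]
    linarith
  have hfin : ∑ l ∈ S, c' l * y l ^ p ^ u =
      ∑ l, ∑' α, g l α - ∑ l, ∑' α, if cond l α then 0 else g l α := by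
    simp only [hsplit, hmain, sum_add_distrib, add_sub_cancel_right, hS, sum_filter]
  rw [hfin, sub_eq_add_neg]
  refine (IsUltrametricDist.norm_add_le_max _ _).trans_lt (max_lt (hH.trans_lt hBL) ?_)
  rw [norm_neg]
  exact norm_sum_lt _ (Real.exp_pos _) fun l _ =>
    norm_tsum_lt (hsum2 l) (Real.exp_pos _) (hrest l)

end Vale.Agent.P217.D
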