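import Vale.Agent.P217.DLam
import Vale.Agent.P217.DTrop

/-!
# P217: an orthogonal basis of the Tate module
-/

set_option linter.unusedSectionVars false

noncomputable section

namespace Vale.Agent.P217.D

variable {C : Type} [NontriviallyNormedField C] [IsUltrametricDist C] [CompleteSpace C]
  [IsAlgClosed C] {p : ℕ} [Fact p.Prime] [CharP C p]

variable {Γ G : FormalGroup (O C)} [Γ.IsComm] [G.IsComm] {h n m : ℕ} {θ : ℝ}

/-- A spanning family contains a square subfamily with nonzero determinant. -/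
private lemma do_det {ι : Type} (v : ι → Fin m → C)
    (hv : ∀ c : Fin m → C, c ≠ 0 → ∃ i, ∑ l, c l * v i l ≠ 0) :
    ∃ a : Fin m → ι, (Matrix.of fun j l => v (a j) l).det ≠ 0 := by
  have htop : Submodule.span C (Set.range v) = ⊤ := by
    by_contra hne
    obtain ⟨f, hf, hle⟩ := Submodule.exists_le_ker_of_lt_top _ (lt_top_iff_ne_top.2 hne)
    have e : ∀ x : Fin m → C, f x = ∑ l, f (fun j => if l = j then 1 else 0) * x l := fun x => by
      rw [LinearMap.pi_apply_eq_sum_univ]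
      exact Finset.sum_congr rfl fun l _ => by rw [smul_eq_mul, mul_comm]
    obtain ⟨i, hi⟩ := hv (fun l => f fun j => if l = j then 1 else 0) fun h0 =>
      hf (LinearMap.ext fun x => by
        rw [e]
        exact Finset.sum_eq_zero fun l _ => by rw [congrFun h0 l, Pi.zero_apply, zero_mul])
    exact hi ((e _).symm.trans (hle (Submodule.subset_span ⟨i, rfl⟩)))
  obtain ⟨κ, a, -, hs, hl⟩ := exists_linearIndependent' C v
  let e := (Module.Basis.mk hl (hs.trans htop).ge).indexEquiv (Pi.basisFun C (Fin m))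
  have hl' : LinearIndependent C (Matrix.of fun j l => v (a (e.symm j)) l).row :=
    hl.comp e.symm e.symm.injective
  exact ⟨fun j => a (e.symm j), ((Matrix.isUnit_iff_isUnit_det _).1
    (Matrix.linearIndependent_rows_iff_isUnit.1 hl')).ne_zero⟩

/-- Points of the kernel which are not divisible by `p` have finitely many norms. -/
private lemma do_fin (hN : Near p h n θ Γ G) {Φ : ℤ → Pt Γ →+ Pt Γ} (hΦ : IsFrob p Φ)
    (Λ : Pt Γ →+ Pt G) (hΛ : ∀ s, ‖(Λ s).v - s.v‖ ≤ θ) :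
    ∃ (τ : ℤ) (F : Set ℝ), F.Finite ∧
      ∀ ξ, Λ ξ = 0 → Λ (Φ (-n) ξ) ≠ 0 → ‖(Φ τ ξ).v‖ ∈ F := by
  have hQ : 1 < p ^ h := Nat.one_lt_pow (by have := hN.hh; omega) (Fact.out : p.Prime).one_lt
  obtain ⟨j, hj⟩ : ∃ j : ℕ, ∀ t ∈ {a : Pt G | p ^ 1 • a = 0}, t ≠ 0 → θ ^ j < ‖t.v‖ := by
    refine ((Filter.eventually_all_finite (hN.finite_torsion 1)).2 fun t _ => ?_ :
      ∀ᶠ j in Filter.atTop, _).exists
    by_cases ht : t = 0
    · exact Filter.Eventually.of_forall fun _ h => absurd ht h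
    · have : 0 < ‖t.v‖ := norm_pos_iff.2 fun h0 => ht (Pt.ext_v h0)
      exact ((tendsto_pow_atTop_nhds_zero_of_lt_one hN.pos.le hN.lt_one).eventually_lt_const
        this).mono fun _ h _ => h
  refine ⟨-(n * (j + 1 : ℕ)), (fun t : Pt G => ‖t.v‖) '' {a : Pt G | p ^ (j + 1) • a = 0},
    (hN.finite_torsion _).image _, fun ξ h0 h1 => ⟨Λ (Φ (-(n * (j + 1 : ℕ))) ξ), ?_, ?_⟩⟩
  · change p ^ (j + 1) • Λ _ = 0
    rw [← map_nsmul, hΦ.nsmul_neg hN.pser, h0]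
  obtain ⟨u, hu⟩ : ∃ u, u = Φ (-(n * (j + 1 : ℕ))) ξ := ⟨_, rfl⟩
  have e : p ^ j • Λ u = Λ (Φ (-n) ξ) := by
    rw [← map_nsmul, ← hΦ.mul_nat hN.pser, hu, ← hΦ.add]
    congr 2
    push_cast
    ring
  have hlt : θ < ‖u.v‖ := by
    by_contra hle
    have h2 : ‖(Λ u).v‖ ≤ θ := by
      rw [← sub_add_cancel (Λ u).v u.v]
      exact (IsUltrametricDist.norm_add_le_max _ _).trans (max_le (hΛ u) (not_lt.1 hle))
    have h3 := norm_pow_nsmul_le hN.low j (Λ u)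
    have h4 : p ^ 1 • Λ (Φ (-n) ξ) = 0 := by
      have := hΦ.nsmul_neg hN.pser 1 ξ
      rw [Nat.cast_one, mul_one] at this
      rw [← map_nsmul, this, h0]
    refine (hj _ h4 h1).not_ge ?_
    rw [← e]
    exact h3.trans ((pow_le_pow_left₀ (norm_nonneg _) h2 _).trans
      (pow_le_pow_of_le_one hN.pos.le hN.lt_one.le (Nat.lt_pow_self hQ).le))
  change ‖(Λ _).v‖ = _
  rw [← hu, ← sub_add_cancel (Λ u).v u.v,
    IsUltrametricDist.norm_add_eq_max_of_norm_ne_norm ((hΛ u).trans_lt hlt).ne,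
    max_eq_right ((hΛ u).trans hlt.le)]

/-- A formal linear combination is small when the ordinary one is. -/
private lemma do_small {ι : Type} (S : Finset ι) (z : ι → Pt Γ) (lam : ι → ℕ) {ρ : ℝ}
    (h1 : ρ < 1) (hz : ∀ l ∈ S, ‖(z l).v‖ = ρ) (hs : ‖∑ l ∈ S, (lam l : O C) * (z l).v‖ < ρ) :
    ‖(∑ l ∈ S, lam l • z l).v‖ < ρ := by
  have h0 : 0 < ρ := (norm_nonneg _).trans_lt hs
  have h2 : ρ ^ 2 < ρ := by nlinarith
  have a1 := Pt.norm_sum_sub S (fun l => lam l • z l) h0.le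
    fun l hl => (Pt.norm_nsmul_le _ _).trans (hz l hl).le
  have a2 : ‖∑ l ∈ S, ((lam l • z l).v - (lam l : O C) * (z l).v)‖ ≤ ρ ^ 2 :=
    IsUltrametricDist.norm_sum_le_of_forall_le_of_nonneg (by positivity) fun l hl =>
      (Pt.norm_nsmul_sub _ _).trans (by rw [hz l hl])
  have e : (∑ l ∈ S, lam l • z l).v = ((∑ l ∈ S, lam l • z l).v - ∑ l ∈ S, (lam l • z l).v) +
      (∑ l ∈ S, ((lam l • z l).v - (lam l : O C) * (z l).v) +
        ∑ l ∈ S, (lam l : O C) * (z l).v) := by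
    rw [Finset.sum_sub_distrib]
    ring
  rw [e]
  exact (IsUltrametricDist.norm_add_le_max _ _).trans_lt (max_lt (a1.trans_lt h2)
    ((IsUltrametricDist.norm_add_le_max _ _).trans_lt (max_lt (a2.trans_lt h2) hs)))

theorem exists_orth (hN : Near p h n θ Γ G) {Φ : ℤ → Pt Γ →+ Pt Γ} (hΦ : IsFrob p Φ)
    (Λ : Pt Γ →+ Pt G) (hΛ : ∀ s, ‖(Λ s).v - s.v‖ ≤ θ) (hsurj : Function.Surjective Λ)
    (d : Pt G → Fin m → C)
    (dadd : ∀ a b, p • a = 0 → p • b = 0 → d (a + b) = d a + d b)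
    (dspan : ∀ c : Fin m → C, c ≠ 0 → ∃ t, p • t = 0 ∧ ∑ l, c l * d t l ≠ 0) :
    ∃ ξ : Fin m → Pt Γ, (∀ j, Λ (ξ j) = 0) ∧ (∀ j, ξ j ≠ 0) ∧
      (Matrix.of fun j l => d (Λ (Φ (-n) (ξ j))) l).det ≠ 0 ∧
      Orth p n (fun l j => ((Φ j (ξ l)).v : C)) := by
  classical
  have hp1 : ∀ s, p • Φ (-n) s = s := fun s => by
    have := hΦ.nsmul_neg hN.pser 1 s
    rwa [Nat.cast_one, mul_one, pow_one] at this
  have hT : ∀ ξ : Λ.ker, p • Λ (Φ (-n) ξ) = 0 := fun ξ => by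
    rw [← map_nsmul, hp1]
    exact ξ.2
  let E : Λ.ker →+ (Fin m → C) := AddMonoidHom.mk' (fun ξ => d (Λ (Φ (-n) ξ))) fun a b => by
    rw [AddSubgroup.coe_add, map_add, map_add, dadd _ _ (hT a) (hT b)]
  have hE : ∀ ξ, E ξ = d (Λ (Φ (-n) ξ)) := fun _ => rfl
  have hd : d 0 = 0 := by simpa [hE] using E.map_zero
  obtain ⟨τ, F, hF, hτ⟩ := do_fin hN hΦ Λ hΛ
  have hrow : ∀ ξ : Fin m → Λ.ker, (Matrix.of fun j l => E (ξ j) l).det ≠ 0 →
      ∀ j, Λ (Φ (-n) (ξ j)) ≠ 0 := fun ξ hξ j h0 =>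
    hξ (Matrix.det_eq_zero_of_row_eq_zero j fun l => by
      rw [Matrix.of_apply, hE, h0, hd, Pi.zero_apply])
  obtain ⟨ξ₀, hξ₀⟩ := do_det E fun c hc => by
    obtain ⟨t, ht, hct⟩ := dspan c hc
    obtain ⟨s, rfl⟩ := hsurj t
    refine ⟨⟨p • s, by rw [AddMonoidHom.mem_ker, map_nsmul, ht]⟩, ?_⟩
    rwa [hE, map_nsmul, hp1]
  obtain ⟨_, ⟨ξ, hξ, rfl⟩, hmin⟩ := Set.exists_min_image
    ((fun ξ : Fin m → Λ.ker => ∑ l, ‖(Φ τ (ξ l)).v‖) ''
      {ξ | (Matrix.of fun j l => E (ξ j) l).det ≠ 0}) id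
    (((Set.Finite.pi' fun _ : Fin m => hF).image fun v => ∑ l, v l).subset (by
      rintro _ ⟨ξ, hξ, rfl⟩
      exact ⟨fun l => ‖(Φ τ (ξ l)).v‖, fun l => hτ _ (ξ l).2 (hrow ξ hξ l), rfl⟩))
    ⟨_, ξ₀, hξ₀, rfl⟩
  refine ⟨fun j => ξ j, fun j => (ξ j).2, fun j h0 => hrow ξ hξ j ?_, hξ, ?_⟩
  · rw [show ((ξ j : Λ.ker) : Pt Γ) = 0 from h0, map_zero, map_zero]
  rintro S a t lam ρ hρ ⟨l₁, hl₁, hl₁'⟩
  by_contra hlt
  obtain ⟨l₀, hl₀, hmin'⟩ := (S.filter fun l => ¬ p ∣ lam l).exists_min_image a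
    ⟨l₁, Finset.mem_filter.2 ⟨hl₁, hl₁'⟩⟩
  obtain ⟨S', hS'⟩ : ∃ S', S' = S.filter fun l => ¬ p ∣ lam l := ⟨_, rfl⟩
  have hsum : ∑ l ∈ S, (lam l : C) * ((Φ (n * a l + t) (ξ l)).v : C) =
      ((∑ l ∈ S', (lam l : O C) * (Φ (n * a l + t) (ξ l)).v : O C) : C) := by
    push_cast
    rw [hS', Finset.sum_filter]
    refine Finset.sum_congr rfl fun l _ => ?_
    split_ifs with hd
    · rw [(CharP.cast_eq_zero_iff C p _).2 hd, zero_mul]
    · rfl
  have hl₀' := Finset.mem_filter.1 hl₀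
  have hρ' : ∀ l ∈ S', ‖(Φ (n * a l + t) (ξ l)).v‖ = ρ := fun l hl =>
    hρ l (Finset.mem_filter.1 (hS' ▸ hl)).1
  rw [← hS'] at hl₀ hmin'
  have hsmall := do_small S' (fun l => Φ (n * a l + t) (ξ l)) lam
    (hρ' l₀ hl₀ ▸ Pt.norm_lt_one _) hρ' (by
      have := not_le.1 hlt
      rwa [hsum] at this)
  obtain ⟨η, hη⟩ : ∃ η : Λ.ker, η = ∑ l ∈ S', (lam l * p ^ (a l - a l₀).toNat) • ξ l := ⟨_, rfl⟩
  have e1 : Φ (n * a l₀ + t) η = ∑ l ∈ S', lam l • Φ (n * a l + t) (ξ l) := by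
    rw [hη, AddSubgroup.val_finsetSum, map_sum]
    refine Finset.sum_congr rfl fun l hl => ?_
    rw [AddSubgroup.coe_nsmul, mul_smul, map_nsmul, ← hΦ.mul_nat hN.pser, ← hΦ.add,
      Int.toNat_of_nonneg (sub_nonneg.2 (hmin' l hl))]
    congr 2
    ring
  have hlt' : ‖(Φ τ η).v‖ < ‖(Φ τ (ξ l₀)).v‖ := by
    rw [← not_le, hΦ.norm_le_iff, ← hΦ.norm_le_iff (n * a l₀ + t), e1, hρ' l₀ hl₀, not_le]
    exact hsmall
  have e2 : (Matrix.of fun j l => E (Function.update ξ l₀ η j) l) =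
      (Matrix.of fun j l => E (ξ j) l).updateRow l₀
        (∑ k, (if k ∈ S' then ((lam k * p ^ (a k - a l₀).toNat : ℕ) : C) else 0) •
          (Matrix.of fun j l => E (ξ j) l) k) := by
    ext j l
    by_cases hj : j = l₀
    · subst hj
      rw [Matrix.updateRow_self, Matrix.of_apply, Function.update_self, hη, map_sum]
      simp only [ite_smul, zero_smul]
      rw [Finset.sum_ite_mem, Finset.univ_inter]
      refine congrFun (Finset.sum_congr rfl fun k _ => ?_) l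
      rw [map_nsmul, Nat.cast_smul_eq_nsmul]
      rfl
    · rw [Matrix.updateRow_ne hj, Matrix.of_apply, Matrix.of_apply, Function.update_of_ne hj]
  have hdet : (Matrix.of fun j l => E (Function.update ξ l₀ η j) l).det ≠ 0 := by
    rw [e2, Matrix.det_updateRow_sum, if_pos hl₀, sub_self, Int.toNat_zero, pow_zero, mul_one]
    exact mul_ne_zero (fun h0 => hl₀'.2 ((CharP.cast_eq_zero_iff C p _).1 h0)) hξ
  refine (hmin _ ⟨_, hdet, rfl⟩).not_gt (Finset.sum_lt_sum (fun l _ => ?_)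
    ⟨l₀, Finset.mem_univ _, by rwa [Function.update_self]⟩)
  by_cases hl : l = l₀
  · subst hl
    rw [Function.update_self]
    exact hlt'.le
  · rw [Function.update_of_ne hl]

end Vale.Agent.P217.D
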