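import Vale.Agent.P217.DHeight
import Vale.Agent.P217.DConj

/-!
# P217: an integral isogeny to a group whose `p`-series is a monomial
-/

set_option linter.unusedSectionVars false

noncomputable section

namespace Vale.Agent.P217.D

variable {C : Type} [NontriviallyNormedField C] [IsUltrametricDist C] [CompleteSpace C]
  [IsAlgClosed C] {p : ℕ} [Fact p.Prime] [CharP C p]

open PowerSeries

lemma dpsi_rec {α : Type} [Zero α] (F : ℕ → (ℕ → α) → α)
    (hF : ∀ j f g, (∀ i < j, f i = g i) → F j f = F j g) : ∃ f : ℕ → α, ∀ j, f j = F j f := by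
  refine ⟨fun j => Nat.strongRec (fun j ih => F j fun i => if h : i < j then ih i h else 0) j,
    fun j => ?_⟩
  exact (Nat.strongRec_eq _ _).trans (hF _ _ _ fun i hi => dif_pos hi)

lemma dpsi_root {Q : ℕ} (hQ : 1 < Q) (a b : O C) :
    ∃ x : O C, x ^ Q = a * x + b ∧ (b = 0 → a ≠ 0 → x ≠ 0) := by
  have key : ∀ x : C, x ^ Q = a * x + b → ‖x‖ ≤ 1 := fun x hx => by
    by_contra h
    push Not at h
    have h1 := pow_lt_pow_right₀ h hQ
    rw [pow_one, ← norm_pow, hx] at h1
    refine absurd h1 (not_lt.2 ((IsUltrametricDist.norm_add_le_max _ _).trans (max_le ?_ ?_)))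
    · rw [norm_mul]
      exact mul_le_of_le_one_left (norm_nonneg _) a.2
    · exact b.2.trans h.le
  by_cases hb : b = 0
  · obtain ⟨x, hx⟩ := IsAlgClosed.exists_pow_nat_eq (a : C) (n := Q - 1) (by omega)
    have h1 : x ^ Q = a * x + b := by
      rw [hb, ← hx, ← pow_succ, Nat.sub_add_cancel hQ.le]
      simp
    refine ⟨⟨x, key x h1⟩, Subtype.ext h1, fun _ ha h0 => ha (Subtype.ext ?_)⟩
    have h2 : x = 0 := congrArg Subtype.val h0
    rw [← hx, h2, zero_pow (by omega)]
    rfl
  · have hd : (Polynomial.C (a : C) * Polynomial.X + Polynomial.C (b : C)).degree <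
        (Polynomial.X ^ Q : Polynomial C).degree := by
      rw [Polynomial.degree_X_pow]
      exact Polynomial.degree_linear_le.trans_lt (by exact_mod_cast hQ)
    obtain ⟨x, hx⟩ := IsAlgClosed.exists_root
      (Polynomial.X ^ Q - (Polynomial.C (a : C) * Polynomial.X + Polynomial.C (b : C))) (by
        rw [Polynomial.degree_sub_eq_left_of_degree_lt hd, Polynomial.degree_X_pow]
        exact_mod_cast (zero_lt_one.trans hQ).ne')
    have h1 : x ^ Q = a * x + b := by simpa [sub_eq_zero] using hx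
    exact ⟨⟨x, key x h1⟩, Subtype.ext h1, fun h0 => absurd h0 hb⟩

lemma exists_psi_series {h : ℕ} (hh : 1 ≤ h) (V : PowerSeries (O C)) (hV0 : coeff 0 V = 0)
    (hV1 : coeff 1 V ≠ 0) :
    ∃ ψ : PowerSeries (O C), constantCoeff ψ = 0 ∧ coeff 1 ψ ≠ 0 ∧
      ψ.subst V = PowerSeries.map (iterateFrobenius (O C) p h) ψ := by
  have hQ : 1 < p ^ h := Nat.one_lt_pow (by omega) (Fact.out : p.Prime).one_lt
  rw [coeff_zero_eq_constantCoeff_apply] at hV0
  obtain ⟨W, rfl⟩ := X_dvd_iff.2 hV0
  rw [show (1 : ℕ) = 0 + 1 from rfl, coeff_succ_X_mul, coeff_zero_eq_constantCoeff_apply] at hV1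
  choose ρ hρ hρ0 using dpsi_root (C := C) hQ
  obtain ⟨f, hf⟩ := dpsi_rec (fun j (f : ℕ → O C) => if j = 0 then 0 else
      ρ (constantCoeff W ^ j) (∑ i ∈ Finset.range j, f i * coeff j ((X * W) ^ i)))
    (fun j f g hfg => by
      rw [Finset.sum_congr rfl fun i hi => by rw [hfg i (Finset.mem_range.1 hi)]])
  have f0 : f 0 = 0 := by rw [hf, if_pos rfl]
  refine ⟨PowerSeries.mk f, by simpa using f0, ?_, ?_⟩
  · rw [coeff_mk, hf, if_neg one_ne_zero, Finset.sum_range_one, f0, zero_mul, pow_one]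
    exact hρ0 _ _ rfl hV1
  · ext1 j
    rw [coeff_subst' (hs1 hV0), coeff_map, coeff_mk, iterateFrobenius_def,
      finsum_eq_sum_of_support_subset (s := Finset.range (j + 1)) _ fun i hi => by
        by_contra hj
        refine hi ?_
        rw [Finset.coe_range, Set.mem_Iio] at hj
        simp only [mul_pow, coeff_X_pow_mul', if_neg (by omega : ¬ i ≤ j), smul_zero]]
    simp only [coeff_mk, smul_eq_mul]
    rw [Finset.sum_range_succ, mul_pow X W j, coeff_X_pow_mul', if_pos le_rfl, Nat.sub_self,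
      coeff_zero_eq_constantCoeff_apply, map_pow]
    rcases eq_or_ne j 0 with rfl | hj
    · rw [f0, zero_pow (by omega), zero_mul, Finset.sum_range_zero, add_zero]
    · have h1 := hρ (constantCoeff W ^ j) (∑ i ∈ Finset.range j, f i * coeff j ((X * W) ^ i))
      have h2 := hf j
      rw [if_neg hj] at h2
      rw [← h2] at h1
      rw [h1]
      ring

theorem exists_psi {G : FormalGroup (O C)} [G.IsComm] {h : ℕ} (hh : 1 ≤ h)
    (hlow : ∀ j < p ^ h, coeff j (mulSeries G p) = 0) (ha : coeff (p ^ h) (mulSeries G p) ≠ 0) :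
    ∃ (Γ' : FormalGroup (O C)) (ψ : PowerSeries (O C)), Γ'.IsComm ∧ IsHom G Γ' ψ ∧
      coeff 1 ψ ≠ 0 ∧ mulSeries Γ' p = X ^ p ^ h := by
  have hQ : 1 < p ^ h := Nat.one_lt_pow (by omega) (Fact.out : p.Prime).one_lt
  have hQ0 : p ^ h ≠ 0 := by omega
  have hπ0 : constantCoeff (mulSeries G p) = 0 := c0_mulSeries p
  have hV0 : coeff 0 (contract (p ^ h) (mulSeries G p)) = 0 := by
    rw [coeff_contract, mul_zero, coeff_zero_eq_constantCoeff_apply, hπ0]
  obtain ⟨ψ, h0, h1, h2⟩ := exists_psi_series (p := p) hh (contract (p ^ h) (mulSeries G p)) hV0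
    (by rwa [coeff_contract, mul_one])
  have hX : constantCoeff (X ^ p ^ h : PowerSeries (O C)) = 0 := by
    rw [map_pow, constantCoeff_X, zero_pow hQ0]
  have h3 : ψ.subst (mulSeries G p) = ψ ^ p ^ h := by
    have h4 := subst_contract hQ0 (mulSeries G p) fun i hi => by
      have := coeff_mulSeries_pow_eq_zero hlow 1 i (by rwa [pow_one])
      rwa [pow_one] at this
    rw [← subst_X_pow_frob, ← h2, psubst_psubst hX (by rwa [← coeff_zero_eq_constantCoeff_apply]),
      h4]
  have hι : Function.Injective (O C).subtype := Subtype.val_injective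
  have g0 : constantCoeff (PowerSeries.map (O C).subtype ψ) = 0 := c0_map _ h0
  have g1 : IsUnit (coeff 1 (PowerSeries.map (O C).subtype ψ)) := by
    rw [coeff_map]
    exact Ne.isUnit fun h5 => h1 (hι (h5.trans (map_zero _).symm))
  obtain ⟨Γ, hΓ, hhom⟩ := exists_conj (G.map (O C).subtype) (isComm_map inferInstance _) _ g0 g1
  have h5 : mulSeries Γ p = X ^ p ^ h := by
    refine eq_of_subst_eq g0 g1 ?_
    have h6 := hhom.nmul p (a := (X : PowerSeries C)) constantCoeff_X
    rw [nmul_X, X_subst, ← map_mulSeries] at h6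
    have h7 := map_psubst (O C).subtype hπ0 ψ
    rw [h3, map_pow] at h7
    rw [dc_subst_X_pow _ g0]
    exact h6.symm.trans h7.symm
  obtain ⟨Γ', rfl⟩ := exists_lift (O C).subtype hι Γ fun d => by
    have h6 := coeff_pow_eq_of_isHom (p := p) (h := h) (h5 ▸ isHom_mulSeries hΓ p) d
    refine ⟨⟨MvPowerSeries.coeff d Γ.toPowerSeries, mem_O.2 ?_⟩, rfl⟩
    by_contra h7
    have h8 := pow_lt_pow_right₀ (not_le.1 h7) hQ
    rw [pow_one, ← norm_pow, h6] at h8
    exact lt_irrefl _ h8
  refine ⟨Γ', ψ, isComm_of_map _ hι hΓ, isHom_of_map _ hι hhom, h1, map_injective _ hι ?_⟩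
  rw [map_mulSeries, h5, map_pow, map_X]

end Vale.Agent.P217.D
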