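import Vale.Agent.P217.DAn

/-!
# P217: Frobenius descent of asymptotic relations
-/

set_option linter.unusedSectionVars false

noncomputable section

namespace Vale.Agent.P217.D

open MvPowerSeries

variable {C : Type} [NontriviallyNormedField C] [IsUltrametricDist C] [CompleteSpace C]
variable {p : ℕ} [Fact p.Prime] [CharP C p] {σ : Type*} [Fintype σ]

/-- asymptotic smallness of a polynomial along the `Q ^ N` powers of a point -/
def DdG (Q : ℕ) (y : σ → C) (b : ℝ) (F : MvPolynomial σ C) : Prop :=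
  ∃ K : ℝ, ∃ N0 : ℕ, ∀ N, N0 ≤ N →
    ‖MvPolynomial.eval (fun s => y s ^ Q ^ N) F‖ ≤ K * b ^ Q ^ N

lemma DdG.sub {Q : ℕ} {y : σ → C} {b : ℝ} {F G : MvPolynomial σ C} (hF : DdG Q y b F)
    (hG : DdG Q y b G) : DdG Q y b (F - G) := by
  obtain ⟨K, N0, hK⟩ := hF
  obtain ⟨K', N1, hK'⟩ := hG
  refine ⟨K + K', max N0 N1, fun N hN => ?_⟩
  rw [map_sub, add_mul]
  exact (norm_sub_le _ _).trans
    (add_le_add (hK N (le_of_max_le_left hN)) (hK' N (le_of_max_le_right hN)))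

lemma DdG.C_mul {Q : ℕ} {y : σ → C} {b : ℝ} {F : MvPolynomial σ C} (hF : DdG Q y b F) (c : C) :
    DdG Q y b (MvPolynomial.C c * F) := by
  obtain ⟨K, N0, hK⟩ := hF
  refine ⟨‖c‖ * K, N0, fun N hN => ?_⟩
  rw [map_mul, MvPolynomial.eval_C, norm_mul, mul_assoc]
  exact mul_le_mul_of_nonneg_left (hK N hN) (norm_nonneg _)

lemma dd_eval_twist (h : ℕ) (z : σ → C) (F : MvPolynomial σ C) :
    MvPolynomial.eval (fun s => z s ^ p ^ h) (MvPolynomial.map (iterateFrobenius C p h) F)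
      = MvPolynomial.eval z F ^ p ^ h :=
  (MvPolynomial.map_eval (iterateFrobenius C p h) z F).symm

lemma DdG.twist {h : ℕ} {y : σ → C} {b : ℝ} {F : MvPolynomial σ C} (hF : DdG (p ^ h) y b F) :
    DdG (p ^ h) y b (MvPolynomial.map (iterateFrobenius C p h) F) := by
  obtain ⟨K, N0, hK⟩ := hF
  refine ⟨K ^ p ^ h, N0 + 1, fun N hN => ?_⟩
  obtain ⟨N, rfl⟩ : ∃ N', N = N' + 1 := ⟨N - 1, by omega⟩
  simp only [pow_succ (p ^ h) N, pow_mul]
  rw [dd_eval_twist h (fun s => y s ^ (p ^ h) ^ N), norm_pow, ← mul_pow]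
  exact pow_le_pow_left₀ (norm_nonneg _) (hK N (by omega)) _

lemma DdG.le_of_fixed {h : ℕ} (hh : 1 ≤ h) {y : σ → C} {b : ℝ} (hb : 0 ≤ b)
    {F : MvPolynomial σ C} (hF : DdG (p ^ h) y b F)
    (hfix : MvPolynomial.map (iterateFrobenius C p h) F = F) : ‖MvPolynomial.eval y F‖ ≤ b := by
  obtain ⟨K, N0, hK⟩ := hF
  have key : ∀ N, MvPolynomial.eval (fun s => y s ^ (p ^ h) ^ N) F
      = MvPolynomial.eval y F ^ (p ^ h) ^ N := by
    intro N
    induction N with
    | zero => simp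
    | succ N ih =>
      simp only [pow_succ (p ^ h) N, pow_mul]
      rw [← ih, ← dd_eval_twist h (fun s => y s ^ (p ^ h) ^ N), hfix]
  by_contra hlt
  push Not at hlt
  set a := ‖MvPolynomial.eval y F‖ with ha
  have ha0 : 0 < a := hb.trans_lt hlt
  have hQ : 1 < p ^ h := Nat.one_lt_pow (by omega) (Fact.out : p.Prime).one_lt
  have t1 : Filter.Tendsto (fun m : ℕ => K * (b / a) ^ m) Filter.atTop (nhds (K * 0)) :=
    (tendsto_pow_atTop_nhds_zero_of_lt_one (div_nonneg hb ha0.le)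
      ((div_lt_one ha0).2 hlt)).const_mul K
  rw [mul_zero] at t1
  have t2 := t1.comp (tendsto_pow_atTop_atTop_of_one_lt hQ)
  obtain ⟨N, hN1, hN2⟩ := ((t2.eventually (gt_mem_nhds one_pos)).and
    (Filter.eventually_ge_atTop N0)).exists
  have h1 := hK N hN2
  rw [key, norm_pow, ← ha] at h1
  have h2 : K * (b / a) ^ (p ^ h) ^ N < 1 := hN1
  rw [div_pow, ← mul_div_assoc, div_lt_one (pow_pos ha0 _)] at h2
  exact absurd h1 (not_le.2 h2)

lemma dd_exists_fixed {h : ℕ} {ι : Type*} (y : ι → σ → C) (b : ι → ℝ) (β : σ →₀ ℕ) (n : ℕ) :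
    ∀ F : MvPolynomial σ C, F.support.card = n → F.coeff β = 1 →
      (∀ i, DdG (p ^ h) (y i) (b i) F) →
      ∃ F' : MvPolynomial σ C, F'.coeff β = 1 ∧
        MvPolynomial.map (iterateFrobenius C p h) F' = F' ∧ ∀ i, DdG (p ^ h) (y i) (b i) F' := by
  classical
  induction n using Nat.strong_induction_on with
  | _ n ih =>
    intro F hn hβ hF
    by_cases hfix : MvPolynomial.map (iterateFrobenius C p h) F = F
    · exact ⟨F, hβ, hfix, hF⟩
    set H := F - MvPolynomial.map (iterateFrobenius C p h) F with hH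
    have hH0 : H ≠ 0 := fun h0 => hfix (sub_eq_zero.1 h0).symm
    obtain ⟨γ, hγ⟩ := MvPolynomial.exists_coeff_ne_zero hH0
    have hHc : ∀ α, H.coeff α = F.coeff α - iterateFrobenius C p h (F.coeff α) := fun α => by
      rw [hH, MvPolynomial.coeff_sub, MvPolynomial.coeff_map]
    have hγF : γ ∈ F.support := by
      rw [MvPolynomial.mem_support_iff]
      intro h0
      apply hγ
      rw [hHc, h0, map_zero, sub_zero]
    refine ih _ ?_ (F - MvPolynomial.C (F.coeff γ / H.coeff γ) * H) rfl ?_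
      (fun i => (hF i).sub (((hF i).sub (hF i).twist).C_mul _))
    · rw [← hn]
      refine lt_of_le_of_lt (Finset.card_le_card ?_) (Finset.card_erase_lt_of_mem hγF)
      intro α hα
      rw [MvPolynomial.mem_support_iff, MvPolynomial.coeff_sub, MvPolynomial.coeff_C_mul] at hα
      rw [Finset.mem_erase, MvPolynomial.mem_support_iff]
      constructor
      · rintro rfl
        apply hα
        rw [div_mul_cancel₀ _ hγ, sub_self]
      · intro h0
        apply hα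
        rw [hHc α, h0, map_zero, sub_zero, mul_zero, sub_zero]
    · rw [MvPolynomial.coeff_sub, MvPolynomial.coeff_C_mul, hHc β, hβ, map_one, sub_self, mul_zero,
        sub_zero]

/-- One polynomial: descent to coefficients fixed by the `p ^ h` power map. -/
theorem desc_poly {h : ℕ} (hh : 1 ≤ h) {ι : Type*} (y : ι → σ → C) (b : ι → ℝ)
    (hb : ∀ i, 0 ≤ b i) (F : MvPolynomial σ C) (β : σ →₀ ℕ) (hβ : F.coeff β ≠ 0)
    (H : ∀ i, ∃ K : ℝ, ∀ N, 1 ≤ N →
      ‖MvPolynomial.eval (fun s => y i s ^ (p ^ h) ^ N) F‖ ≤ K * b i ^ (p ^ h) ^ N) :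
    ∃ F' : MvPolynomial σ C, F'.coeff β = 1 ∧ (∀ α, F'.coeff α ^ p ^ h = F'.coeff α) ∧
      ∀ i, ‖MvPolynomial.eval (y i) F'‖ ≤ b i := by
  have hG : ∀ i, DdG (p ^ h) (y i) (b i) F := fun i => by
    obtain ⟨K, hK⟩ := H i
    exact ⟨K, 1, hK⟩
  obtain ⟨F', h1, h2, h3⟩ := dd_exists_fixed (p := p) (h := h) y b β _
    (MvPolynomial.C (F.coeff β)⁻¹ * F) rfl
    (by rw [MvPolynomial.coeff_C_mul, inv_mul_cancel₀ hβ]) (fun i => (hG i).C_mul _)
  refine ⟨F', h1, fun α => ?_, fun i => (h3 i).le_of_fixed hh (hb i) h2⟩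
  have := congrArg (MvPolynomial.coeff α) h2
  rwa [MvPolynomial.coeff_map, iterateFrobenius_def] at this

lemma dd_finite {Q : ℕ} (hQ : 1 < Q) : {c : C | c ^ Q = c}.Finite := by
  have h0 : (Polynomial.X ^ Q - Polynomial.X : Polynomial C) ≠ 0 := by
    intro h
    have := congrArg (fun P : Polynomial C => P.coeff Q) h
    simp [Polynomial.coeff_X, hQ.ne] at this
  refine (Polynomial.finite_setOfPred_isRoot h0).subset fun c hc => ?_
  simpa [sub_eq_zero] using hc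

lemma dd_norm_le {Q : ℕ} (hQ : 1 < Q) {c : C} (hc : c ^ Q = c) : ‖c‖ ≤ 1 := by
  by_contra h
  push Not at h
  have h1 := pow_lt_pow_right₀ h hQ
  rw [pow_one, ← norm_pow, hc] at h1
  exact lt_irrefl _ h1

lemma dd_eval_map (y : σ → M C) (G : MvPolynomial σ (O C)) :
    MvPolynomial.eval (fun s => ((y s : O C) : C)) (MvPolynomial.map (O C).subtype G)
      = ((MvPolynomial.eval (fun s => (y s : O C)) G : O C) : C) :=
  (MvPolynomial.map_eval (O C).subtype (fun s => (y s : O C)) G).symm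

theorem desc {h : ℕ} (hh : 1 ≤ h) (Y : Set (σ → M C)) (r : (σ → M C) → ℝ)
    (hr0 : ∀ y ∈ Y, 0 ≤ r y) (hr1 : ∀ y ∈ Y, r y < 1) (S : Finset (σ →₀ ℕ))
    (H : ∀ D : ℕ, ∃ F : MvPolynomial σ C, (∃ β ∈ S, F.coeff β ≠ 0) ∧ ∀ y ∈ Y, ∃ K : ℝ,
      ∀ N, 1 ≤ N → ‖MvPolynomial.eval (fun s => ((y s : O C) : C) ^ (p ^ h) ^ N) F‖ ≤
        K * r y ^ (D * (p ^ h) ^ N)) :
    ∃ P : MvPowerSeries σ (O C), (∃ β ∈ S, coeff β P = 1) ∧ ∀ y ∈ Y, ev y P = 0 := by
  classical
  have hQ : 1 < p ^ h := Nat.one_lt_pow (by omega) (Fact.out : p.Prime).one_lt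
  have H' : ∀ D : ℕ, ∃ F : MvPolynomial σ C, ∃ β ∈ S, F.coeff β = 1 ∧
      (∀ α, F.coeff α ^ p ^ h = F.coeff α) ∧
      ∀ y ∈ Y, ‖MvPolynomial.eval (fun s => ((y s : O C) : C)) F‖ ≤ r y ^ D := by
    intro D
    obtain ⟨F, ⟨β, hβS, hβ⟩, hF⟩ := H D
    obtain ⟨F', h1, h2, h3⟩ := desc_poly (p := p) hh (ι := Y)
      (fun y s => ((y.1 s : O C) : C)) (fun y => r y.1 ^ D)
      (fun y => pow_nonneg (hr0 y.1 y.2) D) F β hβ (fun y => by
        obtain ⟨K, hK⟩ := hF y.1 y.2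
        exact ⟨K, fun N hN => by rw [← pow_mul (r y.1)]; exact hK N hN⟩)
    exact ⟨F', β, hβS, h1, h2, fun y hy => h3 ⟨y, hy⟩⟩
  choose F β hβS hβ hfix hF using H'
  let U : Ultrafilter ℕ := Ultrafilter.of Filter.atTop
  have hU : (U : Filter ℕ) ≤ Filter.atTop := Ultrafilter.of_le _
  have hc : ∀ α, ∃ c ∈ {c : C | c ^ p ^ h = c}, ∀ᶠ D in (U : Filter ℕ), (F D).coeff α = c :=
    fun α => (Ultrafilter.eventually_exists_mem_iff (dd_finite hQ)).1
      (Filter.Eventually.of_forall fun D => ⟨_, hfix D α, rfl⟩)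
  choose c hc1 hc2 using hc
  obtain ⟨β0, hβ0, hβ0'⟩ : ∃ β0 ∈ (S : Set (σ →₀ ℕ)), ∀ᶠ D in (U : Filter ℕ), β D = β0 :=
    (Ultrafilter.eventually_exists_mem_iff S.finite_toSet).1
      (Filter.Eventually.of_forall fun D => ⟨_, hβS D, rfl⟩)
  let P : MvPowerSeries σ (O C) := fun α => ⟨c α, mem_O.2 (dd_norm_le hQ (hc1 α))⟩
  have hP : ∀ α, ((coeff α P : O C) : C) = c α := fun _ => rfl
  refine ⟨P, ⟨β0, hβ0, ?_⟩, fun y hy => ?_⟩
  · obtain ⟨D, h1, h2⟩ := (hβ0'.and (hc2 β0)).exists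
    apply Subtype.ext
    rw [hP, ← h2, ← h1, hβ]
    rfl
  · have key : ∀ j : ℕ, ‖ev y P‖ ≤ ‖y‖ ^ j + r y ^ j := by
      intro j
      have e1 : ∀ᶠ D in (U : Filter ℕ), ∀ α ∈ {α : σ →₀ ℕ | α.degree < j}, (F D).coeff α = c α :=
        (Filter.eventually_all_finite (Finsupp.finite_of_degree_lt j)).2 fun α _ => hc2 α
      obtain ⟨D, h1, h2⟩ := (e1.and (hU (Filter.eventually_ge_atTop j))).exists
      obtain ⟨G, hG⟩ : F D ∈ Set.range (MvPolynomial.map (σ := σ) (O C).subtype) := by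
        rw [MvPolynomial.mem_range_map_iff_coeffs_subset]
        intro x hx
        obtain ⟨α, -, rfl⟩ := MvPolynomial.mem_coeffs_iff.1 hx
        exact ⟨⟨_, mem_O.2 (dd_norm_le hQ (hfix D α))⟩, rfl⟩
      have h3 : ‖ev y (P - G)‖ ≤ ‖y‖ ^ j := by
        refine norm_ev_le_pow y _ (norm_nonneg _) (M.pi_norm_lt_one _).le (norm_le_pi_norm y)
          fun d hd => ?_
        rw [map_sub, MvPolynomial.coeff_coe, sub_eq_zero]
        apply Subtype.ext
        rw [hP, ← h1 d hd, ← hG, MvPolynomial.coeff_map]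
        rfl
      have h4 : ‖ev y (G : MvPowerSeries σ (O C))‖ ≤ r y ^ j := by
        rw [ev_coe, ← O.norm_coe, ← dd_eval_map, hG]
        exact (hF D y hy).trans (pow_le_pow_of_le_one (hr0 y hy) (hr1 y hy).le h2)
      have e2 : ev y P = ev y (P - G) + ev y (G : MvPowerSeries σ (O C)) := by
        rw [← map_add, sub_add_cancel]
      rw [e2]
      exact (norm_add_le _ _).trans (add_le_add h3 h4)
    have t := (tendsto_pow_atTop_nhds_zero_of_lt_one (norm_nonneg y) (M.pi_norm_lt_one y)).add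
      (tendsto_pow_atTop_nhds_zero_of_lt_one (hr0 y hy) (hr1 y hy))
    rw [add_zero] at t
    exact norm_le_zero_iff.1 (ge_of_tendsto' t key)

/-- Descent for a series vanishing on a Frobenius stable set. -/
theorem desc_series {h : ℕ} (hh : 1 ≤ h) (Y : Set (σ → M C))
    (hY : ∀ y ∈ Y, ∃ y' ∈ Y, ∀ s, (y' s : O C) = (y s : O C) ^ p ^ h)
    (P : MvPowerSeries σ (O C)) (hP : ∀ y ∈ Y, ev y P = 0) (β : σ →₀ ℕ) (hβ : coeff β P ≠ 0) :
    ∃ P' : MvPowerSeries σ (O C), coeff β P' = 1 ∧ ∀ y ∈ Y, ev y P' = 0 := by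
  have hit : ∀ y ∈ Y, ∀ N : ℕ, ∃ y' ∈ Y, ∀ s, (y' s : O C) = (y s : O C) ^ (p ^ h) ^ N := by
    intro y hy N
    induction N with
    | zero => exact ⟨y, hy, fun s => by simp⟩
    | succ N ih =>
      obtain ⟨y1, hy1, e1⟩ := ih
      obtain ⟨y2, hy2, e2⟩ := hY y1 hy1
      exact ⟨y2, hy2, fun s => by rw [e2, e1, ← pow_mul, ← pow_succ]⟩
  obtain ⟨P', ⟨β', hβ', h1⟩, h2⟩ := desc (p := p) hh Y (fun y => ‖y‖) (fun y _ => norm_nonneg y)
    (fun y _ => M.pi_norm_lt_one y) {β} (fun D => by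
      refine ⟨MvPolynomial.map (O C).subtype (truncTotal (max D (β.degree + 1)) P),
        ⟨β, Finset.mem_singleton_self β, ?_⟩, fun y hy => ⟨1, fun N _ => ?_⟩⟩
      · rw [MvPolynomial.coeff_map, coeff_truncTotal _ (by omega)]
        intro h0
        exact hβ (Subtype.ext h0)
      · obtain ⟨y', hy', e⟩ := hit y hy N
        have e' : (fun s => ((y s : O C) : C) ^ (p ^ h) ^ N) = fun s => ((y' s : O C) : C) := by
          funext s
          rw [e]
          rfl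
        have h3 := norm_ev_sub_trunc y' P (max D (β.degree + 1))
        rw [hP y' hy', zero_sub, norm_neg] at h3
        rw [e', dd_eval_map, O.norm_coe, one_mul]
        refine h3.trans ?_
        have h4 : ‖y'‖ ≤ ‖y‖ ^ (p ^ h) ^ N := by
          refine (pi_norm_le_iff_of_nonneg (by positivity)).2 fun s => ?_
          rw [← M.norm_coe, e, norm_pow, M.norm_coe]
          exact pow_le_pow_left₀ (norm_nonneg _) (norm_le_pi_norm y s) _
        calc ‖y'‖ ^ max D (β.degree + 1) ≤ ‖y'‖ ^ D :=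
              pow_le_pow_of_le_one (norm_nonneg _) (M.pi_norm_lt_one _).le (le_max_left _ _)
          _ ≤ (‖y‖ ^ (p ^ h) ^ N) ^ D := pow_le_pow_left₀ (norm_nonneg _) h4 _
          _ = _ := by rw [← pow_mul, mul_comm])
  rw [Finset.mem_singleton] at hβ'
  subst hβ'
  exact ⟨P', h1, h2⟩

end Vale.Agent.P217.D
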