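import Vale.Agent.P217.DPt
import Vale.Agent.P217.DDesc

/-!
# P217: a non dense submonoid satisfies a linear relation
-/

set_option linter.unusedSectionVars false

noncomputable section

namespace Vale.Agent.P217.D

variable {C : Type} [NontriviallyNormedField C] [IsUltrametricDist C] [CompleteSpace C]
  [IsAlgClosed C] {p : ℕ} [Fact p.Prime] [CharP C p]

open PowerSeries

variable {Γ' : FormalGroup (O C)} [Γ'.IsComm] {h : ℕ}

lemma sd_slice {m : ℕ} (x : Fin m → M C) (t : M C) (P : MvPowerSeries (Fin (m + 1)) (O C)) :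
    ev (Fin.cons t x : Fin (m + 1) → M C) P =
      ev1 t (PowerSeries.map (ev x).toRingHom (MvPowerSeries.finSuccEquiv (O C) m P)) := by
  rw [← ev_finSuccEquiv_symm, AlgEquiv.symm_apply_apply]

lemma sd_const {m : ℕ} (P : MvPowerSeries (Fin (m + 1)) (O C)) (j : ℕ) :
    MvPowerSeries.constantCoeff (coeff j (MvPowerSeries.finSuccEquiv (O C) m P)) =
      MvPowerSeries.coeff (Finsupp.single 0 j) P := by
  rw [← MvPowerSeries.coeff_zero_eq_constantCoeff_apply, MvPowerSeries.coeff_coeff_finSuccEquiv,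
    Finsupp.cons_zero_eq_single_zero]

lemma sd_mem {m : ℕ} {f : MvPowerSeries (Fin m) (O C)} :
    f ∈ Ideal.span (Set.range (MvPowerSeries.X : Fin m → MvPowerSeries (Fin m) (O C))) ↔
      MvPowerSeries.constantCoeff f = 0 := by
  constructor
  · intro hf
    refine (Ideal.span_le (I := RingHom.ker MvPowerSeries.constantCoeff)).2 ?_ hf
    rintro _ ⟨s, rfl⟩
    exact MvPowerSeries.constantCoeff_X s
  · intro hf
    have := mem_span_X_pow 1 f fun d hd => by
      rw [(Finsupp.degree_eq_zero_iff d).1 (Nat.lt_one_iff.1 hd)]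
      exact hf
    rwa [pow_one] at this

lemma sd_an_add {m : ℕ} (z : Pt Γ') (l : Fin m) :
    An fun x : Fin m → M C => ((z + (⟨x l⟩ : Pt Γ')).val : O C) :=
  an_add (a := fun _ => z) (b := fun x : Fin m → M C => (⟨x l⟩ : Pt Γ')) (An.const z.v)
    (An.coord l)

/-- Translating by a point of `Y` and restricting to the first axis. -/
lemma sd_axis {m : ℕ} (Y : AddSubmonoid (Fin (m + 1) → Pt Γ'))
    (P : MvPowerSeries (Fin (m + 1)) (O C)) (hP : ∀ y ∈ Y, ev (fun l => (y l).val) P = 0)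
    {y : Fin (m + 1) → Pt Γ'} (hy : y ∈ Y) (b : M C) :
    ∃ (P' : MvPowerSeries (Fin (m + 1)) (O C)) (t : M C) (f : PowerSeries (O C)),
      (∀ y ∈ Y, ev (fun l => (y l).val) P' = 0) ∧ ‖t‖ = ‖(b : O C) - (y 0).v‖ ∧
      (∀ j, coeff j f = MvPowerSeries.coeff (Finsupp.single 0 j) P') ∧
      ev (Fin.cons b fun l => (y l.succ).val : Fin (m + 1) → M C) P = ev1 t f := by
  obtain ⟨P', hP'⟩ := An.ev P fun l => sd_an_add (y l) l
  obtain ⟨t, ht⟩ := Pt.exists_add_eq (y 0) ⟨b⟩
  refine ⟨P', t.val, PowerSeries.map (ev (0 : Fin m → M C)).toRingHom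
    (MvPowerSeries.finSuccEquiv (O C) m P'), fun z hz => ?_, ?_, fun j => ?_, ?_⟩
  · rw [← hP']
    exact hP (y + z) (Y.add_mem hy hz)
  · have h1 := Pt.norm_add_left_sub (y 0) t 0
    rw [ht, add_zero, Pt.zero_v, sub_zero] at h1
    exact h1.symm
  · rw [coeff_map, ← sd_const]
    exact ev_zero _
  · rw [← sd_slice, ← hP']
    refine congrArg (fun x => ev x P) (funext fun l => ?_)
    refine Fin.cases ?_ (fun l => ?_) l
    · exact (congrArg Pt.val ht).symm
    · exact (congrArg Pt.val (add_zero (y l.succ))).symm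

lemma sd_poly (y0 : M C) {e : ℕ} (r : Polynomial (O C)) (hr : r.degree < e)
    (h : ∀ b : M C, ‖(b : O C) ^ e - r.eval (b : O C)‖ ≤ ‖(b : O C) - y0‖ ^ e) :
    r = Polynomial.X ^ e - (Polynomial.X - Polynomial.C (y0 : O C)) ^ e := by
  have h1 : Polynomial.taylor (y0 : O C) (Polynomial.X ^ e - r) = Polynomial.X ^ e := by
    ext1 i
    rw [Polynomial.coeff_X_pow]
    by_cases hi : i < e
    · rw [if_neg hi.ne, ← Polynomial.coeff_coe]
      refine ord1_of_growth _ (K := 1) one_pos (fun t _ => ?_) i hi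
      have h2 := h (t + y0)
      rw [ev1_coe, Polynomial.taylor_eval, Polynomial.eval_sub, Polynomial.eval_pow,
        Polynomial.eval_X, one_mul]
      rwa [Submodule.coe_add, add_sub_cancel_right] at h2
    · rw [map_sub, Polynomial.coeff_sub, Polynomial.taylor_X_pow, Polynomial.coeff_X_add_C_pow,
        Polynomial.coeff_eq_zero_of_degree_lt (by
          rw [Polynomial.degree_taylor]
          exact hr.trans_le (by exact_mod_cast not_lt.1 hi)), sub_zero]
      split_ifs with h3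
      · simp [h3]
      · rw [Nat.choose_eq_zero_of_lt (by omega), Nat.cast_zero, mul_zero]
  have h2 := congrArg (Polynomial.taylor (-(y0 : O C))) h1
  rw [Polynomial.taylor_taylor, neg_add_cancel, Polynomial.taylor_zero, Polynomial.taylor_X_pow,
    map_neg, ← sub_eq_add_neg] at h2
  rw [← h2, sub_sub_cancel]

/-- Weierstrass step: a series of minimal order along the first axis makes a power of the first
coordinate an analytic function of the others. -/
theorem stepD_weier {m : ℕ} (Y : AddSubmonoid (Fin (m + 1) → Pt Γ'))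
    (P : MvPowerSeries (Fin (m + 1)) (O C)) (e : ℕ)
    (hP : ∀ y ∈ Y, ev (fun l => (y l).val) P = 0)
    (hPe : MvPowerSeries.coeff (Finsupp.single 0 e) P = 1)
    (hmin : ∀ P' : MvPowerSeries (Fin (m + 1)) (O C), (∀ y ∈ Y, ev (fun l => (y l).val) P' = 0) →
      ∀ j < e, MvPowerSeries.coeff (Finsupp.single 0 j) P' = 0) :
    ∃ (s : ℕ) (E : MvPowerSeries (Fin m) (O C)),
      ∀ y ∈ Y, (y 0).v ^ p ^ s = ev (fun l => (y l.succ).val) E := by
  have he : e ≠ 0 := by
    rintro rfl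
    have h1 := hP 0 Y.zero_mem
    rw [show (fun l => ((0 : Fin (m + 1) → Pt Γ') l).val) = 0 from rfl, ev_zero] at h1
    rw [Finsupp.single_zero, MvPowerSeries.coeff_zero_eq_constantCoeff_apply, h1] at hPe
    exact zero_ne_one hPe
  set K := MvPowerSeries.finSuccEquiv (O C) m P with hK
  set I := Ideal.span (Set.range (MvPowerSeries.X : Fin m → MvPowerSeries (Fin m) (O C))) with hI
  have hord : (K.map (Ideal.Quotient.mk I)).order = e := by
    refine order_eq_nat.2 ⟨?_, fun i hi => ?_⟩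
    · rw [coeff_map, Ne, Ideal.Quotient.eq_zero_iff_mem, sd_mem, sd_const, hPe]
      exact one_ne_zero
    · rw [coeff_map, Ideal.Quotient.eq_zero_iff_mem, sd_mem, sd_const]
      exact hmin P hP i hi
  have H : K.IsWeierstrassDivisorAt I := by
    rw [IsWeierstrassDivisorAt, hord, ENat.toNat_natCast, MvPowerSeries.isUnit_iff_constantCoeff,
      sd_const, hPe]
    exact isUnit_one
  obtain ⟨h1, h2⟩ := H.isWeierstrassDivisionAt_div_mod (X ^ e)
  rw [hord, ENat.toNat_natCast] at h1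
  obtain ⟨s, e', he', rfl⟩ := Nat.exists_eq_pow_mul_and_not_dvd he p (Fact.out : p.Prime).ne_one
  obtain ⟨u, hu⟩ := ((CharP.isUnit_natCast_iff (R := O C) Fact.out).2 he').exists_left_inv
  refine ⟨s, MvPowerSeries.C u * (H.mod (X ^ (p ^ s * e'))).coeff ((e' - 1) * p ^ s),
    fun y hy => ?_⟩
  set φ := (ev fun l : Fin m => (y l.succ).val).toRingHom with hφ
  have h3 := sd_poly (y 0).val ((H.mod (X ^ (p ^ s * e'))).map φ)
    (Polynomial.degree_map_le.trans_lt h1) fun b => by
      obtain ⟨P', t, f, a1, a2, a3, a4⟩ := sd_axis Y P hP hy b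
      have a5 := congrArg (fun g => ev1 b (PowerSeries.map φ g)) h2
      simp only [map_pow, map_X, ev1_X, map_add, map_mul] at a5
      rw [← sd_slice, a4, ← Polynomial.polynomial_map_coe, ev1_coe] at a5
      rw [a5, add_sub_cancel_right, norm_mul, ← a2]
      exact (mul_le_of_le_one_right (norm_nonneg _) (O.norm_le_one _)).trans
        (norm_ev1_le_pow t f fun i hi => (a3 i).trans (hmin P' a1 i hi))
  have hp0 : 0 < p ^ s := pow_pos (Fact.out : p.Prime).pos s
  have he0 : 0 < e' := Nat.pos_of_ne_zero fun h => he' (h ▸ dvd_zero p)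
  have h4 := congrArg (fun g => g.coeff ((e' - 1) * p ^ s)) h3
  have h5 : (Polynomial.X - Polynomial.C ((y 0).val : O C)) ^ (p ^ s * e') =
      Polynomial.expand (O C) (p ^ s)
        ((Polynomial.X + Polynomial.C (-((y 0).val : O C) ^ p ^ s)) ^ e') := by
    rw [pow_mul, sub_pow_char_pow, map_pow, map_add, Polynomial.expand_X, Polynomial.expand_C,
      map_neg, map_pow, sub_eq_add_neg]
  simp only [Polynomial.coeff_map, Polynomial.coeff_sub, Polynomial.coeff_X_pow] at h4
  rw [h5, Polynomial.coeff_expand_mul hp0, Polynomial.coeff_X_add_C_pow, if_neg (by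
    rw [mul_comm]
    exact fun h => absurd (Nat.eq_of_mul_eq_mul_left hp0 h) (by omega)),
    show e' - (e' - 1) = 1 by omega, pow_one, Nat.choose_symm he0, Nat.choose_one_right] at h4
  rw [map_mul, ev_C]
  change _ = u * φ _
  rw [h4]
  linear_combination (-(y 0).v ^ p ^ s) * hu

/-- The dense case: the relation is additive. -/
lemma sd_dense {m : ℕ} (Y : AddSubmonoid (Fin (m + 1) → Pt Γ'))
    (hd : ∀ φ : (Fin m → M C) → O C, An φ → (∀ y ∈ Y, φ (fun l => (y l.succ).val) = 0) →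
      ∀ x, φ x = 0) (n : ℕ) (E : MvPowerSeries (Fin m) (O C))
    (hE : ∀ y ∈ Y, (n • y 0).v = ev (fun l => (y l.succ).val) E) :
    ∃ F : (Fin m → Pt Γ') →+ Pt Γ', (∀ x, (F x).v = ev (fun l => (x l).val) E) ∧
      ∀ y ∈ Y, n • y 0 = F fun l => y l.succ := by
  have h0 : MvPowerSeries.constantCoeff E = 0 := by
    have h1 := hE 0 Y.zero_mem
    rw [show (fun l : Fin m => ((0 : Fin (m + 1) → Pt Γ') l.succ).val) = 0 from rfl, ev_zero,
      Pi.zero_apply, nsmul_zero] at h1
    exact h1.symm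
  obtain ⟨F, hFv⟩ : ∃ F : (Fin m → Pt Γ') → Pt Γ', ∀ x, (F x).v = ev (fun l => (x l).val) E :=
    ⟨fun x => ⟨evM (fun l => (x l).val) E (lt_one_of_eq_zero h0)⟩, fun _ => rfl⟩
  have hF : ∀ y ∈ Y, n • y 0 = F fun l => y l.succ := fun y hy =>
    Pt.ext_v ((hE y hy).trans (hFv _).symm)
  have key : ∀ z : Fin m → Pt Γ', (∀ y ∈ Y, F (z + fun l => y l.succ) = F z + F fun l => y l.succ) →
      ∀ x, F (z + x) = F z + F x := by
    intro z hz x
    refine Pt.ext_v (sub_eq_zero.1 (hd (fun w => (F (z + fun l => ⟨w l⟩)).v -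
      (F z + F fun l => ⟨w l⟩).v) (An.sub ?_ ?_) (fun y hy => ?_) fun l => (x l).val))
    · simp only [hFv, Pi.add_apply]
      exact An.ev E fun l => sd_an_add (z l) l
    · refine an_add (a := fun _ => F z) (b := fun w => F fun l => ⟨w l⟩) (An.const (F z).v) ?_
      simp only [hFv]
      exact An.ev E fun l => An.coord l
    · exact sub_eq_zero.2 (congrArg Pt.v (hz y hy))
  refine ⟨AddMonoidHom.mk' F fun z => key z fun y hy => ?_, hFv, hF⟩
  rw [add_comm z, add_comm (F z)]
  refine key _ (fun y' hy' => ?_) z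
  rw [← hF y hy, ← hF y' hy', ← nsmul_add]
  exact (hF (y + y') (Y.add_mem hy hy')).symm

theorem stepD (hh : 1 ≤ h) (hp : mulSeries Γ' p = X ^ p ^ h) (m : ℕ)
    (Y : AddSubmonoid (Fin m → Pt Γ')) (P : MvPowerSeries (Fin m) (O C)) (hP : P ≠ 0)
    (hY : ∀ y ∈ Y, ev (fun l => (y l).val) P = 0) :
    ∃ (l0 : Fin m) (j : ℕ) (E : Fin m → Pt Γ' →+ Pt Γ') (e : Fin m → PowerSeries (O C)),
      (∀ l, Rep (E l) (e l)) ∧
      ∀ y ∈ Y, p ^ j • y l0 = ∑ l ∈ Finset.univ.erase l0, E l (y l) := by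
  induction m with
  | zero =>
    refine absurd (ident P fun x => ?_) hP
    rw [← hY 0 Y.zero_mem]
    exact congrArg (fun x => ev x P) (Subsingleton.elim _ _)
  | succ m ih =>
  have rep0 : Rep (0 : Pt Γ' →+ Pt Γ') 0 := fun a => (map_zero _).symm
  by_cases hd : ∃ P' : MvPowerSeries (Fin m) (O C), P' ≠ 0 ∧
      ∀ y ∈ Y, ev (fun l => (y l.succ).val) P' = 0
  · obtain ⟨P', h1, h2⟩ := hd
    obtain ⟨l0, j, E, e, h3, h4⟩ := ih
      (Y.map (AddMonoidHom.mk' (fun y (l : Fin m) => y l.succ) fun _ _ => rfl)) P' h1 (by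
        rintro _ ⟨y, hy, rfl⟩
        exact h2 y hy)
    refine ⟨l0.succ, j, Fin.cons 0 E, Fin.cons 0 e, fun l => Fin.cases rep0 h3 l, fun y hy => ?_⟩
    have h5 := h4 _ ⟨y, hy, rfl⟩
    rw [Finset.sum_erase_eq_sub (Finset.mem_univ _)] at h5 ⊢
    simpa [Fin.sum_univ_succ] using h5
  have dense : ∀ φ : (Fin m → M C) → O C, An φ → (∀ y ∈ Y, φ (fun l => (y l.succ).val) = 0) →
      ∀ x, φ x = 0 := by
    rintro φ ⟨P', h1⟩ h2 x
    have h3 : P' = 0 := by
      by_contra h3
      exact hd ⟨P', h3, fun y hy => (h1 _).symm.trans (h2 y hy)⟩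
    rw [h1, h3, map_zero]
  have ex : ∃ j, ∃ P' : MvPowerSeries (Fin (m + 1)) (O C),
      (∀ y ∈ Y, ev (fun l => (y l).val) P' = 0) ∧
        MvPowerSeries.coeff (Finsupp.single 0 j) P' ≠ 0 := by
    by_contra hc
    push Not at hc
    refine hP (ident P fun x => ?_)
    rw [← Fin.cons_self_tail x]
    refine dense (fun w => ev (Fin.cons (x 0) w : Fin (m + 1) → M C) P)
      (An.ev P fun l => Fin.cases (An.const (x 0 : O C)) (fun l => An.coord l) l) (fun y hy => ?_) _
    obtain ⟨P', t, f, a1, -, a3, a4⟩ := sd_axis Y P hY hy (x 0)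
    have a5 : f = 0 := PowerSeries.ext fun j => (a3 j).trans (hc j P' a1)
    exact a4.trans (by rw [a5, map_zero])
  classical
  obtain ⟨P1, a1, a2⟩ := Nat.find_spec ex
  obtain ⟨P2, a3, a4⟩ := desc_series hh {x | ∃ y ∈ Y, x = fun l => (y l).val} (by
      rintro _ ⟨y, hy, rfl⟩
      refine ⟨_, ⟨p ^ 1 • y, Y.nsmul_mem hy _, rfl⟩, fun l => ?_⟩
      have := Pt.pow_nsmul_v hp 1 (y l)
      rwa [pow_one (p ^ h)] at this) P1 (by
      rintro _ ⟨y, hy, rfl⟩
      exact a1 y hy) _ a2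
  obtain ⟨s, E, hE⟩ := stepD_weier (p := p) Y P2 _ (fun y hy => a4 _ ⟨y, hy, rfl⟩) a3
    fun P' h1 j hj => by
      by_contra h2
      exact Nat.find_min ex hj ⟨P', h1, h2⟩
  obtain ⟨F, hF1, hF2⟩ := sd_dense Y dense (p ^ s) (E ^ p ^ (h * s - s)) fun y hy => by
    rw [Pt.pow_nsmul_v hp, map_pow, ← hE y hy, ← pow_mul, ← pow_mul, ← pow_add,
      Nat.add_sub_cancel' (Nat.le_mul_of_pos_left s hh)]
  have hrep : ∀ l : Fin m, ∃ e, Rep (F.comp (AddMonoidHom.single (fun _ => Pt Γ') l)) e := by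
    intro l
    obtain ⟨e, he⟩ := An.exists_series1 (φ := fun t => (F (Pi.single l ⟨t⟩)).v) (by
      simp only [hF1]
      refine An.ev _ fun k => ?_
      by_cases hk : k = l
      · subst hk
        simpa only [Pi.single_eq_same] using An.coord ()
      · simpa only [Pi.single_eq_of_ne hk] using An.const _)
    exact ⟨e, fun a => he a.val⟩
  choose e he using hrep
  refine ⟨0, s, Fin.cons 0 fun l => F.comp (AddMonoidHom.single (fun _ => Pt Γ') l), Fin.cons 0 e,
    fun l => Fin.cases rep0 he l, fun y hy => ?_⟩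
  rw [Finset.sum_erase_eq_sub (Finset.mem_univ _), Fin.sum_univ_succ, hF2 y hy,
    ← Finset.univ_sum_single fun l : Fin m => y l.succ, map_sum]
  simp

end Vale.Agent.P217.D
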