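import Vale.Agent.P217.DGn
import Vale.Agent.P217.DCmp
import Vale.Agent.P217.DTrop

/-!
# P217: there is no linear relation
-/

set_option linter.unusedSectionVars false

noncomputable section

namespace Vale.Agent.P217.D

variable {C : Type} [NontriviallyNormedField C] [IsUltrametricDist C] [CompleteSpace C]
  [IsAlgClosed C] {p : ℕ} [Fact p.Prime] [CharP C p]

open PowerSeries

variable {Γ G Γ' : FormalGroup (O C)} [Γ.IsComm] [G.IsComm] [Γ'.IsComm] {h n m : ℕ} {θ : ℝ}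

lemma stepE_inj {Q : ℕ} (hp : mulSeries Γ' p = X ^ Q) (N : ℕ) {a b : Pt Γ'}
    (h : p ^ N • a = p ^ N • b) : a = b := by
  have h1 : p ^ N • (a - b) = 0 := by rw [nsmul_sub, h, sub_self]
  have h2 := Pt.pow_nsmul_v hp N (a - b)
  rw [h1, Pt.zero_v] at h2
  exact sub_eq_zero.1 (Pt.ext_v (eq_zero_of_pow_eq_zero h2.symm))

lemma stepE_sum {β : PowerSeries (O C)} {Q : ℕ} (hQ : Q ≠ 0) (b0 : constantCoeff β = 0)
    (badd : ∀ a b : Pt Γ',
      ‖ev1 (a + b).val β - ev1 a.val β - ev1 b.val β‖ ≤ max ‖a.v‖ ‖b.v‖ ^ Q)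
    {ι : Type} (S : Finset ι) (u : ι → Pt Γ') {B : ℝ} (hB : 0 ≤ B)
    (hu : ∀ l ∈ S, ‖(u l).v‖ ^ Q ≤ B) :
    ‖ev1 (∑ l ∈ S, u l).val β - ∑ l ∈ S, ev1 (u l).val β‖ ≤ B ∧ ‖(∑ l ∈ S, u l).v‖ ^ Q ≤ B := by
  classical
  induction S using Finset.induction_on with
  | empty => simp [b0, hB, hQ]
  | insert a S ha ih =>
    obtain ⟨h1, h2⟩ := ih fun l hl => hu l (Finset.mem_insert_of_mem hl)
    have h3 : max ‖(u a).v‖ ‖(∑ l ∈ S, u l).v‖ ^ Q ≤ B := by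
      rcases max_choice ‖(u a).v‖ ‖(∑ l ∈ S, u l).v‖ with h | h <;> rw [h]
      exacts [hu a (Finset.mem_insert_self a S), h2]
    rw [Finset.sum_insert ha, Finset.sum_insert ha]
    refine ⟨?_, (pow_le_pow_left₀ (norm_nonneg _) (Pt.norm_add_le _ _) Q).trans h3⟩
    have e : ev1 (u a + ∑ l ∈ S, u l).val β - (ev1 (u a).val β + ∑ l ∈ S, ev1 (u l).val β) =
        (ev1 (u a + ∑ l ∈ S, u l).val β - ev1 (u a).val β - ev1 (∑ l ∈ S, u l).val β) +
          (ev1 (∑ l ∈ S, u l).val β - ∑ l ∈ S, ev1 (u l).val β) := by ring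
    rw [e]
    exact (IsUltrametricDist.norm_add_le_max _ _).trans (max_le ((badd _ _).trans h3) h1)

lemma stepE_rel (hN : Near p h n θ Γ G) {β : PowerSeries (O C)} {φ : Fin m → PowerSeries (O C)}
    {E' : Fin m → Pt G →+ Pt Γ'} (hD : ∀ l, HomData p h (E' l) β (φ l)) (l0 : Fin m)
    (a b : Fin m → Pt G) (ρ : Fin m → ℝ) (h1 : ∀ l, ρ l ≤ 1) (hθ : ∀ l, θ ≤ ρ l ^ p ^ n)
    (hb : ∀ l, ‖(b l).v‖ ≤ ρ l) (hab : ∀ l, ‖(a l).v - (b l).v‖ ≤ θ) {B : ℝ} (hB : 0 ≤ B)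
    (hg : ∀ l, gn (φ l) (ρ l ^ p ^ n) ≤ B)
    (hrel : E' l0 (a l0) = ∑ l ∈ Finset.univ.erase l0, E' l (a l)) :
    ‖∑ l, ev1 (b l).val (PowerSeries.C (if l = l0 then (1 : O C) else -1) * φ l)‖ ≤ B := by
  have hq : p ^ n ≠ 0 := pow_ne_zero _ (Fact.out : p.Prime).ne_zero
  have ha : ∀ l, ‖(a l).v‖ ≤ ρ l := fun l => by
    rw [← sub_add_cancel (a l).v (b l).v]
    exact (IsUltrametricDist.norm_add_le_max _ _).trans (max_le ((hab l).trans ((hθ l).trans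
      (pow_le_of_le_one ((norm_nonneg _).trans (hb l)) (h1 l) hq))) (hb l))
  have h2 : ∀ l, ‖ev1 (a l).val (φ l) - ev1 (b l).val (φ l)‖ ≤ B := fun l =>
    ((hD l).norm_sub_le hN (h1 l) (hθ l) _ _ (ha l) (hb l) ((hab l).trans (hθ l))).trans (hg l)
  have h3 := (stepE_sum (pow_ne_zero h (Fact.out : p.Prime).ne_zero) (hD l0).b0 (hD l0).badd
    (Finset.univ.erase l0) (fun l => E' l (a l)) hB fun l _ =>
      ((hD l).norm_pow_le hN (h1 l) (hθ l) _ (ha l)).trans (hg l)).1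
  simp only [← hrel, ← (hD _).rep] at h3
  have h4 := IsUltrametricDist.norm_sum_le_of_forall_le_of_nonneg hB
    (s := Finset.univ.erase l0) fun l _ => h2 l
  have e : ∑ l, ev1 (b l).val (PowerSeries.C (if l = l0 then (1 : O C) else -1) * φ l) =
      (ev1 (a l0).val (φ l0) - ∑ l ∈ Finset.univ.erase l0, ev1 (a l).val (φ l)) +
        ∑ l ∈ Finset.univ.erase l0, (ev1 (a l).val (φ l) - ev1 (b l).val (φ l)) -
        (ev1 (a l0).val (φ l0) - ev1 (b l0).val (φ l0)) := by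
    rw [← Finset.add_sum_erase _ _ (Finset.mem_univ l0), Finset.sum_sub_distrib,
      Finset.sum_congr rfl (g := fun l => -ev1 (b l).val (φ l)) fun l hl => by
        rw [if_neg (Finset.ne_of_mem_erase hl), map_mul, ev1_C, neg_one_mul],
      if_pos rfl, map_mul, ev1_C, Finset.sum_neg_distrib]
    ring
  rw [e]
  exact (norm_sub_le_max _ _).trans (max_le
    ((IsUltrametricDist.norm_add_le_max _ _).trans (max_le h3 h4)) (h2 l0))

theorem stepE (hN : Near p h n θ Γ G) (hmn : m ≤ n)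
    (hζ : ∀ c : O C, c ^ p ^ n = c → IsHom Γ Γ (PowerSeries.C c * X))
    {Φ : ℤ → Pt Γ →+ Pt Γ} (hΦ : IsFrob p Φ) (Λ : Pt Γ →+ Pt G)
    (hΛ : ∀ s, ‖(Λ s).v - s.v‖ ≤ θ) {ψ : PowerSeries (O C)} (hψ : IsHom G Γ' ψ)
    (hψ1 : coeff 1 ψ ≠ 0) (hp : mulSeries Γ' p = X ^ p ^ h) (ξ : Fin m → Pt Γ)
    (hξ : ∀ l, ξ l ≠ 0) (horth : Orth p n (fun l j => ((Φ j (ξ l)).v : C)))
    (l0 : Fin m) (j : ℕ) (E : Fin m → Pt Γ' →+ Pt Γ') (e : Fin m → PowerSeries (O C))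
    (hE : ∀ l, Rep (E l) (e l))
    (hrel : ∀ (c : O C) (hc : c ^ p ^ n = c) (i : ℕ),
      p ^ j • homPt hψ (Λ (homPt (hζ c hc) (Φ i (ξ l0)))) =
        ∑ l ∈ Finset.univ.erase l0, E l (homPt hψ (Λ (homPt (hζ c hc) (Φ i (ξ l)))))) :
    False := by
  classical
  have hp0 : p ≠ 0 := (Fact.out : p.Prime).ne_zero
  have hq : p ^ n ≠ 0 := pow_ne_zero _ hp0
  obtain ⟨β, b0, b1, badd⟩ := exists_beta hN.hh hp
  obtain ⟨E', φ, hD, hE0, hE1⟩ : ∃ (E' : Fin m → Pt G →+ Pt Γ') (φ : Fin m → PowerSeries (O C)),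
      (∀ l, HomData p h (E' l) β (φ l)) ∧ (∀ a, E' l0 a = p ^ j • homPt hψ a) ∧
      ∀ l ≠ l0, ∀ a, E' l a = E l (homPt hψ a) := by
    have hr : ∀ l, Rep ((if l = l0 then nsmulAddMonoidHom (p ^ j) else E l).comp (homPt hψ))
        ((if l = l0 then mulSeries Γ' (p ^ j) else e l).subst ψ) := fun l => by
      split_ifs
      · exact (rep_homPt hψ).comp (map_zero _) (rep_nsmul (p ^ j))
      · exact (rep_homPt hψ).comp (map_zero _) (hE l)
    refine ⟨_, _, fun l => ⟨hp, b0, b1, badd, fun a =>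
      ev1_subst _ _ ((hr l).constantCoeff (map_zero _)) _ (hr l a) β⟩, fun a => ?_,
      fun l hl a => ?_⟩
    · simp
    · simp [hl]
  have hrel' : ∀ (c : O C) (hc : c ^ p ^ n = c) (i : ℤ),
      E' l0 (Λ (homPt (hζ c hc) (Φ i (ξ l0)))) =
        ∑ l ∈ Finset.univ.erase l0, E' l (Λ (homPt (hζ c hc) (Φ i (ξ l)))) := fun c hc i => by
    obtain ⟨k, hk⟩ : ∃ k : ℕ, (k : ℤ) = n * i.natAbs + i := by
      refine Int.eq_ofNat_of_zero_le ?_ |>.imp fun k hk => hk.symm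
      have h1 : (1 : ℤ) ≤ n := by exact_mod_cast hN.hn
      have h2 : -i ≤ i.natAbs := by omega
      nlinarith [Int.natCast_nonneg i.natAbs]
    have h1 := hrel c hc k
    simp only [hk, hΦ.add, hΦ.mul_nat hN.pser, map_nsmul] at h1
    refine stepE_inj hp i.natAbs ?_
    rw [hE0, smul_comm, h1, Finset.smul_sum]
    exact Finset.sum_congr rfl fun l hl => by rw [hE1 l (Finset.ne_of_mem_erase hl)]
  obtain ⟨r, hr0, hr1, hr⟩ : ∃ r : ℝ, 0 ≤ r ∧ r < 1 ∧ r ^ (p ^ n * p ^ n) = θ :=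
    ⟨θ ^ ((p ^ n * p ^ n : ℕ) : ℝ)⁻¹, Real.rpow_nonneg hN.pos.le _,
      Real.rpow_lt_one hN.pos.le hN.lt_one (by positivity),
      Real.rpow_inv_natCast_pow hN.pos.le (mul_ne_zero hq hq)⟩
  have hbig : ∀ t : M C, r < ‖t‖ → θ ≤ (‖t‖ ^ p ^ n) ^ p ^ n ∧ θ ≤ ‖t‖ ^ p ^ n := fun t ht => by
    have h1 : θ ≤ (‖t‖ ^ p ^ n) ^ p ^ n := by
      rw [← pow_mul, ← hr]; exact pow_le_pow_left₀ hr0 ht.le _
    exact ⟨h1, h1.trans (pow_le_of_le_one (by positivity)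
      (pow_le_one₀ (norm_nonneg _) (M.norm_lt_one t).le) hq)⟩
  choose τ' hτ' using fun l => hΦ.exists_norm_gt (hξ l) hr1
  obtain ⟨τ, hτ⟩ := (Set.finite_range τ').bddBelow
  have hco : ∀ l d, ‖coeff d (PowerSeries.C (if l = l0 then (1 : O C) else -1) * φ l)‖ =
      ‖coeff d (φ l)‖ := fun l d => by
    rw [coeff_C_mul, norm_mul]
    split_ifs <;> simp
  have key := trop hN.hn hmn (fun l j => ((Φ j (ξ l)).v : C))
    (fun l j h0 => hξ l (hΦ.injective j (by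
      rw [map_zero]; exact Pt.ext_v (Subtype.ext h0))))
    (fun l j => Pt.norm_lt_one _) (fun l j => by simp only [hΦ.succ]; push_cast; rfl) horth
    (fun l i => ((coeff (p ^ i) (PowerSeries.C (if l = l0 then (1 : O C) else -1) * φ l) : O C) : C))
    (fun l i => O.norm_le_one _) τ (fun i hi ι hι B hB0 hB => by
      have ht : ∀ l, r < ‖(Φ i (ξ l)).val‖ := fun l =>
        hτ' l i (hi.trans (hτ (Set.mem_range_self l)))
      have hx : ∀ l (k : ℕ), (Φ (k + i) (ξ l)).v = (Φ i (ξ l)).v ^ p ^ k := fun l k => by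
        rw [add_comm, hΦ.add_nat_v]
      have hg : ∀ l, gn (φ l) (‖(Φ i (ξ l)).val‖ ^ p ^ n) ≤ B := fun l => by
        rw [← norm_powM _ _ hq]
        refine (hD l).gn_le hN hζ _ (by rw [norm_powM]; exact (hbig _ (ht l)).1) hB0 fun k => ?_
        have h1 := hB l k
        rw [show (k : ℤ) + i + n = ((n + k : ℕ) : ℤ) + i by push_cast; ring] at h1
        simp only [hx, O.norm_coe, hco, norm_pow] at h1
        rw [norm_powM, ← pow_mul, ← pow_add]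
        exact h1
      simp only [hx]
      push_cast
      refine sep hN.hn _ (fun l => (Φ i (ξ l)).val) hB0 (fun l d hd => ?_) (fun ζ hz => ?_) ι hι
      · rw [hco]
        exact ((hD l).coeff_le hN hζ _ (hbig _ (ht l)).2 d hd).trans (hg l)
      · refine stepE_rel hN hD l0 (fun l => Λ (homPt (hζ ζ hz) (Φ i (ξ l))))
          (fun l => ⟨ζ • (Φ i (ξ l)).val⟩) (fun l => ‖(Φ i (ξ l)).val‖)
          (fun l => (M.norm_lt_one _).le) (fun l => (hbig _ (ht l)).2) (fun l => ?_)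
          (fun l => ?_) hB0 hg (hrel' ζ hz i)
        · change ‖ζ * (Φ i (ξ l)).v‖ ≤ ‖(Φ i (ξ l)).v‖
          rw [norm_mul]
          exact mul_le_of_le_one_left (norm_nonneg _) (O.norm_le_one _)
        · have h1 := hΛ (homPt (hζ ζ hz) (Φ i (ξ l)))
          rw [homPt_v, map_mul, ev1_C, ev1_X] at h1
          exact h1)
  obtain ⟨t, ht⟩ := exists_M_norm_gt (C := C) hr1
  have h1 := (hD l0).gn_le hN hζ t (hbig t ht).2 le_rfl fun i => by
    have h2 := congrArg norm (key l0 i)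
    rw [O.norm_coe, hco, norm_zero] at h2
    rw [h2, zero_mul]
  have h2 := maxP1 t ψ (B := 0) (fun s hs => by
    have h3 := (norm_ev1_le_gn (φ l0) (M.norm_lt_one t).le s hs).trans h1
    have h4 := (hD l0).norm_eq ⟨s⟩
    rw [hE0, Pt.pow_nsmul_v hp, homPt_v] at h4
    have h5 : ev1 s ψ = 0 := eq_zero_of_pow_eq_zero (norm_le_zero_iff.1 (h4 ▸ h3))
    rw [h5, norm_zero]) 1
  have h3 : 0 < ‖coeff 1 ψ‖ * ‖t‖ ^ 1 :=
    mul_pos (norm_pos_iff.2 hψ1) (pow_pos (hr0.trans_lt ht) 1)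
  linarith

end Vale.Agent.P217.D
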