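import Vale.Agent.P217.DStepA
import Vale.Agent.P217.DStepD
import Vale.Agent.P217.DStepE
import Vale.Agent.P217.DOrth
import Vale.Agent.P217.DPsi

/-!
# P217: density of orbits in a height stratum, analytic version
-/

set_option linter.unusedSectionVars false

noncomputable section

namespace Vale.Agent.P217.D

variable {C : Type} [NontriviallyNormedField C] [IsUltrametricDist C] [CompleteSpace C]
  [IsAlgClosed C] {p : ℕ} [Fact p.Prime] [CharP C p]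

open PowerSeries

theorem core {m h : ℕ} (hh : 1 ≤ h) (𝔽 : FormalGroup (MvPowerSeries (Fin m) (O C))) [𝔽.IsComm]
    (hsp : mulSeries (fib 𝔽 0) p = X ^ p ^ (h + m))
    (hζ : ∀ c : O C, c ^ p ^ (h + m) = c →
      IsHom (fib 𝔽 0) (fib 𝔽 0) (PowerSeries.C c * X))
    (hfr : IsHom (fib 𝔽 0) (fib 𝔽 0) (X ^ p))
    (hlow : ∀ j < p ^ h, coeff j (mulSeries 𝔽 p) = 0)
    (hUC : ∀ c : Fin m → O C, (∃ l, ‖c l‖ = 1) → ∃ j < p ^ (h + m),
      ‖∑ l, c l * MvPowerSeries.coeff (Finsupp.single l 1) (coeff j (mulSeries 𝔽 p))‖ = 1)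
    (x : Fin m → M C) {θ : ℝ} (hθ0 : 0 < θ) (hθ1 : θ < 1) (hx : ‖x‖ ≤ θ)
    (ha : coeff (p ^ h) (mulSeries (fib 𝔽 x) p) ≠ 0) (f : MvPowerSeries (Fin m) (O C))
    (horb : OrbitZero p h θ (fib 𝔽 0) 𝔽 x f) : f = 0 := by
  by_contra hf
  have hx0 : ‖x - 0‖ ≤ θ := by rwa [sub_zero]
  have hN : Near p h (h + m) θ (fib 𝔽 0) (fib 𝔽 x) :=
    { pos := hθ0, lt_one := hθ1, hh := hh, hn := by omega, pser := hsp
      close := fun d => (fib_close x 0 d).trans hx0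
      closep := fun j => by
        rw [← hsp, ← map_mulSeries, ← map_mulSeries, coeff_map, coeff_map]
        exact (norm_ev_sub_ev x 0 _).trans hx0
      low := fib_low hlow x }
  obtain ⟨Φ, hΦ⟩ := exists_frob hfr
  obtain ⟨Λ, hΛ, hsurj⟩ := hN.exists_lam hΦ
  obtain ⟨Γ', ψ, hc, hψ, hψ1, hp⟩ := exists_psi hh hN.low ha
  obtain ⟨ξ, hξ, hξ0, hdet, horth⟩ := exists_orth (m := m) hN hΦ Λ hΛ hsurj
    (fun t l => (ev1 t.val (dser (mulSeries 𝔽 p) x l) : C))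
    (fun a b ha hb => funext fun l => by
      simp only [Pi.add_apply]
      rw [dser_add hh hlow x a b ha hb l]
      rfl)
    (dser_span hh hlow hsp hUC x ha)
  obtain ⟨S, hS⟩ := stepA hN hlow ha hΦ Λ hΛ hψ hψ1 hp ξ hξ hdet hf horb
  let Y : AddSubmonoid (Fin m → Pt Γ') :=
    { carrier := {y | ∃ (a : PowerSeries (O C)) (ha : IsHom (fib 𝔽 0) (fib 𝔽 0) a),
        ∀ l, y l = -(homPt hψ (Λ (homPt ha (ξ l))))}
      zero_mem' := ⟨0, isHom_zero, fun l => by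
        have : homPt (isHom_zero : IsHom (fib 𝔽 0) (fib 𝔽 0) 0) (ξ l) = 0 :=
          Pt.ext_v (by rw [homPt_v, map_zero, Pt.zero_v])
        rw [this, map_zero, map_zero, neg_zero]
        rfl⟩
      add_mem' := by
        rintro y y' ⟨a, ha, hy⟩ ⟨b, hb, hy'⟩
        refine ⟨_, isHom_fadd inferInstance ha hb, fun l => ?_⟩
        have : homPt (isHom_fadd inferInstance ha hb) (ξ l) = homPt ha (ξ l) + homPt hb (ξ l) :=
          Pt.ext_v (by rw [homPt_v, ev1_fadd _ ha.1 hb.1 _ _ (homPt_v ha _) (homPt_v hb _)])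
        rw [this, map_add, map_add, neg_add, Pi.add_apply, hy, hy'] }
  obtain ⟨P, ⟨β, -, hβ⟩, hP⟩ := desc (p := p) hh
    ((fun (y : Fin m → Pt Γ') l => (y l).val) '' (Y : Set (Fin m → Pt Γ'))) (fun _ => θ)
    (fun _ _ => hθ0.le) (fun _ _ => hθ1) S (fun D => by
      obtain ⟨F, hF, hF'⟩ := hS D
      refine ⟨F, hF, ?_⟩
      rintro _ ⟨y, ⟨a, ha, hy⟩, rfl⟩
      obtain ⟨K, hK⟩ := hF' a ha
      refine ⟨K, fun N hN => ?_⟩
      simp only [hy]
      exact hK N hN)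
  have hP0 : P ≠ 0 := by
    rintro rfl
    rw [map_zero] at hβ
    exact zero_ne_one hβ
  obtain ⟨l0, j, E, e, hE, hrel⟩ := stepD hh hp m Y P hP0 fun y hy => hP _ ⟨y, hy, rfl⟩
  refine stepE hN (Nat.le_add_left m h) hζ hΦ Λ hΛ hψ hψ1 hp ξ hξ0 horth l0 j E e hE
    fun c hc i => ?_
  have hrep : Rep ((homPt (hζ c hc)).comp (Φ i)) (PowerSeries.C c * X ^ p ^ i) := fun s => by
    rw [AddMonoidHom.comp_apply, homPt_v, map_mul, map_mul, ev1_C, ev1_C, ev1_X, map_pow, ev1_X]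
    exact congrArg (c * ·) (hΦ.nat_v i s)
  have heq : ∀ s, homPt hrep.isHom s = homPt (hζ c hc) (Φ i s) := fun s =>
    Pt.ext_v (hrep s).symm
  have h1 := hrel (fun l => -(homPt hψ (Λ (homPt (hζ c hc) (Φ i (ξ l))))))
    ⟨_, hrep.isHom, fun l => by rw [heq]⟩
  simp only [map_neg, Finset.sum_neg_distrib, smul_neg] at h1
  exact neg_injective h1

end Vale.Agent.P217.D
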