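import Mathlib

/-!
# P217: evaluation of integral power series on the open unit polydisc
-/

set_option linter.unusedSectionVars false

noncomputable section

namespace Vale.Agent.P217.D

open MvPowerSeries Filter Topology

lemma norm_sub_le_max {E : Type*} [SeminormedAddCommGroup E] [IsUltrametricDist E] (a b : E) :
    ‖a - b‖ ≤ max ‖a‖ ‖b‖ := by
  simpa [sub_eq_add_neg] using IsUltrametricDist.norm_add_le_max a (-b)

/-- The valuation ring of `C`. -/
def O (C : Type) [NormedField C] [IsUltrametricDist C] : Subring C where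
  carrier := {x | ‖x‖ ≤ 1}
  mul_mem' {a b} ha hb := by
    simp only [Set.mem_ofPred_eq, norm_mul] at *
    exact mul_le_one₀ ha (norm_nonneg _) hb
  one_mem' := by simp
  add_mem' {a b} ha hb := (IsUltrametricDist.norm_add_le_max a b).trans (max_le ha hb)
  zero_mem' := by simp
  neg_mem' {a} ha := by simpa using ha

variable {C : Type} [NontriviallyNormedField C] [IsUltrametricDist C]

lemma mem_O {x : C} : x ∈ O C ↔ ‖x‖ ≤ 1 := Iff.rfl

lemma O.norm_le_one (a : O C) : ‖a‖ ≤ 1 := a.2

lemma O.norm_coe (a : O C) : ‖(a : C)‖ = ‖a‖ := rfl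

instance : NormOneClass (O C) := ⟨by rw [← O.norm_coe]; simp⟩

instance : NormMulClass (O C) := ⟨fun a b => by
  rw [← O.norm_coe, ← O.norm_coe, ← O.norm_coe]; push_cast; exact norm_mul _ _⟩

/-- The maximal ideal of the valuation ring. -/
def M (C : Type) [NontriviallyNormedField C] [IsUltrametricDist C] : Ideal (O C) where
  carrier := {x | ‖x‖ < 1}
  add_mem' {a b} ha hb := (IsUltrametricDist.norm_add_le_max a b).trans_lt (max_lt ha hb)
  zero_mem' := by simp
  smul_mem' c x hx := by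
    simp only [Set.mem_ofPred_eq, smul_eq_mul, norm_mul] at *
    exact mul_lt_one_of_nonneg_of_lt_one_right (O.norm_le_one c) (norm_nonneg _) hx

lemma mem_M {x : O C} : x ∈ M C ↔ ‖x‖ < 1 := Iff.rfl

lemma M.norm_coe (a : M C) : ‖(a : O C)‖ = ‖a‖ := rfl

lemma M.norm_lt_one (a : M C) : ‖a‖ < 1 := a.2

lemma M.pi_norm_lt_one {σ : Type*} [Fintype σ] (x : σ → M C) : ‖x‖ < 1 :=
  (pi_norm_lt_iff one_pos).2 fun i => M.norm_lt_one (x i)

lemma O.isUnit_iff {a : O C} : IsUnit a ↔ ‖a‖ = 1 := by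
  constructor
  · rintro ⟨u, rfl⟩
    have h : ‖(u : O C)‖ * ‖((u⁻¹ : (O C)ˣ) : O C)‖ = 1 := by
      rw [← norm_mul]; simp
    refine le_antisymm (O.norm_le_one _) ?_
    by_contra hlt
    push Not at hlt
    have := mul_lt_one_of_nonneg_of_lt_one_left (norm_nonneg _) hlt
      (O.norm_le_one ((u⁻¹ : (O C)ˣ) : O C))
    linarith
  · intro h
    have h0 : (a : C) ≠ 0 := by
      intro h0
      rw [← O.norm_coe, h0, norm_zero] at h
      exact zero_ne_one h
    refine IsUnit.of_mul_eq_one ⟨(a : C)⁻¹, ?_⟩ ?_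
    · rw [mem_O, norm_inv, O.norm_coe, h]; simp
    · ext; simp [h0]

lemma O.dvd_of_norm_le {a b : O C} (h : ‖a‖ ≤ ‖b‖) : b ∣ a := by
  by_cases hb : b = 0
  · subst hb
    rw [norm_zero, norm_le_zero_iff] at h
    simp [h]
  have hb' : (b : C) ≠ 0 := fun h0 => hb (Subtype.ext h0)
  refine ⟨⟨(a : C) / b, ?_⟩, ?_⟩
  · rw [mem_O, norm_div, O.norm_coe, O.norm_coe]
    exact div_le_one_of_le₀ h (norm_nonneg _)
  · ext; simp; field_simp

/-- Closed balls as ideals. -/
def ballIdeal (C : Type) [NontriviallyNormedField C] [IsUltrametricDist C] (r : ℝ) (hr : 0 ≤ r) :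
    Ideal (O C) where
  carrier := {x | ‖x‖ ≤ r}
  add_mem' {a b} ha hb := (IsUltrametricDist.norm_add_le_max a b).trans (max_le ha hb)
  zero_mem' := by simpa using hr
  smul_mem' c x hx := by
    simp only [Set.mem_ofPred_eq, smul_eq_mul, norm_mul] at *
    exact (mul_le_of_le_one_left (norm_nonneg _) (O.norm_le_one c)).trans hx

lemma mem_ballIdeal {r : ℝ} {hr : 0 ≤ r} {x : O C} : x ∈ ballIdeal C r hr ↔ ‖x‖ ≤ r := Iff.rfl

instance : IsLinearTopology (O C) (O C) := by
  refine IsLinearTopology.mk_of_hasBasis (O C) (p := fun r : {r : ℝ // 0 < r} => True)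
    (s := fun r => ballIdeal C r.1 r.2.le) ?_
  refine ⟨fun t => ?_⟩
  rw [Metric.nhds_basis_closedBall.mem_iff]
  constructor
  · rintro ⟨r, hr, h⟩
    exact ⟨⟨r, hr⟩, trivial, fun x hx => h (mem_closedBall_zero_iff.2 hx)⟩
  · rintro ⟨r, -, h⟩
    exact ⟨r.1, r.2, fun x hx => h (mem_closedBall_zero_iff.1 hx)⟩

instance [CompleteSpace C] : CompleteSpace (O C) := by
  have : IsClosed ((O C : Subring C) : Set C) := isClosed_le continuous_norm continuous_const
  exact this.completeSpace_coe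

variable [CompleteSpace C]
variable {σ τ : Type*}

lemma hasEval_M [Finite σ] (x : σ → M C) : HasEval (fun s => (x s : O C)) where
  hpow s := tendsto_pow_atTop_nhds_zero_of_norm_lt_one (M.norm_lt_one (x s))
  tendsto_zero := by simp [Filter.cofinite_eq_bot]

/-- Evaluation of an integral power series at a point of the open unit polydisc. -/
def ev [Finite σ] (x : σ → M C) : MvPowerSeries σ (O C) →ₐ[O C] O C :=
  MvPowerSeries.aeval (hasEval_M x)

/-- One-variable evaluation. -/
def ev1 (t : M C) : PowerSeries (O C) →ₐ[O C] O C := ev (fun _ : Unit => t)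

section
variable [Finite σ]

lemma hasSum_ev (x : σ → M C) (f : MvPowerSeries σ (O C)) :
    HasSum (fun d : σ →₀ ℕ => coeff d f * d.prod fun s e => (x s : O C) ^ e) (ev x f) := by
  simpa [ev, smul_eq_mul] using hasSum_aeval (hasEval_M x) f

lemma ev_coe (x : σ → M C) (P : MvPolynomial σ (O C)) :
    ev x (P : MvPowerSeries σ (O C)) = MvPolynomial.eval (fun s => (x s : O C)) P := by
  rw [ev, aeval_coe, MvPolynomial.aeval_eq_eval]

@[simp] lemma ev_X (x : σ → M C) (s : σ) : ev x (X s) = x s := by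
  rw [← MvPolynomial.coe_X, ev_coe, MvPolynomial.eval_X]

@[simp] lemma ev_C (x : σ → M C) (c : O C) : ev x (MvPowerSeries.C c) = c := by
  rw [← MvPolynomial.coe_C, ev_coe, MvPolynomial.eval_C]

lemma ev_monomial (x : σ → M C) (d : σ →₀ ℕ) (c : O C) :
    ev x (monomial d c) = c * d.prod fun s e => (x s : O C) ^ e := by
  rw [← MvPolynomial.coe_monomial, ev_coe, MvPolynomial.eval_monomial]

lemma norm_prod_pow (x : σ → M C) (d : σ →₀ ℕ) :
    ‖d.prod fun s e => (x s : O C) ^ e‖ = d.prod fun s e => ‖x s‖ ^ e := by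
  simp [Finsupp.prod, norm_prod]

lemma prod_pow_le (x : σ → M C) {r : ℝ} (hr : ∀ s, ‖x s‖ ≤ r) (d : σ →₀ ℕ) :
    (d.prod fun s e => ‖x s‖ ^ e) ≤ r ^ d.degree := by
  rw [Finsupp.prod, Finsupp.degree_apply, ← Finset.prod_pow_eq_pow_sum]
  exact Finset.prod_le_prod (fun _ _ => by positivity)
    (fun s _ => pow_le_pow_left₀ (norm_nonneg _) (hr s) _)

/-- Basic bound by the terms. -/
lemma norm_ev_le (x : σ → M C) (f : MvPowerSeries σ (O C)) {B : ℝ} (hB : 0 ≤ B)
    (h : ∀ d : σ →₀ ℕ, ‖coeff d f‖ * (d.prod fun s e => ‖x s‖ ^ e) ≤ B) : ‖ev x f‖ ≤ B := by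
  rw [← (hasSum_ev x f).tsum_eq]
  refine IsUltrametricDist.norm_tsum_le_of_forall_le_of_nonneg hB fun d => ?_
  rw [norm_mul, norm_prod_pow]
  exact h d

/-- Bound by coefficients and order. -/
lemma norm_ev_le_ord (x : σ → M C) (f : MvPowerSeries σ (O C)) {B r : ℝ} (hB : 0 ≤ B)
    (hr0 : 0 ≤ r) (hr1 : r ≤ 1) (hr : ∀ s, ‖x s‖ ≤ r) {j : ℕ}
    (hj : ∀ d : σ →₀ ℕ, d.degree < j → coeff d f = 0) (hc : ∀ d, ‖coeff d f‖ ≤ B) :
    ‖ev x f‖ ≤ B * r ^ j := by
  refine norm_ev_le x f (by positivity) fun d => ?_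
  by_cases hd : d.degree < j
  · rw [hj d hd, norm_zero, zero_mul]; positivity
  · push Not at hd
    exact mul_le_mul (hc d) ((prod_pow_le x hr d).trans (pow_le_pow_of_le_one hr0 hr1 hd))
      (Finset.prod_nonneg fun _ _ => by positivity) hB

lemma norm_ev_le_of_coeff (x : σ → M C) (f : MvPowerSeries σ (O C)) {B : ℝ}
    (hc : ∀ d, ‖coeff d f‖ ≤ B) : ‖ev x f‖ ≤ B := by
  have hB : 0 ≤ B := (norm_nonneg _).trans (hc 0)
  simpa using norm_ev_le_ord x f hB zero_le_one le_rfl (fun s => (M.norm_lt_one (x s)).le)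
    (j := 0) (by simp) hc

lemma norm_ev_le_pow (x : σ → M C) (f : MvPowerSeries σ (O C)) {r : ℝ}
    (hr0 : 0 ≤ r) (hr1 : r ≤ 1) (hr : ∀ s, ‖x s‖ ≤ r) {j : ℕ}
    (hj : ∀ d : σ →₀ ℕ, d.degree < j → coeff d f = 0) : ‖ev x f‖ ≤ r ^ j := by
  simpa using norm_ev_le_ord x f zero_le_one hr0 hr1 hr hj (fun d => O.norm_le_one _)

lemma norm_ev_sub_const (x : σ → M C) (f : MvPowerSeries σ (O C)) {r : ℝ}
    (hr0 : 0 ≤ r) (hr1 : r ≤ 1) (hr : ∀ s, ‖x s‖ ≤ r) :
    ‖ev x f - constantCoeff f‖ ≤ r := by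
  classical
  have := norm_ev_le_pow x (f - MvPowerSeries.C (constantCoeff f)) hr0 hr1 hr (j := 1) (by
    intro d hd
    have : d = 0 := by simpa [Finsupp.degree_eq_zero_iff] using hd
    subst this
    simp)
  simpa using this

@[simp] lemma ev_zero (f : MvPowerSeries σ (O C)) : ev (0 : σ → M C) f = constantCoeff f := by
  have := norm_ev_sub_const (0 : σ → M C) f le_rfl zero_le_one (by simp)
  rwa [norm_le_zero_iff, sub_eq_zero] at this

lemma ev_mem_M (x : σ → M C) {f : MvPowerSeries σ (O C)} (hf : ‖constantCoeff f‖ < 1) :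
    ev x f ∈ M C := by
  cases nonempty_fintype σ
  have h := norm_ev_sub_const x f (norm_nonneg x) (M.pi_norm_lt_one x).le (norm_le_pi_norm x)
  have : ev x f = (ev x f - constantCoeff f) + constantCoeff f := by ring
  rw [this]
  exact (M C).add_mem (h.trans_lt (M.pi_norm_lt_one x)) hf

/-- Evaluation with values in the open disc. -/
def evM (x : σ → M C) (f : MvPowerSeries σ (O C)) (hf : ‖constantCoeff f‖ < 1) : M C :=
  ⟨ev x f, ev_mem_M x hf⟩

@[simp] lemma coe_evM (x : σ → M C) (f : MvPowerSeries σ (O C)) (hf) :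
    (evM x f hf : O C) = ev x f := rfl

end

/-- A series of order at least `j + 1` is a combination of the variables with coefficients of
order at least `j`. -/
lemma exists_eq_sum_X_mul {R : Type*} [CommRing R] [Fintype σ] (f : MvPowerSeries σ R) {j : ℕ}
    (hj : ∀ d : σ →₀ ℕ, d.degree < j + 1 → coeff d f = 0) :
    ∃ g : σ → MvPowerSeries σ R, f = ∑ s, X s * g s ∧
      ∀ s (d : σ →₀ ℕ), d.degree < j → coeff d (g s) = 0 := by
  classical
  have hch : ∀ d : σ →₀ ℕ, d ≠ 0 → ∃ s, d s ≠ 0 := fun d hd => by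
    by_contra h
    push Not at h
    exact hd (Finsupp.ext h)
  choose i hi using hch
  have hne : ∀ (s : σ) (d : σ →₀ ℕ), d + Finsupp.single s 1 ≠ 0 := fun s d h => by
    have := DFunLike.congr_fun h s
    simp at this
  obtain ⟨g, hg⟩ : ∃ g : σ → MvPowerSeries σ R, ∀ s d, coeff d (g s) =
      if i _ (hne s d) = s then coeff (d + Finsupp.single s 1) f else 0 :=
    ⟨fun s d => if i _ (hne s d) = s then coeff (d + Finsupp.single s 1) f else 0,
      fun s d => rfl⟩
  refine ⟨g, ?_, ?_⟩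
  · ext d
    rw [map_sum]
    simp only [X_def, coeff_monomial_mul, one_mul]
    by_cases hd : d = 0
    · subst hd
      rw [hj 0 (by simp)]
      refine (Finset.sum_eq_zero fun s _ => ?_).symm
      rw [if_neg]
      intro h
      have := h s
      simp at this
    · rw [Finset.sum_eq_single (i d hd)]
      · have hle : Finsupp.single (i d hd) 1 ≤ d := by
          rw [Finsupp.single_le_iff]; exact Nat.one_le_iff_ne_zero.2 (hi d hd)
        rw [if_pos hle, hg]
        have e : d - Finsupp.single (i d hd) 1 + Finsupp.single (i d hd) 1 = d :=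
          tsub_add_cancel_of_le hle
        simp only [e, if_true]
      · intro s _ hs
        split_ifs with hle
        · rw [hg]
          have e : d - Finsupp.single s 1 + Finsupp.single s 1 = d := tsub_add_cancel_of_le hle
          simp only [e]
          rw [if_neg (Ne.symm hs)]
        · rfl
      · simp
  · intro s d hd
    rw [hg]
    split_ifs
    · refine hj _ ?_
      simp only [map_add, Finsupp.degree_single]
      omega
    · rfl

lemma mem_span_X_pow {R : Type*} [CommRing R] [Finite σ] (j : ℕ) (f : MvPowerSeries σ R)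
    (hj : ∀ d : σ →₀ ℕ, d.degree < j → coeff d f = 0) :
    f ∈ (Ideal.span (Set.range (X : σ → MvPowerSeries σ R))) ^ j := by
  cases nonempty_fintype σ
  induction j generalizing f with
  | zero => simp
  | succ j ih =>
    obtain ⟨g, rfl, hg⟩ := exists_eq_sum_X_mul f hj
    refine Ideal.sum_mem _ fun s _ => ?_
    rw [pow_succ']
    exact Ideal.mul_mem_mul (Ideal.subset_span ⟨s, rfl⟩) (ih _ (hg s))

omit [CompleteSpace C] in
lemma norm_map_le_pow {R : Type*} [CommRing R] [Finite σ] (α : MvPowerSeries σ R →+* O C)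
    {r : ℝ} (hr0 : 0 ≤ r) (hr : ∀ s, ‖α (X s)‖ ≤ r) (j : ℕ) (f : MvPowerSeries σ R)
    (hj : ∀ d : σ →₀ ℕ, d.degree < j → coeff d f = 0) : ‖α f‖ ≤ r ^ j := by
  cases nonempty_fintype σ
  induction j generalizing f with
  | zero => simpa using O.norm_le_one _
  | succ j ih =>
    obtain ⟨g, rfl, hg⟩ := exists_eq_sum_X_mul f hj
    rw [map_sum]
    refine IsUltrametricDist.norm_sum_le_of_forall_le_of_nonneg (by positivity) fun s _ => ?_
    rw [map_mul, norm_mul, pow_succ']
    exact mul_le_mul (hr s) (ih _ (hg s)) (norm_nonneg _) hr0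

omit [CompleteSpace C] in
/-- Two ring maps to the valuation ring that agree on constants and on the variables (sent to the
open disc) are equal. -/
theorem hom_ext {R : Type*} [CommRing R] [Finite σ] (α β : MvPowerSeries σ R →+* O C)
    (hC : ∀ c, α (MvPowerSeries.C c) = β (MvPowerSeries.C c)) (hX : ∀ s, α (X s) = β (X s))
    (hlt : ∀ s, ‖α (X s)‖ < 1) : α = β := by
  cases nonempty_fintype σ
  ext1 f
  set r : ℝ := ‖fun s => α (X s)‖ with hr
  have hr1 : r < 1 := (pi_norm_lt_iff one_pos).2 hlt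
  have hr0 : 0 ≤ r := norm_nonneg _
  have hra : ∀ s, ‖α (X s)‖ ≤ r := norm_le_pi_norm (fun s => α (X s))
  have hP : ∀ P : MvPolynomial σ R, α P = β P := fun P => by
    have : α.comp MvPolynomial.coeToMvPowerSeries.ringHom =
        β.comp MvPolynomial.coeToMvPowerSeries.ringHom :=
      MvPolynomial.ringHom_ext (fun c => by simpa using hC c) (fun s => by simpa using hX s)
    exact DFunLike.congr_fun this P
  have key : ∀ j : ℕ, ‖α f - β f‖ ≤ r ^ j := fun j => by
    have hj : ∀ d : σ →₀ ℕ, d.degree < j →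
        coeff d (f - ((truncTotal j f : MvPolynomial σ R) : MvPowerSeries σ R)) = 0 := fun d hd => by
      rw [map_sub, MvPolynomial.coeff_coe, coeff_truncTotal _ hd, sub_self]
    have e : α f - β f = α (f - ((truncTotal j f : MvPolynomial σ R) : MvPowerSeries σ R)) -
        β (f - ((truncTotal j f : MvPolynomial σ R) : MvPowerSeries σ R)) := by
      rw [map_sub, map_sub, hP]; ring
    rw [e]
    exact (norm_sub_le_max _ _).trans (max_le
      (norm_map_le_pow α hr0 hra j _ hj)
      (norm_map_le_pow β hr0 (fun s => hX s ▸ hra s) j _ hj))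
  have := ge_of_tendsto' (tendsto_pow_atTop_nhds_zero_of_lt_one hr0 hr1) key
  rwa [norm_le_zero_iff, sub_eq_zero] at this

omit [CompleteSpace C] in
theorem hom_ext1 {R : Type*} [CommRing R] (α β : PowerSeries R →+* O C)
    (hC : ∀ c, α (PowerSeries.C c) = β (PowerSeries.C c))
    (hX : α PowerSeries.X = β PowerSeries.X) (hlt : ‖α PowerSeries.X‖ < 1) : α = β :=
  hom_ext (σ := Unit) α β hC (fun _ => hX) (fun _ => hlt)

section
variable [Finite σ] [Finite τ]

lemma lt_one_of_eq_zero {a : O C} (h : a = 0) : ‖a‖ < 1 := by rw [h, norm_zero]; exact one_pos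

/-- Evaluation of a substitution. -/
lemma ev_subst (x : τ → M C) (a : σ → MvPowerSeries τ (O C))
    (ha : ∀ s, constantCoeff (a s) = 0) (y : σ → M C) (hy : ∀ s, (y s : O C) = ev x (a s))
    (f : MvPowerSeries σ (O C)) : ev x (subst a f) = ev y f := by
  have hs : HasSubst a := hasSubst_of_constantCoeff_zero ha
  have := hom_ext ((ev x).toRingHom.comp (substAlgHom (R := O C) hs).toRingHom) (ev y).toRingHom
    (fun c => by simp [subst_C]) (fun s => by simp [subst_X hs, hy])
    (fun s => by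
      have : ev x (a s) = y s := (hy s).symm
      simpa [subst_X hs, this] using M.norm_lt_one (y s))
  simpa using DFunLike.congr_fun this f

@[simp] lemma ev1_X (t : M C) : ev1 t PowerSeries.X = t := ev_X _ _

@[simp] lemma ev1_C (t : M C) (c : O C) : ev1 t (PowerSeries.C c) = c := ev_C _ _

@[simp] lemma ev1_zero (f : PowerSeries (O C)) : ev1 0 f = PowerSeries.constantCoeff f :=
  ev_zero (σ := Unit) f

lemma ev_subst1 (x : τ → M C) (a : MvPowerSeries τ (O C)) (ha : constantCoeff a = 0) (y : M C)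
    (hy : (y : O C) = ev x a) (f : PowerSeries (O C)) : ev x (f.subst a) = ev1 y f :=
  ev_subst x (fun _ : Unit => a) (fun _ => ha) (fun _ => y) (fun _ => hy) f

lemma ev1_subst (t : M C) (a : PowerSeries (O C)) (ha : PowerSeries.constantCoeff a = 0) (y : M C)
    (hy : (y : O C) = ev1 t a) (f : PowerSeries (O C)) : ev1 t (f.subst a) = ev1 y f :=
  ev_subst1 _ a ha y hy f

lemma ev1_coe (t : M C) (P : Polynomial (O C)) :
    ev1 t (P : PowerSeries (O C)) = P.eval (t : O C) := by
  have : (ev1 t).toRingHom.comp Polynomial.coeToPowerSeries.ringHom =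
      Polynomial.evalRingHom (t : O C) :=
    Polynomial.ringHom_ext (fun c => by simp) (by simp)
  exact DFunLike.congr_fun this P

lemma hasSum_ev1 (t : M C) (f : PowerSeries (O C)) :
    HasSum (fun j : ℕ => PowerSeries.coeff j f * (t : O C) ^ j) (ev1 t f) := by
  have := hasSum_ev (fun _ : Unit => t) f
  rw [← (Finsupp.uniqueEquiv (M := ℕ) ()).symm.hasSum_iff] at this
  convert this using 2 with j
  · simp [PowerSeries.coeff, Finsupp.prod_single_index]
  · rfl

lemma norm_ev1_le (t : M C) (f : PowerSeries (O C)) {B : ℝ} (hB : 0 ≤ B)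
    (h : ∀ j, ‖PowerSeries.coeff j f‖ * ‖t‖ ^ j ≤ B) : ‖ev1 t f‖ ≤ B := by
  rw [← (hasSum_ev1 t f).tsum_eq]
  refine IsUltrametricDist.norm_tsum_le_of_forall_le_of_nonneg hB fun d => ?_
  rw [norm_mul, norm_pow]
  exact h d

lemma norm_ev1_le_ord (t : M C) (f : PowerSeries (O C)) {B : ℝ} {j : ℕ}
    (hj : ∀ i < j, PowerSeries.coeff i f = 0) (hc : ∀ i, ‖PowerSeries.coeff i f‖ ≤ B) :
    ‖ev1 t f‖ ≤ B * ‖t‖ ^ j := by
  have hB : 0 ≤ B := (norm_nonneg _).trans (hc 0)
  refine norm_ev1_le t f (by positivity) fun i => ?_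
  by_cases hi : i < j
  · rw [hj i hi, norm_zero, zero_mul]; positivity
  · exact mul_le_mul (hc i) (pow_le_pow_of_le_one (norm_nonneg _) (M.norm_lt_one t).le
      (not_lt.1 hi)) (by positivity) hB

lemma norm_ev1_le_pow (t : M C) (f : PowerSeries (O C)) {j : ℕ}
    (hj : ∀ i < j, PowerSeries.coeff i f = 0) : ‖ev1 t f‖ ≤ ‖t‖ ^ j := by
  simpa only [one_mul] using norm_ev1_le_ord t f hj (fun i => O.norm_le_one _)

lemma norm_ev1_le_of_coeff (t : M C) (f : PowerSeries (O C)) {B : ℝ}
    (hc : ∀ i, ‖PowerSeries.coeff i f‖ ≤ B) : ‖ev1 t f‖ ≤ B := by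
  simpa only [pow_zero, mul_one] using norm_ev1_le_ord t f (j := 0) (by simp) hc

lemma norm_ev1_le_self (t : M C) {f : PowerSeries (O C)} (hf : PowerSeries.constantCoeff f = 0) :
    ‖ev1 t f‖ ≤ ‖t‖ := by
  simpa only [pow_one] using norm_ev1_le_pow t f (j := 1) (fun i hi => by
    obtain rfl : i = 0 := by omega
    simpa using hf)

/-- One-variable evaluation of a series without constant term, with values in the open disc. -/
def evM1 (t : M C) (f : PowerSeries (O C)) (hf : PowerSeries.constantCoeff f = 0) : M C :=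
  ⟨ev1 t f, (norm_ev1_le_self t hf).trans_lt (M.norm_lt_one t)⟩

@[simp] lemma coe_evM1 (t : M C) (f : PowerSeries (O C)) (hf) :
    (evM1 t f hf : O C) = ev1 t f := rfl

/-- Positive powers of a point of the open disc. -/
def powM (t : M C) (j : ℕ) (hj : j ≠ 0) : M C :=
  ⟨(t : O C) ^ j, Ideal.pow_mem_of_mem _ t.2 j (Nat.pos_of_ne_zero hj)⟩

@[simp] lemma coe_powM (t : M C) (j : ℕ) (hj) : (powM t j hj : O C) = (t : O C) ^ j := rfl

lemma norm_powM (t : M C) (j : ℕ) (hj) : ‖powM t j hj‖ = ‖t‖ ^ j := by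
  rw [← M.norm_coe, coe_powM, norm_pow, M.norm_coe]

lemma ev_rename (x : τ → M C) (e : σ → τ) (f : MvPowerSeries σ (O C)) :
    ev x (rename e f) = ev (fun s => x (e s)) f := by
  have := hom_ext ((ev x).toRingHom.comp (rename (R := O C) e).toRingHom)
    (ev (fun s => x (e s))).toRingHom (fun c => by simp) (fun s => by simp)
    (fun s => by simpa using M.norm_lt_one (x (e s)))
  simpa using DFunLike.congr_fun this f

/-- Compatibility with a ring endomorphism of the valuation ring (such as Frobenius). -/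
lemma ev_map_hom (φ : O C →+* O C) (x y : σ → M C) (hy : ∀ s, (y s : O C) = φ (x s))
    (f : MvPowerSeries σ (O C)) : ev y (MvPowerSeries.map φ f) = φ (ev x f) := by
  have := hom_ext ((ev y).toRingHom.comp (MvPowerSeries.map φ)) (φ.comp (ev x).toRingHom)
    (fun c => by simp) (fun s => by simp [hy])
    (fun s => by simpa using M.norm_lt_one (y s))
  simpa using DFunLike.congr_fun this f

lemma ev1_map_hom (φ : O C →+* O C) (x y : M C) (hy : (y : O C) = φ x)
    (f : PowerSeries (O C)) : ev1 y (PowerSeries.map φ f) = φ (ev1 x f) :=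
  ev_map_hom φ (fun _ : Unit => x) (fun _ => y) (fun _ => hy) f

end

end Vale.Agent.P217.D
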