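import Mathlib

/-!
# P217: implicit function theorem in a filtered algebra
-/

namespace Vale.Agent.P217.D

open MvPolynomial

/-- A multiplicative decreasing filtration. -/
structure IsFilt {K A : Type*} [Field K] [CommRing A] [Algebra K A] (I : ℕ → Submodule K A) :
    Prop where
  one_mem : (1 : A) ∈ I 0
  mul_mem : ∀ i j a b, a ∈ I i → b ∈ I j → a * b ∈ I (i + j)
  anti : Antitone I

variable {K A : Type*} [Field K] [CommRing A] [Algebra K A] {I : ℕ → Submodule K A}

/-- Elements that agree modulo `I D` with a polynomial of order at least two in `u`. -/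
def Q2 (I : ℕ → Submodule K A) (D : ℕ) {τ : Type*} (u : τ → A) : Submodule K A where
  carrier := {φ | ∃ R ∈ idealOfVars τ K ^ 2, φ - aeval u R ∈ I D}
  add_mem' := by
    rintro a b ⟨R, hR, ha⟩ ⟨S, hS, hb⟩
    refine ⟨R + S, add_mem hR hS, ?_⟩
    have := add_mem ha hb
    rwa [show a - aeval u R + (b - aeval u S) = a + b - aeval u (R + S) by rw [map_add]; ring]
      at this
  zero_mem' := ⟨0, zero_mem _, by simp⟩
  smul_mem' := by
    rintro c a ⟨R, hR, ha⟩
    refine ⟨c • R, Submodule.smul_of_tower_mem _ c hR, ?_⟩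
    have := Submodule.smul_mem _ c ha
    rwa [smul_sub, ← map_smul] at this

lemma mem_Q2 {D : ℕ} {τ : Type*} {u : τ → A} {φ : A} :
    φ ∈ Q2 I D u ↔ ∃ R ∈ idealOfVars τ K ^ 2, φ - aeval u R ∈ I D := Iff.rfl

lemma mem_Q2_of_mem {D : ℕ} {τ : Type*} {u : τ → A} {φ : A} (h : φ ∈ I D) : φ ∈ Q2 I D u :=
  ⟨0, zero_mem _, by simpa using h⟩

theorem IsFilt.aeval_mem_zero (hI : IsFilt I) {σ : Type*} {a : σ → A} (ha : ∀ s, a s ∈ I 1)
    (R : MvPolynomial σ K) : aeval a R ∈ I 0 := by
  induction R using MvPolynomial.induction_on with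
  | C c =>
    rw [aeval_C, Algebra.algebraMap_eq_smul_one]
    exact Submodule.smul_mem _ _ hI.one_mem
  | add P Q hP hQ => rw [map_add]; exact add_mem hP hQ
  | mul_X P s hP =>
    rw [map_mul, aeval_X]
    exact hI.anti (Nat.zero_le _) (hI.mul_mem _ _ _ _ hP (ha s))

theorem IsFilt.aeval_mem_one (hI : IsFilt I) {σ : Type*} {a : σ → A} (ha : ∀ s, a s ∈ I 1)
    {R : MvPolynomial σ K} (hR : R ∈ idealOfVars σ K) : aeval a R ∈ I 1 := by
  refine Submodule.span_induction (p := fun x _ => aeval a x ∈ I 1) ?_ ?_ ?_ ?_ hR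
  · rintro _ ⟨s, rfl⟩
    rw [aeval_X]; exact ha s
  · rw [map_zero]; exact zero_mem _
  · intro x y _ _ hx hy
    rw [map_add]; exact add_mem hx hy
  · intro c x _ hx
    rw [smul_eq_mul, map_mul]
    exact hI.mul_mem 0 1 _ _ (hI.aeval_mem_zero ha c) hx

theorem IsFilt.aeval_mem (hI : IsFilt I) {σ : Type*} {a : σ → A} (ha : ∀ s, a s ∈ I 1) {e : ℕ}
    {R : MvPolynomial σ K} (hR : R ∈ idealOfVars σ K ^ e) : aeval a R ∈ I e := by
  induction e generalizing R with
  | zero => exact hI.aeval_mem_zero ha R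
  | succ e ih =>
    rw [pow_succ] at hR
    refine Submodule.mul_induction_on hR ?_ ?_
    · intro x hx y hy
      rw [map_mul]
      exact hI.mul_mem _ _ _ _ (ih hx) (hI.aeval_mem_one ha hy)
    · intro x y hx hy
      rw [map_add]; exact add_mem hx hy

theorem IsFilt.aeval_sub_mem_zero (hI : IsFilt I) {σ : Type*} {a b : σ → A}
    (ha : ∀ s, a s ∈ I 1) (hb : ∀ s, b s ∈ I 1) {j : ℕ} (hab : ∀ s, a s - b s ∈ I j)
    (R : MvPolynomial σ K) : aeval a R - aeval b R ∈ I j := by
  induction R using MvPolynomial.induction_on with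
  | C c => rw [aeval_C, aeval_C, sub_self]; exact zero_mem _
  | add P Q hP hQ =>
    rw [map_add, map_add, add_sub_add_comm]; exact add_mem hP hQ
  | mul_X P s hP =>
    rw [map_mul, map_mul, aeval_X, aeval_X]
    have e : aeval a P * a s - aeval b P * b s
        = (aeval a P - aeval b P) * a s + aeval b P * (a s - b s) := by ring
    rw [e]
    refine add_mem (hI.anti (Nat.le_succ j) (hI.mul_mem _ _ _ _ hP (ha s))) ?_
    have := hI.mul_mem _ _ _ _ (hI.aeval_mem_zero hb P) (hab s)
    rwa [zero_add] at this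

theorem IsFilt.aeval_sub_mem (hI : IsFilt I) {σ : Type*} {a b : σ → A} (ha : ∀ s, a s ∈ I 1)
    (hb : ∀ s, b s ∈ I 1) {j : ℕ} (hab : ∀ s, a s - b s ∈ I (j + 1)) {e : ℕ}
    {R : MvPolynomial σ K} (hR : R ∈ idealOfVars σ K ^ (e + 1)) :
    aeval a R - aeval b R ∈ I (j + e + 1) := by
  induction e generalizing R with
  | zero => exact hI.aeval_sub_mem_zero ha hb hab R
  | succ e ih =>
    rw [pow_succ] at hR
    refine Submodule.mul_induction_on hR ?_ ?_
    · intro x hx y hy
      rw [map_mul, map_mul]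
      have e1 : aeval a x * aeval a y - aeval b x * aeval b y
          = (aeval a x - aeval b x) * aeval a y + aeval b x * (aeval a y - aeval b y) := by ring
      rw [e1]
      refine add_mem (hI.mul_mem _ _ _ _ (ih hx) (hI.aeval_mem_one ha hy)) ?_
      have := hI.mul_mem _ _ _ _ (hI.aeval_mem hb hx) (hI.aeval_sub_mem_zero ha hb hab y)
      rwa [show e + 1 + (j + 1) = j + (e + 1) + 1 by ring] at this
    · intro x y hx hy
      rw [map_add, map_add, add_sub_add_comm]; exact add_mem hx hy

theorem isFilt_vars (σ : Type*) :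
    IsFilt (fun e => (idealOfVars σ K ^ e).restrictScalars K) where
  one_mem := by simp
  mul_mem i j a b ha hb := by
    rw [Submodule.restrictScalars_mem] at ha hb ⊢
    rw [pow_add]
    exact Ideal.mul_mem_mul ha hb
  anti i j hij x hx := Ideal.pow_le_pow_right hij hx

theorem df_lin_mem {σ : Type*} [Fintype σ] (c : σ → K) :
    (∑ j, c j • X j : MvPolynomial σ K) ∈ idealOfVars σ K ^ 1 := by
  rw [pow_one]
  exact Ideal.sum_mem _ fun j _ => Submodule.smul_of_tower_mem _ _ (Ideal.subset_span ⟨j, rfl⟩)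

/-- a substitution tangent to the identity detects the order of vanishing -/
theorem df_mem_of_tangent {σ : Type*} (φ : σ → MvPolynomial σ K)
    (hφ : ∀ s, φ s - X s ∈ idealOfVars σ K ^ 2) {T : MvPolynomial σ K} {d : ℕ}
    (hT : aeval φ T ∈ idealOfVars σ K ^ d) : T ∈ idealOfVars σ K ^ d := by
  have hX : ∀ s, (X s : MvPolynomial σ K) ∈ idealOfVars σ K ^ 1 := fun s => by
    rw [pow_one]; exact Ideal.subset_span ⟨s, rfl⟩
  have hφ1 : ∀ s, φ s ∈ idealOfVars σ K ^ 1 := fun s => by
    have := add_mem (Ideal.pow_le_pow_right one_le_two (hφ s)) (hX s)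
    rwa [sub_add_cancel] at this
  have key : ∀ e, e ≤ d → T ∈ idealOfVars σ K ^ e := by
    intro e
    induction e with
    | zero => intro _; simp
    | succ e ih =>
      intro he
      have h1 := ih (by omega)
      have h2 : aeval φ T - aeval X T ∈ idealOfVars σ K ^ (e + 1) := by
        rcases e with _ | e
        · exact Ideal.pow_le_pow_right (by omega)
            ((isFilt_vars σ).aeval_sub_mem_zero (j := 2) hφ1 hX hφ T)
        · have := (isFilt_vars σ).aeval_sub_mem (j := 1) hφ1 hX hφ h1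
          rwa [show 1 + e + 1 = e + 1 + 1 by ring] at this
      rw [aeval_X_left_apply] at h2
      have := sub_mem (Ideal.pow_le_pow_right he hT) h2
      rwa [sub_sub_cancel] at this
  exact key d le_rfl

/-- If the unknowns `u` are linear in `ε` up to quadratic terms in `u`, with an invertible linear
part for the unknowns `u (ι l)`, a relation between the `u (ι l)` gives one between the `ε j`. -/
theorem IsFilt.rel (hI : IsFilt I) {τ : Type*} [Fintype τ] {m : ℕ} (D d0 : ℕ) (u : τ → A)
    (hu : ∀ s, u s ∈ I 1) (ε : Fin m → A) (hε : ∀ j, ε j ∈ I 1) (L : τ → Fin m → K)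
    (hL : ∀ s, u s - ∑ j, L s j • ε j ∈ Q2 I D u) (ι : Fin m → τ)
    (hdet : (Matrix.of fun l j => L (ι l) j).det ≠ 0) (T : MvPolynomial (Fin m) K)
    (hT : T ∉ idealOfVars (Fin m) K ^ (d0 + 1)) (hTu : aeval (fun l => u (ι l)) T ∈ I D) :
    ∃ F : MvPolynomial (Fin m) K, F ∉ idealOfVars (Fin m) K ^ (d0 + 1) ∧ aeval ε F ∈ I D := by
  rcases D with _ | D
  · exact ⟨T, hT, hI.aeval_mem_zero hε T⟩
  choose R hR hR' using hL
  let Lp : τ → MvPolynomial (Fin m) K := fun s => ∑ j, L s j • X j
  have hLp : ∀ s, aeval ε (Lp s) = ∑ j, L s j • ε j := fun s => by simp [Lp]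
  let P : ℕ → τ → MvPolynomial (Fin m) K := fun i =>
    Nat.rec (motive := fun _ => τ → MvPolynomial (Fin m) K) Lp
      (fun _ Q s => Lp s + aeval Q (R s)) i
  have P0 : ∀ s, P 0 s = Lp s := fun _ => rfl
  have PS : ∀ i s, P (i + 1) s = Lp s + aeval (P i) (R s) := fun _ _ => rfl
  have hP1 : ∀ i s, P i s ∈ idealOfVars (Fin m) K ^ 1 := by
    intro i
    induction i with
    | zero => intro s; exact df_lin_mem _
    | succ i ih =>
      intro s
      rw [PS]
      exact add_mem (df_lin_mem _) (Ideal.pow_le_pow_right one_le_two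
        ((isFilt_vars (Fin m)).aeval_mem ih (hR s)))
  have hP2 : ∀ i s, P i s - Lp s ∈ idealOfVars (Fin m) K ^ 2 := by
    intro i s
    rcases i with _ | i
    · rw [P0, sub_self]; exact zero_mem _
    · rw [PS, add_sub_cancel_left]
      exact (isFilt_vars (Fin m)).aeval_mem (hP1 i) (hR s)
  have hE1 : ∀ i s, aeval ε (P i s) ∈ I 1 := fun i s => hI.aeval_mem hε (hP1 i s)
  have hE : ∀ i s, u s - aeval ε (P i s) ∈ I (min D i + 1) := by
    intro i
    induction i with
    | zero =>
      intro s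
      rw [Nat.min_zero]
      exact sub_mem (hu s) (hE1 0 s)
    | succ i ih =>
      intro s
      have h1 := hI.aeval_sub_mem hu (hE1 i) ih (hR s)
      have e : u s - aeval ε (P (i + 1) s) = (u s - ∑ j, L s j • ε j - aeval u (R s))
          + (aeval u (R s) - aeval (fun s => aeval ε (P i s)) (R s)) := by
        rw [PS, map_add, hLp, ← AlgHom.comp_apply, comp_aeval]
        ring
      rw [e]
      exact add_mem (hI.anti (by omega) (hR' s)) (hI.anti (by omega) h1)
  refine ⟨aeval (fun l => P D (ι l)) T, ?_, ?_⟩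
  · intro hF
    apply hT
    set M : Matrix (Fin m) (Fin m) K := Matrix.of fun l j => L (ι l) j with hM
    let N : Fin m → MvPolynomial (Fin m) K := fun j => ∑ l, M⁻¹ j l • X l
    have hN : ∀ j, N j ∈ idealOfVars (Fin m) K ^ 1 := fun j => df_lin_mem _
    have hNL : ∀ l, aeval N (Lp (ι l)) = X l := by
      intro l
      have h1 : M * M⁻¹ = 1 := Matrix.mul_nonsing_inv M (isUnit_iff_ne_zero.2 hdet)
      have h2 : aeval N (Lp (ι l)) = ∑ l', (M * M⁻¹) l l' • X l' := by
        simp only [Lp, N, map_sum, map_smul, aeval_X, Finset.smul_sum, smul_smul, Matrix.mul_apply,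
          Finset.sum_smul]
        rw [Finset.sum_comm]
        rfl
      rw [h2, h1]
      simp [Matrix.one_apply]
    refine df_mem_of_tangent (fun l => aeval N (P D (ι l))) (fun l => ?_) ?_
    · rw [← hNL, ← map_sub]
      exact (isFilt_vars (Fin m)).aeval_mem hN (hP2 D (ι l))
    · have := (isFilt_vars (Fin m)).aeval_mem hN hF
      rwa [← AlgHom.comp_apply, comp_aeval] at this
  · have h1 := hI.aeval_sub_mem_zero (fun l => hu (ι l)) (fun l => hE1 D (ι l))
      (fun l => hE D (ι l)) T
    rw [min_self] at h1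
    have := sub_mem hTu h1
    rwa [sub_sub_cancel, ← comp_aeval, AlgHom.comp_apply] at this

end Vale.Agent.P217.D
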