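import Mathlib

/-! P217: the symmetric 2-cocycle lemma in the form needed for p-typical laws.
A homogeneous form of degree `d` is given by coefficients `a i` of `x^i y^(d-i)`.
PLAN.  Strong induction on `d`.  The cocycle identity
`E(x,y) + E(x+y,z) = E(y,z) + E(x,y+z)` holds for all `x y z` in the infinite field `K`, hence as
polynomials; compare the coefficients of `x y^j z^(d-1-j)` (`1 ≤ j ≤ d-2`):
`(j+1) a (j+1) = choose (d-1) j * a 1` (e.g. put `x = t`, take the coefficient of `t^1` in `K[y,z][t]`, or
work in `MvPolynomial (Fin 3) K` with `MvPolynomial.funext`).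
Call `E` reduced if `a 1 = 0`; then `a i = 0` unless `p ∣ i`, and by symmetry unless `p ∣ d - i`.
* `p ∤ d`: subtract `μ ((x+y)^d - x^d - y^d)`, `μ = a 1 / d` (a symmetric cocycle): the difference is
  reduced, hence zero.  Take a prime `l ∣ d`, a primitive `l`-th root `ζ`; `h2` telescopes to `-μ l = 0`.
* `d = p`: subtract `μ C_p`, `C_p` has coefficients `choose p i / p`, `μ = a 1`; the difference is
  reduced hence zero.  `∑_{j<p} C_p(j,1) = (p^p - p)/p ≡ -1` (prove over the integers after multiplying
  by `p`), so `h1` gives `μ = 0`.  (Shortcut: the relations already give `a i = a 1 * choose p i / p`.)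
* `d = p m`, `m ≥ 2`: the relation with `j + 1 = p` gives `choose (d-1) (p-1) * a 1 = 0` and
  `choose (d-1) (p-1) ≡ ±1`; so `E(x,y) = E'(x^p,y^p)` with `a' i = a (p i)`.  Frobenius is bijective on
  `K`, additive and fixes the integers, so `E'` satisfies all hypotheses with `m`. -/

namespace Vale.Agent.P217

open Finset

/-- the form `∑ a i x^i y^(d-i)` -/
def formE {K : Type*} [CommRing K] (d : ℕ) (a : ℕ → K) (x y : K) : K :=
  ∑ i ∈ range (d + 1), a i * x ^ i * y ^ (d - i)

open Polynomial in
theorem laz_rel {K : Type*} [Field K] [Infinite K] (d : ℕ) (hd : 2 ≤ d) (a : ℕ → K)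
    (hcoc : ∀ x y z, formE d a x y + formE d a (x + y) z = formE d a y z + formE d a x (y + z))
    (j : ℕ) (hj : j + 2 ≤ d) : ((j : K) + 1) * a (j + 1) = ((d - 1).choose j : K) * a 1 := by
  let F : K → K[X] := fun c => ∑ i ∈ range (d + 1), C (a i * c ^ (d - i)) * X ^ i
  have hF : ∀ c x, (F c).eval x = formE d a x c := by
    intro c x
    simp only [F, formE, eval_finsetSum, eval_mul, eval_C, eval_pow, eval_X]
    exact sum_congr rfl fun i _ => by ring
  have hFc : ∀ c i, i ≤ d → (F c).coeff i = a i * c ^ (d - i) := by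
    intro c i hi
    simp only [F, finsetSum_coeff, coeff_C_mul_X_pow]
    rw [sum_eq_single i]
    · simp
    · intro b _ hb
      rw [if_neg (Ne.symm hb)]
    · intro h
      exact absurd (mem_range.2 (by omega)) h
  have h1 : ∀ y, a 1 * y ^ (d - 1) + (derivative (F 1)).eval y = a 1 * (y + 1) ^ (d - 1) := by
    intro y
    have e : F y + taylor y (F 1) = C (formE d a y 1) + F (y + 1) := by
      apply Polynomial.funext
      intro x
      simp only [eval_add, eval_C, taylor_eval, hF]
      exact hcoc x y 1
    have e1 := congrArg (fun P => P.coeff 1) e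
    simp only [coeff_add, taylor_coeff_one, coeff_C, hFc _ 1 (by omega)] at e1
    simpa using e1
  have e2 : C (a 1) * X ^ (d - 1) + derivative (F 1) = C (a 1) * (X + 1) ^ (d - 1) := by
    apply Polynomial.funext
    intro y
    simp only [eval_add, eval_mul, eval_C, eval_pow, eval_X, eval_one]
    exact h1 y
  have e3 := congrArg (fun P => P.coeff j) e2
  simp only [coeff_add, coeff_C_mul, coeff_X_pow, coeff_derivative, coeff_X_add_one_pow,
    hFc _ (j + 1) (by omega)] at e3
  rw [if_neg (by omega)] at e3
  simp only [mul_zero, zero_add, one_pow, mul_one] at e3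
  linear_combination e3

theorem laz_binom {K : Type*} [CommRing K] (d : ℕ) (hd : 1 ≤ d) (a : ℕ → K) (μ : K) (h0 : a 0 = 0)
    (hd0 : a d = 0) (h : ∀ i, 0 < i → i < d → a i = μ * (d.choose i : K)) (x y : K) :
    formE d a x y = μ * ((x + y) ^ d - x ^ d - y ^ d) := by
  obtain ⟨e, rfl⟩ : ∃ e, d = e + 1 := ⟨d - 1, by omega⟩
  rw [add_pow, formE, sum_range_succ, sum_range_succ', sum_range_succ, sum_range_succ']
  simp only [h0, hd0, zero_mul, add_zero, pow_zero, Nat.sub_self, Nat.choose_self, Nat.cast_one,
    mul_one, Nat.choose_zero_right, one_mul, Nat.sub_zero]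
  rw [show ∀ s u v : K, s + v + u - u - v = s from fun s u v => by ring, mul_sum]
  refine sum_congr rfl fun i hi => ?_
  rw [h (i + 1) (by omega) (by have := mem_range.1 hi; omega)]
  ring

theorem laz_powsum {p : ℕ} [Fact p.Prime] {K : Type*} [Field K] [CharP K p] (i : ℕ) (hi : i < p) :
    ∑ j ∈ range p, (j : K) ^ i = if i = p - 1 then -1 else 0 := by
  have hp : p.Prime := Fact.out
  have hz : ∑ x : ZMod p, x ^ i = if i = p - 1 then -1 else 0 := by
    split_ifs with h
    · subst h
      have : ∀ x : ZMod p, x ^ (p - 1) = 1 - if x = 0 then 1 else 0 := by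
        intro x
        split_ifs with hx
        · rw [hx, zero_pow (by have := hp.two_le; omega)]; simp
        · rw [ZMod.pow_card_sub_one_eq_one hx]; simp
      simp only [this, sum_sub_distrib, sum_const, card_univ, ZMod.card, nsmul_eq_mul, mul_one,
        ZMod.natCast_self, sum_ite_eq', mem_univ, if_true]
      simp
    · exact FiniteField.sum_pow_lt_card_sub_one (ZMod p) i (by rw [ZMod.card]; omega)
  have hs : ∑ j ∈ range p, (j : ZMod p) ^ i = ∑ x : ZMod p, x ^ i := by
    refine sum_bij (fun j _ => (j : ZMod p)) (fun _ _ => mem_univ _) ?_ ?_ (fun _ _ => rfl)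
    · intro j hj k hk hjk
      have := congrArg ZMod.val hjk
      rwa [ZMod.val_cast_of_lt (mem_range.1 hj), ZMod.val_cast_of_lt (mem_range.1 hk)] at this
    · intro x _
      exact ⟨x.val, mem_range.2 (ZMod.val_lt x), ZMod.natCast_zmod_val x⟩
  have := congrArg (ZMod.castHom (dvd_refl p) K) (hs.trans hz)
  simp only [map_sum, map_pow, map_natCast] at this
  rw [this]
  split_ifs <;> simp

theorem laz_choose {p : ℕ} [Fact p.Prime] {K : Type*} [Field K] [CharP K p] (d : ℕ) (hd : 1 ≤ d)
    (hpd : p ∣ d) (j : ℕ) (hj : j < p) : ((d - 1).choose j : K) = (-1) ^ j := by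
  have hp : p.Prime := Fact.out
  induction j with
  | zero => simp
  | succ j ih =>
    have h1 : d.choose (j + 1) = (d - 1).choose j + (d - 1).choose (j + 1) := by
      obtain ⟨e, rfl⟩ : ∃ e, d = e + 1 := ⟨d - 1, by omega⟩
      simp [Nat.choose_succ_succ']
    have h2 : (d.choose (j + 1) : K) = 0 := by
      have h3 : d * (d - 1).choose j = d.choose (j + 1) * (j + 1) := by
        obtain ⟨e, rfl⟩ : ∃ e, d = e + 1 := ⟨d - 1, by omega⟩
        simpa using Nat.add_one_mul_choose_eq e j
      have h4 : ((d.choose (j + 1) * (j + 1) : ℕ) : K) = 0 := by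
        rw [← h3, Nat.cast_mul, (CharP.cast_eq_zero_iff K p d).2 hpd, zero_mul]
      rw [Nat.cast_mul] at h4
      refine (mul_eq_zero.1 h4).resolve_right fun h5 => ?_
      have := Nat.le_of_dvd (by omega) ((CharP.cast_eq_zero_iff K p _).1 h5)
      omega
    rw [h1, Nat.cast_add, ih (by omega)] at h2
    rw [pow_succ]
    linear_combination h2

theorem laz_frob {p : ℕ} (hp : 0 < p) {K : Type*} [CommRing K] (m : ℕ) (a : ℕ → K)
    (h : ∀ i ≤ p * m, ¬ p ∣ i → a i = 0) (x y : K) :
    formE (p * m) a x y = formE m (fun i => a (p * i)) (x ^ p) (y ^ p) := by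
  symm
  unfold formE
  refine sum_of_injOn (fun i => p * i) ?_ ?_ ?_ ?_
  · intro i _ j _ hij
    exact Nat.eq_of_mul_eq_mul_left hp hij
  · intro i hi
    have := mem_range.1 hi
    exact mem_range.2 (Nat.lt_succ_of_le (Nat.mul_le_mul_left p (by omega)))
  · intro i hi hni
    have hi' := mem_range.1 hi
    rw [h i (by omega), zero_mul, zero_mul]
    rintro ⟨k, rfl⟩
    refine hni ⟨k, ?_, rfl⟩
    have : k ≤ m := Nat.le_of_mul_le_mul_left (by omega) hp
    exact mem_coe.2 (mem_range.2 (by omega))
  · intro i _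
    simp only [← pow_mul, Nat.mul_sub]

theorem lazard_zero {p : ℕ} [Fact p.Prime] {K : Type*} [Field K] [CharP K p] [IsAlgClosed K]
    (d : ℕ) (hd : 2 ≤ d) (a : ℕ → K) (h0 : a 0 = 0) (hd0 : a d = 0)
    (hsym : ∀ i ≤ d, a i = a (d - i))
    (hcoc : ∀ x y z, formE d a x y + formE d a (x + y) z = formE d a y z + formE d a x (y + z))
    (h1 : ∑ j ∈ range p, formE d a (j : K) 1 = 0)
    (h2 : ∀ l : ℕ, l.Prime → l ≠ p → ∀ ζ : K, IsPrimitiveRoot ζ l →
      ∑ j ∈ range l, formE d a (∑ i ∈ range j, ζ ^ i) (ζ ^ j) = 0) :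
    ∀ i ≤ d, a i = 0 := by
  have hp : p.Prime := Fact.out
  induction d using Nat.strong_induction_on generalizing a with
  | _ d ih =>
  have hrel := laz_rel d hd a hcoc
  -- if `a 1 = μ d`-type relation: reduced forms vanish off multiples of `p`
  have hcast : ∀ n : ℕ, (n : K) = 0 ↔ p ∣ n := fun n => CharP.cast_eq_zero_iff K p n
  have hred : a 1 = 0 → ∀ i ≤ d, ¬ p ∣ i → a i = 0 := by
    intro ha i hi hpi
    rcases Nat.eq_zero_or_pos i with rfl | hi0
    · exact h0
    rcases eq_or_lt_of_le hi with rfl | hid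
    · exact hd0
    obtain ⟨j, rfl⟩ : ∃ j, i = j + 1 := ⟨i - 1, by omega⟩
    have := hrel j (by omega)
    rw [ha, mul_zero] at this
    refine (mul_eq_zero.1 this).resolve_left fun h => hpi ((hcast _).1 ?_)
    push_cast
    exact h
  by_cases hpd : p ∣ d
  · obtain ⟨m, rfl⟩ := hpd
    have hm : 1 ≤ m := Nat.pos_of_ne_zero (by rintro rfl; omega)
    rcases eq_or_lt_of_le hm with rfl | hm2
    · -- `d = p`
      rw [mul_one] at *
      have e : ∑ j ∈ range p, formE p a (j : K) 1 = - a (p - 1) := by
        simp only [formE, one_pow, mul_one]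
        rw [sum_comm, sum_range_succ]
        simp only [hd0, zero_mul, sum_const_zero, add_zero, ← mul_sum]
        rw [sum_congr rfl fun i hi => by rw [laz_powsum (K := K) i (mem_range.1 hi)]]
        rw [sum_eq_single (p - 1)]
        · simp
        · intro b _ hb
          simp [hb]
        · intro h
          exact absurd (mem_range.2 (by omega)) h
      have ha1 : a 1 = 0 := by
        rw [hsym 1 (by omega)]
        rw [e] at h1
        exact neg_eq_zero.1 h1
      intro i hi
      by_cases hpi : p ∣ i
      · rcases Nat.eq_zero_or_pos i with rfl | hi0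
        · exact h0
        · have := Nat.le_of_dvd hi0 hpi
          rw [show i = p by omega]
          exact hd0
      · exact hred ha1 i hi hpi
    · -- `d = p m`, `m ≥ 2`
      have hp2 := hp.two_le
      have hpm : 2 * p ≤ p * m := by nlinarith
      have ha1 : a 1 = 0 := by
        have := hrel (p - 1) (by omega)
        rw [laz_choose (K := K) (p := p) (p * m) (by omega) (dvd_mul_right _ _) (p - 1) (by omega)]
          at this
        have h3 : ((p - 1 : ℕ) : K) + 1 = 0 := by
          have : ((p - 1 + 1 : ℕ) : K) = 0 := (hcast _).2 (by rw [Nat.sub_add_cancel (by omega)])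
          push_cast at this
          exact this
        rw [h3, zero_mul] at this
        exact (mul_eq_zero.1 this.symm).resolve_left (pow_ne_zero _ (by simp))
      have hz := hred ha1
      have hfr := laz_frob hp.pos m a hz
      have hroot : ∀ x : K, ∃ z, z ^ p = x := fun x => IsAlgClosed.exists_pow_nat_eq x hp.pos
      have key := ih m (by nlinarith) hm2 (fun i => a (p * i)) (by simpa using h0) hd0
        (fun i hi => by
          have := hsym (p * i) (Nat.mul_le_mul_left p hi)
          rw [← Nat.mul_sub] at this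
          exact this)
        (fun x y z => by
          obtain ⟨x, rfl⟩ := hroot x
          obtain ⟨y, rfl⟩ := hroot y
          obtain ⟨z, rfl⟩ := hroot z
          rw [← add_pow_char, ← add_pow_char, ← hfr, ← hfr, ← hfr, ← hfr]
          exact hcoc x y z)
        (by
          rw [← h1]
          refine sum_congr rfl fun j _ => ?_
          rw [hfr, one_pow]
          have : (j : K) ^ p = j := by
            rw [← frobenius_def, map_natCast]
          rw [this])
        (fun l hl hlp ζ hζ => by
          obtain ⟨ξ, rfl⟩ := hroot ζ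
          have hξ : IsPrimitiveRoot ξ l := by
            rw [← frobenius_def] at hζ
            exact hζ.of_map_of_injective (frobenius K p).injective
          rw [← h2 l hl hlp ξ hξ]
          refine sum_congr rfl fun j _ => ?_
          rw [hfr]
          congr 1
          · simp only [← frobenius_def, map_sum, map_pow]
          · rw [← pow_mul, ← pow_mul, mul_comm])
      intro i hi
      by_cases hpi : p ∣ i
      · obtain ⟨k, rfl⟩ := hpi
        exact key k (Nat.le_of_mul_le_mul_left hi hp.pos)
      · exact hz i hi hpi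
  · -- `p ∤ d`
    have hdK : (d : K) ≠ 0 := fun h => hpd ((hcast d).1 h)
    obtain ⟨μ, hμ⟩ : ∃ μ, μ * (d : K) = a 1 := ⟨a 1 / d, div_mul_cancel₀ _ hdK⟩
    have hb0 : ∀ i, 0 < i → i < d → ¬ p ∣ i → a i = μ * (d.choose i : K) := by
      intro i hi0 hid hpi
      obtain ⟨j, rfl⟩ : ∃ j, i = j + 1 := ⟨i - 1, by omega⟩
      have h3 : d * (d - 1).choose j = d.choose (j + 1) * (j + 1) := by
        obtain ⟨e, rfl⟩ : ∃ e, d = e + 1 := ⟨d - 1, by omega⟩
        simpa using Nat.add_one_mul_choose_eq e j
      have h4 := congrArg (Nat.cast : ℕ → K) h3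
      push_cast at h4
      have h5 : (j : K) + 1 ≠ 0 := fun h => hpi ((hcast _).1 (by push_cast; exact h))
      refine mul_left_cancel₀ h5 ?_
      rw [hrel j (by omega), ← hμ]
      linear_combination μ * h4
    have hb : ∀ i, 0 < i → i < d → a i = μ * (d.choose i : K) := by
      intro i hi0 hid
      by_cases hpi : p ∣ i
      · rw [hsym i hid.le, hb0 (d - i) (by omega) (by omega), Nat.choose_symm hid.le]
        intro h
        have := dvd_add h hpi
        rw [Nat.sub_add_cancel hid.le] at this
        exact hpd this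
      · exact hb0 i hi0 hid hpi
    have hE := laz_binom d (by omega) a μ h0 hd0 hb
    obtain ⟨l, hl, hld⟩ := Nat.exists_prime_and_dvd (show d ≠ 1 by omega)
    have hlp : l ≠ p := by rintro rfl; exact hpd hld
    have hlK : (l : K) ≠ 0 := fun h =>
      hlp ((Nat.prime_dvd_prime_iff_eq hp hl).1 ((hcast l).1 h)).symm
    have : NeZero (l : K) := ⟨hlK⟩
    obtain ⟨ζ, hζ⟩ := HasEnoughRootsOfUnity.exists_primitiveRoot K l
    have h3 := h2 l hl hlp ζ hζ
    have hζd : ∀ j, (ζ ^ j) ^ d = 1 := by
      intro j
      obtain ⟨k, rfl⟩ := hld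
      rw [← pow_mul, mul_comm j, mul_assoc, pow_mul, hζ.pow_eq_one, one_pow]
    simp only [hE, hζd, ← sum_range_succ, ← mul_sum, sum_sub_distrib] at h3
    have h4 : ∑ j ∈ range l, (∑ i ∈ range (j + 1), ζ ^ i) ^ d -
        ∑ j ∈ range l, (∑ i ∈ range j, ζ ^ i) ^ d = 0 := by
      rw [← sum_sub_distrib, sum_range_sub (fun j => (∑ i ∈ range j, ζ ^ i) ^ d),
        hζ.geom_sum_eq_zero hl.one_lt]
      simp
    rw [h4] at h3
    have hμ0 : μ = 0 := by
      refine (mul_eq_zero.1 h3).resolve_right ?_
      simpa using hlK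
    intro i hi
    rcases Nat.eq_zero_or_pos i with rfl | hi0
    · exact h0
    rcases eq_or_lt_of_le hi with rfl | hid
    · exact hd0
    rw [hb i hi0 hid, hμ0, zero_mul]

end Vale.Agent.P217
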