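import Vale.Agent.P217.RCong

/-! P217: transport of a formal group law, rigidity, approximate endomorphisms.
PLAN.
* `exists_transport`: `G = h(F(g X0, g X1))`, `g = h.substInvOfIsUnit`; `subst ![a,b] G = h(F(g a, g b))`
  (`subst_psubst`, `subst_fadd`), `g(h a) = a`; linear coefficients by `coeff_single_psubst`,
  `coeff_single_fadd`, `coeff_one_substInvOfIsUnit`.
* `transport_congr`: map to `R ⧸ J`: `h : F → G` and `h : F → F` are homomorphisms there, so
  `G(hX, hY) = F(hX, hY)`; substitute `g X, g Y` (`h (g X) = X`).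
* `rigid`: induction `s - X ∈ cId (m^j)`, `s = X + η`: `s([p]X) = [p](sX)` (`IsHom.nmul`); left side is
  `[p]X + η([p]X) ≡ [p]X + η(X^q)`, right side is `[p]X + [p]' η + η^2 z ≡ [p]X` modulo `m^(j+1)`
  (`taylor1`, `psubst_sub_dvd` is not enough for the left side: use `η = ∑` of coefficients, i.e.
  `coeff_subst` finite sums with `coeff d ([p]^i - X^(q i)) ∈ m`); `coeff_subst_X_pow`.
* `nmul_mem_pow`: `[p](e) = e * r(e)` with `r(0) = p` (`coeff_one_mulSeries`), so `[p] e ∈ cId (m * J)`.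
* `nmul_mem_height`: modulo `I`, `[p]` has order `≥ t` so `[p] e ∈ (e^t)` (`pow_dvd_psubst`); iterate
  with `nmul_mul`.
* `approx_hom`: put `U = a(F(X,Y))`, `U' = F(aX, aY)`, `U = F(U', e)` with `e ∈ cId m` (`exists_fsub`);
  `h(F(X,Y)) = F(X,Y) + [M]U' + [M]e` and `F(hX,hY) = F(X,Y) + [M]U'` in the group law
  (`nmul_fadd`, associativity, commutativity); `fadd_congr` and `fadd_zero`. -/

namespace Vale.Agent.P217

open MvPowerSeries

noncomputable section

variable {σ R : Type*} [CommRing R] {F : FormalGroup R}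

theorem rt_subst_trans {τ : Type*} {h g : PowerSeries R} (g0 : PowerSeries.constantCoeff g = 0)
    {a b : MvPowerSeries τ R} (ha : constantCoeff a = 0) (hb : constantCoeff b = 0) :
    subst ![a, b] (h.subst (fadd F (g.subst (X 0 : MvPowerSeries (Fin 2) R)) (g.subst (X 1))))
      = h.subst (fadd F (g.subst a) (g.subst b)) := by
  have x0 := c0_subst (rc_c0X (R := R) (0 : Fin 2)) g0
  have x1 := c0_subst (rc_c0X (R := R) (1 : Fin 2)) g0
  rw [subst_psubst (hs2 ha hb) (c0_fadd x0 x1), subst_fadd (hs2 ha hb) x0 x1,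
    subst_psubst (hs2 ha hb) (rc_c0X _), subst_psubst (hs2 ha hb) (rc_c0X _),
    subst_X (hs2 ha hb), subst_X (hs2 ha hb)]
  rfl

theorem rt_left {τ : Type*} {h : PowerSeries R} (h0 : PowerSeries.constantCoeff h = 0)
    (h1 : IsUnit (PowerSeries.coeff 1 h)) {a : MvPowerSeries τ R} (ha : constantCoeff a = 0) :
    (h.substInvOfIsUnit h1).subst (h.subst a) = a := by
  rw [← psubst_psubst ha h0, PowerSeries.subst_substInvOfIsUnit_left h h0 h1,
    PowerSeries.subst_X (hs1 ha)]

theorem rt_right {τ : Type*} {h : PowerSeries R} (h0 : PowerSeries.constantCoeff h = 0)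
    (h1 : IsUnit (PowerSeries.coeff 1 h)) {a : MvPowerSeries τ R} (ha : constantCoeff a = 0) :
    h.subst ((h.substInvOfIsUnit h1).subst a) = a := by
  rw [← psubst_psubst ha (PowerSeries.constantCoeff_substInvOfIsUnit h h1),
    PowerSeries.subst_substInvOfIsUnit_right h h0 h1, PowerSeries.subst_X (hs1 ha)]

theorem exists_transport (hF : F.IsComm) {h : PowerSeries R}
    (h0 : PowerSeries.constantCoeff h = 0) (h1 : IsUnit (PowerSeries.coeff 1 h)) :
    ∃ G : FormalGroup R, G.IsComm ∧ IsIso F G h := by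
  have g0 := PowerSeries.constantCoeff_substInvOfIsUnit h h1
  have g1 : PowerSeries.coeff 1 h * PowerSeries.coeff 1 (h.substInvOfIsUnit h1) = 1 := by
    rw [PowerSeries.coeff_one_substInvOfIsUnit]
    exact h1.mul_val_inv
  set g := h.substInvOfIsUnit h1 with hg
  have cg : ∀ {τ : Type} {a : MvPowerSeries τ R}, constantCoeff a = 0 →
      constantCoeff (g.subst a) = 0 := fun ha => c0_subst ha g0
  have x0 := cg (rc_c0X (R := R) (0 : Fin 2))
  have x1 := cg (rc_c0X (R := R) (1 : Fin 2))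
  have lin : ∀ i : Fin 2, coeff (Finsupp.single i 1)
      (h.subst (fadd F (g.subst (X 0 : MvPowerSeries (Fin 2) R)) (g.subst (X 1)))) = 1 := by
    intro i
    rw [coeff_single_psubst (c0_fadd x0 x1), coeff_single_fadd F x0 x1,
      coeff_single_psubst (rc_c0X _), coeff_single_psubst (rc_c0X _), coeff_index_single_X,
      coeff_index_single_X]
    fin_cases i <;> simpa using g1
  refine ⟨⟨h.subst (fadd F (g.subst (X 0 : MvPowerSeries (Fin 2) R)) (g.subst (X 1))),
    c0_subst (c0_fadd x0 x1) h0, lin 0, lin 1, ?_⟩, ⟨?_⟩, ⟨h0, ?_⟩, h1⟩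
  · have y0 := cg (rc_c0X (R := R) (0 : Fin 3))
    have y1 := cg (rc_c0X (R := R) (1 : Fin 3))
    have y2 := cg (rc_c0X (R := R) (2 : Fin 3))
    rw [rt_subst_trans g0 (rc_c0X _) (rc_c0X _), rt_subst_trans g0 (rc_c0X _) (rc_c0X _),
      rt_subst_trans g0 (c0_subst (c0_fadd y0 y1) h0) (rc_c0X _),
      rt_subst_trans g0 (rc_c0X _) (c0_subst (c0_fadd y1 y2) h0),
      rt_left h0 h1 (c0_fadd y0 y1), rt_left h0 h1 (c0_fadd y1 y2), fadd_assoc y0 y1 y2]
  · refine Eq.trans ?_ (rt_subst_trans g0 (rc_c0X 1) (rc_c0X 0)).symm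
    rw [fadd_comm hF x1 x0]
  · refine Eq.trans ?_
      (rt_subst_trans g0 (c0_subst (rc_c0X 0) h0) (c0_subst (rc_c0X 1) h0)).symm
    rw [rt_left h0 h1 (rc_c0X _), rt_left h0 h1 (rc_c0X _), fadd_X_X]

theorem rt_unique {G G' : FormalGroup R} {h : PowerSeries R} (hh : IsIso F G h)
    (hh' : IsHom F G' h) : G = G' := by
  have g0 := PowerSeries.constantCoeff_substInvOfIsUnit h hh.2
  have x0 := c0_subst (rc_c0X (R := R) (0 : Fin 2)) g0
  have x1 := c0_subst (rc_c0X (R := R) (1 : Fin 2)) g0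
  have e := (hh.1.fadd x0 x1).symm.trans (hh'.fadd x0 x1)
  rw [rt_right hh.1.1 hh.2 (rc_c0X _), rt_right hh.1.1 hh.2 (rc_c0X _), fadd_X_X, fadd_X_X] at e
  exact FormalGroup.ext e

theorem transport_congr {G : FormalGroup R} {h : PowerSeries R} (hh : IsIso F G h) (J : Ideal R)
    (hJ : IsHom (F.map (Ideal.Quotient.mk J)) (F.map (Ideal.Quotient.mk J))
      (PowerSeries.map (Ideal.Quotient.mk J) h)) :
    G.map (Ideal.Quotient.mk J) = F.map (Ideal.Quotient.mk J) := by
  exact rt_unique (hh.map _) hJ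

theorem rt_mem_unit {J : Ideal R} {u : PowerSeries R} :
    u ∈ cId Unit J ↔ ∀ n, PowerSeries.coeff n u ∈ J := by
  rw [mem_cId]
  refine ⟨fun h n => h _, fun h d => ?_⟩
  rw [Finsupp.unique_single d]
  exact h _

theorem rt_psubst_sub {I J : Ideal R} {u : PowerSeries R} (hu : u ∈ cId Unit J)
    {a b : MvPowerSeries σ R} (ha : constantCoeff a = 0) (hb : constantCoeff b = 0)
    (hab : a - b ∈ cId σ I) : u.subst a - u.subst b ∈ cId σ (I * J) := by
  have x01 : constantCoeff (X 0 + X 1 : MvPowerSeries (Fin 2) R) = 0 := by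
    rw [map_add, rc_c0X, rc_c0X, add_zero]
  obtain ⟨w, hw⟩ := psubst_sub_dvd x01 (rc_c0X (0 : Fin 2)) u
  rw [add_sub_cancel_left] at hw
  have h1 : X 1 * w ∈ cId (Fin 2) J := by
    rw [← hw]
    exact sub_mem (psubst_mem_cId x01 hu) (psubst_mem_cId (rc_c0X _) hu)
  have h2 : w ∈ cId (Fin 2) J := by
    rw [mem_cId] at h1 ⊢
    intro d
    have := h1 (Finsupp.single 1 1 + d)
    rwa [X_def, coeff_add_monomial_mul, one_mul] at this
  have he : constantCoeff (a - b) = 0 := by rw [map_sub, ha, hb, sub_zero]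
  have hs := hs2 hb he
  have h3 := congrArg (subst ![b, a - b]) hw
  rw [subst_sub hs, subst_psubst hs x01, subst_psubst hs (rc_c0X _), subst_mul hs, subst_add hs,
    subst_X hs, subst_X hs] at h3
  have h4 : u.subst a - u.subst b = (a - b) * subst ![b, a - b] w := by
    simpa using h3
  have h5 : subst ![b, a - b] w ∈ cId σ J := by
    have h6 : map (Ideal.Quotient.mk J) w = 0 := h2
    rw [cId, RingHom.mem_ker, map_subst hs, h6,
      ← coe_substAlgHom (hasSubst_of_constantCoeff_zero fun i => c0_map _ (by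
        fin_cases i <;> simpa))]
    exact map_zero _
  rw [h4]
  exact cId_mul I J (Ideal.mul_mem_mul hab h5)

theorem rigid (m : Ideal R) [IsHausdorff m R] {p q : ℕ} (hp : (q : R) ∈ m) (hq : q ≠ 0)
    (hpq : mulSeries F p - PowerSeries.X ^ q ∈ cId Unit m) {s : PowerSeries R} (hs : IsHom F F s)
    (hsX : s - PowerSeries.X ∈ cId Unit m) : s = PowerSeries.X := by
  set P := mulSeries F p with hP
  have hP0 : PowerSeries.constantCoeff P = 0 := c0_mulSeries p
  have hX0 : constantCoeff (PowerSeries.X : PowerSeries R) = 0 := PowerSeries.constantCoeff_X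
  have hXq : constantCoeff (PowerSeries.X ^ q : PowerSeries R) = 0 := by
    rw [map_pow, hX0, zero_pow hq]
  set η := s - PowerSeries.X with hη
  have hη0 : constantCoeff η = 0 := by
    have : constantCoeff s = 0 := hs.1
    rw [hη, map_sub, this, hX0, sub_zero]
  have hse : s = PowerSeries.X + η := by rw [hη, add_sub_cancel]
  have h1 : s.subst P = P.subst s := by
    have := hs.nmul p hX0
    rwa [nmul_X, PowerSeries.X_subst] at this
  obtain ⟨z, hz⟩ := taylor1 hX0 hη0 P
  rw [PowerSeries.X_subst, PowerSeries.X_subst, ← hse, ← h1] at hz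
  have h2 : s.subst P = P + η.subst P := by
    conv_lhs => rw [hse]
    rw [PowerSeries.subst_add (hs1 hP0), PowerSeries.subst_X (hs1 hP0)]
  have h3 : η.subst P = PowerSeries.derivative R P * η + η * (η * z) := by
    rw [h2] at hz
    linear_combination hz
  have hD : PowerSeries.derivative R P ∈ cId Unit m := by
    rw [rt_mem_unit] at hpq ⊢
    intro n
    have h4 := hpq (n + 1)
    rw [map_sub, PowerSeries.coeff_X_pow] at h4
    rw [PowerSeries.coeff_derivative]
    split_ifs at h4 with h5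
    · have h6 : (n : R) + 1 = q := by rw [← h5]; push_cast; rfl
      rw [h6]
      exact m.mul_mem_left _ hp
    · rw [sub_zero] at h4
      exact m.mul_mem_right _ h4
  have key : ∀ j, η ∈ cId Unit (m ^ (j + 1)) := by
    intro j
    induction j with
    | zero => simpa using hsX
    | succ j ih =>
      have h4 : η.subst P ∈ cId Unit (m ^ (j + 1 + 1)) := by
        rw [h3, pow_succ']
        exact cId_mul _ _ (add_mem (Ideal.mul_mem_mul hD ih)
          (Ideal.mul_mem_mul hsX (Ideal.mul_mem_right _ _ ih)))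
      have h5 := rt_psubst_sub ih hP0 hXq hpq
      rw [← pow_succ'] at h5
      have h6 : η.subst (PowerSeries.X ^ q : PowerSeries R) ∈ cId Unit (m ^ (j + 1 + 1)) := by
        have := sub_mem h4 h5
        rwa [sub_sub_cancel] at this
      rw [rt_mem_unit] at h6 ⊢
      intro n
      have h7 := h6 (q * n)
      rwa [PowerSeries.coeff_subst_X_pow hq, if_pos (dvd_mul_right _ _),
        Nat.mul_div_cancel_left _ (Nat.pos_of_ne_zero hq)] at h7
  exact sub_eq_zero.1 (eq_zero_of_mem_cId_pow m fun k =>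
    cId_mono (Ideal.pow_le_pow_right (Nat.le_succ k)) (key k))

theorem rt_nmul_one {e : MvPowerSeries σ R} (he0 : constantCoeff e = 0) : nmul F 1 e = e := by
  have := nmul_succ (F := F) 0 he0
  rwa [nmul_zero he0, zero_fadd he0] at this

theorem rt_nmul_eq (p : ℕ) {e : MvPowerSeries σ R} (he0 : constantCoeff e = 0) :
    ∃ z, nmul F p e = C (p : R) * e + e * (e * z) := by
  obtain ⟨z, hz⟩ := pow_dvd_psubst he0 (w := mulSeries F p - (p : R) • PowerSeries.X) (k := 2)
    fun j hj => by
      rw [map_sub, map_smul, PowerSeries.coeff_X]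
      interval_cases j
      · rw [PowerSeries.coeff_zero_eq_constantCoeff, c0_mulSeries]; simp
      · rw [coeff_one_mulSeries]; simp
  rw [PowerSeries.subst_sub (hs1 he0), PowerSeries.subst_smul (hs1 he0),
    PowerSeries.subst_X (hs1 he0), smul_eq_C_mul] at hz
  exact ⟨z, by rw [nmul]; linear_combination hz⟩

theorem nmul_mem_pow {m : Ideal R} {p : ℕ} (hp : (p : R) ∈ m) {e : MvPowerSeries σ R}
    (he0 : constantCoeff e = 0) (he : e ∈ cId σ m) (N : ℕ) :
    nmul F (p ^ N) e ∈ cId σ (m ^ (N + 1)) := by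
  induction N with
  | zero => simpa [rt_nmul_one he0] using he
  | succ N ih =>
    have h0 := c0_nmul (F := F) (p ^ N) he0
    rw [pow_succ' p, nmul_mul _ _ he0, pow_succ' m]
    obtain ⟨z, hz⟩ := rt_nmul_eq (F := F) p h0
    have h1 : (C (p : R) : MvPowerSeries σ R) ∈ cId σ m := by
      simpa using C_mul_mem_cId (σ := σ) hp 1
    rw [hz]
    exact cId_mul _ _ (add_mem (Ideal.mul_mem_mul h1 ih) (Ideal.mul_mem_mul
      (cId_mono (Ideal.pow_le_self (Nat.succ_ne_zero N)) ih) (Ideal.mul_mem_right _ _ ih)))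

theorem rt_sup_pow (I J : Ideal R) (t : ℕ) : (I ⊔ J) ^ t ≤ I ⊔ J ^ t := by
  induction t with
  | zero => simp
  | succ t ih =>
    rw [pow_succ, pow_succ]
    refine (Ideal.mul_mono_left ih).trans ?_
    rw [Ideal.sup_mul, Ideal.mul_sup (I := J ^ t)]
    exact sup_le (Ideal.mul_le_left.trans le_sup_left)
      (sup_le (Ideal.mul_le_right.trans le_sup_left) le_sup_right)

theorem nmul_mem_height {I m : Ideal R} {p t : ℕ}
    (hp : ∀ j < t, PowerSeries.coeff j (mulSeries F p) ∈ I) {e : MvPowerSeries σ R}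
    (he0 : constantCoeff e = 0) (he : e ∈ cId σ m) (N : ℕ) :
    nmul F (p ^ N) e ∈ cId σ (I ⊔ m ^ (t ^ N)) := by
  induction N with
  | zero =>
    rw [pow_zero, pow_zero, pow_one, rt_nmul_one he0]
    exact cId_mono le_sup_right he
  | succ N ih =>
    have h0 := c0_nmul (F := F) (p ^ N) he0
    rw [pow_succ' p, nmul_mul _ _ he0]
    set x := nmul F (p ^ N) e
    let P : PowerSeries R :=
      PowerSeries.mk fun j => if j < t then PowerSeries.coeff j (mulSeries F p) else 0
    have h1 : P ∈ cId Unit I := rt_mem_unit.2 fun n => by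
      rw [PowerSeries.coeff_mk]
      split_ifs with h
      · exact hp n h
      · exact I.zero_mem
    obtain ⟨z, hz⟩ := pow_dvd_psubst h0 (w := mulSeries F p - P) (k := t) fun j hj => by
      rw [map_sub, PowerSeries.coeff_mk, if_pos hj, sub_self]
    rw [PowerSeries.subst_sub (hs1 h0), sub_eq_iff_eq_add] at hz
    rw [nmul, hz]
    refine add_mem (Ideal.mul_mem_right _ _ ?_) (cId_mono le_sup_left (psubst_mem_cId h0 h1))
    refine cId_mono ?_ (cId_pow _ t (Ideal.pow_mem_pow ih t))
    rw [pow_succ, pow_mul]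
    exact rt_sup_pow _ _ _

theorem rt_hom_map {J : Ideal R} {w : PowerSeries R} (hw : PowerSeries.constantCoeff w = 0) :
    IsHom (F.map (Ideal.Quotient.mk J)) (F.map (Ideal.Quotient.mk J))
      (PowerSeries.map (Ideal.Quotient.mk J) w) ↔
    w.subst F.toPowerSeries - fadd F (w.subst (X 0 : MvPowerSeries (Fin 2) R)) (w.subst (X 1))
      ∈ cId (Fin 2) J := by
  rw [sub_mem_cId, map_psubst _ F.zero_constantCoeff,
    map_fadd _ (c0_subst (rc_c0X _) hw) (c0_subst (rc_c0X _) hw), map_psubst _ (rc_c0X _),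
    map_psubst _ (rc_c0X _), map_X, map_X]
  exact ⟨fun h => h.2, fun h => ⟨c0_map _ hw, h⟩⟩

theorem approx_hom (hF : F.IsComm) {m J : Ideal R} {M : ℕ} {a : PowerSeries R}
    (ha0 : PowerSeries.constantCoeff a = 0)
    (ha : IsHom (F.map (Ideal.Quotient.mk m)) (F.map (Ideal.Quotient.mk m))
      (PowerSeries.map (Ideal.Quotient.mk m) a))
    (hJ : ∀ e : MvPowerSeries (Fin 2) R, constantCoeff e = 0 → e ∈ cId (Fin 2) m →
      nmul F M e ∈ cId (Fin 2) J) :
    IsHom (F.map (Ideal.Quotient.mk J)) (F.map (Ideal.Quotient.mk J))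
      (PowerSeries.map (Ideal.Quotient.mk J) (fadd F PowerSeries.X (nmul F M a))) := by
  have hX0 : constantCoeff (PowerSeries.X : PowerSeries R) = 0 := PowerSeries.constantCoeff_X
  have hn0 : constantCoeff (nmul F M a) = 0 := c0_nmul M ha0
  have x0 := rc_c0X (R := R) (0 : Fin 2)
  have x1 := rc_c0X (R := R) (1 : Fin 2)
  have a0 := c0_subst x0 ha0
  have a1 := c0_subst x1 ha0
  have hF0 := F.zero_constantCoeff
  have hU' := c0_fadd (F := F) a0 a1
  obtain ⟨e, he0, he1, he2⟩ := exists_fsub F hU' (c0_subst hF0 ha0)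
  have hem : e ∈ cId (Fin 2) m := Ideal.mem_of_dvd _ he2 ((rt_hom_map ha0).1 ha)
  have hs : ∀ x : MvPowerSeries (Fin 2) R, constantCoeff x = 0 →
      PowerSeries.subst x (fadd F PowerSeries.X (nmul F M a) : PowerSeries R) =
        fadd F x (nmul F M (a.subst x)) := by
    intro x hx
    rw [psubst_fadd hx hX0 hn0, PowerSeries.subst_X (hs1 hx), nmul, psubst_psubst hx ha0, nmul]
  refine (rt_hom_map (c0_fadd hX0 hn0)).2 ?_
  have n0 := c0_nmul (F := F) M a0
  have n1 := c0_nmul (F := F) M a1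
  have nU := c0_nmul (F := F) M hU'
  have ne := c0_nmul (F := F) M he0
  rw [hs _ hF0, hs _ x0, hs _ x1, ← he1, nmul_fadd hF M hU' he0,
    fadd_assoc x0 n0 (c0_fadd x1 n1), ← fadd_assoc n0 x1 n1, fadd_comm hF n0 x1,
    fadd_assoc x1 n0 n1, ← fadd_assoc x0 x1 (c0_fadd n0 n1), fadd_X_X, ← nmul_fadd hF M a0 a1]
  refine fadd_congr hF0 (c0_fadd nU ne) hF0 nU (by simp) (by simp) ?_
  have := fadd_congr (F := F) (G := F) (J := J) nU ne nU (map_zero _) (by simp) (by simp)
    (by simpa using hJ e he0 hem)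
  rwa [fadd_zero nU] at this

end

end Vale.Agent.P217
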