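import Vale.Agent.P217.RCong
import Vale.Agent.P217.RLaz
import Vale.Agent.P217.RTrans

/-! P217: a p-typical law is determined by its `p`-series; endomorphisms `ζ X` and `X^p` of Honda's
law. -/

namespace Vale.Agent.P217

open MvPowerSeries

noncomputable section

section Lead

variable {R : Type*} [CommRing R]

/-- `f = α T^d + O(T^(d+1))` -/
def RHLead (d : ℕ) (f : PowerSeries R) (α : R) : Prop :=
  ∃ z : PowerSeries R, f = PowerSeries.X ^ d * z ∧ PowerSeries.constantCoeff z = α

namespace RHLead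

variable {d : ℕ} {f g : PowerSeries R} {α β : R}

theorem add (h : RHLead d f α) (h' : RHLead d g β) : RHLead d (f + g) (α + β) := by
  obtain ⟨z, rfl, rfl⟩ := h
  obtain ⟨w, rfl, rfl⟩ := h'
  exact ⟨z + w, by ring, map_add _ _ _⟩

theorem mul (h : RHLead d f α) (w : PowerSeries R) :
    RHLead d (f * w) (α * PowerSeries.constantCoeff w) := by
  obtain ⟨z, rfl, rfl⟩ := h
  exact ⟨z * w, by ring, map_mul _ _ _⟩

theorem zero (d : ℕ) : RHLead d (0 : PowerSeries R) 0 := ⟨0, by simp, by simp⟩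

theorem of_dvd (h : PowerSeries.X ^ (d + 1) ∣ f) : RHLead d f 0 := by
  obtain ⟨z, rfl⟩ := h
  exact ⟨PowerSeries.X * z, by ring, by simp⟩

theorem unique (h : RHLead d f α) (h' : RHLead d f β) : α = β := by
  obtain ⟨z, hz, rfl⟩ := h
  obtain ⟨w, hw, rfl⟩ := h'
  have e := congrArg (PowerSeries.coeff (0 + d)) (hz.symm.trans hw)
  rwa [PowerSeries.coeff_X_pow_mul, PowerSeries.coeff_X_pow_mul,
    PowerSeries.coeff_zero_eq_constantCoeff_apply,
    PowerSeries.coeff_zero_eq_constantCoeff_apply] at e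

theorem c0 (h : RHLead d f α) (hd : d ≠ 0) : PowerSeries.constantCoeff f = 0 := by
  obtain ⟨z, rfl, -⟩ := h
  simp [hd]

theorem congr (h : RHLead d f α) (e : f = g) (e' : α = β) : RHLead d g β := e ▸ e' ▸ h

theorem lin (x : R) : RHLead 1 (PowerSeries.C x * PowerSeries.X) x :=
  ⟨PowerSeries.C x, by ring, by simp⟩

theorem fadd (F : FormalGroup R) {u v : PowerSeries R} {x y : R} (hu : RHLead 1 u x)
    (hv : RHLead 1 v y) : RHLead 1 (fadd F u v : PowerSeries R) (x + y) := by
  obtain ⟨z, hz⟩ := fadd_eq (σ := Unit) F (hu.c0 one_ne_zero) (hv.c0 one_ne_zero)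
  have h := (hu.add hv).add ((hu.mul v).mul z)
  rw [hv.c0 one_ne_zero] at h
  exact h.congr hz.symm (by simp)

end RHLead

theorem rh_decomp {D : MvPowerSeries (Fin 2) R} {d : ℕ}
    (hD : ∀ m : Fin 2 →₀ ℕ, m.degree < d → coeff m D = 0) (m : Fin 2 →₀ ℕ) (hm : m.degree < d + 1) :
    coeff m (D - ∑ i ∈ Finset.range (d + 1),
      C (coeff (Finsupp.single 0 i + Finsupp.single 1 (d - i)) D) * X 0 ^ i * X 1 ^ (d - i)) = 0 := by
  have hdeg : m.degree = m 0 + m 1 := by rw [Finsupp.degree_eq_sum, Fin.sum_univ_two]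
  have key : ∀ i, coeff m (C (coeff (Finsupp.single 0 i + Finsupp.single 1 (d - i)) D)
      * X 0 ^ i * X 1 ^ (d - i) : MvPowerSeries (Fin 2) R)
      = if m = Finsupp.single 0 i + Finsupp.single 1 (d - i) then coeff m D else 0 := by
    intro i
    rw [mul_assoc, coeff_C_mul, X_pow_eq, X_pow_eq, monomial_mul_monomial, coeff_monomial]
    split_ifs with h
    · rw [← h]; simp
    · simp
  rw [map_sub, map_sum, sub_eq_zero]
  simp only [key]
  by_cases h : m.degree < d
  · rw [hD m h]; simp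
  · rw [Finset.sum_eq_single (m 0), if_pos]
    · ext i; fin_cases i
      · simp
      · simp; omega
    · intro i _ hi
      rw [if_neg]
      intro e
      apply hi
      rw [e]; simp
    · intro hn
      exact absurd (Finset.mem_range.2 (by omega)) hn

theorem rh_lead_subst {D : MvPowerSeries (Fin 2) R} {d : ℕ}
    (hD : ∀ m : Fin 2 →₀ ℕ, m.degree < d → coeff m D = 0) {u v : PowerSeries R} {x y : R}
    (hu : RHLead 1 u x) (hv : RHLead 1 v y) :
    RHLead d (subst ![u, v] D : PowerSeries R)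
      (formE d (fun i => coeff (Finsupp.single 0 i + Finsupp.single 1 (d - i)) D) x y) := by
  have hs : HasSubst ![u, v] := hs2 (σ := Unit) (hu.c0 one_ne_zero) (hv.c0 one_ne_zero)
  let ψ : MvPowerSeries (Fin 2) R →ₐ[R] PowerSeries R := substAlgHom hs
  have hψ : ∀ f, ψ f = subst ![u, v] f := fun f => congrFun (coe_substAlgHom hs) f
  have h0 : ψ (X 0) = u := substAlgHom_X hs 0
  have h1 : ψ (X 1) = v := substAlgHom_X hs 1
  have hC : ∀ r, ψ (C r) = PowerSeries.C r := fun r => ψ.commutes r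
  obtain ⟨u', hu', rfl⟩ := hu
  obtain ⟨v', hv', rfl⟩ := hv
  have hR := Ideal.mem_map_of_mem ψ (mem_pow_span_X (d + 1) _ (rh_decomp hD))
  rw [Ideal.map_pow] at hR
  have hle : Ideal.map ψ (Ideal.span (Set.range X)) ≤ Ideal.span {PowerSeries.X} := by
    rw [Ideal.map_span, Ideal.span_le]
    rintro _ ⟨_, ⟨i, rfl⟩, rfl⟩
    fin_cases i
    · exact Ideal.mem_span_singleton.2 ⟨u', h0.trans (hu'.trans (by ring))⟩
    · exact Ideal.mem_span_singleton.2 ⟨v', h1.trans (hv'.trans (by ring))⟩
  have hR' := Ideal.pow_right_mono hle _ hR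
  rw [Ideal.span_singleton_pow, Ideal.mem_span_singleton, map_sub, map_sum] at hR'
  simp only [map_mul, map_pow, h0, h1, hC] at hR'
  have hP : RHLead d (∑ i ∈ Finset.range (d + 1),
      PowerSeries.C (coeff (Finsupp.single 0 i + Finsupp.single 1 (d - i)) D) * u ^ i * v ^ (d - i))
      (formE d (fun i => coeff (Finsupp.single 0 i + Finsupp.single 1 (d - i)) D)
        (PowerSeries.constantCoeff u') (PowerSeries.constantCoeff v')) := by
    refine ⟨∑ i ∈ Finset.range (d + 1), PowerSeries.C (coeff (Finsupp.single 0 i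
      + Finsupp.single 1 (d - i)) D) * u' ^ i * v' ^ (d - i), ?_, by simp [formE]⟩
    rw [Finset.mul_sum]
    refine Finset.sum_congr rfl fun i hi => ?_
    obtain ⟨j, rfl⟩ := Nat.exists_eq_add_of_le (Nat.lt_succ_iff.1 (Finset.mem_range.1 hi))
    rw [hu', hv', Nat.add_sub_cancel_left]
    ring
  exact ((RHLead.of_dvd hR').add hP).congr (by rw [sub_add_cancel, hψ]) (zero_add _)

theorem rh_pert {G G' : FormalGroup R} (hG' : G'.IsComm) {d : ℕ} (hd : d ≠ 0)
    (hD : ∀ m : Fin 2 →₀ ℕ, m.degree < d → coeff m (G'.toPowerSeries - G.toPowerSeries) = 0)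
    {u v u' v' : PowerSeries R} {x y α β : R} (hu : RHLead 1 u x) (hv : RHLead 1 v y)
    (hu' : RHLead d (u' - u) α) (hv' : RHLead d (v' - v) β) :
    RHLead d ((fadd G' u' v' : PowerSeries R) - (fadd G u v : PowerSeries R))
      (α + β + formE d (fun i => coeff (Finsupp.single 0 i + Finsupp.single 1 (d - i))
        (G'.toPowerSeries - G.toPowerSeries)) x y) := by
  have u0 := hu.c0 one_ne_zero
  have v0 := hv.c0 one_ne_zero
  have e0 := hu'.c0 hd
  have f0 := hv'.c0 hd
  have u0' : PowerSeries.constantCoeff u' = 0 := by simpa [u0] using e0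
  obtain ⟨w, hw1, hw⟩ := rc_fadd_sub_fadd (σ := Unit) G' u0' v0 f0
  obtain ⟨z, hz1, hz⟩ := rc_fadd_sub_fadd (σ := Unit) G' v0 u0 e0
  rw [add_sub_cancel] at hw hz
  rw [fadd_comm (σ := Unit) hG' v0 u0', fadd_comm (σ := Unit) hG' v0 u0] at hz
  have h3 := rh_lead_subst hD hu hv
  rw [subst_sub (hs2 (σ := Unit) u0 v0)] at h3
  have hw1' : PowerSeries.constantCoeff (R := R) w = 1 := hw1
  have hz1' : PowerSeries.constantCoeff (R := R) z = 1 := hz1
  refine (((hu'.mul z).add (hv'.mul w)).add h3).congr ?_ (by rw [hw1', hz1', mul_one, mul_one])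
  have e1 : (u' - u) * z = (fadd G' u' v : PowerSeries R) - (fadd G' u v : PowerSeries R) := hz.symm
  have e2 : (v' - v) * w = (fadd G' u' v' : PowerSeries R) - (fadd G' u' v : PowerSeries R) :=
    hw.symm
  rw [e1, e2]
  unfold fadd
  abel

theorem rh_sum {G G' : FormalGroup R} (hG' : G'.IsComm) {d : ℕ} (hd : d ≠ 0)
    (hD : ∀ m : Fin 2 →₀ ℕ, m.degree < d → coeff m (G'.toPowerSeries - G.toPowerSeries) = 0)
    {s : ℕ → PowerSeries R} {c : ℕ → R} (hs : ∀ i, RHLead 1 (s i) (c i)) (j : ℕ) :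
    RHLead 1 (sumSeries G s j) (∑ i ∈ Finset.range j, c i) ∧
      RHLead d (sumSeries G' s j - sumSeries G s j) (∑ i ∈ Finset.range j,
        formE d (fun i => coeff (Finsupp.single 0 i + Finsupp.single 1 (d - i))
          (G'.toPowerSeries - G.toPowerSeries)) (∑ l ∈ Finset.range i, c l) (c i)) := by
  induction j with
  | zero => exact ⟨RHLead.zero 1, (RHLead.zero d).congr (sub_self _).symm rfl⟩
  | succ j ih =>
    rw [Finset.sum_range_succ, Finset.sum_range_succ]
    exact ⟨ih.1.fadd G (hs j), (rh_pert hG' hd hD ih.1 (hs j) ih.2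
      ((RHLead.zero d).congr (sub_self _).symm rfl)).congr rfl (by rw [add_zero])⟩

theorem rh_coeff_swap {G : FormalGroup R} (hG : G.IsComm) (i j : ℕ) :
    coeff (Finsupp.single 0 i + Finsupp.single 1 j) G.toPowerSeries
      = coeff (Finsupp.single 0 j + Finsupp.single 1 i) G.toPowerSeries := by
  have h := coeff_embDomain_rename (Equiv.swap (0 : Fin 2) 1).toEmbedding G.toPowerSeries
    (Finsupp.single 0 j + Finsupp.single 1 i)
  have e : (X ∘ (Equiv.swap (0 : Fin 2) 1).toEmbedding : Fin 2 → MvPowerSeries (Fin 2) R)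
      = ![X 1, X 0] := by
    funext i; fin_cases i <;> rfl
  rw [rename_eq_subst, e, ← hG.comm, Finsupp.embDomain_add, Finsupp.embDomain_single,
    Finsupp.embDomain_single, add_comm] at h
  exact h

theorem IsHom.sumSeries {F G : FormalGroup R} {w : PowerSeries R} (hw : IsHom F G w)
    {s : ℕ → PowerSeries R} (hs : ∀ i, PowerSeries.constantCoeff (s i) = 0) (j : ℕ) :
    w.subst (sumSeries F s j) = sumSeries G (fun i => w.subst (s i)) j := by
  induction j with
  | zero => exact PowerSeries.subst_zero_of_constantCoeff_zero hw.1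
  | succ j ih =>
    have := hw.fadd (σ := Unit) (c0_sumSeries (F := F) hs j) (hs j)
    rw [ih] at this
    exact this

theorem rh_psubst_sumSeries (F : FormalGroup R) {a : PowerSeries R}
    (ha : PowerSeries.constantCoeff a = 0) {s : ℕ → PowerSeries R}
    (hs : ∀ i, PowerSeries.constantCoeff (s i) = 0) (j : ℕ) :
    (sumSeries F s j).subst a = sumSeries F (fun i => (s i).subst a) j := by
  induction j with
  | zero => rw [← PowerSeries.coe_substAlgHom (hs1 (σ := Unit) ha)]; exact map_zero _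
  | succ j ih =>
    have := psubst_fadd (σ := Unit) (F := F) ha (c0_sumSeries (F := F) hs j) (hs j)
    rw [ih] at this
    exact this

theorem rh_subst_lin {σ : Type*} {a : MvPowerSeries σ R} (ha : constantCoeff a = 0) (x : R) :
    (PowerSeries.C x * PowerSeries.X : PowerSeries R).subst a = C x * a := by
  rw [PowerSeries.subst_mul (hs1 ha), PowerSeries.subst_C, PowerSeries.subst_X (hs1 ha)]

theorem IsHom.of_map {R' : Type*} [CommRing R'] {F G : FormalGroup R} {w : PowerSeries R}
    {ρ : R →+* R'} (hρ : Function.Injective ρ) (h0 : PowerSeries.constantCoeff w = 0)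
    (hw : IsHom (F.map ρ) (G.map ρ) (PowerSeries.map ρ w)) : IsHom F G w := by
  have x0 : constantCoeff (X 0 : MvPowerSeries (Fin 2) R) = 0 := constantCoeff_X _
  have x1 : constantCoeff (X 1 : MvPowerSeries (Fin 2) R) = 0 := constantCoeff_X _
  refine ⟨h0, ?_⟩
  have hinj : Function.Injective (MvPowerSeries.map (σ := Fin 2) ρ) := fun f g h => by
    ext m
    exact hρ (by rw [← coeff_map, ← coeff_map, h])
  apply hinj
  rw [map_psubst ρ F.zero_constantCoeff, map_fadd ρ (c0_subst x0 h0) (c0_subst x1 h0),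
    map_psubst ρ x0, map_psubst ρ x1, map_X, map_X]
  exact hw.2

end Lead

variable {p : ℕ} [Fact p.Prime]

theorem fg_unique {K : Type*} [Field K] [CharP K p] [IsAlgClosed K] {G G' : FormalGroup K}
    (hG : G.IsComm) (hG' : G'.IsComm) (hp : mulSeries G p = mulSeries G' p)
    (ht : ∀ l : ℕ, l.Prime → l ≠ p → ∀ ζ : K, IsPrimitiveRoot ζ l →
      sumSeries G (fun i => PowerSeries.C (ζ ^ i) * PowerSeries.X) l
        = sumSeries G' (fun i => PowerSeries.C (ζ ^ i) * PowerSeries.X) l) :
    G = G' := by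
  have hax : ∀ m : Fin 2 →₀ ℕ, m 0 = 0 ∨ m 1 = 0 →
      coeff m (G'.toPowerSeries - G.toPowerSeries) = 0 := by
    obtain ⟨r, hr⟩ := rc_fadd_univ G
    obtain ⟨r', hr'⟩ := rc_fadd_univ G'
    rintro m (h | h)
    · exact X_dvd_iff.1 ⟨X 1 * (r' - r), by rw [hr, hr']; ring⟩ m h
    · exact X_dvd_iff.1 ⟨X 0 * (r' - r), by rw [hr, hr']; ring⟩ m h
  have main : ∀ d, ∀ m : Fin 2 →₀ ℕ, m.degree < d →
      coeff m (G'.toPowerSeries - G.toPowerSeries) = 0 := by
    intro d
    induction d with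
    | zero => intro m hm; omega
    | succ d hD =>
      intro m hm
      have hdeg : m.degree = m 0 + m 1 := by rw [Finsupp.degree_eq_sum, Fin.sum_univ_two]
      by_cases h2 : d < 2
      · exact hax m (by omega)
      by_cases hlt : m.degree < d
      · exact hD m hlt
      have hd : d ≠ 0 := by omega
      have z0 : ∀ u : PowerSeries K, RHLead d (u - u) 0 := fun u =>
        (RHLead.zero d).congr (sub_self _).symm rfl
      have key := lazard_zero (p := p) d (by omega)
        (fun i => coeff (Finsupp.single 0 i + Finsupp.single 1 (d - i))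
          (G'.toPowerSeries - G.toPowerSeries)) (hax _ (by simp)) (hax _ (by simp))
        (fun i hi => ?_) (fun x y z => ?_) ?_ (fun l hl hlp ζ hζ => ?_) (m 0) (by omega)
      · rw [← key]
        congr 2
        ext i; fin_cases i
        · simp
        · simp; omega
      · rw [map_sub, map_sub, rh_coeff_swap hG, rh_coeff_swap hG' i, Nat.sub_sub_self hi]
      · have hx := RHLead.lin x
        have hy := RHLead.lin y
        have hz := RHLead.lin z
        have e1 := rh_pert hG' hd hD (hx.fadd G hy) hz (rh_pert hG' hd hD hx hy (z0 _) (z0 _)) (z0 _)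
        have e2 := rh_pert hG' hd hD hx (hy.fadd G hz) (z0 _) (rh_pert hG' hd hD hy hz (z0 _) (z0 _))
        rw [fadd_assoc (σ := Unit) (hx.c0 one_ne_zero) (hy.c0 one_ne_zero) (hz.c0 one_ne_zero),
          fadd_assoc (σ := Unit) (hx.c0 one_ne_zero) (hy.c0 one_ne_zero) (hz.c0 one_ne_zero)] at e1
        simpa using e1.unique e2
      · have e1 := (rh_sum hG' hd hD (s := fun _ => PowerSeries.X) (c := fun _ => 1)
          (fun _ => ⟨1, by simp, by simp⟩) p).2
        have e2 : RHLead d (mulSeries G' p - mulSeries G p) 0 := hp ▸ z0 _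
        simpa using e1.unique e2
      · have e1 := (rh_sum hG' hd hD (fun i => RHLead.lin (ζ ^ i)) l).2
        rw [ht l hl hlp ζ hζ] at e1
        exact e1.unique (z0 _)
  ext m
  exact (sub_eq_zero.1 ((map_sub _ _ _).symm.trans (main _ m (Nat.lt_succ_self _)))).symm

variable {n : ℕ} {Γ : FormalGroup (ZMod p)} {k : Type} [Field k] [CharP k p]

theorem rh_typical (hΓ : IsPTypical p Γ) {K : Type} [Field K] [CharP K p] [IsAlgClosed K]
    {l : ℕ} (hl : l.Prime) (hlp : l ≠ p) {ζ : K} (hζ : IsPrimitiveRoot ζ l) :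
    sumSeries (Γ.map (ZMod.castHom dvd_rfl K))
      (fun i => PowerSeries.C (ζ ^ i) * PowerSeries.X) l = 0 := by
  let _ : Algebra (ZMod p) K := ZMod.algebra K p
  let φ : AlgebraicClosure (ZMod p) →ₐ[ZMod p] K := IsAlgClosed.lift
  have hne : NeZero (l : AlgebraicClosure (ZMod p)) := ⟨fun h => hlp
    ((Nat.prime_dvd_prime_iff_eq Fact.out hl).1
      ((CharP.cast_eq_zero_iff _ p l).1 h)).symm⟩
  have hl0 : NeZero l := ⟨hl.ne_zero⟩
  obtain ⟨ω, hω⟩ := HasEnoughRootsOfUnity.exists_primitiveRoot (AlgebraicClosure (ZMod p)) l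
  have hinj : Function.Injective φ := φ.toRingHom.injective
  obtain ⟨i, -, hi⟩ := (hω.map_of_injective hinj).eq_pow_of_pow_eq_one hζ.pow_eq_one
  rw [← map_pow] at hi
  subst hi
  have h := congrArg (PowerSeries.map φ.toRingHom) (hΓ l hl hlp _ (hζ.of_map_of_injective hinj))
  rw [map_sumSeries _ (fun i => by simp), map_map_fg, map_zero,
    Subsingleton.elim (φ.toRingHom.comp _) (ZMod.castHom dvd_rfl K)] at h
  simpa using h

theorem rh_scale_closed (hΓ : IsHonda p n Γ) {K : Type} [Field K] [CharP K p] [IsAlgClosed K]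
    (ζ : K) (hζ : ζ ^ p ^ n = ζ) (h0 : ζ ≠ 0) :
    IsHom (Γ.map (ZMod.castHom dvd_rfl K)) (Γ.map (ZMod.castHom dvd_rfl K))
      (PowerSeries.C ζ * PowerSeries.X) := by
  have hG := isComm_map hΓ.comm (ZMod.castHom dvd_rfl K)
  obtain ⟨G', hG', hh, -⟩ := exists_transport hG (h := PowerSeries.C ζ * PowerSeries.X) (by simp)
    (by simpa using h0)
  have ha : PowerSeries.constantCoeff (PowerSeries.C ζ⁻¹ * PowerSeries.X : PowerSeries K) = 0 := by
    simp
  have hp : mulSeries (Γ.map (ZMod.castHom dvd_rfl K)) p = PowerSeries.X ^ p ^ n := by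
    rw [← map_mulSeries, hΓ.pseries, map_pow, PowerSeries.map_X]
  have hc : (PowerSeries.C ζ * PowerSeries.C ζ⁻¹ : PowerSeries K) = 1 := by
    rw [← map_mul, mul_inv_cancel₀ h0, map_one]
  have lin : ∀ (x : K) (a : PowerSeries K), PowerSeries.constantCoeff a = 0 →
      (PowerSeries.C x * PowerSeries.X : PowerSeries K).subst a = PowerSeries.C x * a :=
    fun x a h => rh_subst_lin (σ := Unit) h x
  have gen : ∀ (s : ℕ → PowerSeries K) (c : ℕ → K), (∀ i, s i = PowerSeries.C (c i) * PowerSeries.X) →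
      ∀ j, sumSeries G' s j = PowerSeries.C ζ * (sumSeries (Γ.map (ZMod.castHom dvd_rfl K)) s j).subst
        (PowerSeries.C ζ⁻¹ * PowerSeries.X : PowerSeries K) := by
    intro s c hs j
    have s0 : ∀ i, PowerSeries.constantCoeff (s i) = 0 := fun i => by simp [hs]
    have s1 : ∀ i, PowerSeries.constantCoeff ((s i).subst
        (PowerSeries.C ζ⁻¹ * PowerSeries.X : PowerSeries K) : PowerSeries K) = 0 :=
      fun i => c0_subst (σ := Unit) ha (s0 i)
    rw [rh_psubst_sumSeries _ ha s0, ← lin _ _ (c0_sumSeries s1 j), hh.sumSeries s1]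
    congr 1
    funext i
    rw [lin _ _ (s1 i), hs, lin _ _ ha]
    linear_combination (-PowerSeries.C (c i) * PowerSeries.X) * hc
  have e : Γ.map (ZMod.castHom dvd_rfl K) = G' := by
    refine fg_unique (p := p) hG hG' ?_ fun l hl hlp ω hω => ?_
    · rw [mulSeries.eq_1 G', gen _ (fun _ => 1) (fun _ => by simp), ← mulSeries, hp,
        PowerSeries.subst_pow (hs1 (σ := Unit) ha), PowerSeries.subst_X (hs1 (σ := Unit) ha),
        mul_pow, ← map_pow, inv_pow, hζ, ← mul_assoc, hc, one_mul]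
    · rw [gen _ _ fun _ => rfl, rh_typical hΓ.typical hl hlp hω,
        ← PowerSeries.coe_substAlgHom (hs1 (σ := Unit) ha), map_zero, mul_zero]
  exact e ▸ hh

theorem isHom_scale (hΓ : IsHonda p n Γ) (ζ : k) (hζ : ζ ^ p ^ n = ζ) :
    IsHom (Γ.map (ZMod.castHom dvd_rfl k)) (Γ.map (ZMod.castHom dvd_rfl k))
      (PowerSeries.C ζ * PowerSeries.X) := by
  by_cases h0 : ζ = 0
  · subst h0
    refine ⟨by simp, ?_⟩
    rw [rh_subst_lin (FormalGroup.zero_constantCoeff _), rh_subst_lin (constantCoeff_X _),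
      rh_subst_lin (constantCoeff_X _), map_zero, zero_mul, zero_mul, zero_mul,
      fadd_zero (map_zero _)]
  have hinj := (algebraMap k (AlgebraicClosure k)).injective
  refine IsHom.of_map hinj (by simp) ?_
  rw [map_map_fg, Subsingleton.elim (RingHom.comp _ _)
    (ZMod.castHom dvd_rfl (AlgebraicClosure k)), map_mul, PowerSeries.map_C, PowerSeries.map_X]
  exact rh_scale_closed hΓ _ (by rw [← map_pow, hζ]) ((map_ne_zero_iff _ hinj).2 h0)

theorem isHom_frob (Γ : FormalGroup (ZMod p)) (r : ℕ) :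
    IsHom (Γ.map (ZMod.castHom dvd_rfl k)) (Γ.map (ZMod.castHom dvd_rfl k))
      (PowerSeries.X ^ p ^ r) := by
  have hp : p ≠ 0 := (Fact.out : p.Prime).ne_zero
  have h : IsHom Γ Γ (PowerSeries.X ^ p ^ r) := by
    refine ⟨by simp [hp], ?_⟩
    have e : ∀ a : MvPowerSeries (Fin 2) (ZMod p), constantCoeff a = 0 →
        (PowerSeries.X ^ p ^ r : PowerSeries (ZMod p)).subst a = a ^ p ^ r := fun a ha => by
      rw [PowerSeries.subst_pow (hs1 ha), PowerSeries.subst_X (hs1 ha)]
    rw [e _ Γ.zero_constantCoeff, e _ (constantCoeff_X _), e _ (constantCoeff_X _),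
      ← map_iterateFrobenius_expand p hp, Subsingleton.elim (iterateFrobenius _ _ _) (RingHom.id _),
      map_id, RingHom.id_apply, expand, coe_substAlgHom, fadd]
    congr 1
    funext i; fin_cases i <;> rfl
  simpa using h.map (ZMod.castHom dvd_rfl k)

theorem isHom_scale_frob (hΓ : IsHonda p n Γ) (ζ : k) (hζ : ζ ^ p ^ n = ζ) (r : ℕ) :
    IsHom (Γ.map (ZMod.castHom dvd_rfl k)) (Γ.map (ZMod.castHom dvd_rfl k))
      (PowerSeries.C ζ * PowerSeries.X ^ p ^ r) := by
  have h1 := isHom_frob (k := k) Γ r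
  have h := h1.comp (isHom_scale hΓ ζ hζ)
  rwa [rh_subst_lin (σ := Unit) h1.1] at h

end

end Vale.Agent.P217
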