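import Vale.Agent.P217.RE0

/-! P217: the height ideals are invariant primes.
PLAN.
* `mem_heightIdeal`: for `1 ≤ h`, `f ∈ I_h` iff every coefficient at an exponent `d` supported on the
  variables with `h ≤ i + 1` is divisible by `p`.  Left to right: the right side is an ideal containing
  the generators.  Right to left: split `f = p g + f'` where `f'` keeps only the exponents meeting a
  variable with `i + 1 < h`; write `f' = ∑ X i * g i` as in `exists_sum_X_mul` (pick the variable among
  those with `i + 1 < h`).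
* prime: `I_0 = ⊥`; for `h ≥ 1`, `I_h` is the kernel of `killI h : E0 → k[[u]]`, the composite of
  `map WittVector.constantCoeff` and `subst (fun i => if i + 1 < h then 0 else X i)`
  (coefficients of this substitution: use `ev`/`hom_ext` or `coeff_subst`; alternatively define the map
  coefficientwise and prove multiplicativity with `coeff_mul`); the target is a domain.
* invariance: let `w : F → σ_* F` be the isomorphism, `w([p]_F X) = [p]_{σF}(w X)` (`IsHom.nmul`).
  Modulo an ideal `J`, a series `u` has order `≥ N` iff `w(u)` has iff `u(w)` has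
  (`order_psubst_iff`).  With `J = I_h` get `σ(coeff_j [p]) ∈ I_h`, with `J = σ(I_h)` get
  `coeff_j [p] ∈ σ(I_h)`, for `j < p^h`; conclude with `HeightCoords`. -/

namespace Vale.Agent.P217

open MvPowerSeries IsLocalRing

noncomputable section

theorem ri_left {R : Type*} [CommRing R] {w u : PowerSeries R}
    (hw0 : PowerSeries.constantCoeff w = 0) (hu0 : PowerSeries.constantCoeff u = 0) {N : ℕ}
    (h : ∀ j < N, PowerSeries.coeff j u = 0) :
    ∀ j < N, PowerSeries.coeff j (w.subst u : PowerSeries R) = 0 := by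
  have h1 := pow_dvd_psubst hu0 (w := w) (k := 1) fun j hj => by
    obtain rfl : j = 0 := by omega
    rwa [PowerSeries.coeff_zero_eq_constantCoeff_apply]
  rw [pow_one] at h1
  exact PowerSeries.X_pow_dvd_iff.1 ((PowerSeries.X_pow_dvd_iff.2 h).trans h1)

theorem ri_right {R : Type*} [CommRing R] {w u : PowerSeries R}
    (hw0 : PowerSeries.constantCoeff w = 0) {N : ℕ} (h : ∀ j < N, PowerSeries.coeff j u = 0) :
    ∀ j < N, PowerSeries.coeff j (u.subst w : PowerSeries R) = 0 :=
  PowerSeries.X_pow_dvd_iff.1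
    ((pow_dvd_pow_of_dvd (PowerSeries.X_dvd_iff.2 hw0) N).trans (pow_dvd_psubst hw0 h))

/-- order at least `N` is preserved and reflected by composition with an invertible series -/
theorem order_psubst_iff {R : Type*} [CommRing R] {w u : PowerSeries R}
    (hw0 : PowerSeries.constantCoeff w = 0) (hw : IsUnit (PowerSeries.coeff 1 w))
    (hu0 : PowerSeries.constantCoeff u = 0) (N : ℕ) :
    ((∀ j < N, PowerSeries.coeff j (w.subst u : PowerSeries R) = 0) ↔
      ∀ j < N, PowerSeries.coeff j u = 0) ∧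
    ((∀ j < N, PowerSeries.coeff j (u.subst w : PowerSeries R) = 0) ↔
      ∀ j < N, PowerSeries.coeff j u = 0) := by
  have hv0 := w.constantCoeff_substInvOfIsUnit hw
  refine ⟨⟨fun h => ?_, ri_left hw0 hu0⟩, fun h => ?_, ri_right hw0⟩
  · have h1 := ri_left hv0 (c0_subst hu0 hw0) h
    rwa [← psubst_psubst hu0 hw0, w.subst_substInvOfIsUnit_left hw0 hw,
      PowerSeries.subst_X (hs1 hu0)] at h1
  · have h1 := ri_right hv0 h
    rwa [psubst_psubst hv0 hw0, w.subst_substInvOfIsUnit_right hw0 hw, PowerSeries.X_subst] at h1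

theorem ri_iso {R : Type*} [CommRing R] {F : FormalGroup R} {σ : R →+* R} {w : PowerSeries R}
    (hw : IsIso F (F.map σ) w) (J : Ideal R) (N : ℕ) {q : ℕ} :
    (∀ j < N, PowerSeries.coeff j (mulSeries F q) ∈ J) ↔
      ∀ j < N, σ (PowerSeries.coeff j (mulSeries F q)) ∈ J := by
  have h1 := hw.1.nmul q (a := PowerSeries.X) PowerSeries.constantCoeff_X
  rw [nmul_X, PowerSeries.X_subst, nmul, ← map_mulSeries] at h1
  have h2 := congrArg (MvPowerSeries.map (Ideal.Quotient.mk J)) h1
  rw [map_psubst _ (c0_mulSeries q), map_psubst _ hw.1.1] at h2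
  have h3 := (hw.map (Ideal.Quotient.mk J)).2
  have h4 := c0_map (Ideal.Quotient.mk J) hw.1.1
  have a1 := (order_psubst_iff h4 h3 (c0_map (Ideal.Quotient.mk J) (c0_mulSeries (F := F) q)) N).1
  have a2 := (order_psubst_iff h4 h3 (c0_map (Ideal.Quotient.mk J)
    (c0_map σ (c0_mulSeries (F := F) q))) N).2
  have a3 : (∀ j < N, PowerSeries.coeff j (PowerSeries.map (Ideal.Quotient.mk J)
      (mulSeries F q)) = 0) ↔ ∀ j < N, PowerSeries.coeff j (PowerSeries.map (Ideal.Quotient.mk J)
      (PowerSeries.map σ (mulSeries F q))) = 0 :=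
    a1.symm.trans (Iff.trans (iff_of_eq (congrArg (fun z : PowerSeries (R ⧸ J) =>
      ∀ j < N, PowerSeries.coeff j z = 0) h2)) a2)
  simpa only [PowerSeries.coeff_map, Ideal.Quotient.eq_zero_iff_mem] using a3

theorem ri_span {σ R : Type*} [CommRing R] (S : Finset σ) (f : MvPowerSeries σ R)
    (hf : ∀ d : σ →₀ ℕ, (∀ i ∈ S, d i = 0) → coeff d f = 0) :
    f ∈ Ideal.span ((X : σ → MvPowerSeries σ R) '' S) := by
  classical
  induction S using Finset.induction_on generalizing f with
  | empty =>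
    have : f = 0 := MvPowerSeries.ext fun d => hf d (by simp)
    rw [this]; exact Ideal.zero_mem _
  | insert i S _ ih =>
    let g : MvPowerSeries σ R := fun d => if d i = 0 then coeff d f else 0
    have hg : ∀ d, coeff d g = if d i = 0 then coeff d f else 0 := fun _ => rfl
    have h1 := ih g fun d hd => by
      rw [hg]
      split_ifs with h
      · exact hf d ((Finset.forall_mem_insert _ _ _).2 ⟨h, hd⟩)
      · rfl
    have h2 : X i ∣ f - g := X_dvd_iff.2 fun d hd => by rw [map_sub, hg, if_pos hd, sub_self]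
    rw [← sub_add_cancel f g]
    refine Ideal.add_mem _ (Ideal.mem_of_dvd _ h2 (Ideal.subset_span ⟨i, by simp, rfl⟩))
      (Ideal.span_mono (Set.image_mono (by simp)) h1)

variable {p n : ℕ} [Fact p.Prime] {k : Type} [Field k] [CharP k p] [PerfectRing k p]

theorem heightIdeal_zero : heightIdeal p n k 0 = ⊥ := by simp [heightIdeal]

theorem heightIdeal_mono {h h' : ℕ} (hh : h ≤ h') :
    heightIdeal p n k h ≤ heightIdeal p n k h' :=
  Ideal.span_mono (Set.union_subset_union (fun _ hx => ⟨hx.1.trans_le hh, hx.2⟩)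
    fun _ ⟨i, hi, hx⟩ => ⟨i, hi.trans_le hh, hx⟩)

theorem heightIdeal_le_mE (h : ℕ) : heightIdeal p n k h ≤ mE p n k := by
  refine Ideal.span_le.2 ?_
  rintro x (⟨-, rfl⟩ | ⟨i, -, rfl⟩)
  · exact p_mem_mE
  · exact X_mem_mE i

/-- the generator `u_h` added at step `h` (`u_0 = p`) -/
def uGen (p n : ℕ) [Fact p.Prime] (k : Type) [Field k] (h : ℕ) : E0 p n k :=
  if h = 0 then (p : E0 p n k) else if hh : h - 1 < n - 1 then X ⟨h - 1, hh⟩ else 0

theorem heightIdeal_succ (h : ℕ) :
    heightIdeal p n k (h + 1) = heightIdeal p n k h ⊔ Ideal.span {uGen p n k h} := by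
  refine le_antisymm (Ideal.span_le.2 ?_) (sup_le (heightIdeal_mono (Nat.le_succ h))
    ((Ideal.span_singleton_le_iff_mem _).2 ?_))
  · rintro x (⟨-, rfl⟩ | ⟨i, hi, rfl⟩)
    · by_cases h0 : h = 0
      · refine Ideal.mem_sup_right (Ideal.subset_span ?_)
        simp [uGen, h0]
      · exact Ideal.mem_sup_left (Ideal.subset_span (Or.inl ⟨Nat.pos_of_ne_zero h0, rfl⟩))
    · by_cases h0 : (i : ℕ) + 1 < h
      · exact Ideal.mem_sup_left (Ideal.subset_span (Or.inr ⟨i, h0, rfl⟩))
      · refine Ideal.mem_sup_right (Ideal.subset_span ?_)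
        obtain rfl : h = i + 1 := by omega
        simp [uGen]
  · unfold uGen
    split_ifs with h0 h1
    · exact Ideal.subset_span (Or.inl ⟨Nat.succ_pos h, rfl⟩)
    · exact Ideal.subset_span (Or.inr ⟨⟨h - 1, h1⟩, by show h - 1 + 1 < h + 1; omega, rfl⟩)
    · exact Ideal.zero_mem _

theorem uGen_mem_mE (h : ℕ) : uGen p n k h ∈ mE p n k := by
  unfold uGen
  split_ifs
  · exact p_mem_mE
  · exact X_mem_mE _
  · exact Ideal.zero_mem _

/-- reduce modulo `p` and kill the first variables -/
def riKill (p n : ℕ) [Fact p.Prime] (k : Type) [Field k] (h : ℕ) :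
    E0 p n k →+* MvPowerSeries (Fin (n - 1)) k :=
  (map WittVector.constantCoeff).comp (rescale fun i => if (i : ℕ) + 1 < h then 0 else 1)

theorem ri_ker {h : ℕ} {f : E0 p n k} : f ∈ RingHom.ker (riKill p n k h) ↔
    ∀ d : Fin (n - 1) →₀ ℕ, (∀ i : Fin (n - 1), (i : ℕ) + 1 < h → d i = 0) →
      (p : WittVector p k) ∣ coeff d f := by
  rw [RingHom.mem_ker, MvPowerSeries.ext_iff]
  refine forall_congr' fun d => ?_
  rw [riKill, RingHom.comp_apply, coeff_map, coeff_rescale, map_zero, ← RingHom.mem_ker,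
    WittVector.ker_constantCoeff, Ideal.mem_span_singleton]
  by_cases hd : ∀ i : Fin (n - 1), (i : ℕ) + 1 < h → d i = 0
  · rw [Finsupp.prod, Finset.prod_eq_one, one_mul]
    · exact ⟨fun h _ => h, fun h => h hd⟩
    · intro i hi
      rw [if_neg fun h => Finsupp.mem_support_iff.1 hi (hd i h), one_pow]
  · refine ⟨fun _ h => absurd h hd, fun _ => ?_⟩
    push Not at hd
    obtain ⟨i, hi, hi'⟩ := hd
    rw [Finsupp.prod, Finset.prod_eq_zero (Finsupp.mem_support_iff.2 hi'), zero_mul]
    · exact dvd_zero _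
    · rw [if_pos hi, zero_pow hi']

theorem mem_heightIdeal {h : ℕ} (hh : 1 ≤ h) {f : E0 p n k} :
    f ∈ heightIdeal p n k h ↔ ∀ d : Fin (n - 1) →₀ ℕ, (∀ i : Fin (n - 1), (i : ℕ) + 1 < h → d i = 0) →
      (p : WittVector p k) ∣ coeff d f := by
  classical
  constructor
  · intro hf
    rw [← ri_ker]
    refine (Ideal.span_le.2 ?_ : heightIdeal p n k h ≤ RingHom.ker (riKill p n k h)) hf
    rintro x (⟨-, rfl⟩ | ⟨i, hi, rfl⟩)
    · refine ri_ker.2 fun d _ => ?_
      rw [← map_natCast (C : WittVector p k →+* E0 p n k), coeff_C]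
      split_ifs
      · exact dvd_rfl
      · exact dvd_zero _
    · refine ri_ker.2 fun d hd => ?_
      rw [coeff_X, if_neg]
      · exact dvd_zero _
      · rintro rfl
        simpa using hd i hi
  · intro hf
    choose! g hg using hf
    have h1 := ri_span (Finset.univ.filter fun i : Fin (n - 1) => (i : ℕ) + 1 < h)
      (f - C (p : WittVector p k) * (show E0 p n k from g)) fun d hd => by
        rw [map_sub, coeff_C_mul, hg d fun i hi => hd i (Finset.mem_filter.2 ⟨Finset.mem_univ _, hi⟩)]
        exact sub_self _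
    rw [← sub_add_cancel f (C (p : WittVector p k) * (show E0 p n k from g))]
    refine Ideal.add_mem _ (Ideal.span_mono ?_ h1) (Ideal.mul_mem_right _ _ ?_)
    · rintro x ⟨i, hi, rfl⟩
      exact Or.inr ⟨i, (Finset.mem_filter.1 hi).2, rfl⟩
    · rw [map_natCast]
      exact Ideal.subset_span (Or.inl ⟨hh, rfl⟩)

theorem heightIdeal_isPrime (h : ℕ) : (heightIdeal p n k h).IsPrime := by
  rcases Nat.eq_zero_or_pos h with rfl | hh
  · rw [heightIdeal_zero]; exact Ideal.isPrime_bot
  · have h1 : heightIdeal p n k h = RingHom.ker (riKill p n k h) :=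
      Ideal.ext fun f => (mem_heightIdeal hh).trans ri_ker.symm
    have : IsDomain (MvPowerSeries (Fin (n - 1)) k) := NoZeroDivisors.to_isDomain _
    rw [h1]
    exact RingHom.ker_isPrime _

theorem heightIdeal_invariant {F : FormalGroup (E0 p n k)} (hH : HeightCoords F) {h : ℕ}
    (hh : h ≤ n) : Invariant F (heightIdeal p n k h) := by
  intro σ hσ
  rcases Nat.eq_zero_or_pos h with rfl | hh
  · rw [heightIdeal_zero, Ideal.map_bot]
  obtain ⟨w, hw⟩ := hσ.2
  rw [← hH h hh ‹_›]
  refine le_antisymm (Ideal.map_le_iff_le_comap.2 (Ideal.span_le.2 ?_)) (Ideal.span_le.2 ?_)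
  · rintro x ⟨j, hj, rfl⟩
    exact (ri_iso hw _ (p ^ h)).1 (fun j hj => Ideal.subset_span (by exact ⟨j, hj, rfl⟩)) j hj
  · rintro x ⟨j, hj, rfl⟩
    exact (ri_iso hw _ (p ^ h)).2
      (fun j hj => Ideal.mem_map_of_mem _ (Ideal.subset_span (by exact ⟨j, hj, rfl⟩))) j hj

theorem coeff_mulSeries_mem {F : FormalGroup (E0 p n k)} (hH : HeightCoords F) {h : ℕ}
    (hh : h ≤ n) {j : ℕ} (hj : j < p ^ h) :
    PowerSeries.coeff j (mulSeries F p) ∈ heightIdeal p n k h := by
  rcases Nat.eq_zero_or_pos h with rfl | h0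
  · obtain rfl : j = 0 := by simpa using hj
    rw [PowerSeries.coeff_zero_eq_constantCoeff_apply, c0_mulSeries]
    exact Ideal.zero_mem _
  · rw [← hH h h0 hh]
    exact Ideal.subset_span ⟨j, hj, rfl⟩

end

end Vale.Agent.P217
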