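import Vale.Agent.P217.RTrans
import Vale.Agent.P217.RIdeal

/-! P217: elements of the stabilizer group close to the identity.
PLAN of `orb_gen`.  `G` = transport of `F` along `h` (`exists_transport`); `G ≡ F` modulo `b`
(`transport_congr`), hence `G.map res = Γ` (`b ≤ mE = ker res`; factor `res` through the quotient).
Universality for `R = E0`, `ρ = res` gives `φ`, `s : F.map φ → G`, `map res s = X`.
Universality (uniqueness) for `R = E0 ⧸ b` (local: `IsLocalRing.of_surjective'`, Noetherian,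
`isAdicComplete_quot`, `ρ = Ideal.Quotient.lift b res`), `G = F.map mk`: both `mk ∘ φ` (with `map mk s`)
and `mk` (with `X`, `isHom_X`) qualify, so `φ f - f ∈ b`.  `bij_of_sub_mem_sq` makes `φ` a `RingEquiv`.
Modulo `b`, `s` is an endomorphism of `F` congruent to `X` modulo the maximal ideal: `rigid` gives
`s ≡ X`.  Put `w = s⁻¹ ∘ h` (`IsIso.symm`, `IsIso.comp`); `s ∘ w = h` and `s ≡ X` give `w ≡ h`.
`orb`: `b = (I_h ⊔ m^(p^(hN))) ⊓ m^2`; `orb0`: `b = m^(N+1)`; `approx_hom` with `nmul_mem_height`,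
`nmul_mem_pow`, `coeff_mulSeries_mem`; the linear coefficient of `h` is `1 + p^N a_1`, a unit.
(`E0 ⧸ mE ≃ k` transports `IsHom` for `a` to the quotient: use `RingHom.quotientKerEquivOfSurjective`
or an injective map `E0 ⧸ mE → k`.) -/

namespace Vale.Agent.P217

open MvPowerSeries IsLocalRing

noncomputable section

variable {p n : ℕ} [Fact p.Prime] {k : Type} [Field k] [CharP k p] [PerfectRing k p]
  {Γ : FormalGroup (ZMod p)} {F : FormalGroup (E0 p n k)}

theorem orb_cId_res {σ : Type*} {a b : MvPowerSeries σ (E0 p n k)} (h : map res a = map res b) :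
    a - b ∈ cId σ (mE p n k) := by
  refine mem_cId.2 fun d => mem_mE.2 ?_
  rw [← coeff_map, map_sub, h, sub_self, map_zero]

theorem mulSeries_sub_mem (hΓ : IsHonda p n Γ)
    (hU : IsUniversal (Γ.map (ZMod.castHom dvd_rfl k)) F) :
    mulSeries F p - PowerSeries.X ^ p ^ n ∈ cId Unit (mE p n k) := by
  refine orb_cId_res ?_
  have h1 := map_mulSeries (F := F) res p
  have h2 := map_mulSeries (F := Γ) (ZMod.castHom dvd_rfl k) p
  rw [hU.special, ← h2, hΓ.pseries, map_pow, PowerSeries.map_X] at h1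
  refine h1.trans ?_
  rw [map_pow]
  exact congrArg (· ^ p ^ n) (PowerSeries.map_X res).symm

theorem orb_map_map {R R' R'' : Type*} [CommRing R] [CommRing R'] [CommRing R''] (ρ : R →+* R')
    (ρ' : R' →+* R'') (s : PowerSeries R) :
    PowerSeries.map ρ' (PowerSeries.map ρ s) = PowerSeries.map (ρ'.comp ρ) s := by
  rw [PowerSeries.map_comp]
  rfl

theorem orb_res_alg : (res : E0 p n k →+* k).comp (algebraMap (WittVector p k) (E0 p n k)) =
    WittVector.constantCoeff := by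
  ext a
  exact res_C a

theorem orb_quot (hn : 1 ≤ n) (hΓ : IsHonda p n Γ)
    (hU : IsUniversal (Γ.map (ZMod.castHom dvd_rfl k)) F) (b : Ideal (E0 p n k))
    (hb : b ≤ mE p n k) {φ : E0 p n k →ₐ[WittVector p k] E0 p n k}
    (hφ : res.comp φ.toRingHom = res) {G : FormalGroup (E0 p n k)} {s : PowerSeries (E0 p n k)}
    (hs : IsIso (F.map φ.toRingHom) G s) (hsX : PowerSeries.map res s = PowerSeries.X)
    (hG : G.map (Ideal.Quotient.mk b) = F.map (Ideal.Quotient.mk b)) :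
    (∀ f, φ f - f ∈ b) ∧ s - PowerSeries.X ∈ cId Unit b := by
  have : Nontrivial (E0 p n k ⧸ b) := Ideal.Quotient.nontrivial_iff.2 fun e =>
    (maximalIdeal.isMaximal (E0 p n k)).ne_top (top_le_iff.1 (e.ge.trans hb))
  have : IsLocalRing (E0 p n k ⧸ b) := .of_surjective' _ Ideal.Quotient.mk_surjective
  have := isAdicComplete_quot b
  let ρ : E0 p n k ⧸ b →+* k := Ideal.Quotient.lift b res fun a ha => mem_mE.1 (hb ha)
  have hρ : ρ.comp (Ideal.Quotient.mk b) = res := Ideal.Quotient.lift_comp_mk _ _ _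
  have h1 : ρ.comp (algebraMap (WittVector p k) (E0 p n k ⧸ b)) = WittVector.constantCoeff :=
    orb_res_alg
  have h2 := hs.map (Ideal.Quotient.mk b)
  rw [map_map_fg, hG] at h2
  have h3 := (hU.universal (E0 p n k ⧸ b) ρ h1 (F.map (Ideal.Quotient.mk b))
    (isComm_map hU.comm _) (by rw [map_map_fg, hρ, hU.special])).unique
    (y₁ := (Ideal.Quotient.mkₐ (WittVector p k) b).comp φ)
    (y₂ := Ideal.Quotient.mkₐ (WittVector p k) b)
    ⟨hφ, _, h2, by rw [orb_map_map, hρ, hsX]⟩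
    ⟨hρ, PowerSeries.X, ⟨isHom_X, by simp⟩, PowerSeries.map_X _⟩
  have h4 : (Ideal.Quotient.mk b).comp φ.toRingHom = Ideal.Quotient.mk b :=
    congrArg AlgHom.toRingHom h3
  refine ⟨fun f => Ideal.Quotient.eq.1 (congrArg (fun ψ => ψ f) h4), sub_mem_cId.2 ?_⟩
  rw [h4] at h2
  have hm : (mE p n k).map (Ideal.Quotient.mk b) ≤ maximalIdeal (E0 p n k ⧸ b) :=
    Ideal.map_le_iff_le_comap.2 (eq_maximalIdeal
      (Ideal.comap_isMaximal_of_surjective _ Ideal.Quotient.mk_surjective)).ge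
  have h5 := map_mem_cId _ hm (mulSeries_sub_mem hΓ hU)
  have h6 := map_mem_cId _ hm (orb_cId_res (hsX.trans (PowerSeries.map_X res).symm))
  rw [map_sub, map_pow] at h5
  rw [map_sub] at h6
  have eX : map (Ideal.Quotient.mk b) (PowerSeries.X : PowerSeries (E0 p n k)) = PowerSeries.X :=
    PowerSeries.map_X _
  have eM : map (Ideal.Quotient.mk b) (mulSeries F p) =
      mulSeries (F.map (Ideal.Quotient.mk b)) p := map_mulSeries _ p
  rw [eX, eM] at h5
  rw [eX] at h6 ⊢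
  refine rigid (maximalIdeal (E0 p n k ⧸ b)) ?_ (pow_ne_zero n (Fact.out : p.Prime).ne_zero) h5
    h2.1 h6
  rw [Nat.cast_pow]
  refine Ideal.pow_mem_of_mem _ ?_ n hn
  simpa using hm (Ideal.mem_map_of_mem _ p_mem_mE)

theorem orb_gen (hn : 1 ≤ n) (hΓ : IsHonda p n Γ)
    (hU : IsUniversal (Γ.map (ZMod.castHom dvd_rfl k)) F) (b : Ideal (E0 p n k))
    (hb : b ≤ mE p n k ^ 2) {h : PowerSeries (E0 p n k)} (h0 : PowerSeries.constantCoeff h = 0)
    (h1 : IsUnit (PowerSeries.coeff 1 h))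
    (hh : IsHom (F.map (Ideal.Quotient.mk b)) (F.map (Ideal.Quotient.mk b))
      (PowerSeries.map (Ideal.Quotient.mk b) h)) :
    ∃ (σ : E0 p n k ≃+* E0 p n k) (w : PowerSeries (E0 p n k)), InStab F σ ∧
      (∀ a : WittVector p k, σ (C a) = C a) ∧ IsIso F (F.map σ.toRingHom) w ∧
      (∀ f, σ f - f ∈ b) ∧ w - h ∈ cId Unit b := by
  have bm : b ≤ mE p n k := hb.trans (Ideal.pow_le_self two_ne_zero)
  obtain ⟨G, hG, hFG⟩ := exists_transport hU.comm h0 h1
  have hGF := transport_congr hFG b hh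
  have hρ : (Ideal.Quotient.lift b res fun a ha => mem_mE.1 (bm ha)).comp (Ideal.Quotient.mk b) =
      res := Ideal.Quotient.lift_comp_mk _ _ _
  obtain ⟨φ, ⟨hφ, s, hs, hsX⟩, -⟩ := hU.universal (E0 p n k) res orb_res_alg G hG (by
    rw [← hU.special, ← hρ, ← map_map_fg, hGF, map_map_fg])
  obtain ⟨h2, h3⟩ := orb_quot hn hΓ hU b bm hφ hs hsX hGF
  let σ : E0 p n k ≃+* E0 p n k :=
    RingEquiv.ofBijective φ.toRingHom (bij_of_sub_mem_sq _ _ fun f => hb (h2 f))
  have hC : ∀ a : WittVector p k, σ (C a) = C a := fun a => φ.commutes a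
  have hw : IsIso F (F.map σ.toRingHom) _ := hFG.comp hs.symm
  refine ⟨σ, _, ⟨⟨RingEquiv.refl k, fun a => ?_⟩, _, hw⟩, hC, hw, h2, ?_⟩
  · rw [hC]
    exact congrArg C (by ext i; rfl)
  · have h4 := psubst_congr hw.1.1 hw.1.1 (by rw [sub_self]; exact zero_mem _) h3
    rw [← psubst_psubst h0 (PowerSeries.constantCoeff_substInvOfIsUnit _ _),
      PowerSeries.subst_substInvOfIsUnit_right _ hs.1.1, PowerSeries.subst_X (hs1 h0),
      PowerSeries.subst_X (hs1 hw.1.1)] at h4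
    rw [← neg_sub]
    exact neg_mem h4

theorem orb_lift {A B : Type*} [CommRing A] [CommRing B] (f : A →+* B)
    (hf : Function.Surjective f) (I : Ideal A) (h : ∀ x, f x = 0 → x ∈ I) :
    ∃ ι : B →+* A ⧸ I, ι.comp f = Ideal.Quotient.mk I :=
  ⟨f.liftOfSurjective hf ⟨Ideal.Quotient.mk I, fun x hx => Ideal.Quotient.eq_zero_iff_mem.2 (h x hx)⟩,
    RingHom.liftOfSurjective_comp _ _ _⟩

theorem orb_app (hn : 1 ≤ n) (hΓ : IsHonda p n Γ)
    (hU : IsUniversal (Γ.map (ZMod.castHom dvd_rfl k)) F) {a : PowerSeries k}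
    (ha : IsHom (Γ.map (ZMod.castHom dvd_rfl k)) (Γ.map (ZMod.castHom dvd_rfl k)) a)
    {a' : PowerSeries (E0 p n k)} (ha0 : PowerSeries.constantCoeff a' = 0)
    (ha' : PowerSeries.map res a' = a) {N : ℕ} (hN : 1 ≤ N) (b : Ideal (E0 p n k))
    (hb : b ≤ mE p n k ^ 2) (hJ : ∀ e : MvPowerSeries (Fin 2) (E0 p n k), constantCoeff e = 0 →
      e ∈ cId (Fin 2) (mE p n k) → nmul F (p ^ N) e ∈ cId (Fin 2) b) :
    ∃ (σ : E0 p n k ≃+* E0 p n k) (w : PowerSeries (E0 p n k)), InStab F σ ∧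
      (∀ a : WittVector p k, σ (C a) = C a) ∧ IsIso F (F.map σ.toRingHom) w ∧
      (∀ f, σ f - f ∈ b) ∧ w - fadd F PowerSeries.X (nmul F (p ^ N) a') ∈ cId Unit b := by
  have x0 : constantCoeff (PowerSeries.X : PowerSeries (E0 p n k)) = 0 :=
    PowerSeries.constantCoeff_X
  refine orb_gen hn hΓ hU b hb (c0_fadd x0 (c0_nmul _ ha0)) ?_ (approx_hom hU.comm ha0 ?_ hJ)
  · have h1 := coeff_single_fadd F x0 (c0_nmul (F := F) (p ^ N) ha0) ()
    rw [nmul, coeff_single_psubst ha0, coeff_one_mulSeries] at h1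
    have h2 : coeff (Finsupp.single () 1) (PowerSeries.X : PowerSeries (E0 p n k)) = 1 :=
      PowerSeries.coeff_one_X
    have h3 : ((p ^ N : ℕ) : E0 p n k) * coeff (Finsupp.single () 1) a' ∈ mE p n k := by
      rw [Nat.cast_pow]
      exact Ideal.mul_mem_right _ _ (Ideal.pow_mem_of_mem _ p_mem_mE N hN)
    have h4 := isUnit_one_sub_self_of_mem_nonunits _ (neg_mem h3)
    rw [sub_neg_eq_add, ← h2, ← h1] at h4
    exact h4
  · obtain ⟨ι, hι⟩ := orb_lift (res : E0 p n k →+* k) res_surjective (mE p n k)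
      fun x hx => mem_mE.2 hx
    have h1 := ha.map ι
    rwa [← hU.special, ← ha', map_map_fg, orb_map_map, hι] at h1

theorem orb (hΓ : IsHonda p n Γ) (hU : IsUniversal (Γ.map (ZMod.castHom dvd_rfl k)) F)
    (hH : HeightCoords F) {a : PowerSeries k}
    (ha : IsHom (Γ.map (ZMod.castHom dvd_rfl k)) (Γ.map (ZMod.castHom dvd_rfl k)) a)
    {a' : PowerSeries (E0 p n k)} (ha0 : PowerSeries.constantCoeff a' = 0)
    (ha' : PowerSeries.map res a' = a) {N h : ℕ} (hN : 1 ≤ N) (hh : 1 ≤ h) (hhn : h ≤ n) :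
    ∃ (σ : E0 p n k ≃+* E0 p n k) (w : PowerSeries (E0 p n k)), InStab F σ ∧
      (∀ c : WittVector p k, σ (C c) = C c) ∧ IsIso F (F.map σ.toRingHom) w ∧
      (∀ f, σ f - f ∈ heightIdeal p n k h ⊔ maximalIdeal (E0 p n k) ^ (p ^ (h * N))) ∧
      ∀ j, PowerSeries.coeff j (w - fadd F PowerSeries.X ((mulSeries F (p ^ N)).subst a'))
        ∈ heightIdeal p n k h ⊔ maximalIdeal (E0 p n k) ^ (p ^ (h * N)) := by
  obtain ⟨σ, w, h1, h2, h3, h4, h5⟩ := orb_app (hh.trans hhn) hΓ hU ha ha0 ha' hN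
    ((heightIdeal p n k h ⊔ maximalIdeal (E0 p n k) ^ (p ^ (h * N))) ⊓ mE p n k ^ 2) inf_le_right
    fun e he0 he => mem_cId.2 fun d => ⟨by
      rw [pow_mul]
      exact mem_cId.1 (nmul_mem_height (fun j hj => coeff_mulSeries_mem hH hhn hj) he0 he N) d,
      Ideal.pow_le_pow_right (by omega) (mem_cId.1 (nmul_mem_pow p_mem_mE he0 he N) d)⟩
  exact ⟨σ, w, h1, h2, h3, fun f => (h4 f).1, fun j => (mem_cId.1 h5 (Finsupp.single () j)).1⟩

theorem orb0 (hn : 1 ≤ n) (hΓ : IsHonda p n Γ)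
    (hU : IsUniversal (Γ.map (ZMod.castHom dvd_rfl k)) F) {a : PowerSeries k}
    (ha : IsHom (Γ.map (ZMod.castHom dvd_rfl k)) (Γ.map (ZMod.castHom dvd_rfl k)) a)
    {a' : PowerSeries (E0 p n k)} (ha0 : PowerSeries.constantCoeff a' = 0)
    (ha' : PowerSeries.map res a' = a) {N : ℕ} (hN : 1 ≤ N) :
    ∃ (σ : E0 p n k ≃+* E0 p n k) (w : PowerSeries (E0 p n k)), InStab F σ ∧
      (∀ c : WittVector p k, σ (C c) = C c) ∧ IsIso F (F.map σ.toRingHom) w ∧
      (∀ f, σ f - f ∈ mE p n k ^ (N + 1)) ∧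
      w - fadd F PowerSeries.X (nmul F (p ^ N) a') ∈ cId Unit (mE p n k) := by
  obtain ⟨σ, w, h1, h2, h3, h4, h5⟩ := orb_app hn hΓ hU ha ha0 ha' hN (mE p n k ^ (N + 1))
    (Ideal.pow_le_pow_right (by omega)) fun e he0 he => nmul_mem_pow p_mem_mE he0 he N
  exact ⟨σ, w, h1, h2, h3, h4, cId_mono (Ideal.pow_le_self (by omega)) h5⟩

end

end Vale.Agent.P217
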