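import Vale.Agent.P217.DCore
import Vale.Agent.P217.ROrb
import Vale.Agent.P217.RIdeal
import Vale.Agent.P217.RHom

/-!
# P217: density of orbits in the height strata in characteristic `p`
-/

set_option linter.unusedSectionVars false

noncomputable section

namespace Vale.Agent.P217.D

open MvPowerSeries

variable {C : Type} [NontriviallyNormedField C] [IsUltrametricDist C] [CompleteSpace C]
  [IsAlgClosed C] {p n : ℕ} [Fact p.Prime] {k : Type} [Field k] [Fintype k] [CharP k p]

/-- The coordinates `u_h, ..., u_{n-1}` of the stratum of height at least `h`. -/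
def emb (n h : ℕ) (hh : 1 ≤ h) : Fin (n - h) ↪ Fin (n - 1) :=
  ⟨fun l => ⟨h - 1 + l, by have := l.2; omega⟩, fun a b hab => by
    have := congrArg Fin.val hab
    ext
    simpa using this⟩

/-- Restriction to the stratum of height at least `h`, with coefficients mapped by `τ`. -/
def kap (h : ℕ) (hh : 1 ≤ h) (τ : k →+* O C) : E0 p n k →+* MvPowerSeries (Fin (n - h)) (O C) :=
  (killCompl (R := O C) (emb n h hh)).toRingHom.comp
    (MvPowerSeries.map (τ.comp WittVector.constantCoeff))

section Kap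

variable {h : ℕ} {hh : 1 ≤ h} {τ : k →+* O C}

lemma dg_range (i : Fin (n - 1)) : i ∈ Set.range (emb n h hh) ↔ h ≤ (i : ℕ) + 1 := by
  constructor
  · rintro ⟨l, rfl⟩
    show h ≤ h - 1 + l + 1
    omega
  · intro hi
    have := i.2
    exact ⟨⟨i + 1 - h, by omega⟩, Fin.ext (by show h - 1 + (i + 1 - h) = i; omega)⟩

lemma dg_coeff (f : E0 p n k) (d : Fin (n - h) →₀ ℕ) :
    coeff d (kap h hh τ f) = τ ((coeff (d.embDomain (emb n h hh)) f).coeff 0) := rfl

lemma dg_const (f : E0 p n k) : constantCoeff (kap h hh τ f) = τ (res f) := by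
  rw [← coeff_zero_eq_constantCoeff_apply, dg_coeff, Finsupp.embDomain_zero]
  rfl

lemma dg_C (c : WittVector p k) :
    kap h hh τ (MvPowerSeries.C c : E0 p n k) = MvPowerSeries.C (τ (c.coeff 0)) := by
  show killCompl (emb n h hh)
    (MvPowerSeries.map (τ.comp WittVector.constantCoeff) (MvPowerSeries.C c)) = _
  rw [map_C, killCompl_C]
  rfl

lemma dg_X (l : Fin (n - h)) : kap h hh τ (X (emb n h hh l) : E0 p n k) = X l := by
  show killCompl (emb n h hh)
    (MvPowerSeries.map (τ.comp (WittVector.constantCoeff (p := p))) (X _)) = _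
  rw [map_X, killCompl_X]

lemma dg_X0 {i : Fin (n - 1)} (hi : (i : ℕ) + 1 < h) : kap h hh τ (X i : E0 p n k) = 0 := by
  show killCompl (emb n h hh)
    (MvPowerSeries.map (τ.comp (WittVector.constantCoeff (p := p))) (X _)) = _
  rw [map_X, killCompl_X_eq_zero (by rw [dg_range]; omega)]

lemma dg_kill {g : E0 p n k} (hg : g ∈ heightIdeal p n k h) : kap h hh τ g = 0 := by
  refine (Ideal.span_le (I := RingHom.ker (kap h hh τ))).2 ?_ hg
  rintro x (⟨-, rfl⟩ | ⟨i, hi, rfl⟩)
  · show kap h hh τ (p : E0 p n k) = 0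
    rw [← map_natCast (MvPowerSeries.C : WittVector p k →+* E0 p n k), dg_C,
      ← WittVector.constantCoeff_apply, map_natCast, CharP.cast_eq_zero, map_zero, map_zero]
  · exact dg_X0 hi

lemma dg_mem {f : E0 p n k} (hf : kap h hh τ f = 0) : f ∈ heightIdeal p n k h := by
  refine (mem_heightIdeal hh).2 fun d hd => ?_
  obtain ⟨d', rfl⟩ : d ∈ Set.range (Finsupp.embDomain (emb n h hh)) := by
    rw [Finsupp.mem_range_embDomain_iff]
    intro i hi
    rw [dg_range]
    by_contra hlt
    exact Finsupp.mem_support_iff.1 hi (hd i (by omega))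
  have h1 := dg_coeff (hh := hh) (τ := τ) f d'
  rw [hf, map_zero, eq_comm, map_eq_zero_iff τ τ.injective,
    ← WittVector.mem_span_p_iff_coeff_zero_eq_zero, Ideal.mem_span_singleton] at h1
  exact h1

/-- A point of the stratum is an evaluation of the restriction. -/
lemma dg_factor (y : E0 p n k →+* O C) (hC : ∀ c, y (MvPowerSeries.C c) = τ (c.coeff 0))
    (hI : ∀ g ∈ heightIdeal p n k h, y g = 0) (x : Fin (n - h) → M C)
    (hx : ∀ l, (x l : O C) = y (X (emb n h hh l))) :
    (ev x).toRingHom.comp (kap h hh τ) = y := by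
  have hX : ∀ s, ev x (kap h hh τ (X s : E0 p n k)) = y (X s) ∧ ‖y (X s)‖ < 1 := fun s => by
    by_cases hs : s ∈ Set.range (emb n h hh)
    · obtain ⟨l, rfl⟩ := hs
      rw [dg_X, ev_X, ← hx]
      exact ⟨rfl, (x l).2⟩
    · rw [dg_range, not_le] at hs
      rw [dg_X0 hs, map_zero, hI _ (Ideal.subset_span (Or.inr ⟨s, hs, rfl⟩))]
      exact ⟨rfl, lt_one_of_eq_zero rfl⟩
  refine (hom_ext y _ (fun c => ?_) (fun s => (hX s).1.symm) fun s => (hX s).2).symm
  show _ = ev x (kap h hh τ _)
  rw [dg_C, ev_C, hC]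

lemma dg_zero : (ev (0 : Fin (n - h) → M C)).toRingHom.comp (kap h hh τ) =
    τ.comp (res : E0 p n k →+* k) := by
  refine RingHom.ext fun f => ?_
  show ev 0 (kap h hh τ f) = τ (res f)
  rw [ev_zero, dg_const]

end Kap

lemma dg_root (τ : k →+* O C) {c : O C} (hc : c ^ Fintype.card k = c) : ∃ ζ, τ ζ = c := by
  classical
  have h1 : 1 < Fintype.card k := Fintype.one_lt_card
  have hm : (Polynomial.X ^ Fintype.card k - Polynomial.X : Polynomial k).Monic :=
    Polynomial.monic_X_pow_sub (by rw [Polynomial.degree_X]; exact_mod_cast h1)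
  have h2 := Polynomial.prod_multiset_X_sub_C_of_monic_of_roots_card_eq hm (by
    rw [FiniteField.roots_X_pow_card_sub_X, FiniteField.X_pow_card_sub_X_natDegree_eq k h1]
    rfl)
  rw [FiniteField.roots_X_pow_card_sub_X, ← Finset.prod_eq_multiset_prod] at h2
  have h3 := congrArg (Polynomial.eval₂RingHom τ c) h2
  simp only [map_prod, map_sub, map_pow, Polynomial.coe_eval₂RingHom, Polynomial.eval₂_X,
    Polynomial.eval₂_C, hc, sub_self] at h3
  obtain ⟨ζ, -, hζ⟩ := Finset.prod_eq_zero_iff.1 h3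
  exact ⟨ζ, (sub_eq_zero.1 hζ).symm⟩

lemma dg_leibniz {σ R : Type*} [CommRing R] (l : σ) (a b : MvPowerSeries σ R)
    (hb : constantCoeff b = 0) :
    coeff (Finsupp.single l 1) (a * b) = constantCoeff a * coeff (Finsupp.single l 1) b := by
  classical
  rw [coeff_mul, Finsupp.antidiagonal_single, Finset.sum_map, Finset.Nat.antidiagonal_succ]
  simp [hb]

lemma dg_uc {F : FormalGroup (E0 p n k)} (hH : HeightCoords F) {h : ℕ} (hh : 1 ≤ h)
    (hhn : h < n) (τ : k →+* O C) (c : Fin (n - h) → O C) (hc : ∃ l, ‖c l‖ = 1) :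
    ∃ j < p ^ n, ‖∑ l, c l * coeff (Finsupp.single l 1)
      (kap h hh τ (PowerSeries.coeff j (mulSeries F p)))‖ = 1 := by
  classical
  by_contra hcon
  obtain ⟨l0, hl0⟩ := hc
  have hmem : (X (emb n h hh l0) : E0 p n k) ∈
      Ideal.span {x | ∃ j < p ^ n, x = PowerSeries.coeff j (mulSeries F p)} := by
    rw [hH n (by omega) le_rfl]
    have := (emb n h hh l0).2
    exact Ideal.subset_span (Or.inr ⟨_, by omega, rfl⟩)
  have key : ∀ g ∈ Ideal.span {x | ∃ j < p ^ n, x = PowerSeries.coeff j (mulSeries F p)},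
      res g = 0 ∧ ∑ l, c l * coeff (Finsupp.single l 1) (kap h hh τ g) ∈ M C := by
    intro g hg
    induction hg using Submodule.span_induction with
    | mem x hx =>
      obtain ⟨j, hj, rfl⟩ := hx
      exact ⟨mem_mE.1 (heightIdeal_le_mE n (coeff_mulSeries_mem hH le_rfl hj)),
        lt_of_le_of_ne (O.norm_le_one _) fun e => hcon ⟨j, hj, e⟩⟩
    | zero => simp
    | add x y _ _ hx hy =>
      refine ⟨by rw [map_add, hx.1, hy.1, add_zero], ?_⟩
      simp only [map_add, mul_add, Finset.sum_add_distrib]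
      exact Ideal.add_mem _ hx.2 hy.2
    | smul a x _ hx =>
      refine ⟨by rw [smul_eq_mul, map_mul, hx.1, mul_zero], ?_⟩
      have h0 : constantCoeff (kap h hh τ x) = 0 := by rw [dg_const, hx.1, map_zero]
      simp only [smul_eq_mul, map_mul, dg_leibniz _ _ _ h0, mul_left_comm (c _), ← Finset.mul_sum]
      exact Ideal.mul_mem_left _ _ hx.2
  have h2 := (key _ hmem).2
  rw [dg_X, Finset.sum_eq_single l0 (fun l _ hl => by
    rw [coeff_index_single_X, if_neg hl, mul_zero]) (by simp), coeff_index_single_self_X,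
    mul_one, mem_M, hl0] at h2
  exact lt_irrefl _ h2

theorem densP (hk : Fintype.card k = p ^ n) {Γ : FormalGroup (ZMod p)} (hΓ : IsHonda p n Γ)
    {F : FormalGroup (E0 p n k)} (hU : IsUniversal (Γ.map (ZMod.castHom dvd_rfl k)) F)
    (hH : HeightCoords F) {h : ℕ} (hh : 1 ≤ h) (hhn : h < n) (z : E0 p n k →+* C)
    (hz1 : ∀ f, ‖z f‖ ≤ 1) (hzm : ∀ f ∈ IsLocalRing.maximalIdeal (E0 p n k), ‖z f‖ < 1)
    (hzI : ∀ f ∈ heightIdeal p n k h, z f = 0)
    (hzu : z (X ⟨h - 1, by omega⟩) ≠ 0) (f : E0 p n k)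
    (hf : ∀ σ : E0 p n k ≃+* E0 p n k, InStab F σ → z (σ f) = 0) :
    f ∈ heightIdeal p n k h := by
  have hp : p.Prime := Fact.out
  have hpI : (p : E0 p n k) ∈ heightIdeal p n k h := Ideal.subset_span (Or.inl ⟨hh, rfl⟩)
  have : CharP C p := (CharP.charP_iff_prime_eq_zero hp).2 (by rw [← map_natCast z, hzI _ hpI])
  set z' : E0 p n k →+* O C := z.codRestrict (O C) hz1 with hz'
  have hI' : ∀ g ∈ heightIdeal p n k h, z' g = 0 := fun g hg => Subtype.ext (hzI g hg)
  have hker : RingHom.ker (WittVector.constantCoeff : WittVector p k →+* k) ≤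
      RingHom.ker (z'.comp (MvPowerSeries.C : WittVector p k →+* E0 p n k)) := by
    rw [WittVector.ker_constantCoeff, Ideal.span_singleton_le_iff_mem, RingHom.mem_ker,
      RingHom.comp_apply, map_natCast]
    exact hI' _ hpI
  obtain ⟨τ, hτ⟩ : ∃ τ : k →+* O C, ∀ c : WittVector p k,
      z' (MvPowerSeries.C c) = τ (c.coeff 0) :=
    ⟨RingHom.liftOfSurjective _ (WittVector.constantCoeff_surjective p) ⟨_, hker⟩, fun c =>
      (RingHom.liftOfSurjective_comp_apply _ (WittVector.constantCoeff_surjective p)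
        ⟨_, hker⟩ c).symm⟩
  set x : Fin (n - h) → M C := fun l => ⟨z' (X (emb n h hh l)), hzm _ (X_mem_mE _)⟩ with hx
  have hzx : (ev x).toRingHom.comp (kap h hh τ) = z' := dg_factor z' hτ hI' x fun _ => rfl
  have hfib : ∀ y : Fin (n - h) → M C, fib (F.map (kap h hh τ)) y =
      F.map ((ev y).toRingHom.comp (kap h hh τ)) := fun y => map_map_fg _ _
  have hfx : fib (F.map (kap h hh τ)) x = F.map z' := by rw [hfib, hzx]
  have hf0 : fib (F.map (kap h hh τ)) 0 = (Γ.map (ZMod.castHom dvd_rfl k)).map τ := by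
    rw [hfib, dg_zero, ← map_map_fg, hU.special]
  have : (F.map (kap h hh τ)).IsComm := isComm_map hU.comm _
  have hn : h + (n - h) = n := by omega
  have hsp : mulSeries (fib (F.map (kap h hh τ)) 0) p = PowerSeries.X ^ p ^ n := by
    rw [hf0, ← map_mulSeries, ← map_mulSeries, hΓ.pseries]
    simp
  have hlow : ∀ j < p ^ h, PowerSeries.coeff j (mulSeries (F.map (kap h hh τ)) p) = 0 :=
    fun j hj => by
      rw [← map_mulSeries, PowerSeries.coeff_map, dg_kill (coeff_mulSeries_mem hH hhn.le hj)]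
  have hθ0 : (0 : ℝ) < max ‖x‖ (1 / 2) := lt_max_of_lt_right (by norm_num)
  have hθ1 : max ‖x‖ (1 / 2) < 1 := max_lt (M.pi_norm_lt_one x) (by norm_num)
  have hxθ : ‖x‖ ≤ max ‖x‖ (1 / 2) := le_max_left _ _
  generalize max ‖x‖ (1 / 2) = θ at hθ0 hθ1 hxθ
  have hm1 : ∀ g ∈ mE p n k, ‖z' g‖ ≤ θ := fun g hg => by
    have h1 := norm_ev_sub_const x (kap h hh τ g) hθ0.le hθ1.le fun s =>
      (norm_le_pi_norm x s).trans hxθ
    rw [dg_const, mem_mE.1 hg, map_zero, sub_zero] at h1
    rw [← hzx]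
    exact h1
  have hmj : ∀ j : ℕ, ∀ g ∈ mE p n k ^ j, ‖z' g‖ ≤ θ ^ j := fun j => by
    induction j with
    | zero => exact fun g _ => by rw [pow_zero]; exact O.norm_le_one _
    | succ j ih =>
      have : mE p n k ^ j * mE p n k ≤
          (ballIdeal C (θ ^ (j + 1)) (pow_nonneg hθ0.le _)).comap z' :=
        Ideal.mul_le.2 fun r hr s hs => by
          rw [Ideal.mem_comap, mem_ballIdeal, map_mul, norm_mul, pow_succ]
          exact mul_le_mul (ih r hr) (hm1 s hs) (norm_nonneg _) (pow_nonneg hθ0.le _)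
      exact fun g hg => this (by rwa [pow_succ] at hg)
  have hsup : ∀ j : ℕ, ∀ g ∈ heightIdeal p n k h ⊔ mE p n k ^ j, ‖z' g‖ ≤ θ ^ j := fun j => by
    have : heightIdeal p n k h ⊔ mE p n k ^ j ≤
        (ballIdeal C (θ ^ j) (pow_nonneg hθ0.le _)).comap z' :=
      sup_le (fun g hg => by
        rw [Ideal.mem_comap, hI' g hg]
        exact Ideal.zero_mem _) fun g hg => hmj j g hg
    exact fun g hg => this hg
  refine dg_mem (hh := hh) (τ := τ) (core (p := p) hh (F.map (kap h hh τ)) (by rw [hn, hsp])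
    (fun c hc => ?_) ?_ hlow (fun c hc => ?_) x hθ0 hθ1 hxθ (fun ha => hzu ?_) _ ?_)
  · rw [hn, ← hk] at hc
    obtain ⟨ζ, rfl⟩ := dg_root τ hc
    have := (isHom_scale hΓ ζ (by rw [← hk, FiniteField.pow_card])).map τ
    rwa [map_mul, PowerSeries.map_C, PowerSeries.map_X, ← hf0] at this
  · have := (P217.isHom_frob (k := k) Γ 1).map τ
    rwa [map_pow, PowerSeries.map_X, pow_one, ← hf0] at this
  · rw [hn]
    simp only [← map_mulSeries, PowerSeries.coeff_map]
    exact dg_uc hH hh hhn τ c hc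
  · have h1 := low_succ (fib_low hlow x) ha
    have h2 : heightIdeal p n k (h + 1) ≤ RingHom.ker z' := by
      rw [← hH (h + 1) (by omega) hhn, Ideal.span_le]
      rintro _ ⟨j, hj, rfl⟩
      have := h1 j hj
      rwa [hfx, ← map_mulSeries, PowerSeries.coeff_map] at this
    exact congrArg Subtype.val (h2 (Ideal.subset_span
      (Or.inr ⟨⟨h - 1, by omega⟩, by show h - 1 + 1 < h + 1; omega, rfl⟩)))
  · intro a ha N hN
    have hroot : ∀ j, ∃ ζ, τ ζ = PowerSeries.coeff j a := fun j =>
      dg_root τ (by rw [hk]; exact coeff_pow_eq_of_endo hsp ha j)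
    choose ak hak using hroot
    have ea : PowerSeries.map τ (PowerSeries.mk ak) = a := by
      ext j
      rw [PowerSeries.coeff_map, PowerSeries.coeff_mk, hak]
    have hak' : IsHom (Γ.map (ZMod.castHom dvd_rfl k)) (Γ.map (ZMod.castHom dvd_rfl k))
        (PowerSeries.mk ak) := isHom_of_map τ τ.injective (by rwa [ea, ← hf0])
    set a' : PowerSeries (E0 p n k) :=
      PowerSeries.mk fun j => MvPowerSeries.C (WittVector.teichmuller p (ak j)) with ha'
    have ha0 : PowerSeries.constantCoeff a' = 0 := by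
      have h0 := hak'.1
      rw [← PowerSeries.coeff_zero_eq_constantCoeff_apply, PowerSeries.coeff_mk] at h0 ⊢
      rw [h0, WittVector.teichmuller_zero, map_zero]
    have har : PowerSeries.map res a' = PowerSeries.mk ak := by
      ext j
      rw [PowerSeries.coeff_map, PowerSeries.coeff_mk, PowerSeries.coeff_mk, res_C,
        WittVector.teichmuller_coeff_zero]
    have haz : PowerSeries.map z' a' = a := by
      ext j
      rw [PowerSeries.coeff_map, PowerSeries.coeff_mk, hτ, WittVector.teichmuller_coeff_zero, hak]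
    obtain ⟨σ, w, hσ, hσC, hw, hσf, hwc⟩ := orb hΓ hU hH hak' ha0 har hN hh hhn.le
    have hσm : ∀ i, σ (X i) ∈ mE p n k := fun i => by
      have h1 : heightIdeal p n k h ⊔ mE p n k ^ p ^ (h * N) ≤ mE p n k :=
        sup_le (heightIdeal_le_mE h) (Ideal.pow_le_self (pow_ne_zero _ hp.ne_zero))
      simpa using Ideal.add_mem _ (h1 (hσf (X i))) (X_mem_mE i)
    set x' : Fin (n - h) → M C := fun l => ⟨z' (σ (X (emb n h hh l))), hzm _ (hσm _)⟩ with hx'
    have hzx' : (ev x').toRingHom.comp (kap h hh τ) = z'.comp σ.toRingHom :=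
      dg_factor _ (fun c => (congrArg z' (hσC c)).trans (hτ c)) (fun g hg => hI' (σ g) (by
        rw [← heightIdeal_invariant hH hhn.le σ hσ]
        exact Ideal.mem_map_of_mem _ hg)) x' fun _ => rfl
    refine ⟨x', PowerSeries.map z' w, ?_, ?_, fun j => ?_, ?_⟩
    · rw [← pow_mul]
      refine (pi_norm_le_iff_of_nonneg (pow_nonneg hθ0.le _)).2 fun l => ?_
      have := hsup _ _ (hσf (X (emb n h hh l)))
      rw [map_sub] at this
      exact this
    · rw [hfx, hfib, hzx', ← map_map_fg]
      exact hw.1.map z'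
    · have e : PowerSeries.map z' (fadd F PowerSeries.X ((mulSeries F (p ^ N)).subst a')) =
          fadd (F.map z') PowerSeries.X ((mulSeries (F.map z') (p ^ N)).subst a) := by
        have e1 := map_fadd (F := F) (σ := Unit) z' (a := (PowerSeries.X : PowerSeries _))
          (b := (mulSeries F (p ^ N)).subst a') PowerSeries.constantCoeff_X
          (c0_subst ha0 (c0_mulSeries _))
        have e2 := map_psubst (σ := Unit) z' ha0 (mulSeries F (p ^ N))
        rw [e2, map_mulSeries] at e1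
        rw [← haz, ← PowerSeries.map_X z']
        exact e1
      have := hsup _ _ (hwc j)
      rw [← PowerSeries.coeff_map, map_sub, map_sub, e] at this
      rw [hfx, ← pow_mul]
      exact this
    · have : ev x' (kap h hh τ f) = z' (σ f) := congrArg (fun φ => φ f) hzx'
      rw [this]
      exact Subtype.ext (hf σ hσ)

end Vale.Agent.P217.D
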