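import Vale.Agent.P217.DEv

/-!
# P217: zeros of integral series in the open disc
-/

set_option linter.unusedSectionVars false

noncomputable section

namespace Vale.Agent.P217.D

open PowerSeries

variable {C : Type} [NontriviallyNormedField C] [IsUltrametricDist C] [CompleteSpace C]

lemma dzero_mem {a b : O C} : a ∈ Ideal.span {b} ↔ ‖a‖ ≤ ‖b‖ := by
  rw [Ideal.mem_span_singleton]
  refine ⟨?_, O.dvd_of_norm_le⟩
  rintro ⟨c, rfl⟩
  rw [norm_mul]
  exact mul_le_of_le_one_right (norm_nonneg _) (O.norm_le_one c)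

lemma isAdicComplete_span (ϖ : M C) : IsAdicComplete (Ideal.span {(ϖ : O C)}) (O C) := by
  have h0 := tendsto_pow_atTop_nhds_zero_of_lt_one (norm_nonneg (ϖ : O C)) (M.norm_lt_one ϖ)
  have key : ∀ (n : ℕ) (x y : O C), x ≡ y [SMOD (Ideal.span {(ϖ : O C)} ^ n • ⊤ : Ideal (O C))] ↔
      ‖x - y‖ ≤ ‖(ϖ : O C)‖ ^ n := fun n x y => by
    rw [SModEq.sub_mem, smul_eq_mul, Ideal.mul_top, Ideal.span_singleton_pow, dzero_mem, norm_pow]
  refine { haus' := fun x hx => ?_, prec' := fun f hf => ?_ }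
  · exact norm_le_zero_iff.1 (ge_of_tendsto' h0 fun n => by
      simpa only [sub_zero] using (key n x 0).1 (hx n))
  · obtain ⟨L, hL⟩ := cauchySeq_tendsto_of_complete (cauchySeq_of_le_tendsto_0' _
      (fun n m h => (dist_eq_norm (f n) (f m)).trans_le ((key _ _ _).1 (hf h))) h0)
    exact ⟨L, fun n => (key _ _ _).2 (le_of_tendsto (hL.const_sub (f n)).norm
      ((Filter.eventually_ge_atTop n).mono fun m h => (key _ _ _).1 (hf h)))⟩

/-- Weierstrass preparation over the valuation ring. -/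
theorem prep (f : PowerSeries (O C)) (e : ℕ) (hlt : ∀ j < e, ‖coeff j f‖ < 1)
    (he : ‖coeff e f‖ = 1) :
    ∃ (W : Polynomial (O C)) (u : PowerSeries (O C)), W.Monic ∧ W.natDegree = e ∧
      (∀ j < e, ‖W.coeff j‖ < 1) ∧ (∀ t : M C, ‖ev1 t u‖ = 1) ∧
      f = (W : PowerSeries (O C)) * u := by
  obtain ⟨ϖ, hϖ⟩ : ∃ ϖ : M C, ∀ j < e, ‖coeff j f‖ ≤ ‖(ϖ : O C)‖ := by
    clear he
    induction e with
    | zero => exact ⟨0, by simp⟩
    | succ e ih =>
      obtain ⟨ϖ, h⟩ := ih fun j hj => hlt j (by omega)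
      rcases le_total ‖coeff e f‖ ‖(ϖ : O C)‖ with h1 | h1
      · exact ⟨ϖ, fun j hj => (Nat.lt_succ_iff_lt_or_eq.1 hj).elim (h j) fun e => e ▸ h1⟩
      · exact ⟨⟨coeff e f, hlt e (by omega)⟩, fun j hj => (Nat.lt_succ_iff_lt_or_eq.1 hj).elim
          (fun hj => (h j hj).trans h1) fun e => by rw [e]⟩
  have := isAdicComplete_span ϖ
  have ho : (f.map (Ideal.Quotient.mk (Ideal.span {(ϖ : O C)}))).order.toNat = e := by
    rw [order_eq_nat.2 ⟨?_, fun i hi => ?_⟩, ENat.toNat_natCast]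
    · rw [coeff_map, Ne, Ideal.Quotient.eq_zero_iff_mem, dzero_mem, he]
      exact (M.norm_lt_one ϖ).not_ge
    · rw [coeff_map, Ideal.Quotient.eq_zero_iff_mem, dzero_mem]
      exact hϖ i hi
  have H : f.IsWeierstrassDivisorAt (Ideal.span {(ϖ : O C)}) := by
    rw [IsWeierstrassDivisorAt, ho]
    exact O.isUnit_iff.2 he
  obtain ⟨q, r, H1⟩ : ∃ q r, IsWeierstrassDivisionAt (X ^ e) f q r (Ideal.span {(ϖ : O C)}) :=
    ⟨_, _, H.isWeierstrassDivisionAt_div_mod _⟩
  have hd := H1.degree_lt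
  rw [ho] at hd
  have e1 : ((Polynomial.X ^ e - r : Polynomial (O C)) : PowerSeries (O C)) =
      (X : PowerSeries (O C)) ^ e - (r : PowerSeries (O C)) := by simp
  have e2 : (X : PowerSeries (O C)) ^ e - (r : PowerSeries (O C)) = f * q := by
    rw [H1.eq_mul_add, add_sub_cancel_right]
  have hq : IsUnit q := by
    rw [isUnit_iff_constantCoeff, O.isUnit_iff]
    by_contra h
    have h1 : coeff e (f * q) ∈ M C := by
      rw [coeff_mul]
      refine Ideal.sum_mem _ fun ⟨i, j⟩ hij => ?_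
      rcases Nat.eq_zero_or_pos j with rfl | hj
      · exact Ideal.mul_mem_left _ _ (lt_of_le_of_ne (O.norm_le_one _) (by simpa using h))
      · exact Ideal.mul_mem_right _ _ (hlt i (by
          have : i + j = e := by simpa using hij
          omega))
    rw [← e2, map_sub, coeff_X_pow_self, Polynomial.coeff_coe,
      Polynomial.coeff_eq_zero_of_degree_lt hd, sub_zero, mem_M, norm_one] at h1
    exact lt_irrefl _ h1
  obtain ⟨u, hu⟩ := hq.exists_right_inv
  refine ⟨Polynomial.X ^ e - r, u, Polynomial.monic_X_pow_sub hd, ?_, fun j hj => ?_,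
    fun t => O.isUnit_iff.1 ((IsUnit.of_mul_eq_one_right q hu).map _), ?_⟩
  · refine Polynomial.natDegree_eq_of_degree_eq_some ?_
    rw [Polynomial.degree_sub_eq_left_of_degree_lt (by rwa [Polynomial.degree_X_pow]),
      Polynomial.degree_X_pow]
  · rw [← Polynomial.coeff_coe, e1]
    exact (dzero_mem.1 (H1.coeff_f_sub_r_mem (by rwa [ho]))).trans_lt (M.norm_lt_one ϖ)
  · rw [e1, e2, mul_assoc, hu, mul_one]

open Classical in
lemma dzero_prep (f : PowerSeries (O C)) (h : ∃ e, ‖coeff e f‖ = 1) :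
    ∃ W : Polynomial (O C), W.natDegree = Nat.find h ∧ W.Monic ∧
      (∀ j < W.natDegree, ‖W.coeff j‖ < 1) ∧ ∀ t : M C, ev1 t f = 0 ↔ W.IsRoot t := by
  obtain ⟨W, u, hW, hd, hc, hu, e⟩ := prep f (Nat.find h)
    (fun j hj => lt_of_le_of_ne (O.norm_le_one _) (Nat.find_min h hj)) (Nat.find_spec h)
  refine ⟨W, hd, hW, hd ▸ hc, fun t => ?_⟩
  conv_lhs => rw [e]
  rw [map_mul, ← norm_eq_zero, norm_mul, hu, mul_one, norm_eq_zero, ev1_coe]
  rfl

lemma dzero_root {W : Polynomial (O C)} (hW : W.Monic) (hc : ∀ j < W.natDegree, ‖W.coeff j‖ < 1)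
    {z : C} (hz : (W.map (O C).subtype).IsRoot z) :
    ∃ t : M C, ((t : O C) : C) = z ∧ W.IsRoot t := by
  have h1 : ‖z‖ < 1 := by
    by_contra h
    push Not at h
    rw [Polynomial.IsRoot, Polynomial.eval_map, Polynomial.eval₂_eq_sum_range,
      Finset.sum_range_succ, hW.coeff_natDegree, map_one, one_mul, add_eq_zero_iff_eq_neg] at hz
    rcases (Finset.range W.natDegree).eq_empty_or_nonempty with h0 | h0
    · rw [h0, Finset.sum_empty, eq_comm, neg_eq_zero] at hz
      rw [eq_zero_of_pow_eq_zero hz, norm_zero] at h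
      linarith
    obtain ⟨i, hi, h2⟩ := IsUltrametricDist.exists_norm_finsetSum_le_of_nonempty h0
      fun i => (O C).subtype (W.coeff i) * z ^ i
    rw [Finset.mem_range] at hi
    rw [hz, norm_neg, norm_mul, norm_pow, norm_pow] at h2
    have h3 := pow_le_pow_right₀ h hi.le
    have h4 : ‖(O C).subtype (W.coeff i)‖ < 1 := hc i hi
    have h5 : 0 < ‖z‖ ^ i := by positivity
    nlinarith
  exact ⟨⟨⟨z, h1.le⟩, h1⟩, rfl, Polynomial.IsRoot.of_map (f := (O C).subtype) hz
    Subtype.val_injective⟩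

theorem finite_roots (f : PowerSeries (O C)) (h : ∃ e, ‖coeff e f‖ = 1) :
    {t : M C | ev1 t f = 0}.Finite := by
  obtain ⟨W, -, hW, -, h1⟩ := dzero_prep f h
  simp only [h1]
  exact (Polynomial.finite_setOfPred_isRoot hW.ne_zero).preimage Subtype.val_injective.injOn

variable [IsAlgClosed C]

theorem exists_root (f : PowerSeries (O C)) (h0 : ‖coeff 0 f‖ < 1) (h : ∃ e, ‖coeff e f‖ = 1) :
    ∃ t : M C, ev1 t f = 0 := by
  classical
  obtain ⟨W, hd, hW, hc, h1⟩ := dzero_prep f h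
  obtain ⟨z, hz⟩ := IsAlgClosed.exists_root (W.map (O C).subtype) (by
    rw [hW.degree_map, Polynomial.degree_eq_natDegree hW.ne_zero, hd]
    have : Nat.find h ≠ 0 := fun e => h0.ne (e ▸ Nat.find_spec h)
    exact_mod_cast this)
  obtain ⟨t, -, ht⟩ := dzero_root hW hc hz
  exact ⟨t, (h1 t).2 ht⟩

/-- A series of smaller Weierstrass degree cannot vanish at all the (simple) zeros of `V`. -/
theorem exists_root_not_root (V D : PowerSeries (O C)) (e : ℕ) (hlt : ∀ j < e, ‖coeff j V‖ < 1)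
    (he : ‖coeff e V‖ = 1) (hD : ∃ j < e, ‖coeff j D‖ = 1)
    (hsimple : ∀ a : M C, ev1 a V = 0 → ¬ ∀ b : M C, ‖ev1 b V‖ ≤ ‖(b : O C) - a‖ ^ 2) :
    ∃ t : M C, ev1 t V = 0 ∧ ev1 t D ≠ 0 := by
  classical
  obtain ⟨j, hj, hj'⟩ := hD
  obtain ⟨W', hd', hW', -, h1'⟩ := dzero_prep D ⟨j, hj'⟩
  obtain ⟨W, u, hW, hd, hc, hu, rfl⟩ := prep V e hlt he
  have ev : ∀ t : M C, ‖ev1 t ((W : PowerSeries (O C)) * u)‖ = ‖W.eval (t : O C)‖ := fun t => by
    rw [map_mul, norm_mul, hu, mul_one, ev1_coe]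
  have hr : ∀ z ∈ (W.map (O C).subtype).roots, ∃ t : M C, ((t : O C) : C) = z ∧
      ev1 t ((W : PowerSeries (O C)) * u) = 0 := fun z hz => by
    obtain ⟨t, h1, h2⟩ := dzero_root hW (hd ▸ hc) (Polynomial.isRoot_of_mem_roots hz)
    exact ⟨t, h1, norm_eq_zero.1 (by rw [ev, h2, norm_zero])⟩
  by_contra hcon
  push Not at hcon
  have h1 : (W.map (O C).subtype).roots.Nodup := by
    refine Multiset.nodup_iff_count_le_one.2 fun z => not_lt.1 fun hz => ?_
    obtain ⟨t, rfl, ht⟩ := hr z (Multiset.count_pos.1 (by omega))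
    rw [Polynomial.count_roots, Nat.lt_iff_add_one_le,
      Polynomial.le_rootMultiplicity_iff (hW.map _).ne_zero] at hz
    obtain ⟨W₂, h2⟩ := (Polynomial.map_dvd_map (O C).subtype Subtype.val_injective
      ((Polynomial.monic_X_sub_C (t : O C)).pow 2) (y := W)).1 (by simpa using hz)
    refine hsimple t ht fun b => ?_
    rw [ev, h2, Polynomial.eval_mul, norm_mul, Polynomial.eval_pow, norm_pow, Polynomial.eval_sub,
      Polynomial.eval_X, Polynomial.eval_C]
    exact mul_le_of_le_one_right (by positivity) (O.norm_le_one _)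
  have h2 : (W.map (O C).subtype).roots ≤ (W'.map (O C).subtype).roots := by
    refine (Multiset.le_iff_subset h1).2 fun z hz => ?_
    obtain ⟨t, rfl, ht⟩ := hr z hz
    exact (Polynomial.mem_roots (hW'.map _).ne_zero).2 ((h1' t).1 (hcon t ht)).map
  have h3 := (Multiset.card_le_card h2).trans (Polynomial.card_roots' _)
  rw [IsAlgClosed.card_roots_eq_natDegree, hW.natDegree_map, hW'.natDegree_map, hd, hd'] at h3
  have := Nat.find_min' ⟨j, hj'⟩ hj' (p := fun e => ‖coeff e D‖ = 1)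
  omega

end Vale.Agent.P217.D
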