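import Vale.Agent.P217.DHeight
import Vale.Agent.P217.DZero

/-!
# P217: Frobenius and the universal cover
-/

set_option linter.unusedSectionVars false

noncomputable section

namespace Vale.Agent.P217.D

variable {C : Type} [NontriviallyNormedField C] [IsUltrametricDist C] [CompleteSpace C]
  [IsAlgClosed C] {p : ℕ} [Fact p.Prime] [CharP C p]

open PowerSeries

/-- The integral powers of Frobenius on the points of `Γ`. -/
structure IsFrob (p : ℕ) {Γ : FormalGroup (O C)} [Γ.IsComm] (Φ : ℤ → Pt Γ →+ Pt Γ) : Prop where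
  zero : ∀ s, Φ 0 s = s
  add : ∀ i j s, Φ (i + j) s = Φ i (Φ j s)
  succ : ∀ j s, (Φ (j + 1) s).v = (Φ j s).v ^ p

/-- `G` is a deformation of height at least `h` of `Γ`, whose `p`-series is `X ^ p ^ n`. -/
structure Near (p h n : ℕ) (θ : ℝ) (Γ G : FormalGroup (O C)) : Prop where
  pos : 0 < θ
  lt_one : θ < 1
  hh : 1 ≤ h
  hn : 1 ≤ n
  pser : mulSeries Γ p = X ^ p ^ n
  close : ∀ d, ‖MvPowerSeries.coeff d G.toPowerSeries -
    MvPowerSeries.coeff d Γ.toPowerSeries‖ ≤ θ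
  closep : ∀ j, ‖coeff j (mulSeries G p) - coeff j (X ^ p ^ n : PowerSeries (O C))‖ ≤ θ
  low : ∀ j < p ^ h, coeff j (mulSeries G p) = 0

variable {Γ G : FormalGroup (O C)} [Γ.IsComm] [G.IsComm] {h n : ℕ} {θ : ℝ}

theorem exists_frob (hfr : IsHom Γ Γ (X ^ p)) : ∃ Φ : ℤ → Pt Γ →+ Pt Γ, IsFrob p Φ := by
  have hv : ∀ a : Pt Γ, (homPt hfr a).v = a.v ^ p := fun a => by rw [homPt_v, map_pow, ev1_X]
  have hb : Function.Bijective (homPt hfr) := by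
    refine ⟨fun a b e => Pt.ext_v ?_, fun a => ?_⟩
    · have h1 := congrArg Pt.v e
      rw [hv, hv, ← sub_eq_zero, ← sub_pow_char] at h1
      exact sub_eq_zero.mp (pow_eq_zero_iff (Fact.out : p.Prime).ne_zero |>.mp h1)
    · obtain ⟨s, hs⟩ := exists_M_pow_eq a.val (Fact.out : p.Prime).ne_zero
      exact ⟨⟨s⟩, Pt.ext_v ((hv _).trans hs)⟩
  let E := AddEquiv.ofBijective _ hb
  let u : (AddMonoid.End (Pt Γ))ˣ := ⟨E.toAddMonoidHom, E.symm.toAddMonoidHom,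
    AddMonoidHom.ext E.apply_symm_apply, AddMonoidHom.ext E.symm_apply_apply⟩
  refine ⟨fun j => (u ^ j).1, fun s => rfl, fun i j s => ?_, fun j s => ?_⟩
  · rw [zpow_add]
    rfl
  · rw [add_comm, zpow_add, zpow_one]
    exact hv _

section frob
variable {Φ : ℤ → Pt Γ →+ Pt Γ}

lemma IsFrob.nat_v (hΦ : IsFrob p Φ) (j : ℕ) (s : Pt Γ) : (Φ j s).v = s.v ^ p ^ j := by
  induction j with
  | zero => rw [Nat.cast_zero, hΦ.zero, pow_zero, pow_one]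
  | succ j ih => rw [Nat.cast_succ, hΦ.succ, ih, ← pow_mul, pow_succ]

lemma IsFrob.add_nat_v (hΦ : IsFrob p Φ) (i : ℤ) (j : ℕ) (s : Pt Γ) :
    (Φ (i + j) s).v = (Φ i s).v ^ p ^ j := by
  rw [add_comm, hΦ.add, hΦ.nat_v]

lemma IsFrob.injective (hΦ : IsFrob p Φ) (j : ℤ) : Function.Injective (Φ j) := by
  refine Function.LeftInverse.injective (g := Φ (-j)) fun s => ?_
  rw [← hΦ.add, neg_add_cancel, hΦ.zero]

lemma IsFrob.norm_le_iff (hΦ : IsFrob p Φ) (j : ℤ) (a b : Pt Γ) :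
    ‖(Φ j a).v‖ ≤ ‖(Φ j b).v‖ ↔ ‖a.v‖ ≤ ‖b.v‖ := by
  have key : ∀ (k : ℕ) (a b : Pt Γ), ‖(Φ k a).v‖ ≤ ‖(Φ k b).v‖ ↔ ‖a.v‖ ≤ ‖b.v‖ := fun k a b => by
    rw [hΦ.nat_v, hΦ.nat_v, norm_pow, norm_pow, pow_le_pow_iff_left₀ (norm_nonneg _)
      (norm_nonneg _) (pow_ne_zero _ (Fact.out : p.Prime).ne_zero)]
  obtain ⟨k, rfl | rfl⟩ := j.eq_nat_or_neg
  · exact key k a b
  · rw [← key k, ← hΦ.add, ← hΦ.add, add_neg_cancel, hΦ.zero, hΦ.zero]

lemma IsFrob.mul_nat (hΦ : IsFrob p Φ) (hp : mulSeries Γ p = X ^ p ^ n) (k : ℕ) (s : Pt Γ) :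
    Φ (n * k) s = p ^ k • s := by
  refine Pt.ext_v ?_
  rw [← Nat.cast_mul, hΦ.nat_v, Pt.pow_nsmul_v hp, pow_mul]

lemma IsFrob.nsmul_neg (hΦ : IsFrob p Φ) (hp : mulSeries Γ p = X ^ p ^ n) (k : ℕ) (s : Pt Γ) :
    p ^ k • Φ (-(n * k)) s = s := by
  rw [← hΦ.mul_nat hp, ← hΦ.add, add_neg_cancel, hΦ.zero]

/-- The norm of a nonzero point tends to one under inverse Frobenius. -/
lemma IsFrob.exists_norm_gt (hΦ : IsFrob p Φ) {s : Pt Γ} (hs : s ≠ 0) {r : ℝ} (hr : r < 1) :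
    ∃ τ : ℤ, ∀ j ≤ τ, r < ‖(Φ j s).v‖ := by
  have h0 : 0 < ‖s.v‖ := norm_pos_iff.mpr fun h => hs (Pt.ext_v h)
  obtain ⟨K, hK⟩ := exists_pow_lt_of_lt_one h0 (max_lt hr one_pos)
  refine ⟨-K, fun j hj => lt_of_not_ge fun h => hK.not_ge ?_⟩
  obtain ⟨k, rfl⟩ : ∃ k : ℕ, j = -k := ⟨(-j).toNat, by omega⟩
  have h1 := hΦ.add_nat_v (-k) k s
  rw [neg_add_cancel, hΦ.zero] at h1
  have h2 : k < p ^ k := Nat.lt_pow_self (Fact.out : p.Prime).one_lt
  rw [h1, norm_pow]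
  exact (pow_le_pow_left₀ (norm_nonneg _) (h.trans (le_max_left _ _)) _).trans
    (pow_le_pow_of_le_one (le_max_right _ _) (max_lt hr one_pos).le (by omega))

end frob

lemma Near.norm_nsmul_sub (hN : Near p h n θ Γ G) (a : Pt G) :
    ‖(p • a).v - a.v ^ p ^ n‖ ≤ θ := by
  have h := norm_ev1_le_of_coeff a.val (mulSeries G p - X ^ p ^ n) fun j => by
    rw [map_sub]
    exact hN.closep j
  rwa [map_sub, map_pow, ev1_X, ← Pt.nsmul_v] at h

lemma dlam_one (hN : Near p h n θ Γ G) (a : Pt G) :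
    ∃ e, ‖coeff e (mulSeries G p - PowerSeries.C a.v)‖ = 1 := by
  have h1 := hN.closep (p ^ n)
  rw [coeff_X_pow_self] at h1
  refine ⟨p ^ n, ?_⟩
  rw [map_sub, coeff_C, if_neg (pow_ne_zero _ (Fact.out : p.Prime).ne_zero), sub_zero]
  refine le_antisymm (O.norm_le_one _) (not_lt.mp fun h2 => ?_)
  have h3 := norm_sub_le_max (coeff (p ^ n) (mulSeries G p)) (coeff (p ^ n) (mulSeries G p) - 1)
  rw [sub_sub_cancel, norm_one] at h3
  exact h3.not_gt (max_lt h2 (h1.trans_lt hN.lt_one))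

lemma dlam_ev (a b : Pt G) : ev1 b.val (mulSeries G p - PowerSeries.C a.v) = 0 ↔ p • b = a := by
  rw [map_sub, ev1_C, ← Pt.nsmul_v, sub_eq_zero]
  exact ⟨Pt.ext_v, congrArg Pt.v⟩

lemma Near.nsmul_surjective (hN : Near p h n θ Γ G) (a : Pt G) : ∃ b : Pt G, p • b = a := by
  obtain ⟨t, ht⟩ := exists_root (mulSeries G p - PowerSeries.C a.v) (by
    rw [coeff_zero_eq_constantCoeff_apply, map_sub, c0_mulSeries, constantCoeff_C, zero_sub,
      norm_neg]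
    exact a.norm_lt_one) (dlam_one hN a)
  exact ⟨⟨t⟩, (dlam_ev a ⟨t⟩).mp ht⟩

lemma Near.finite_torsion (hN : Near p h n θ Γ G) (k : ℕ) : {a : Pt G | p ^ k • a = 0}.Finite := by
  induction k with
  | zero => simp
  | succ k ih =>
    refine (ih.biUnion fun b _ => (finite_roots _ (dlam_one hN b)).preimage (f := Pt.val)
      fun _ _ _ _ => Pt.ext).subset fun a ha => ?_
    refine Set.mem_biUnion (x := p • a) ?_ ((dlam_ev _ a).mpr rfl)
    rwa [Set.mem_ofPred_eq, ← mul_smul, ← pow_succ]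

lemma dlam_tri {a b c : O C} {r : ℝ} (h1 : ‖a - b‖ ≤ r) (h2 : ‖b - c‖ ≤ r) : ‖a - c‖ ≤ r := by
  rw [← sub_add_sub_cancel a b c]
  exact (IsUltrametricDist.norm_add_le_max _ _).trans (max_le h1 h2)

lemma dlam_tendsto (h0 : 0 < θ) (h1 : θ < 1) {Q : ℕ} (hQ : 1 < Q) :
    Filter.Tendsto (fun k : ℕ => θ ^ Q ^ k) Filter.atTop (nhds 0) :=
  (tendsto_pow_atTop_nhds_zero_of_lt_one h0.le h1).comp (tendsto_pow_atTop_atTop_of_one_lt hQ)

lemma dlam_eq (h0 : 0 < θ) (h1 : θ < 1) {Q : ℕ} (hQ : 1 < Q) {a b : O C}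
    (h : ∀ k : ℕ, ‖a - b‖ ≤ θ ^ Q ^ k) : a = b :=
  sub_eq_zero.mp (norm_le_zero_iff.mp (ge_of_tendsto' (dlam_tendsto h0 h1 hQ) h))

lemma dlam_lim (h0 : 0 < θ) (h1 : θ < 1) {Q : ℕ} (hQ : 1 < Q) (x : ℕ → O C) (hx : ‖x 0‖ < 1)
    (h : ∀ k, ‖x (k + 1) - x k‖ ≤ θ ^ Q ^ k) : ∃ y : M C, ∀ k, ‖(y : O C) - x k‖ ≤ θ ^ Q ^ k := by
  have key : ∀ k m, k ≤ m → ‖x m - x k‖ ≤ θ ^ Q ^ k := fun k m hm => by
    induction m, hm using Nat.le_induction with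
    | base => simpa using pow_nonneg h0.le _
    | succ m hm ih =>
      exact dlam_tri ((h m).trans (pow_le_pow_of_le_one h0.le h1.le
        (Nat.pow_le_pow_right hQ.le hm))) ih
  obtain ⟨y, hy⟩ := cauchySeq_tendsto_of_complete (cauchySeq_of_le_tendsto_0' (s := x) _
    (fun k m hm => by rw [dist_comm, dist_eq_norm]; exact key k m hm) (dlam_tendsto h0 h1 hQ))
  have h2 : ∀ k, ‖y - x k‖ ≤ θ ^ Q ^ k := fun k =>
    le_of_tendsto (hy.sub_const _).norm (Filter.eventually_atTop.mpr ⟨k, key k⟩)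
  refine ⟨⟨y, mem_M.mpr ?_⟩, h2⟩
  rw [← sub_add_cancel y (x 0)]
  exact (IsUltrametricDist.norm_add_le_max _ _).trans_lt
    (max_lt ((h2 0).trans_lt (by simpa using h1)) hx)

theorem Near.exists_lam (hN : Near p h n θ Γ G) {Φ : ℤ → Pt Γ →+ Pt Γ} (hΦ : IsFrob p Φ) :
    ∃ Λ : Pt Γ →+ Pt G, (∀ s, ‖(Λ s).v - s.v‖ ≤ θ) ∧ Function.Surjective Λ := by
  have hp := (Fact.out : p.Prime)
  have hQ : 1 < p ^ h := Nat.one_lt_pow (by have := hN.hh; omega) hp.one_lt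
  have hq : 1 < p ^ n := Nat.one_lt_pow (by have := hN.hn; omega) hp.one_lt
  let u : ℕ → Pt Γ → Pt G := fun k s => ⟨(Φ (-(n * k)) s).val⟩
  have hs : ∀ (k : ℕ) (a b : Pt G), ‖a.v - b.v‖ ≤ θ →
      ‖(p ^ k • a).v - (p ^ k • b).v‖ ≤ θ ^ (p ^ h) ^ k := fun k a b hab =>
    (norm_pow_nsmul_sub_le hN.low k a b).trans (pow_le_pow_left₀ (norm_nonneg _) hab _)
  have h0 : ∀ s, (p ^ 0 • u 0 s).v = s.v := fun s => by simp [u, hΦ.zero]
  have key : ∀ s, ∃ y : M C, ∀ k, ‖(y : O C) - (p ^ k • u k s).v‖ ≤ θ ^ (p ^ h) ^ k := fun s => by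
    refine dlam_lim hN.pos hN.lt_one hQ _ (Pt.norm_lt_one _) fun k => ?_
    rw [pow_succ, mul_smul]
    refine hs k _ _ ?_
    have h1 := hΦ.add_nat_v (-(n * (k + 1 : ℕ))) n s
    rw [show -((n : ℤ) * (k + 1 : ℕ)) + n = -(n * k) by push_cast; ring] at h1
    exact (congrArg (fun x => ‖_ - x‖) h1).trans_le (hN.norm_nsmul_sub (u (k + 1) s))
  choose y hy using key
  refine ⟨AddMonoidHom.mk' (fun s => ⟨y s⟩) fun s t => ?_, fun s => ?_, fun t => ?_⟩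
  · refine Pt.ext_v (dlam_eq hN.pos hN.lt_one hQ fun k => ?_)
    have h1 := hs k (u k (s + t)) (u k s + u k t) (by
      rw [norm_sub_rev]
      simpa only [u, map_add] using close_add hN.close (Φ (-(n * k)) s).val (Φ (-(n * k)) t).val)
    have h2 := (Pt.norm_add_add_le (p ^ k • u k s) ⟨y s⟩ (p ^ k • u k t) ⟨y t⟩).trans
      (max_le ((norm_sub_rev _ _).trans_le (hy s k)) ((norm_sub_rev _ _).trans_le (hy t k)))
    rw [← smul_add] at h2
    exact dlam_tri (dlam_tri (hy (s + t) k) h1) h2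
  · have h1 := hy s 0
    rw [h0, pow_zero, pow_one] at h1
    exact h1
  · choose r hr using hN.nsmul_surjective
    have h1 : ∀ k, p ^ k • r^[k] t = t := fun k => by
      induction k with
      | zero => simp
      | succ k ih => rw [pow_succ, mul_smul, Function.iterate_succ_apply', hr, ih]
    have h2 : ∀ (k : ℕ) (a b : O C), ‖a ^ (p ^ n) ^ k - b ^ (p ^ n) ^ k‖ = ‖a - b‖ ^ (p ^ n) ^ k :=
      fun k a b => by rw [← norm_pow, ← pow_mul, sub_pow_char_pow]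
    obtain ⟨s, hs'⟩ := dlam_lim hN.pos hN.lt_one hq (fun k => (r^[k] t).v ^ (p ^ n) ^ k)
      (by simpa using t.norm_lt_one) fun k => by
        rw [pow_succ', pow_mul, h2, Function.iterate_succ_apply', norm_sub_rev]
        refine pow_le_pow_left₀ (norm_nonneg _) ?_ _
        simpa only [hr] using hN.norm_nsmul_sub (r (r^[k] t))
    refine ⟨⟨s⟩, Pt.ext_v (dlam_eq hN.pos hN.lt_one hQ fun k => dlam_tri (hy _ k) ?_)⟩
    have h3 := hΦ.add_nat_v (-(n * k)) (n * k) ⟨s⟩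
    rw [Nat.cast_mul, neg_add_cancel, hΦ.zero, pow_mul] at h3
    have h4 := hs' k
    rw [show (s : O C) = _ from h3, h2, pow_le_pow_iff_left₀ (norm_nonneg _) hN.pos.le
      (by positivity)] at h4
    simpa only [h1] using hs k (u k ⟨s⟩) (r^[k] t) h4

end Vale.Agent.P217.D
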