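import Vale.Agent.P217.DTyp
import Vale.Agent.P217.DLam

/-!
# P217: Gauss norms of homomorphisms
-/

set_option linter.unusedSectionVars false

noncomputable section

namespace Vale.Agent.P217.D

variable {C : Type} [NontriviallyNormedField C] [IsUltrametricDist C] [CompleteSpace C]
  [IsAlgClosed C] {p : ℕ} [Fact p.Prime] [CharP C p]

open PowerSeries

variable {Γ G Γ' : FormalGroup (O C)} [Γ.IsComm] [G.IsComm] [Γ'.IsComm] {h n m : ℕ} {θ : ℝ}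

/-- Gauss norm at radius `ρ`. -/
def gn (φ : PowerSeries (O C)) (ρ : ℝ) : ℝ := ⨆ d : ℕ, ‖coeff d φ‖ * ρ ^ d

lemma le_gn (φ : PowerSeries (O C)) {ρ : ℝ} (h0 : 0 ≤ ρ) (h1 : ρ ≤ 1) (d : ℕ) :
    ‖coeff d φ‖ * ρ ^ d ≤ gn φ ρ := by
  refine le_ciSup (f := fun d => ‖coeff d φ‖ * ρ ^ d) ⟨1, ?_⟩ d
  rintro _ ⟨j, rfl⟩
  exact mul_le_one₀ (O.norm_le_one _) (pow_nonneg h0 _) (pow_le_one₀ h0 h1)

lemma gn_nonneg (φ : PowerSeries (O C)) {ρ : ℝ} (h0 : 0 ≤ ρ) (h1 : ρ ≤ 1) : 0 ≤ gn φ ρ :=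
  le_trans (by positivity) (le_gn φ h0 h1 0)

lemma norm_ev1_le_gn (φ : PowerSeries (O C)) {ρ : ℝ} (h1 : ρ ≤ 1) (t : M C) (ht : ‖t‖ ≤ ρ) :
    ‖ev1 t φ‖ ≤ gn φ ρ := by
  have h0 : 0 ≤ ρ := (norm_nonneg _).trans ht
  exact norm_ev1_le t φ (gn_nonneg φ h0 h1) fun j => (mul_le_mul_of_nonneg_left
    (pow_le_pow_left₀ (norm_nonneg _) ht j) (norm_nonneg _)).trans (le_gn φ h0 h1 j)

/-- The data of a homomorphism `E : G → Γ'` read in an almost additive coordinate. -/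
structure HomData (p h : ℕ) (E : Pt G →+ Pt Γ') (β φ : PowerSeries (O C)) : Prop where
  pser : mulSeries Γ' p = X ^ p ^ h
  b0 : constantCoeff β = 0
  b1 : coeff 1 β = 1
  badd : ∀ a b : Pt Γ',
    ‖ev1 (a + b).val β - ev1 a.val β - ev1 b.val β‖ ≤ max ‖a.v‖ ‖b.v‖ ^ p ^ h
  rep : ∀ a, ev1 a.val φ = ev1 (E a).val β

section
variable {E : Pt G →+ Pt Γ'} {β φ : PowerSeries (O C)}

lemma HomData.norm_eq (hD : HomData p h E β φ) (a : Pt G) : ‖ev1 a.val φ‖ = ‖(E a).v‖ := by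
  rw [hD.rep]
  have h1 := taylor2_one (E a).val β
  rw [hD.b0, hD.b1, sub_zero, one_mul] at h1
  by_cases h0 : (E a).v = 0
  · have h2 : ((E a).val : O C) = 0 := h0
    rw [h2, sub_zero, norm_zero, zero_pow two_ne_zero] at h1
    rw [h0, norm_zero]
    exact le_antisymm h1 (norm_nonneg _)
  · have h2 : ‖(E a).v‖ ^ 2 < ‖(E a).v‖ := by
      rw [sq]
      exact mul_lt_of_lt_one_left (norm_pos_iff.2 h0) (E a).norm_lt_one
    have e : ev1 (E a).val β = (E a).v + (ev1 (E a).val β - (E a).v) := by ring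
    rw [e, IsUltrametricDist.norm_add_eq_max_of_norm_ne_norm (h1.trans_lt h2).ne',
      max_eq_left (h1.trans h2.le)]

lemma HomData.norm_pow_le (hN : Near p h n θ Γ G) (hD : HomData p h E β φ) {ρ : ℝ} (h1 : ρ ≤ 1)
    (hθ : θ ≤ ρ ^ p ^ n) (a : Pt G) (ha : ‖a.v‖ ≤ ρ) :
    ‖(E a).v‖ ^ p ^ h ≤ gn φ (ρ ^ p ^ n) := by
  have h0 : 0 ≤ ρ := (norm_nonneg _).trans ha
  have h2 := Pt.pow_nsmul_v hD.pser 1 (E a)
  rw [pow_one, pow_one, ← map_nsmul] at h2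
  rw [← norm_pow, ← h2, ← hD.norm_eq]
  refine norm_ev1_le_gn φ (pow_le_one₀ h0 h1) _ ?_
  have e : (p • a).v = ((p • a).v - a.v ^ p ^ n) + a.v ^ p ^ n := by ring
  change ‖(p • a).v‖ ≤ _
  rw [e]
  refine (IsUltrametricDist.norm_add_le_max _ _).trans
    (max_le ((hN.norm_nsmul_sub a).trans hθ) ?_)
  rw [norm_pow]
  exact pow_le_pow_left₀ (norm_nonneg _) ha _

lemma HomData.norm_add_le (hN : Near p h n θ Γ G) (hD : HomData p h E β φ) {ρ : ℝ} (h1 : ρ ≤ 1)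
    (hθ : θ ≤ ρ ^ p ^ n) (a b : Pt G) (ha : ‖a.v‖ ≤ ρ) (hb : ‖b.v‖ ≤ ρ) :
    ‖ev1 (a + b).val φ - ev1 a.val φ - ev1 b.val φ‖ ≤ gn φ (ρ ^ p ^ n) := by
  rw [hD.rep, hD.rep, hD.rep, map_add]
  refine (hD.badd _ _).trans ?_
  rcases le_total ‖(E a).v‖ ‖(E b).v‖ with h2 | h2
  · rw [max_eq_right h2]
    exact hD.norm_pow_le hN h1 hθ b hb
  · rw [max_eq_left h2]
    exact hD.norm_pow_le hN h1 hθ a ha

lemma HomData.coeff_zero (hD : HomData p h E β φ) : coeff 0 φ = 0 := by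
  have h1 := hD.rep 0
  rw [map_zero, Pt.zero_val, Pt.zero_val, ev1_zero, ev1_zero, hD.b0] at h1
  rwa [coeff_zero_eq_constantCoeff_apply]

/-- Moving the argument by at most `ρ ^ q`. -/
lemma HomData.norm_sub_le (hN : Near p h n θ Γ G) (hD : HomData p h E β φ) {ρ : ℝ} (h1 : ρ ≤ 1)
    (hθ : θ ≤ ρ ^ p ^ n) (a b : Pt G) (ha : ‖a.v‖ ≤ ρ) (hb : ‖b.v‖ ≤ ρ)
    (hab : ‖a.v - b.v‖ ≤ ρ ^ p ^ n) : ‖ev1 a.val φ - ev1 b.val φ‖ ≤ gn φ (ρ ^ p ^ n) := by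
  have hp : p.Prime := Fact.out
  have h0 : 0 ≤ ρ := (norm_nonneg _).trans ha
  have h2 : ‖(a - b).v‖ ≤ ρ ^ p ^ n := (Pt.norm_sub a b).trans_le hab
  have h3 := hD.norm_add_le hN h1 hθ b (a - b) hb
    (h2.trans (pow_le_of_le_one h0 h1 (pow_pos hp.pos n).ne'))
  rw [add_sub_cancel] at h3
  have h4 := norm_ev1_le_gn φ (pow_le_one₀ h0 h1) (a - b).val h2
  have e : ev1 a.val φ - ev1 b.val φ =
      (ev1 a.val φ - ev1 b.val φ - ev1 (a - b).val φ) + ev1 (a - b).val φ := by ring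
  rw [e]
  exact (IsUltrametricDist.norm_add_le_max _ _).trans (max_le h3 h4)

/-- Coefficients in degrees that are not powers of `p` are negligible. -/
lemma HomData.coeff_le (hN : Near p h n θ Γ G)
    (hζ : ∀ c : O C, c ^ p ^ n = c → IsHom Γ Γ (PowerSeries.C c * X)) (hD : HomData p h E β φ)
    (t : M C) (hθ : θ ≤ ‖t‖ ^ p ^ n) (d : ℕ) (hd : ¬ ∃ i, d = p ^ i) :
    ‖coeff d φ‖ * ‖t‖ ^ d ≤ gn φ (‖t‖ ^ p ^ n) := by
  have h1 : ‖t‖ ≤ 1 := (M.norm_lt_one t).le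
  by_cases hd0 : d = 0
  · rw [hd0, hD.coeff_zero, norm_zero, zero_mul]
    exact gn_nonneg φ (by positivity) (pow_le_one₀ (norm_nonneg _) h1)
  obtain ⟨i, j, hi, hj, rfl, hc⟩ := exists_choose_not_dvd hd0 hd
  have key := maxP_binom t t φ (B := gn φ (‖t‖ ^ p ^ n)) (fun a b ha hb => ?_) hi hj
  · rwa [norm_mul, norm_natCast_eq_one hc, one_mul, ← pow_add] at key
  have h2 := hD.norm_add_le hN h1 hθ ⟨a⟩ ⟨b⟩ ha hb
  have h3 := close_add hN.close a b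
  have h4 := add_approx hN.hn hζ ⟨a⟩ ⟨b⟩
  have h5 : ‖((⟨a⟩ + ⟨b⟩ : Pt G)).v‖ ≤ ‖t‖ := (Pt.norm_add_le _ _).trans (max_le ha hb)
  have h6 : ‖(⟨a + b⟩ : Pt G).v‖ ≤ ‖t‖ :=
    (IsUltrametricDist.norm_add_le_max (a : O C) b).trans (max_le ha hb)
  have h7 := hD.norm_sub_le hN h1 hθ _ _ h5 h6 (by
    have e : ((⟨a⟩ + ⟨b⟩ : Pt G)).v - (⟨a + b⟩ : Pt G).v =
        (((⟨a⟩ + ⟨b⟩ : Pt G)).v - ((⟨a⟩ + ⟨b⟩ : Pt Γ)).v) +
          (((⟨a⟩ + ⟨b⟩ : Pt Γ)).v - (⟨a⟩ : Pt Γ).v - (⟨b⟩ : Pt Γ).v) := by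
      change _ - ((a : O C) + b) = _ + (_ - (a : O C) - b)
      ring
    rw [e]
    exact (IsUltrametricDist.norm_add_le_max _ _).trans (max_le (h3.trans hθ)
      (h4.trans (pow_le_pow_left₀ (by positivity) (max_le ha hb) _))))
  have e : ev1 (a + b) φ - ev1 a φ - ev1 b φ =
      (ev1 ((⟨a⟩ + ⟨b⟩ : Pt G)).val φ - ev1 a φ - ev1 b φ) -
        (ev1 ((⟨a⟩ + ⟨b⟩ : Pt G)).val φ - ev1 (a + b) φ) := by ring
  rw [e]
  exact (norm_sub_le_max _ _).trans (max_le h2 h7)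

lemma HomData.gn_le (hN : Near p h n θ Γ G)
    (hζ : ∀ c : O C, c ^ p ^ n = c → IsHom Γ Γ (PowerSeries.C c * X)) (hD : HomData p h E β φ)
    (t : M C) (hθ : θ ≤ ‖t‖ ^ p ^ n) {B : ℝ} (hB0 : 0 ≤ B)
    (hB : ∀ i, ‖coeff (p ^ i) φ‖ * ‖t‖ ^ p ^ i ≤ B) : gn φ ‖t‖ ≤ B := by
  have hp : p.Prime := Fact.out
  have h0 : 0 ≤ ‖t‖ := norm_nonneg _
  have h1 : ‖t‖ < 1 := M.norm_lt_one t
  have h2 : gn φ ‖t‖ ≤ max B (gn φ (‖t‖ ^ p ^ n)) := by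
    refine ciSup_le fun d => ?_
    by_cases hd : ∃ i, d = p ^ i
    · obtain ⟨i, rfl⟩ := hd
      exact (hB i).trans (le_max_left _ _)
    · exact (hD.coeff_le hN hζ t hθ d hd).trans (le_max_right _ _)
  have h3 : gn φ (‖t‖ ^ p ^ n) ≤ ‖t‖ * gn φ ‖t‖ := by
    refine ciSup_le fun d => ?_
    rcases Nat.eq_zero_or_pos d with rfl | hd
    · rw [hD.coeff_zero, norm_zero, zero_mul]
      exact mul_nonneg h0 (gn_nonneg φ h0 h1.le)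
    · have hq : 2 ≤ p ^ n := Nat.one_lt_pow (by have := hN.hn; omega) hp.one_lt
      have h4 : (‖t‖ ^ p ^ n) ^ d ≤ ‖t‖ * ‖t‖ ^ d := by
        rw [← pow_mul, ← pow_succ']
        exact pow_le_pow_of_le_one h0 h1.le (by nlinarith)
      refine (mul_le_mul_of_nonneg_left h4 (norm_nonneg _)).trans ?_
      rw [mul_left_comm]
      exact mul_le_mul_of_nonneg_left (le_gn φ h0 h1.le d) h0
  by_contra hlt
  push Not at hlt
  have h5 := mul_lt_of_lt_one_left (hB0.trans_lt hlt) h1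
  exact (max_lt hlt (h3.trans_lt h5)).not_ge h2

end

end Vale.Agent.P217.D
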