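import Vale.Agent.P217.DPt

/-!
# P217: formal group laws of height at least `h`
-/

set_option linter.unusedSectionVars false

noncomputable section

namespace Vale.Agent.P217.D

variable {C : Type} [NontriviallyNormedField C] [IsUltrametricDist C] [CompleteSpace C]
  [IsAlgClosed C] {p : ℕ} [Fact p.Prime] [CharP C p]

open PowerSeries

/-- The series `V` with `V (X ^ Q) = K`. -/
def contract {R : Type*} [CommRing R] (Q : ℕ) (K : PowerSeries R) : PowerSeries R :=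
  PowerSeries.mk fun j => coeff (Q * j) K

lemma coeff_contract {R : Type*} [CommRing R] (Q : ℕ) (K : PowerSeries R) (j : ℕ) :
    coeff j (contract Q K) = coeff (Q * j) K := by simp [contract]

lemma map_contract {R S : Type*} [CommRing R] [CommRing S] (φ : R →+* S) (Q : ℕ)
    (K : PowerSeries R) : PowerSeries.map φ (contract Q K) = contract Q (PowerSeries.map φ K) := by
  ext j; simp [contract]

lemma subst_contract {R : Type*} [CommRing R] {Q : ℕ} (hQ : Q ≠ 0) (K : PowerSeries R)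
    (hK : ∀ i, ¬ Q ∣ i → coeff i K = 0) : (contract Q K).subst (X ^ Q : PowerSeries R) = K := by
  ext n
  rw [coeff_subst_X_pow hQ]
  split_ifs with h
  · rw [coeff_contract, Nat.mul_div_cancel' h]; rfl
  · exact (hK n h).symm

lemma ev1_contract {Q : ℕ} (hQ : Q ≠ 0) (K : PowerSeries (O C))
    (hK : ∀ i, ¬ Q ∣ i → coeff i K = 0) (t y : M C) (hy : (y : O C) = (t : O C) ^ Q) :
    ev1 y (contract Q K) = ev1 t K := by
  rw [← ev1_subst t (X ^ Q) (by simp [hQ]) y (by rw [hy, map_pow, ev1_X]), subst_contract hQ K hK]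

lemma dh_small {c r : ℝ} (hc : 0 < c) (hr : 0 < r) {N N' : ℕ} (hN : N < N')
    (h : ∀ t : M C, ‖t‖ ≤ r → c * ‖t‖ ^ N ≤ ‖t‖ ^ N') : False := by
  obtain ⟨t, h0, h1⟩ := exists_M_norm_lt (C := C) (lt_min hc hr)
  have h2 := (h t (h1.le.trans (min_le_right _ _))).trans
    (pow_le_pow_of_le_one h0.le (M.norm_lt_one t).le (Nat.succ_le_of_lt hN))
  rw [pow_succ'] at h2
  exact absurd (le_of_mul_le_mul_right h2 (pow_pos h0 N)) (not_le.2 (h1.trans_le (min_le_left _ _)))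

lemma dh_coeff (f : PowerSeries (O C)) {i : ℕ} (hi : i ≠ 0) :
    coeff i (f - PowerSeries.C (constantCoeff f)) = coeff i f := by
  rw [map_sub, coeff_C, if_neg hi, sub_zero]

lemma dh_holder (f : PowerSeries (O C)) {N : ℕ}
    (h : ∀ a b : M C, ‖ev1 a f - ev1 b f‖ ≤ ‖(a : O C) - b‖ ^ N) {u j : ℕ} (hu : 0 < u)
    (hj : 0 < j) (hN : j < N) (hp : ¬ p ∣ (u + j).choose u) : coeff (u + j) f = 0 := by
  by_contra h0
  obtain ⟨w, hw, -⟩ := exists_M_norm_lt (C := C) one_pos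
  refine dh_small (C := C) (mul_pos (norm_pos_iff.2 h0) (pow_pos hw u)) one_pos hN fun t _ => ?_
  have h1 := maxP_binom w t (f - PowerSeries.C (constantCoeff f)) (B := ‖t‖ ^ N)
    (fun a b _ hb => by
      have e : ev1 (a + b) (f - PowerSeries.C (constantCoeff f))
          - ev1 a (f - PowerSeries.C (constantCoeff f)) - ev1 b (f - PowerSeries.C (constantCoeff f))
          = (ev1 (a + b) f - ev1 a f) - (ev1 b f - ev1 0 f) := by
        simp only [map_sub, ev1_C, ev1_zero]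
        ring
      have h2 : ‖(b : O C)‖ ^ N ≤ ‖t‖ ^ N := pow_le_pow_left₀ (norm_nonneg _) hb N
      have h3 := h (a + b) a
      have h4 := h b 0
      rw [Submodule.coe_add, add_sub_cancel_left] at h3
      rw [Submodule.coe_zero, sub_zero] at h4
      rw [e]
      exact (norm_sub_le_max _ _).trans (max_le (h3.trans h2) (h4.trans h2))) hu hj
  rwa [norm_mul, norm_natCast_eq_one hp, one_mul, dh_coeff f (by omega), ← mul_assoc] at h1

lemma coeff_eq_zero_of_holder (f : PowerSeries (O C)) (s : ℕ)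
    (h : ∀ a b : M C, ‖ev1 a f - ev1 b f‖ ≤ ‖(a : O C) - b‖ ^ p ^ s) (i : ℕ) (hi : ¬ p ^ s ∣ i) :
    coeff i f = 0 := by
  by_cases h1 : i < p ^ s
  · have h0 : i ≠ 0 := by
      rintro rfl
      exact hi (dvd_zero _)
    rw [← dh_coeff f h0]
    refine ord1_of_growth _ (K := 1) one_pos (fun t _ => ?_) i h1
    have h4 := h t 0
    rw [Submodule.coe_zero, sub_zero, ev1_zero] at h4
    rw [map_sub, ev1_C, one_mul]
    exact h4
  · obtain ⟨j, h2, h3, h4, h5⟩ := exists_choose_not_dvd' hi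
    obtain ⟨u, rfl⟩ : ∃ u, i = u + j := ⟨i - j, by omega⟩
    exact dh_holder (p := p) f h (by omega) h2 h3 (by rwa [Nat.choose_symm_add])

variable {G : FormalGroup (O C)} [G.IsComm] {h : ℕ}

lemma norm_pow_nsmul_le (hlow : ∀ j < p ^ h, coeff j (mulSeries G p) = 0) (k : ℕ) (a : Pt G) :
    ‖(p ^ k • a).v‖ ≤ ‖a.v‖ ^ (p ^ h) ^ k := by
  induction k with
  | zero => simp only [pow_zero, one_smul, pow_one, le_refl]
  | succ k ih =>
    rw [pow_succ', mul_smul, Pt.nsmul_v, pow_succ, pow_mul]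
    exact (norm_ev1_le_pow _ _ hlow).trans (pow_le_pow_left₀ (norm_nonneg _) ih _)

lemma norm_pow_nsmul_sub_le (hlow : ∀ j < p ^ h, coeff j (mulSeries G p) = 0) (k : ℕ)
    (a b : Pt G) : ‖(p ^ k • a).v - (p ^ k • b).v‖ ≤ ‖a.v - b.v‖ ^ (p ^ h) ^ k := by
  rw [← Pt.norm_sub, ← Pt.norm_sub, ← smul_sub]
  exact norm_pow_nsmul_le hlow k _

lemma coeff_mulSeries_pow_eq_zero (hlow : ∀ j < p ^ h, coeff j (mulSeries G p) = 0) (k i : ℕ)
    (hi : ¬ (p ^ h) ^ k ∣ i) : coeff i (mulSeries G (p ^ k)) = 0 := by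
  rw [← pow_mul] at hi
  refine coeff_eq_zero_of_holder _ (h * k) (fun a b => ?_) i hi
  have := norm_pow_nsmul_sub_le hlow k (⟨a⟩ : Pt G) ⟨b⟩
  rwa [Pt.nsmul_v, Pt.nsmul_v, ← pow_mul] at this

/-- The height is an integer. -/
lemma low_succ (hlow : ∀ j < p ^ h, coeff j (mulSeries G p) = 0)
    (ha : coeff (p ^ h) (mulSeries G p) = 0) : ∀ j < p ^ (h + 1), coeff j (mulSeries G p) = 0 := by
  intro j
  induction j using Nat.strong_induction_on with
  | _ j ih =>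
    intro hj
    have hp : 1 < p := (Fact.out : p.Prime).one_lt
    rcases lt_trichotomy j (p ^ h) with h1 | rfl | h1
    · exact hlow j h1
    · exact ha
    obtain ⟨u, i, h2, h3, rfl, h4⟩ := exists_choose_not_dvd (p := p) (d := j) (by omega) (by
      rintro ⟨i, rfl⟩
      have := (Nat.pow_lt_pow_iff_right hp).1 h1
      have := (Nat.pow_lt_pow_iff_right hp).1 hj
      omega)
    refine dh_holder (p := p) (N := u + i) _ (fun a b => ?_) h2 h3 (by omega) h4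
    have e1 := Pt.norm_sub (p • (⟨a⟩ : Pt G)) (p • ⟨b⟩)
    have e2 := Pt.norm_sub (⟨a⟩ : Pt G) ⟨b⟩
    rw [← smul_sub, Pt.nsmul_v, Pt.nsmul_v, Pt.nsmul_v] at e1
    rw [← e1, ← e2]
    exact norm_ev1_le_pow _ _ fun l hl => ih l hl (hl.trans hj)

lemma dh_ge {Q : ℕ} {K : PowerSeries (O C)} (hlow : ∀ j < Q, coeff j K = 0) (t : M C)
    (ht : ‖t‖ ≤ ‖coeff Q K‖ / 2) : ‖coeff Q K‖ / 2 * ‖t‖ ^ Q ≤ ‖ev1 t K‖ := by
  have h1 := norm_ev1_le_pow t (K - PowerSeries.C (coeff Q K) * X ^ Q) (j := Q + 1) fun i hi => by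
    rw [map_sub, coeff_C_mul, coeff_X_pow]
    split_ifs with h
    · rw [h, mul_one, sub_self]
    · rw [hlow i (by omega), mul_zero, sub_self]
  rw [map_sub, map_mul, map_pow, ev1_C, ev1_X, pow_succ] at h1
  have h2 := norm_sub_norm_le (coeff Q K * (t : O C) ^ Q) (ev1 t K)
  rw [norm_sub_rev, norm_mul, norm_pow, M.norm_coe] at h2
  have h3 : ‖coeff Q K‖ * ‖t‖ ^ Q - ‖ev1 t K‖ ≤ ‖t‖ ^ Q * (‖coeff Q K‖ / 2) :=
    h2.trans (h1.trans (mul_le_mul_of_nonneg_left ht (pow_nonneg (norm_nonneg t) Q)))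
  linarith

lemma exists_norm_pow_nsmul_ge (hh : 1 ≤ h) (hlow : ∀ j < p ^ h, coeff j (mulSeries G p) = 0)
    (ha : coeff (p ^ h) (mulSeries G p) ≠ 0) (k : ℕ) :
    ∃ c r : ℝ, 0 < c ∧ 0 < r ∧ ∀ a : Pt G, ‖a.v‖ ≤ r →
      c * ‖a.v‖ ^ (p ^ h) ^ k ≤ ‖(p ^ k • a).v‖ := by
  have _ := hh
  have h0 := half_pos (norm_pos_iff.2 ha)
  induction k with
  | zero => exact ⟨1, 1, one_pos, one_pos, fun a _ => by
      simp only [pow_zero, one_smul, pow_one, one_mul, le_refl]⟩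
  | succ k ih =>
    obtain ⟨c, r, hc, hr, ih⟩ := ih
    refine ⟨_, _, mul_pos h0 (pow_pos hc (p ^ h)), lt_min hr h0, fun a h1 => ?_⟩
    rw [pow_succ' p, mul_smul, Pt.nsmul_v, pow_succ, pow_mul, mul_assoc, ← mul_pow]
    refine le_trans ?_ (dh_ge hlow (p ^ k • a).val
      ((Pt.norm_nsmul_le _ a).trans (h1.trans (min_le_right _ _))))
    exact mul_le_mul_of_nonneg_left (pow_le_pow_left₀ (by positivity)
      (ih a (h1.trans (min_le_left _ _))) _) h0.le

lemma coeff_mulSeries_pow_ne_zero (hh : 1 ≤ h) (hlow : ∀ j < p ^ h, coeff j (mulSeries G p) = 0)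
    (ha : coeff (p ^ h) (mulSeries G p) ≠ 0) (k : ℕ) :
    coeff ((p ^ h) ^ k) (mulSeries G (p ^ k)) ≠ 0 := by
  intro h0
  obtain ⟨c, r, hc, hr, h1⟩ := exists_norm_pow_nsmul_ge hh hlow ha k
  refine dh_small (C := C) hc hr (Nat.lt_succ_self ((p ^ h) ^ k)) fun t ht => ?_
  refine (h1 ⟨t⟩ ht).trans ?_
  rw [Pt.nsmul_v]
  refine norm_ev1_le_pow _ _ fun i hi => ?_
  rcases (Nat.le_of_lt_succ hi).eq_or_lt with rfl | h2
  · exact h0
  rcases Nat.eq_zero_or_pos i with rfl | h3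
  · rw [coeff_zero_eq_constantCoeff_apply]
    exact c0_mulSeries _
  · exact coeff_mulSeries_pow_eq_zero hlow k i (Nat.not_dvd_of_pos_of_lt h3 h2)

/-- The zeros of the Verschiebung are simple. -/
lemma contract_simple (hh : 1 ≤ h) (hlow : ∀ j < p ^ h, coeff j (mulSeries G p) = 0)
    (ha : coeff (p ^ h) (mulSeries G p) ≠ 0) (a : M C)
    (h0 : ev1 a (contract (p ^ h) (mulSeries G p)) = 0) :
    ¬ ∀ b : M C, ‖ev1 b (contract (p ^ h) (mulSeries G p))‖ ≤ ‖(b : O C) - a‖ ^ 2 := by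
  intro hb
  have hQ : p ^ h ≠ 0 := pow_ne_zero _ (Fact.out : p.Prime).ne_zero
  have hK : ∀ i, ¬ p ^ h ∣ i → coeff i (mulSeries G p) = 0 := fun i hi => by
    have := coeff_mulSeries_pow_eq_zero hlow 1 i (by rwa [pow_one])
    rwa [pow_one] at this
  obtain ⟨t, ht⟩ := exists_M_pow_eq a hQ
  have h1 : p • (⟨t⟩ : Pt G) = 0 := Pt.ext_v (by
    rw [Pt.nsmul_v, ← ev1_contract hQ _ hK t a ht.symm, h0, Pt.zero_v])
  obtain ⟨c, r, hc, hr, h2⟩ := exists_norm_pow_nsmul_ge hh hlow ha 1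
  refine dh_small (C := C) hc hr (N := p ^ h) (N' := p ^ h * 2) (by omega) fun s hs => ?_
  have h3 := h2 ⟨s⟩ hs
  rw [pow_one, pow_one] at h3
  refine h3.trans ?_
  have h4 := hb (powM ((⟨t⟩ : Pt G) + ⟨s⟩).val _ hQ)
  have h5 := Pt.norm_add_left_sub (⟨t⟩ : Pt G) ⟨s⟩ 0
  rw [add_zero, Pt.zero_v, sub_zero] at h5
  rw [ev1_contract hQ _ hK _ _ (coe_powM _ _ _), ← Pt.nsmul_v, smul_add, h1, zero_add, coe_powM,
    ← ht, ← sub_pow_char_pow, norm_pow, h5, ← pow_mul] at h4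
  exact h4

end Vale.Agent.P217.D
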