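import Vale.Agent.P217.DAn

/-!
# P217: maximum principle, identity theorem, order from growth
-/

set_option linter.unusedSectionVars false

noncomputable section

namespace Vale.Agent.P217.D

open MvPowerSeries

variable {C : Type} [NontriviallyNormedField C] [IsUltrametricDist C] [CompleteSpace C]
  [IsAlgClosed C]
variable {σ τ : Type*} [Fintype σ] [Fintype τ]

lemma dmp_pow (t : M C) {j : ℕ} (hj : j ≠ 0) : ∃ s : M C, (s : O C) ^ j = t := by
  obtain ⟨z, hz⟩ := IsAlgClosed.exists_pow_nat_eq ((t : O C) : C) (Nat.pos_of_ne_zero hj)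
  have h : ‖z‖ < 1 := (pow_lt_one_iff_of_nonneg (norm_nonneg z) hj).1
    (by rw [← norm_pow, hz]; exact M.norm_lt_one t)
  exact ⟨⟨⟨z, h.le⟩, h⟩, Subtype.ext hz⟩

lemma exists_M_norm_gt {r : ℝ} (hr : r < 1) : ∃ t : M C, r < ‖t‖ := by
  obtain ⟨c, h0, h1⟩ := NormedField.exists_norm_lt_one C
  obtain ⟨n, hn⟩ := exists_pow_lt_of_lt_one h0 hr
  have hn0 : n ≠ 0 := by
    rintro rfl
    rw [pow_zero] at hn
    linarith
  obtain ⟨s, hs⟩ := dmp_pow (⟨⟨c, h1.le⟩, h1⟩ : M C) hn0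
  refine ⟨s, lt_of_pow_lt_pow_left₀ n (norm_nonneg _) ?_⟩
  rw [← M.norm_coe, ← norm_pow, hs]
  exact hn

lemma exists_M_norm_lt {r : ℝ} (hr : 0 < r) : ∃ t : M C, 0 < ‖t‖ ∧ ‖t‖ < r := by
  obtain ⟨c, h0, h1⟩ := NormedField.exists_norm_lt C (lt_min hr one_pos)
  have h2 := h1.trans_le (min_le_right _ _)
  exact ⟨⟨⟨c, h2.le⟩, h2⟩, h0, h1.trans_le (min_le_left _ _)⟩

lemma exists_M_pow_eq (t : M C) {j : ℕ} (hj : j ≠ 0) : ∃ s : M C, (s : O C) ^ j = t := by
  exact dmp_pow t hj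

instance : (M C).IsMaximal := by
  refine Ideal.isMaximal_iff.2 ⟨by simp [mem_M], fun J x _ hx hJ => ?_⟩
  rw [J.eq_top_of_isUnit_mem hJ (O.isUnit_iff.2 (le_antisymm (O.norm_le_one x) (not_lt.1 hx)))]
  trivial

instance : Infinite (O C ⧸ M C) := by
  refine ⟨fun _ => ?_⟩
  have := Fintype.ofFinite (O C ⧸ M C)
  choose c hc using Ideal.Quotient.mk_surjective (I := M C)
  obtain ⟨z, hz⟩ := IsAlgClosed.eval_surjective
    (p := ∏ q, (Polynomial.X - Polynomial.C (c q : C))) (by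
      rw [Polynomial.natDegree_finsetProd_X_sub_C_eq_card]
      exact Fintype.card_ne_zero) 1
  simp only [Polynomial.eval_prod, Polynomial.eval_sub, Polynomial.eval_X, Polynomial.eval_C] at hz
  have h1 : ‖z‖ ≤ 1 := by
    by_contra h
    push Not at h
    have e : ∀ q, ‖z - c q‖ = ‖z‖ := fun q => by
      have h2 : ‖-(c q : C)‖ < ‖z‖ := by rw [norm_neg]; exact (c q).2.trans_lt h
      rw [sub_eq_add_neg, IsUltrametricDist.norm_add_eq_max_of_norm_ne_norm h2.ne', max_eq_left h2.le]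
    have h3 := congrArg norm hz
    simp only [norm_prod, e, Finset.prod_const, norm_one] at h3
    exact (one_lt_pow₀ h (Finset.card_ne_zero.2 Finset.univ_nonempty)).ne' h3
  have h2 : ∏ q, ((⟨z, h1⟩ : O C) - c q) = 1 := Subtype.ext (by simpa using hz)
  have h3 := congrArg (Ideal.Quotient.mk (M C)) h2
  rw [map_prod, Finset.prod_eq_zero (Finset.mem_univ (Ideal.Quotient.mk (M C) ⟨z, h1⟩))
    (by rw [map_sub, hc, sub_self]), map_one] at h3
  exact zero_ne_one h3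

lemma dmp_unit (P : MvPolynomial σ (O C)) (d : σ →₀ ℕ) (h : ‖P.coeff d‖ = 1) :
    ∃ u : σ → O C, ‖MvPolynomial.eval u P‖ = 1 := by
  by_contra hn
  push Not at hn
  have h1 : MvPolynomial.map (Ideal.Quotient.mk (M C)) P = 0 := MvPolynomial.funext fun v => by
    choose u hu using fun s => Ideal.Quotient.mk_surjective (v s)
    rw [map_zero, show v = Ideal.Quotient.mk (M C) ∘ u from funext fun s => (hu s).symm,
      ← MvPolynomial.map_eval, Ideal.Quotient.eq_zero_iff_mem]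
    exact lt_of_le_of_ne (O.norm_le_one _) (hn u)
  have h2 := congrArg (MvPolynomial.coeff d) h1
  rw [MvPolynomial.coeff_map, MvPolynomial.coeff_zero, Ideal.Quotient.eq_zero_iff_mem, mem_M,
    h] at h2
  exact lt_irrefl _ h2

lemma dmp_prod (r : ℝ) (d : σ →₀ ℕ) : (d.prod fun _ e => r ^ e) = r ^ d.degree := by
  rw [Finsupp.prod, Finsupp.degree_apply, Finset.prod_pow_eq_pow_sum]

/-- Maximum principle on a closed polydisc with radii in the value group. -/
theorem maxP (ϖ : σ → M C) (f : MvPowerSeries σ (O C)) {B : ℝ}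
    (h : ∀ x : σ → M C, (∀ s, ‖x s‖ ≤ ‖ϖ s‖) → ‖ev x f‖ ≤ B) (d : σ →₀ ℕ) :
    ‖coeff d f‖ * (d.prod fun s e => ‖ϖ s‖ ^ e) ≤ B := by
  classical
  by_contra hB
  push Not at hB
  let g : (σ →₀ ℕ) → O C := fun d => coeff d f * d.prod fun s e => (ϖ s : O C) ^ e
  have hg : ∀ d, ‖g d‖ = ‖coeff d f‖ * d.prod fun s e => ‖ϖ s‖ ^ e := fun d => by
    rw [← norm_prod_pow, ← norm_mul]
  rw [← hg] at hB
  have h0 : 0 < ‖g d‖ := ((norm_nonneg _).trans (h 0 fun s => by simp)).trans_lt hB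
  have hfin : ∀ r : ℝ, 0 < r → {d | r ≤ ‖g d‖}.Finite := fun r hr => by
    have := (hasSum_ev ϖ f).summable.tendsto_cofinite_zero.norm.eventually
      (gt_mem_nhds (by rwa [norm_zero]))
    simpa only [Filter.eventually_cofinite, not_lt] using this
  obtain ⟨d₀, hd₀, hmax⟩ := Set.exists_max_image _ (fun d => ‖g d‖) (hfin _ h0) ⟨d, le_refl ‖g d‖⟩
  have h1 : 0 < ‖g d₀‖ := h0.trans_le hd₀
  choose c hc using fun d' => O.dvd_of_norm_le (a := g d') (b := g d₀)
    ((le_total ‖g d‖ ‖g d'‖).elim (hmax d') fun h => h.trans hd₀)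
  obtain ⟨S, hS⟩ : ∃ S : Finset (σ →₀ ℕ), ∀ d, d ∈ S ↔ ‖g d₀‖ / 2 ≤ ‖g d‖ :=
    ⟨(hfin _ (half_pos h1)).toFinset, fun d => Set.Finite.mem_toFinset _⟩
  obtain ⟨u, hu⟩ := dmp_unit (∑ d ∈ S, MvPolynomial.monomial d (c d)) d₀ (by
    have e := congrArg norm (hc d₀)
    rw [norm_mul (g d₀), left_eq_mul₀ h1.ne'] at e
    simpa [MvPolynomial.coeff_sum, MvPolynomial.coeff_monomial, (hS d₀).2 (by linarith)] using e)
  let x : σ → M C := fun s => ⟨ϖ s * u s, Ideal.mul_mem_right _ _ (ϖ s).2⟩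
  have hx : ∀ s, ‖x s‖ ≤ ‖ϖ s‖ := fun s =>
    (norm_mul _ _).trans_le (mul_le_of_le_one_right (norm_nonneg _) (O.norm_le_one (u s)))
  have e1 : ev x (∑ d ∈ S, monomial d (coeff d f)) =
      g d₀ * MvPolynomial.eval u (∑ d ∈ S, MvPolynomial.monomial d (c d)) := by
    rw [map_sum, map_sum, Finset.mul_sum]
    refine Finset.sum_congr rfl fun d _ => ?_
    rw [ev_monomial, MvPolynomial.eval_monomial, ← mul_assoc, ← hc, mul_assoc, ← Finsupp.prod_mul]
    simp only [x, mul_pow]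
  have e2 : ‖ev x (f - ∑ d ∈ S, monomial d (coeff d f))‖ ≤ ‖g d₀‖ / 2 := by
    refine norm_ev_le x _ (half_pos h1).le fun d => ?_
    simp only [map_sub, map_sum, coeff_monomial, Finset.sum_ite_eq]
    split_ifs with hd
    · rw [sub_self, norm_zero, zero_mul]
      exact (half_pos h1).le
    · rw [sub_zero]
      refine le_trans ?_ ((hg d).ge.trans (not_le.1 (mt (hS d).2 hd)).le)
      exact mul_le_mul_of_nonneg_left (Finset.prod_le_prod (fun _ _ => by positivity)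
        fun s _ => pow_le_pow_left₀ (norm_nonneg _) (hx s) _) (norm_nonneg _)
  have e3 := norm_sub_le_max (ev x f) (ev x (f - ∑ d ∈ S, monomial d (coeff d f)))
  rw [← map_sub, sub_sub_cancel, e1, norm_mul, hu, mul_one] at e3
  exact (max_lt ((h x hx).trans_lt (hB.trans_le hd₀)) (e2.trans_lt (half_lt_self h1))).not_ge e3

theorem maxP_open (f : MvPowerSeries σ (O C)) {B : ℝ} (h : ∀ x : σ → M C, ‖ev x f‖ ≤ B)
    (d : σ →₀ ℕ) : ‖coeff d f‖ ≤ B := by
  have h1 : Filter.Tendsto (fun r : ℝ => ‖coeff d f‖ * r ^ d.degree) (nhdsWithin 1 (Set.Iio 1))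
      (nhds (‖coeff d f‖ * 1 ^ d.degree)) :=
    (Continuous.tendsto (by fun_prop) 1).mono_left nhdsWithin_le_nhds
  rw [one_pow, mul_one] at h1
  refine le_of_tendsto h1 (Filter.mem_of_superset (Ioo_mem_nhdsLT one_pos) fun r hr => ?_)
  obtain ⟨t, ht⟩ := exists_M_norm_gt (C := C) hr.2
  have h2 := maxP (fun _ => t) f (fun x _ => h x) d
  rw [dmp_prod] at h2
  exact (mul_le_mul_of_nonneg_left (pow_le_pow_left₀ hr.1.le ht.le _) (norm_nonneg _)).trans h2

theorem ident (f : MvPowerSeries σ (O C)) (h : ∀ x : σ → M C, ev x f = 0) : f = 0 := by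
  ext1 d
  exact norm_le_zero_iff.1 (maxP_open f (fun x => by rw [h, norm_zero]) d)

theorem ident_eq {f g : MvPowerSeries σ (O C)} (h : ∀ x : σ → M C, ev x f = ev x g) : f = g := by
  exact sub_eq_zero.1 (ident _ fun x => by rw [map_sub, h, sub_self])

theorem ord_of_growth (f : MvPowerSeries σ (O C)) {j : ℕ} {K r : ℝ} (hr : 0 < r)
    (h : ∀ x : σ → M C, ‖x‖ ≤ r → ‖ev x f‖ ≤ K * ‖x‖ ^ j) (d : σ →₀ ℕ) (hd : d.degree < j) :
    coeff d f = 0 := by
  by_contra h0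
  have h1 := norm_pos_iff.2 h0
  obtain ⟨t, ht0, ht⟩ := exists_M_norm_lt (C := C)
    (lt_min hr (by positivity : 0 < ‖coeff d f‖ / (|K| + 1)))
  have h2 := maxP (fun _ => t) f (B := |K| * ‖t‖ ^ j) (fun x hx => by
    have h3 := (pi_norm_le_iff_of_nonneg ht0.le).2 hx
    exact (h x (h3.trans (ht.le.trans (min_le_left _ _)))).trans (mul_le_mul (le_abs_self K)
      (pow_le_pow_left₀ (norm_nonneg _) h3 _) (by positivity) (abs_nonneg K))) d
  have h3 := mul_le_mul_of_nonneg_left (pow_le_pow_of_le_one ht0.le (M.norm_lt_one t).le hd)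
    (abs_nonneg K)
  rw [dmp_prod] at h2
  have h4 := h2.trans h3
  rw [pow_succ', ← mul_assoc] at h4
  have h5 := le_of_mul_le_mul_right h4 (by positivity)
  have h6 := (lt_div_iff₀ (by positivity)).1 (ht.trans_le (min_le_right _ _))
  linarith

theorem maxP1 (ϖ : M C) (f : PowerSeries (O C)) {B : ℝ}
    (h : ∀ t : M C, ‖t‖ ≤ ‖ϖ‖ → ‖ev1 t f‖ ≤ B) (i : ℕ) :
    ‖PowerSeries.coeff i f‖ * ‖ϖ‖ ^ i ≤ B := by
  have h1 := maxP (fun _ : Unit => ϖ) f (fun x hx => h (x ()) (hx ())) (Finsupp.single () i)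
  rwa [dmp_prod, Finsupp.degree_single] at h1

theorem maxP1_open (f : PowerSeries (O C)) {B : ℝ} (h : ∀ t : M C, ‖ev1 t f‖ ≤ B) (i : ℕ) :
    ‖PowerSeries.coeff i f‖ ≤ B := by
  exact maxP_open (σ := Unit) f (fun x => h (x ())) (Finsupp.single () i)

theorem ident1_eq {f g : PowerSeries (O C)} (h : ∀ t : M C, ev1 t f = ev1 t g) : f = g := by
  exact ident_eq (σ := Unit) fun x => h (x ())

theorem ord1_of_growth (f : PowerSeries (O C)) {j : ℕ} {K r : ℝ} (hr : 0 < r)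
    (h : ∀ t : M C, ‖t‖ ≤ r → ‖ev1 t f‖ ≤ K * ‖t‖ ^ j) (i : ℕ) (hi : i < j) :
    PowerSeries.coeff i f = 0 := by
  refine ord_of_growth (σ := Unit) f (j := j) (K := K) hr (fun x hx => ?_) (Finsupp.single () i)
    (by rwa [Finsupp.degree_single])
  have e : ‖x‖ = ‖x ()‖ := pi_norm_const (ι := Unit) (x ())
  rw [e] at hx ⊢
  exact h (x ()) hx

/-- Schwarz type estimate. -/
theorem An.lipschitz {φ : (σ → M C) → O C} (hφ : An φ) {B : ℝ} (hB : ∀ x, ‖φ x‖ ≤ B)
    (x y : σ → M C) : ‖φ x - φ y‖ ≤ B * ‖x - y‖ := by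
  classical
  obtain ⟨P, hP⟩ := hφ
  have h0 : 0 ≤ B := (norm_nonneg _).trans (hB 0)
  have h1 := maxP_open (shift y P) fun δ => by rw [ev_shift, ← hP]; exact hB _
  have h2 := norm_ev_le_ord (x - y) (shift y P - MvPowerSeries.C (constantCoeff (shift y P))) h0
    (norm_nonneg _) (M.pi_norm_lt_one _).le (norm_le_pi_norm (x - y)) (j := 1) (fun d hd => by
      obtain rfl : d = 0 := by simpa [Finsupp.degree_eq_zero_iff] using hd
      simp) fun d => by
      rw [map_sub, coeff_C]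
      split_ifs with hd
      · simpa [hd] using h0
      · rw [sub_zero]
        exact h1 d
  rwa [map_sub, ev_C, ← ev_zero, ev_shift, ev_shift, add_zero, add_sub_cancel, ← hP, ← hP,
    pow_one] at h2

theorem norm_coeff_shift_sub (x : σ → M C) (f : MvPowerSeries σ (O C)) (d : σ →₀ ℕ) :
    ‖coeff d (shift x f) - coeff d f‖ ≤ ‖x‖ := by
  rw [← map_sub]
  refine maxP_open _ (fun δ => ?_) d
  have h := norm_ev_sub_ev (x + δ) δ f
  rwa [add_sub_cancel_right, ← ev_shift, ← map_sub] at h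

theorem shift_ne_zero (x : σ → M C) {f : MvPowerSeries σ (O C)} (hf : f ≠ 0) :
    shift x f ≠ 0 := by
  refine fun h => hf (ident f fun y => ?_)
  rw [← add_sub_cancel x y, ← ev_shift, h, map_zero]

/-- Mixed coefficients of `f (a + b) - f a - f b`. -/
theorem maxP_binom (ϖ₁ ϖ₂ : M C) (f : PowerSeries (O C)) {B : ℝ}
    (h : ∀ a b : M C, ‖a‖ ≤ ‖ϖ₁‖ → ‖b‖ ≤ ‖ϖ₂‖ → ‖ev1 (a + b) f - ev1 a f - ev1 b f‖ ≤ B)
    {i j : ℕ} (hi : 0 < i) (hj : 0 < j) :
    ‖((i + j).choose i : O C) * PowerSeries.coeff (i + j) f‖ * (‖ϖ₁‖ ^ i * ‖ϖ₂‖ ^ j) ≤ B := by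
  have h1 := maxP ![ϖ₁, ϖ₂] (f.subst (X 0 + X 1 : MvPowerSeries (Fin 2) (O C)) -
      f.subst (X 0 : MvPowerSeries (Fin 2) (O C)) - f.subst (X 1 : MvPowerSeries (Fin 2) (O C)))
    (B := B) (fun x hx => by
      rw [map_sub, map_sub, ev_subst1 x _ (by simp) (x 0 + x 1) (by simp),
        ev_subst1 x _ (by simp) (x 0) (by simp), ev_subst1 x _ (by simp) (x 1) (by simp)]
      exact h _ _ (hx 0) (hx 1)) (Finsupp.equivFunOnFinite.symm ![i, j])
  rw [map_sub, map_sub, PowerSeries.coeff_subst_X_zero_add_X_one, PowerSeries.coeff_subst_single,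
    PowerSeries.coeff_subst_single, if_neg fun e => hj.ne' (by simpa using DFunLike.congr_fun e 1),
    if_neg fun e => hi.ne' (by simpa using DFunLike.congr_fun e 0), sub_zero, sub_zero,
    Finsupp.prod_fintype _ _ fun _ => pow_zero _, Fin.prod_univ_two] at h1
  exact h1

section charp
variable {p : ℕ} [Fact p.Prime] [CharP C p]

instance : CharP (O C) p := CharP.subring C p (O C)

lemma norm_natCast_eq_one {u : ℕ} (hu : ¬ p ∣ u) : ‖(u : O C)‖ = 1 := by
  exact O.isUnit_iff.1 ((CharP.isUnit_natCast_iff Fact.out).2 hu)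

/-- If `d` is not a power of `p`, some middle binomial coefficient is prime to `p`. -/
lemma exists_choose_not_dvd {d : ℕ} (hd0 : d ≠ 0) (hd : ¬ ∃ i, d = p ^ i) :
    ∃ i j, 0 < i ∧ 0 < j ∧ i + j = d ∧ ¬ p ∣ (i + j).choose i := by
  by_contra h
  push Not at h
  refine hd ⟨_, Choose.eq_pow_multiplicity_of_choose_modEq_zero_nat (p := p)
    (Nat.pos_of_ne_zero hd0) fun i hi => ?_⟩
  rw [Finset.mem_Icc] at hi
  have e : i + (d - i) = d := by omega
  exact Nat.modEq_zero_iff_dvd.2 (e ▸ h i (d - i) (by omega) (by omega) e)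

/-- If `p ^ s` does not divide `d`, some binomial coefficient `d.choose j`, `0 < j < p ^ s`, is
prime to `p`. -/
lemma exists_choose_not_dvd' {d s : ℕ} (hd : ¬ p ^ s ∣ d) :
    ∃ j, 0 < j ∧ j < p ^ s ∧ j ≤ d ∧ ¬ p ∣ d.choose j := by
  have hp : p.Prime := Fact.out
  obtain ⟨v, e, he, rfl⟩ := Nat.exists_eq_pow_mul_and_not_dvd (n := d) (by rintro rfl; simp at hd) p
    hp.ne_one
  refine ⟨p ^ v, pow_pos hp.pos v, Nat.pow_lt_pow_right hp.one_lt (not_le.1 fun h =>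
    hd ((pow_dvd_pow p h).mul_right e)), Nat.le_mul_of_pos_right _
    (Nat.pos_of_ne_zero (by rintro rfl; simp at he)), fun h => he ?_⟩
  have h1 := Choose.choose_pow_mul_pow_mul_modEq_choose_nat (p := p) (k := v) (a := e) (b := 1)
  rw [mul_one, Nat.choose_one_right] at h1
  exact (h1.dvd_iff dvd_rfl).1 h

/-- Primitive roots of unity of order prime to `p`. -/
lemma exists_primitiveRoot_O {l : ℕ} (hl : ¬ p ∣ l) : ∃ ζ : O C, IsPrimitiveRoot ζ l := by
  have : NeZero (l : C) := ⟨mt (CharP.cast_eq_zero_iff C p l).1 hl⟩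
  obtain ⟨ζ, hζ⟩ := HasEnoughRootsOfUnity.exists_primitiveRoot C l
  have h1 : ‖ζ‖ ≤ 1 := (pow_le_one_iff_of_nonneg (norm_nonneg ζ) (n := l)
    (by rintro rfl; simp at hl)).1 (by rw [← norm_pow, hζ.pow_eq_one, norm_one])
  exact ⟨⟨ζ, h1⟩, IsPrimitiveRoot.of_map_of_injective (f := (O C).subtype) hζ Subtype.val_injective⟩

end charp

end Vale.Agent.P217.D
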