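import Mathlib

/-!
# P217: the Moore determinant, normed version
-/

namespace Vale.Agent.P217.D

open Finset

variable {C : Type*} [NontriviallyNormedField C] [IsUltrametricDist C]
variable {p : ℕ} [Fact p.Prime] [CharP C p]

theorem moore_prod {K : Type*} [Field K] [CharP K p] (w : K) :
    w ^ p - w = ∏ a : ZMod p, (w - (a.val : K)) := by
  have hp : 1 < p := (Fact.out : p.Prime).one_lt
  have h1 : (Polynomial.X ^ p - Polynomial.X : Polynomial (ZMod p)).Monic :=
    Polynomial.monic_X_pow_sub (by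
      rw [Polynomial.degree_X]
      exact_mod_cast hp)
  have h2 := FiniteField.roots_X_pow_card_sub_X (ZMod p)
  rw [ZMod.card] at h2
  have h3 := Polynomial.prod_multiset_X_sub_C_of_monic_of_roots_card_eq h1 (by
    rw [h2, FiniteField.X_pow_card_sub_X_natDegree_eq _ hp, ← Finset.card_def, Finset.card_univ,
      ZMod.card])
  rw [h2] at h3
  have h4 := congrArg (Polynomial.eval₂RingHom (ZMod.castHom (dvd_refl p) K) w) h3
  rw [← Finset.prod_eq_multiset_prod, map_prod] at h4
  simp only [Polynomial.coe_eval₂RingHom, Polynomial.eval₂_sub, Polynomial.eval₂_X,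
    Polynomial.eval₂_C, Polynomial.eval₂_X_pow, ZMod.castHom_apply] at h4
  rw [← h4]
  simp only [ZMod.natCast_val]

theorem moore_ge {w : C} (h : ∀ i : ℕ, 1 ≤ ‖(i : C) + w‖) : 1 ≤ ‖w ^ p - w‖ := by
  rw [moore_prod (p := p), norm_prod]
  refine Finset.prod_induction _ (1 ≤ ·) (fun a b ha hb => one_le_mul_of_one_le_of_one_le ha hb)
    le_rfl fun a _ => ?_
  have h1 := h (p - a.val)
  rwa [Nat.cast_sub (ZMod.val_lt a).le, CharP.cast_eq_zero C p, zero_sub, neg_add_eq_sub] at h1

omit [Fact p.Prime] [CharP C p] in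
theorem moore_sub_lt {a b : C} {A : ℝ} (ha : ‖a‖ < A) (hb : ‖b‖ < A) : ‖a - b‖ < A := by
  rw [sub_eq_add_neg]
  exact (IsUltrametricDist.norm_add_le_max _ _).trans_lt (max_lt ha (by rwa [norm_neg]))

/-- Moore determinant, normed version. -/
theorem moore {ι : Type*} (S : Finset ι) (y c : ι → C) {ρ A : ℝ} (hρ : 0 < ρ)
    (hy : ∀ l ∈ S, ‖y l‖ = ρ)
    (horth : ∀ lam : ι → ℕ, (∃ l ∈ S, ¬ p ∣ lam l) → ρ ≤ ‖∑ l ∈ S, (lam l : C) * y l‖)
    (hc : ∀ l ∈ S, ‖c l‖ ≤ A)
    (hs : ∀ u < S.card, ‖∑ l ∈ S, c l * y l ^ p ^ u‖ < A * ρ ^ p ^ u) :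
    ∀ l ∈ S, ‖c l‖ < A := by
  classical
  induction S using Finset.induction_on generalizing y ρ with
  | empty => simp
  | insert a T ha ih =>
    have hya : ‖y a‖ = ρ := hy a (mem_insert_self _ _)
    have hya0 : y a ≠ 0 := by
      rw [← norm_pos_iff, hya]
      exact hρ
    obtain ⟨z, hz⟩ : ∃ z : ι → C, ∀ l, y l = y a * z l :=
      ⟨fun l => y l / y a, fun l => (mul_div_cancel₀ _ hya0).symm⟩
    have hza : z a = 1 := (mul_eq_left₀ hya0).1 (hz a).symm
    have hzn : ∀ l ∈ T, ‖z l‖ = 1 := fun l hl => by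
      have h1 := hy l (mem_insert_of_mem hl)
      rw [hz l, norm_mul, hya] at h1
      exact (mul_eq_left₀ hρ.ne').1 h1
    have hE : ∀ u < T.card + 1, ‖c a + ∑ l ∈ T, c l * z l ^ p ^ u‖ < A := fun u hu => by
      have h1 := hs u (by rwa [card_insert_of_notMem ha])
      have h2 : ∑ l ∈ insert a T, c l * y l ^ p ^ u =
          (c a + ∑ l ∈ T, c l * z l ^ p ^ u) * y a ^ p ^ u := by
        rw [sum_insert ha, add_mul, sum_mul]
        congr 1
        refine sum_congr rfl fun l _ => ?_
        rw [hz l, mul_pow]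
        ring
      rw [h2, norm_mul, norm_pow, hya] at h1
      exact lt_of_mul_lt_mul_right h1 (by positivity)
    have hO : ∀ lam : ι → ℕ, (∃ l ∈ T, ¬ p ∣ lam l) →
        1 ≤ ‖∑ l ∈ T, (lam l : C) * (z l ^ p - z l)‖ := by
      rintro lam ⟨l₀, hl₀, hl₁⟩
      have h1 : ∑ l ∈ T, (lam l : C) * (z l ^ p - z l) =
          (∑ l ∈ T, (lam l : C) * z l) ^ p - ∑ l ∈ T, (lam l : C) * z l := by
        rw [sum_pow_char, ← sum_sub_distrib]
        refine sum_congr rfl fun l _ => ?_
        rw [mul_pow, mul_sub]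
        congr 2
        exact (map_natCast (frobenius C p) (lam l)).symm
      rw [h1]
      refine moore_ge fun i => ?_
      have hne : ∀ l ∈ T, Function.update lam a i l = lam l := fun l hl =>
        Function.update_of_ne (ne_of_mem_of_not_mem hl ha) _ _
      have h2 := horth (Function.update lam a i) ⟨l₀, mem_insert_of_mem hl₀, by
        rwa [hne l₀ hl₀]⟩
      have h3 : ∑ l ∈ insert a T, (Function.update lam a i l : C) * y l =
          ((i : C) + ∑ l ∈ T, (lam l : C) * z l) * y a := by
        rw [sum_insert ha, add_mul, sum_mul, Function.update_self]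
        congr 1
        refine sum_congr rfl fun l hl => ?_
        rw [hne l hl, hz l]
        ring
      rw [h3, norm_mul, hya] at h2
      exact (le_mul_iff_one_le_left hρ).1 h2
    have hT := ih (fun l => z l ^ p - z l) one_pos (fun l hl => ?_) hO
      (fun l hl => hc l (mem_insert_of_mem hl)) fun u hu => ?_
    · intro l hl
      rcases mem_insert.1 hl with rfl | hl
      · have h1 := hE 0 (Nat.succ_pos _)
        have hA : 0 < A := (norm_nonneg _).trans_lt h1
        have h2 : ‖∑ l ∈ T, c l * z l ^ p ^ 0‖ < A := by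
          refine Finset.sum_induction _ (‖·‖ < A) (fun a b ha hb =>
            (IsUltrametricDist.norm_add_le_max _ _).trans_lt (max_lt ha hb)) (by simpa using hA)
            fun l hl => ?_
          rw [norm_mul, norm_pow, hzn l hl, one_pow, mul_one]
          exact hT l hl
        simpa using moore_sub_lt h1 h2
      · exact hT l hl
    · refine le_antisymm ?_ ?_
      · rw [sub_eq_add_neg]
        refine (IsUltrametricDist.norm_add_le_max _ _).trans (max_le ?_ ?_)
        · rw [norm_pow, hzn l hl, one_pow]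
        · rw [norm_neg, hzn l hl]
      · have h1 := hO (Pi.single l 1) ⟨l, hl, by
          rw [Pi.single_eq_same, Nat.dvd_one]
          exact (Fact.out : p.Prime).ne_one⟩
        rwa [sum_eq_single_of_mem l hl fun b _ hb => by simp [Pi.single_eq_of_ne hb],
          Pi.single_eq_same, Nat.cast_one, one_mul] at h1
    · have h1 := moore_sub_lt (hE (u + 1) (by omega)) (hE u (by omega))
      rw [one_pow, mul_one]
      convert h1 using 2
      rw [add_sub_add_left_eq_sub, ← sum_sub_distrib]
      refine sum_congr rfl fun l _ => ?_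
      rw [sub_pow_char_pow, ← pow_mul, ← pow_succ', mul_sub]

end Vale.Agent.P217.D
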