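import Vale.Agent.P217.DHeight
import Vale.Agent.P217.DZero

/-!
# P217: families of formal group laws, first order deformations of the `p`-series
-/

set_option linter.unusedSectionVars false

noncomputable section

namespace Vale.Agent.P217.D

variable {C : Type} [NontriviallyNormedField C] [IsUltrametricDist C] [CompleteSpace C]
  [IsAlgClosed C] {p : ℕ} [Fact p.Prime] [CharP C p]

open PowerSeries

variable {m : ℕ}

/-- The fibre of a family at a point of the open polydisc. -/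
abbrev fib (𝔽 : FormalGroup (MvPowerSeries (Fin m) (O C))) (x : Fin m → M C) :
    FormalGroup (O C) := 𝔽.map (ev x).toRingHom

instance (𝔽 : FormalGroup (MvPowerSeries (Fin m) (O C))) [h : 𝔽.IsComm] (x : Fin m → M C) :
    (fib 𝔽 x).IsComm := isComm_map h _

/-- Derivative of a family of series in the direction `l` at the point `x`. -/
def dser (K : PowerSeries (MvPowerSeries (Fin m) (O C))) (x : Fin m → M C) (l : Fin m) :
    PowerSeries (O C) :=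
  PowerSeries.mk fun j => MvPowerSeries.coeff (Finsupp.single l 1) (shift x (coeff j K))

lemma norm_ev1_map_sub (K : PowerSeries (MvPowerSeries (Fin m) (O C))) (x x' : Fin m → M C)
    (t : M C) : ‖ev1 t (PowerSeries.map (ev x).toRingHom K) -
      ev1 t (PowerSeries.map (ev x').toRingHom K)‖ ≤ ‖x - x'‖ := by
  rw [← map_sub]
  refine norm_ev1_le_of_coeff _ _ fun i => ?_
  rw [map_sub, coeff_map, coeff_map]
  exact norm_ev_sub_ev x x' _

lemma dnd_sum (c : Fin m → O C) (D : Fin m → PowerSeries (O C)) (t : M C) :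
    ev1 t (∑ l, PowerSeries.C (c l) * D l) = ∑ l, c l * ev1 t (D l) := by
  simp only [map_sum, map_mul, ev1_C]

lemma dnd_coeff (c : Fin m → O C) (K : PowerSeries (MvPowerSeries (Fin m) (O C)))
    (x : Fin m → M C) (i : ℕ) : coeff i (∑ l, PowerSeries.C (c l) * dser K x l)
      = ∑ l, c l * MvPowerSeries.coeff (Finsupp.single l 1) (shift x (coeff i K)) := by
  simp only [map_sum, coeff_C_mul, dser, coeff_mk]

lemma dnd_one {a b : O C} (h : ‖a - b‖ < 1) (hb : ‖b‖ = 1) : ‖a‖ = 1 := by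
  refine le_antisymm (O.norm_le_one a) (not_lt.1 fun h1 => ?_)
  have h2 := norm_sub_le_max a (a - b)
  rw [sub_sub_cancel, hb] at h2
  exact absurd h2 (not_le.2 (max_lt h1 h))

lemma dnd_shift_zero (x : Fin m → M C) : shift x (0 : MvPowerSeries (Fin m) (O C)) = 0 :=
  ident _ fun δ => by rw [ev_shift, map_zero]

lemma taylor_dser (K : PowerSeries (MvPowerSeries (Fin m) (O C))) (x δ : Fin m → M C) (t : M C) :
    ‖ev1 t (PowerSeries.map (ev (x + δ)).toRingHom K) -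
      ev1 t (PowerSeries.map (ev x).toRingHom K) - ∑ l, ev1 t (dser K x l) * δ l‖ ≤ ‖δ‖ ^ 2 := by
  simp only [mul_comm (ev1 t _)]
  rw [← dnd_sum, ← map_sub, ← map_sub]
  refine norm_ev1_le_of_coeff _ _ fun i => ?_
  rw [map_sub, map_sub, coeff_map, coeff_map, dnd_coeff]
  simp only [mul_comm (δ _ : O C)]
  exact taylor2 x δ _

variable {𝔽 : FormalGroup (MvPowerSeries (Fin m) (O C))} [𝔽.IsComm] {h : ℕ}

lemma fib_close (x x' : Fin m → M C) (d : Fin 2 →₀ ℕ) :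
    ‖MvPowerSeries.coeff d (fib 𝔽 x).toPowerSeries -
      MvPowerSeries.coeff d (fib 𝔽 x').toPowerSeries‖ ≤ ‖x - x'‖ :=
  norm_ev_sub_ev x x' _

lemma fib_nsmul_v (x : Fin m → M C) (j : ℕ) (a : Pt (fib 𝔽 x)) :
    (j • a).v = ev1 a.val (PowerSeries.map (ev x).toRingHom (mulSeries 𝔽 j)) := by
  rw [Pt.nsmul_v, map_mulSeries]

lemma fib_low (hlow : ∀ j < p ^ h, coeff j (mulSeries 𝔽 p) = 0) (x : Fin m → M C) :
    ∀ j < p ^ h, coeff j (mulSeries (fib 𝔽 x) p) = 0 := fun j hj => by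
  rw [← map_mulSeries, coeff_map, hlow j hj, map_zero]

lemma coeff_mulSeries_fam_eq_zero (hlow : ∀ j < p ^ h, coeff j (mulSeries 𝔽 p) = 0) (k i : ℕ)
    (hi : ¬ (p ^ h) ^ k ∣ i) : coeff i (mulSeries 𝔽 (p ^ k)) = 0 := by
  refine ident _ fun x => ?_
  have := coeff_mulSeries_pow_eq_zero (fib_low hlow x) k i hi
  rwa [← map_mulSeries, coeff_map] at this

theorem dser_add (hh : 1 ≤ h) (hlow : ∀ j < p ^ h, coeff j (mulSeries 𝔽 p) = 0)
    (x : Fin m → M C) (a b : Pt (fib 𝔽 x)) (ha : p • a = 0) (hb : p • b = 0) (l : Fin m) :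
    ev1 (a + b).val (dser (mulSeries 𝔽 p) x l) =
      ev1 a.val (dser (mulSeries 𝔽 p) x l) + ev1 b.val (dser (mulSeries 𝔽 p) x l) := by
  by_contra hn
  have h0 := norm_pos_iff.2 (sub_ne_zero.2 hn)
  refine dh_small (C := C) (div_pos h0 (by norm_num : (0 : ℝ) < 5)) one_pos one_lt_two
    fun τ _ => ?_
  obtain ⟨δ, hδ⟩ : ∃ δ : Fin m → M C, δ = Pi.single l τ := ⟨_, rfl⟩
  have n1 : ‖δ‖ = ‖τ‖ := hδ ▸ Pi.norm_single (G := fun _ : Fin m => M C) τ
  have n2 : ‖x + δ - x‖ = ‖τ‖ := by rw [add_sub_cancel_left, n1]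
  have k1 : ∀ t : Pt (fib 𝔽 x), p • t = 0 →
      ‖(p • (⟨t.val⟩ : Pt (fib 𝔽 (x + δ)))).v‖ ≤ ‖τ‖ ∧ ‖(p • (⟨t.val⟩ : Pt (fib 𝔽 (x + δ)))).v
        - ev1 t.val (dser (mulSeries 𝔽 p) x l) * τ‖ ≤ ‖τ‖ ^ 2 := fun t ht => by
    have e0 : ev1 t.val (PowerSeries.map (ev x).toRingHom (mulSeries 𝔽 p)) = 0 := by
      rw [← fib_nsmul_v, ht, Pt.zero_v]
    have e1 := norm_ev1_map_sub (mulSeries 𝔽 p) (x + δ) x t.val
    have e2 := taylor_dser (mulSeries 𝔽 p) x δ t.val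
    rw [e0, sub_zero] at e1 e2
    rw [Finset.sum_eq_single l (fun l' _ hl => by rw [hδ, Pi.single_eq_of_ne hl]; simp)
      (by simp), n1] at e2
    rw [fib_nsmul_v]
    refine ⟨e1.trans n2.le, ?_⟩
    have e3 : δ l = τ := by rw [hδ, Pi.single_eq_same]
    rwa [e3] at e2
  obtain ⟨a1, a2⟩ := k1 a ha
  obtain ⟨b1, b2⟩ := k1 b hb
  obtain ⟨-, c2⟩ := k1 (a + b) (by rw [smul_add, ha, hb, add_zero])
  have k2 := (Pt.norm_add_sub (p • (⟨a.val⟩ : Pt (fib 𝔽 (x + δ)))) (p • ⟨b.val⟩)).trans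
    (mul_le_mul a1 b1 (norm_nonneg _) (norm_nonneg _))
  have k3 := norm_pow_nsmul_sub_le (fib_low hlow (x + δ)) 1
    ((⟨a.val⟩ : Pt (fib 𝔽 (x + δ))) + ⟨b.val⟩) ⟨(a + b).val⟩
  have k4 := (close_add (fib_close (𝔽 := 𝔽) (x + δ) x) a.val b.val).trans n2.le
  have hQ : 2 ≤ p ^ h := (Fact.out : p.Prime).two_le.trans (Nat.le_self_pow (by omega) p)
  rw [pow_one, pow_one, smul_add] at k3
  have k5 := k3.trans ((pow_le_pow_left₀ (norm_nonneg _) k4 _).trans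
    (pow_le_pow_of_le_one (norm_nonneg _) (M.norm_lt_one τ).le hQ))
  rw [← sq] at k2
  generalize (p • (⟨a.val⟩ : Pt (fib 𝔽 (x + δ))) + p • (⟨b.val⟩ : Pt (fib 𝔽 (x + δ)))).v = S
    at k2 k5
  generalize (p • (⟨a.val⟩ : Pt (fib 𝔽 (x + δ)))).v = A at a2 k2
  generalize (p • (⟨b.val⟩ : Pt (fib 𝔽 (x + δ)))).v = B at b2 k2
  generalize (p • (⟨(a + b).val⟩ : Pt (fib 𝔽 (x + δ)))).v = T at c2 k5
  generalize ev1 (a + b).val (dser (mulSeries 𝔽 p) x l) = d₃ at c2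
  generalize ev1 a.val (dser (mulSeries 𝔽 p) x l) = d₁ at a2
  generalize ev1 b.val (dser (mulSeries 𝔽 p) x l) = d₂ at b2
  have e : (d₃ - (d₁ + d₂)) * τ
      = (A - d₁ * τ) + (B - d₂ * τ) + (S - A - B) - (S - T) - (T - d₃ * τ) := by ring
  have k6 : ‖d₃ - (d₁ + d₂)‖ * ‖τ‖ ≤ ‖τ‖ ^ 2 + ‖τ‖ ^ 2 + ‖τ‖ ^ 2 + ‖τ‖ ^ 2 + ‖τ‖ ^ 2 := by
    refine (norm_mul _ (τ : O C)).symm.trans_le ?_
    rw [e]
    exact norm_sub_le_of_le (norm_sub_le_of_le (norm_add_le_of_le (norm_add_le_of_le a2 b2) k2)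
      k5) c2
  rw [pow_one]
  linarith

theorem dser_span (hh : 1 ≤ h) (hlow : ∀ j < p ^ h, coeff j (mulSeries 𝔽 p) = 0)
    (hsp : mulSeries (fib 𝔽 0) p = X ^ p ^ (h + m))
    (hUC : ∀ c : Fin m → O C, (∃ l, ‖c l‖ = 1) → ∃ j < p ^ (h + m),
      ‖∑ l, c l * MvPowerSeries.coeff (Finsupp.single l 1) (coeff j (mulSeries 𝔽 p))‖ = 1)
    (x : Fin m → M C) (ha : coeff (p ^ h) (mulSeries (fib 𝔽 x) p) ≠ 0) (c : Fin m → C)
    (hc : c ≠ 0) : ∃ t : Pt (fib 𝔽 x), p • t = 0 ∧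
      ∑ l, c l * (ev1 t.val (dser (mulSeries 𝔽 p) x l) : C) ≠ 0 := by
  obtain ⟨l₁, hl₁⟩ := Function.ne_iff.1 hc
  obtain ⟨l₀, -, hl₀⟩ := Finset.exists_max_image Finset.univ (fun l => ‖c l‖)
    ⟨l₁, Finset.mem_univ _⟩
  have h0 : 0 < ‖c l₀‖ := (norm_pos_iff.2 hl₁).trans_le (hl₀ l₁ (Finset.mem_univ _))
  have h0' : c l₀ ≠ 0 := norm_pos_iff.1 h0
  let c' : Fin m → O C := fun l => ⟨c l / c l₀, by
    rw [mem_O, norm_div]; exact (div_le_one h0).2 (hl₀ l (Finset.mem_univ _))⟩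
  obtain ⟨j, hj, h1⟩ := hUC c' ⟨l₀, by
    rw [← O.norm_coe]
    change ‖c l₀ / c l₀‖ = 1
    rw [div_self h0', norm_one]⟩
  have hp : p.Prime := Fact.out
  have hQ : p ^ h ≠ 0 := pow_ne_zero _ hp.ne_zero
  have hx := M.pi_norm_lt_one x
  have hK : ∀ i, ¬ p ^ h ∣ i → coeff i (mulSeries 𝔽 p) = 0 := fun i hi => by
    have := coeff_mulSeries_fam_eq_zero hlow 1 i (by rwa [pow_one])
    rwa [pow_one] at this
  have hK' : ∀ i, ¬ p ^ h ∣ i → coeff i (mulSeries (fib 𝔽 x) p) = 0 := fun i hi => by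
    rw [← map_mulSeries, coeff_map, hK i hi, map_zero]
  have hD : ∀ i, ¬ p ^ h ∣ i →
      coeff i (∑ l, PowerSeries.C (c' l) * dser (mulSeries 𝔽 p) x l) = 0 := fun i hi => by
    simp only [dnd_coeff, hK i hi, dnd_shift_zero, map_zero, mul_zero, Finset.sum_const_zero]
  obtain ⟨j', rfl⟩ : p ^ h ∣ j := by
    by_contra hn
    simp only [hK j hn, map_zero, mul_zero, Finset.sum_const_zero, norm_zero] at h1
    exact zero_ne_one h1
  have hV : ∀ i, ‖coeff i (contract (p ^ h) (mulSeries (fib 𝔽 x) p))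
      - (if i = p ^ m then 1 else 0)‖ < 1 := fun i => by
    have e1 := norm_ev_sub_ev x 0 (coeff (p ^ h * i) (mulSeries 𝔽 p))
    have e2 := congrArg (coeff (p ^ h * i)) hsp
    rw [← map_mulSeries, coeff_map, coeff_X_pow, pow_add] at e2
    simp only [mul_right_inj' hQ] at e2
    rw [coeff_contract, ← map_mulSeries, coeff_map, ← e2]
    rw [sub_zero] at e1
    exact e1.trans_lt hx
  obtain ⟨a, a1, a2⟩ := exists_root_not_root (contract (p ^ h) (mulSeries (fib 𝔽 x) p))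
    (contract (p ^ h) (∑ l, PowerSeries.C (c' l) * dser (mulSeries 𝔽 p) x l)) (p ^ m)
    (fun i hi => by simpa only [if_neg hi.ne, sub_zero] using hV i)
    (dnd_one (hV _) (by rw [if_pos rfl, norm_one]))
    ⟨j', lt_of_mul_lt_mul_left (by rwa [← pow_add]) (Nat.zero_le (p ^ h)), by
      refine dnd_one ?_ h1
      rw [coeff_contract, dnd_coeff, ← Finset.sum_sub_distrib]
      refine (IsUltrametricDist.norm_sum_le_of_forall_le_of_nonneg (norm_nonneg x)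
        fun l _ => ?_).trans_lt hx
      rw [← mul_sub, norm_mul]
      exact (mul_le_of_le_one_left (norm_nonneg _) (O.norm_le_one _)).trans
        (norm_coeff_shift_sub x _ _)⟩
    (contract_simple hh (fib_low hlow x) ha)
  obtain ⟨t, ht⟩ := exists_M_pow_eq a hQ
  rw [ev1_contract hQ _ hK' t a ht.symm] at a1
  rw [ev1_contract hQ _ hD t a ht.symm, dnd_sum] at a2
  refine ⟨⟨t⟩, Pt.ext_v (by rw [Pt.nsmul_v, a1, Pt.zero_v]), fun h2 => a2 (Subtype.ext ?_)⟩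
  have e : ((∑ l, c' l * ev1 t (dser (mulSeries 𝔽 p) x l) : O C) : C)
      = (∑ l, c l * (ev1 t (dser (mulSeries 𝔽 p) x l) : C)) / c l₀ := by
    push_cast
    rw [Finset.sum_div]
    exact Finset.sum_congr rfl fun l _ => div_mul_eq_mul_div _ _ _
  rw [e, h2, zero_div]
  rfl

end Vale.Agent.P217.D
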