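import Mathlib.RingTheory.AdicCompletion.Completeness
import Mathlib.RingTheory.AdicCompletion.RingHom
import Mathlib.RingTheory.MvPowerSeries.Substitution
import Mathlib.RingTheory.PowerSeries.Substitution

/-! P217: evaluation of power series in finitely many variables at points of the radical of an
ideal `I` of an `I`-adically complete ring.  No topology: a ring homomorphism out of a power series
ring is determined by its values on constants and variables. -/

namespace Vale.Agent.P217

open MvPowerSeries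

noncomputable section

variable {σ τ R A A' : Type*} [CommRing R] [CommRing A] [CommRing A']

/-- the family `a` lies in the radical of an ideal for which `A` is complete -/
def Good (a : σ → A) : Prop := ∃ I : Ideal A, IsAdicComplete I A ∧ ∀ i, a i ∈ I.radical

theorem Good.of_mem (I : Ideal A) [h : IsAdicComplete I A] {a : σ → A}
    (ha : ∀ i, a i ∈ I.radical) : Good a := ⟨I, h, ha⟩

theorem exists_sum_X_mul [Fintype σ] (k : ℕ) (f : MvPowerSeries σ R)
    (hf : ∀ d : σ →₀ ℕ, d.degree < k + 1 → coeff d f = 0) :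
    ∃ g : σ → MvPowerSeries σ R, (∀ i (d : σ →₀ ℕ), d.degree < k → coeff d (g i) = 0) ∧
      f = ∑ i, X i * g i := by
  classical
  have hp : ∀ d : σ →₀ ℕ, d ≠ 0 → ∃ i, d i ≠ 0 := by
    intro d hd; by_contra h; push Not at h; exact hd (Finsupp.ext h)
  choose pick hpick using hp
  let g : σ → MvPowerSeries σ R := fun i β =>
    if pick (β + Finsupp.single i 1) (by
      intro h; have := congrArg (fun d : σ →₀ ℕ => d i) h; simp at this) = i
    then coeff (β + Finsupp.single i 1) f else 0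
  have hg : ∀ i β, coeff β (g i) = if pick (β + Finsupp.single i 1) (by
      intro h; have := congrArg (fun d : σ →₀ ℕ => d i) h; simp at this) = i
    then coeff (β + Finsupp.single i 1) f else 0 := fun _ _ => rfl
  refine ⟨g, ?_, ?_⟩
  · intro i d hd
    rw [hg]
    split_ifs
    · apply hf; rw [map_add, Finsupp.degree_single]; omega
    · rfl
  · ext d
    rw [map_sum]
    by_cases hd : d = 0
    · subst hd
      rw [hf 0 (by simp)]
      exact (Finset.sum_eq_zero fun i _ => coeff_zero_X_mul _ _).symm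
    · have key : ∀ i, coeff d (X i * g i) = if pick d hd = i then coeff d f else 0 := by
        intro i
        rw [X_def, coeff_monomial_mul]
        by_cases hi : Finsupp.single i 1 ≤ d
        · rw [if_pos hi, one_mul, hg]
          have e : d - Finsupp.single i 1 + Finsupp.single i 1 = d := tsub_add_cancel_of_le hi
          simp only [e]
        · rw [if_neg hi, if_neg]
          rintro rfl
          apply hi
          rw [Finsupp.single_le_iff]
          exact Nat.one_le_iff_ne_zero.2 (hpick d hd)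
      simp only [key]
      simp

theorem mem_pow_span_X [Finite σ] (k : ℕ) (f : MvPowerSeries σ R)
    (hf : ∀ d : σ →₀ ℕ, d.degree < k → coeff d f = 0) :
    f ∈ (Ideal.span (Set.range (X : σ → MvPowerSeries σ R))) ^ k := by
  have := Fintype.ofFinite σ
  induction k generalizing f with
  | zero => simp
  | succ k ih =>
    obtain ⟨g, hg, rfl⟩ := exists_sum_X_mul k f hf
    refine Ideal.sum_mem _ fun i _ => ?_
    rw [pow_succ']
    exact Ideal.mul_mem_mul (Ideal.subset_span ⟨i, rfl⟩) (ih _ (hg i))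

theorem sub_truncTotal_mem [Finite σ] (k : ℕ) (f : MvPowerSeries σ R) :
    f - ((truncTotal k f : MvPolynomial σ R) : MvPowerSeries σ R)
      ∈ (Ideal.span (Set.range (X : σ → MvPowerSeries σ R))) ^ k := by
  apply mem_pow_span_X
  intro d hd
  rw [map_sub, MvPolynomial.coeff_coe, coeff_truncTotal _ hd, sub_self]

theorem hom_coe (ψ : MvPowerSeries σ R →+* A) (P : MvPolynomial σ R) :
    ψ (P : MvPowerSeries σ R) = MvPolynomial.eval₂ (ψ.comp C) (fun i => ψ (X i)) P := by
  have : ψ.comp (MvPolynomial.coeToMvPowerSeries.ringHom)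
      = MvPolynomial.eval₂Hom (ψ.comp C) (fun i => ψ (X i)) := by
    apply MvPolynomial.ringHom_ext
    · intro r; simp
    · intro i; simp
  exact congrArg (fun χ : MvPolynomial σ R →+* A => χ P) this

theorem exists_pow_span_le [Finite σ] {I : Ideal A} {a : σ → A} (ha : ∀ i, a i ∈ I.radical) :
    ∃ L : ℕ, (Ideal.span (Set.range a)) ^ L ≤ I := by
  apply Ideal.exists_pow_le_of_le_radical_of_fg
  · rw [Ideal.span_le]; rintro _ ⟨i, rfl⟩; exact ha i
  · exact ⟨(Set.finite_range a).toFinset, by simp⟩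

theorem hom_sub_trunc_mem [Finite σ] (ψ : MvPowerSeries σ R →+* A) (k : ℕ)
    (f : MvPowerSeries σ R) :
    ψ f - MvPolynomial.eval₂ (ψ.comp C) (fun i => ψ (X i)) (truncTotal k f)
      ∈ (Ideal.span (Set.range fun i => ψ (X i))) ^ k := by
  rw [← hom_coe, ← map_sub]
  have h := Ideal.mem_map_of_mem ψ (sub_truncTotal_mem k f)
  rw [Ideal.map_pow, Ideal.map_span, ← Set.range_comp] at h
  exact h

/-- two homomorphisms agreeing on constants and variables modulo a closed ideal -/
theorem hom_sub_mem [Finite σ] {ψ ψ' : MvPowerSeries σ R →+* A} (J J' : Ideal A)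
    (hC : ∀ r, ψ (C r) - ψ' (C r) ∈ J) (hX : ∀ i, ψ (X i) - ψ' (X i) ∈ J)
    (h1 : ∀ i, ψ (X i) ∈ J') (h2 : ∀ i, ψ' (X i) ∈ J') (k : ℕ) (f : MvPowerSeries σ R) :
    ψ f - ψ' f ∈ J ⊔ J' ^ k := by
  have e1 := hom_sub_trunc_mem ψ k f
  have e2 := hom_sub_trunc_mem ψ' k f
  have l1 : (Ideal.span (Set.range fun i => ψ (X i))) ^ k ≤ J' ^ k :=
    Ideal.pow_right_mono (by rw [Ideal.span_le]; rintro _ ⟨i, rfl⟩; exact h1 i) k
  have l2 : (Ideal.span (Set.range fun i => ψ' (X i))) ^ k ≤ J' ^ k :=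
    Ideal.pow_right_mono (by rw [Ideal.span_le]; rintro _ ⟨i, rfl⟩; exact h2 i) k
  have e3 : MvPolynomial.eval₂ (ψ.comp C) (fun i => ψ (X i)) (truncTotal k f)
      - MvPolynomial.eval₂ (ψ'.comp C) (fun i => ψ' (X i)) (truncTotal k f) ∈ J := by
    rw [← Ideal.Quotient.eq, MvPolynomial.eval₂_comp_left, MvPolynomial.eval₂_comp_left]
    congr 1
    · ext r; exact Ideal.Quotient.eq.2 (hC r)
    · funext i; exact Ideal.Quotient.eq.2 (hX i)
  have : ψ f - ψ' f = (MvPolynomial.eval₂ (ψ.comp C) (fun i => ψ (X i)) (truncTotal k f)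
      - MvPolynomial.eval₂ (ψ'.comp C) (fun i => ψ' (X i)) (truncTotal k f))
      + ((ψ f - MvPolynomial.eval₂ (ψ.comp C) (fun i => ψ (X i)) (truncTotal k f))
      - (ψ' f - MvPolynomial.eval₂ (ψ'.comp C) (fun i => ψ' (X i)) (truncTotal k f))) := by ring
  rw [this]
  exact Submodule.add_mem_sup e3 (Ideal.sub_mem _ (l1 e1) (l2 e2))

theorem eq_zero_of_mem_pow (I : Ideal A) [IsHausdorff I A] {x : A} (hx : ∀ n, x ∈ I ^ n) :
    x = 0 := by
  apply IsHausdorff.haus' (I := I)
  intro n
  rw [SModEq.zero, smul_eq_mul, Ideal.mul_top]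
  exact hx n

theorem hom_ext [Finite σ] {ψ ψ' : MvPowerSeries σ R →+* A} (hg : Good fun i => ψ (X i))
    (hC : ∀ r, ψ (C r) = ψ' (C r)) (hX : ∀ i, ψ (X i) = ψ' (X i)) : ψ = ψ' := by
  obtain ⟨I, hI, ha⟩ := hg
  obtain ⟨L, hL⟩ := exists_pow_span_le ha
  ext1 f
  rw [← sub_eq_zero]
  apply eq_zero_of_mem_pow I
  intro n
  have h := hom_sub_mem (ψ := ψ) (ψ' := ψ') ⊥ (Ideal.span (Set.range fun i => ψ (X i)))
    (fun r => by rw [hC, sub_self]; exact Ideal.zero_mem _)
    (fun i => by rw [hX, sub_self]; exact Ideal.zero_mem _)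
    (fun i => Ideal.subset_span ⟨i, rfl⟩)
    (fun i => by rw [← hX]; exact Ideal.subset_span ⟨i, rfl⟩) (L * n) f
  rw [bot_sup_eq, pow_mul] at h
  exact Ideal.pow_right_mono hL n h

theorem exists_ev [Finite σ] (φ : R →+* A) {a : σ → A} (hg : Good a) :
    ∃ ψ : MvPowerSeries σ R →+* A, (∀ r, ψ (C r) = φ r) ∧ ∀ i, ψ (X i) = a i := by
  obtain ⟨I, hI, ha⟩ := hg
  obtain ⟨L, hL⟩ := exists_pow_span_le ha
  let e : MvPolynomial σ R →+* A := MvPolynomial.eval₂Hom φ a
  have he : ∀ n, ∀ P ∈ (MvPolynomial.idealOfVars σ R) ^ (L * n), e P ∈ I ^ n := by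
    intro n P hP
    have h := Ideal.mem_map_of_mem e hP
    rw [Ideal.map_pow, Ideal.map_span, ← Set.range_comp, pow_mul] at h
    have e1 : (e ∘ MvPolynomial.X) = a := by funext i; simp [e]
    rw [e1] at h
    exact Ideal.pow_right_mono hL n h
  let q : (n : ℕ) → MvPolynomial σ R ⧸ (MvPolynomial.idealOfVars σ R) ^ (L * n) →+* A ⧸ I ^ n :=
    fun n => Ideal.Quotient.lift _ ((Ideal.Quotient.mk (I ^ n)).comp e) (fun P hP =>
      Ideal.Quotient.eq_zero_iff_mem.2 (he n P hP))
  let F : (n : ℕ) → MvPowerSeries σ R →+* A ⧸ I ^ n := fun n =>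
    (q n).comp (truncTotalAlgHom σ R (L * n)).toRingHom
  have hF : ∀ n f, F n f = Ideal.Quotient.mk (I ^ n) (e (truncTotal (L * n) f)) := fun _ _ => rfl
  have hc : ∀ {m n : ℕ} (hle : m ≤ n), (Ideal.Quotient.factorPow I hle).comp (F n) = F m := by
    intro m n hle
    ext1 f
    rw [RingHom.comp_apply, hF, hF, Ideal.Quotient.factorPow, Ideal.Quotient.factor_mk,
      Ideal.Quotient.eq, ← map_sub]
    exact he m _ (truncTotal_sub_truncTotal_mem_pow_idealOfVars (Nat.mul_le_mul_left L hle)
      le_rfl f)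
  have hP : ∀ P : MvPolynomial σ R, IsAdicComplete.liftRingHom I F hc (P : MvPowerSeries σ R)
      = e P := by
    intro P
    rw [← sub_eq_zero]
    apply eq_zero_of_mem_pow I
    intro n
    rw [← Ideal.Quotient.eq, IsAdicComplete.mk_liftRingHom, hF, Ideal.Quotient.eq, ← map_sub]
    apply he
    rw [MvPolynomial.mem_pow_idealOfVars_iff']
    intro x h
    rw [MvPolynomial.coeff_sub, sub_eq_zero, coeff_truncTotal _ h, MvPolynomial.coeff_coe]
  refine ⟨IsAdicComplete.liftRingHom I F hc, fun r => ?_, fun i => ?_⟩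
  · rw [← MvPolynomial.coe_C, hP]; simp [e]
  · rw [← MvPolynomial.coe_X, hP]; simp [e]

open Classical in
/-- evaluation at the point `a`, coefficients mapped by `φ` -/
def ev (φ : R →+* A) (a : σ → A) : MvPowerSeries σ R →+* A :=
  if h : ∃ ψ : MvPowerSeries σ R →+* A, (∀ r, ψ (C r) = φ r) ∧ ∀ i, ψ (X i) = a i
  then h.choose else φ.comp constantCoeff

theorem ev_C (φ : R →+* A) (a : σ → A) (r : R) : ev φ a (C r) = φ r := by
  unfold ev
  split_ifs with h
  · exact h.choose_spec.1 r
  · simp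

theorem ev_X [Finite σ] (φ : R →+* A) {a : σ → A} (hg : Good a) (i : σ) :
    ev φ a (X i) = a i := by
  unfold ev
  rw [dif_pos (exists_ev φ hg)]
  exact (exists_ev φ hg).choose_spec.2 i

theorem eq_ev [Finite σ] {φ : R →+* A} {a : σ → A} (hg : Good a) (ψ : MvPowerSeries σ R →+* A)
    (hC : ∀ r, ψ (C r) = φ r) (hX : ∀ i, ψ (X i) = a i) : ψ = ev φ a :=
  hom_ext (by simpa only [hX] using hg) (fun r => by rw [hC, ev_C])
    (fun i => by rw [hX, ev_X φ hg])

/-- naturality -/
theorem map_ev [Finite σ] (φ : R →+* A) {a : σ → A} (χ : A →+* A') (hg : Good a)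
    (hg' : Good fun i => χ (a i)) (f : MvPowerSeries σ R) :
    χ (ev φ a f) = ev (χ.comp φ) (fun i => χ (a i)) f := by
  have := eq_ev (φ := χ.comp φ) hg' (χ.comp (ev φ a)) (fun r => by simp [ev_C])
    (fun i => by simp [ev_X φ hg])
  exact congrArg (fun ψ : MvPowerSeries σ R →+* A' => ψ f) this

theorem ev_map [Finite σ] {R' : Type*} [CommRing R'] (ρ : R →+* R') (φ : R' →+* A) {a : σ → A}
    (hg : Good a) (f : MvPowerSeries σ R) : ev φ a (map ρ f) = ev (φ.comp ρ) a f := by
  have := eq_ev (φ := φ.comp ρ) hg ((ev φ a).comp (map ρ)) (fun r => by simp [ev_C])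
    (fun i => by simp [ev_X φ hg])
  exact congrArg (fun ψ : MvPowerSeries σ R →+* A => ψ f) this

theorem ev_sub_trunc_mem [Finite σ] (φ : R →+* A) {a : σ → A} (hg : Good a) (k : ℕ)
    (f : MvPowerSeries σ R) :
    ev φ a f - MvPolynomial.eval₂ φ a (truncTotal k f) ∈ (Ideal.span (Set.range a)) ^ k := by
  have h := hom_sub_trunc_mem (ev φ a) k f
  have e1 : (ev φ a).comp C = φ := by ext r; simp [ev_C]
  simpa only [e1, ev_X φ hg] using h

theorem ev_mem_pow [Finite σ] (φ : R →+* A) {a : σ → A} (hg : Good a) (k : ℕ)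
    (f : MvPowerSeries σ R) (hf : ∀ d : σ →₀ ℕ, d.degree < k → coeff d f = 0) :
    ev φ a f ∈ (Ideal.span (Set.range a)) ^ k := by
  have h := Ideal.mem_map_of_mem (ev φ a) (mem_pow_span_X k f hf)
  rw [Ideal.map_pow, Ideal.map_span, ← Set.range_comp] at h
  have e1 : (ev φ a ∘ X) = a := by funext i; exact ev_X φ hg i
  rwa [e1] at h

theorem ev_mem_span [Finite σ] (φ : R →+* A) {a : σ → A} (hg : Good a)
    (f : MvPowerSeries σ R) (hf : constantCoeff f = 0) :
    ev φ a f ∈ Ideal.span (Set.range a) := by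
  have := ev_mem_pow φ hg 1 f (fun d hd => by
    have : d = 0 := (Finsupp.degree_eq_zero_iff d).1 (by omega)
    subst this; exact hf)
  rwa [pow_one] at this

theorem good_of_constantCoeff [Finite τ] {a : σ → MvPowerSeries τ R}
    (ha : ∀ i, constantCoeff (a i) = 0) : Good a := by
  refine Good.of_mem (Ideal.span (Set.range X)) fun i => Ideal.le_radical ?_
  have := mem_pow_span_X 1 (a i) (fun d hd => by
    have : d = 0 := (Finsupp.degree_eq_zero_iff d).1 (by omega)
    subst this; exact ha i)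
  rwa [pow_one] at this

theorem subst_eq_ev [Finite σ] [Finite τ] {a : σ → MvPowerSeries τ R}
    (ha : ∀ i, constantCoeff (a i) = 0) (f : MvPowerSeries σ R) :
    subst a f = ev C a f := by
  have hs : HasSubst a := hasSubst_of_constantCoeff_zero ha
  have := eq_ev (φ := (C : R →+* MvPowerSeries τ R)) (good_of_constantCoeff ha)
    (substAlgHom (R := R) hs).toRingHom
    (fun r => by simp [coe_substAlgHom, subst_C]) (fun i => by simp [subst_X hs])
  rw [← this]
  simp [coe_substAlgHom]

theorem ev_X_self [Finite σ] (f : MvPowerSeries σ R) : ev C X f = f := by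
  have := eq_ev (φ := (C : R →+* MvPowerSeries σ R)) (a := X)
    (good_of_constantCoeff fun i => constantCoeff_X i) (RingHom.id _) (fun _ => rfl) (fun _ => rfl)
  rw [← this]; rfl

end

end Vale.Agent.P217
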