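import Vale.Agent.P217.Defs
import Vale.Agent.P217.Ev

/-! P217: algebra of a formal group law on power series without constant term. -/

namespace Vale.Agent.P217

open MvPowerSeries

noncomputable section

variable {σ τ R R' : Type*} [CommRing R] [CommRing R'] {F G : FormalGroup R}
  {a b c : MvPowerSeries σ R}

theorem hs1 (ha : constantCoeff a = 0) : PowerSeries.HasSubst a :=
  PowerSeries.HasSubst.of_constantCoeff_zero ha

theorem hs2 (ha : constantCoeff a = 0) (hb : constantCoeff b = 0) : HasSubst ![a, b] :=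
  hasSubst_of_constantCoeff_zero fun i => by fin_cases i <;> simpa

theorem c0_fadd (ha : constantCoeff a = 0) (hb : constantCoeff b = 0) :
    constantCoeff (fadd F a b) = 0 :=
  constantCoeff_subst_eq_zero (hs2 ha hb) (fun i => by fin_cases i <;> simpa) F.zero_constantCoeff

theorem c0_subst (ha : constantCoeff a = 0) {w : PowerSeries R}
    (hw : PowerSeries.constantCoeff w = 0) : constantCoeff (w.subst a) = 0 :=
  PowerSeries.constantCoeff_subst_eq_zero ha w hw

theorem fadd_assoc (ha : constantCoeff a = 0) (hb : constantCoeff b = 0)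
    (hc : constantCoeff c = 0) : fadd F (fadd F a b) c = fadd F a (fadd F b c) :=
  F.assoc' (hs1 ha) (hs1 hb) (hs1 hc)

theorem fadd_comm (hF : F.IsComm) (ha : constantCoeff a = 0) (hb : constantCoeff b = 0) :
    fadd F a b = fadd F b a := F.comm' (hs1 ha) (hs1 hb)

theorem fadd_zero (ha : constantCoeff a = 0) : fadd F a 0 = a := F.add_zero (hs1 ha)

theorem zero_fadd (ha : constantCoeff a = 0) : fadd F 0 a = a := F.zero_add (hs1 ha)

theorem fadd_X_X : fadd F (X 0) (X 1) = F.toPowerSeries := by
  have : (![X 0, X 1] : Fin 2 → MvPowerSeries (Fin 2) R) = X := by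
    funext i; fin_cases i <;> rfl
  rw [fadd, this, subst_self]; rfl

theorem map_fadd (ρ : R →+* R') (ha : constantCoeff a = 0) (hb : constantCoeff b = 0) :
    map ρ (fadd F a b) = fadd (F.map ρ) (map ρ a) (map ρ b) := by
  rw [fadd, map_subst (hs2 ha hb), fadd]
  congr 1
  funext i; fin_cases i <;> rfl

theorem subst_fadd {d : σ → MvPowerSeries τ R} (hd : HasSubst d) (ha : constantCoeff a = 0)
    (hb : constantCoeff b = 0) : subst d (fadd F a b) = fadd F (subst d a) (subst d b) := by
  rw [fadd, subst_comp_subst_apply (hs2 ha hb) hd, fadd]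
  congr 1
  funext i; fin_cases i <;> rfl

theorem psubst_fadd {u v : PowerSeries R} (ha : constantCoeff a = 0)
    (hu : PowerSeries.constantCoeff u = 0) (hv : PowerSeries.constantCoeff v = 0) :
    PowerSeries.subst a (fadd F u v : PowerSeries R) = fadd F (u.subst a) (v.subst a) :=
  subst_fadd (hs1 ha).const hu hv

theorem subst_psubst {d : σ → MvPowerSeries τ R} (hd : HasSubst d) (ha : constantCoeff a = 0)
    (w : PowerSeries R) : subst d (w.subst a) = w.subst (subst d a) := by
  rw [PowerSeries.subst, subst_comp_subst_apply (hs1 ha).const hd, PowerSeries.subst]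

theorem psubst_psubst {u : PowerSeries R} (ha : constantCoeff a = 0)
    (hu : PowerSeries.constantCoeff u = 0) (w : PowerSeries R) :
    PowerSeries.subst a (w.subst u) = w.subst (u.subst a) :=
  subst_psubst (hs1 ha).const hu w

theorem map_psubst (ρ : R →+* R') (ha : constantCoeff a = 0) (w : PowerSeries R) :
    map ρ (w.subst a) = (PowerSeries.map ρ w).subst (map ρ a) :=
  PowerSeries.map_subst (hs1 ha) w

theorem c0_map (ρ : R →+* R') (ha : constantCoeff a = 0) : constantCoeff (map ρ a) = 0 := by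
  rw [constantCoeff_map, ha, map_zero]

theorem c0_sumSeries {s : ℕ → PowerSeries R} (hs : ∀ i, PowerSeries.constantCoeff (s i) = 0)
    (j : ℕ) : PowerSeries.constantCoeff (sumSeries F s j) = 0 := by
  induction j with
  | zero => exact map_zero _
  | succ j ih => exact c0_fadd ih (hs j)

theorem c0_mulSeries (j : ℕ) : PowerSeries.constantCoeff (mulSeries F j) = 0 :=
  c0_sumSeries (fun _ => PowerSeries.constantCoeff_X) j

theorem map_sumSeries (ρ : R →+* R') {s : ℕ → PowerSeries R}
    (hs : ∀ i, PowerSeries.constantCoeff (s i) = 0) (j : ℕ) :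
    PowerSeries.map ρ (sumSeries F s j)
      = sumSeries (F.map ρ) (fun i => PowerSeries.map ρ (s i)) j := by
  induction j with
  | zero => exact map_zero _
  | succ j ih =>
    have := map_fadd (F := F) ρ (c0_sumSeries (F := F) hs j) (hs j)
    rw [sumSeries, sumSeries, ← ih]
    exact this

theorem map_mulSeries (ρ : R →+* R') (j : ℕ) :
    PowerSeries.map ρ (mulSeries F j) = mulSeries (F.map ρ) j := by
  rw [mulSeries, map_sumSeries ρ (fun _ => PowerSeries.constantCoeff_X)]
  simp only [PowerSeries.map_X, mulSeries]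

/-- `[j]_F(a)` -/
def nmul (F : FormalGroup R) (j : ℕ) (a : MvPowerSeries σ R) : MvPowerSeries σ R :=
  (mulSeries F j).subst a

theorem c0_nmul (j : ℕ) (ha : constantCoeff a = 0) : constantCoeff (nmul F j a) = 0 :=
  c0_subst ha (c0_mulSeries j)

theorem nmul_zero (ha : constantCoeff a = 0) : nmul F 0 a = 0 := by
  rw [nmul, ← PowerSeries.coe_substAlgHom (hs1 ha)]; exact map_zero _

theorem nmul_succ (j : ℕ) (ha : constantCoeff a = 0) :
    nmul F (j + 1) a = fadd F (nmul F j a) a := by
  have := psubst_fadd (F := F) ha (c0_mulSeries (F := F) j) PowerSeries.constantCoeff_X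
  rw [PowerSeries.subst_X (hs1 ha)] at this
  exact this

theorem nmul_X (j : ℕ) : nmul F j (PowerSeries.X : PowerSeries R) = mulSeries F j :=
  PowerSeries.X_subst _

theorem nmul_add (i j : ℕ) (ha : constantCoeff a = 0) :
    nmul F (i + j) a = fadd F (nmul F i a) (nmul F j a) := by
  induction j with
  | zero => rw [nmul_zero ha, fadd_zero (c0_nmul i ha)]; rfl
  | succ j ih =>
    rw [← add_assoc, nmul_succ _ ha, nmul_succ _ ha, ih,
      fadd_assoc (c0_nmul i ha) (c0_nmul j ha) ha]

theorem nmul_mul (i j : ℕ) (ha : constantCoeff a = 0) :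
    nmul F (i * j) a = nmul F i (nmul F j a) := by
  induction i with
  | zero => rw [zero_mul, nmul_zero ha, nmul_zero (c0_nmul j ha)]
  | succ i ih => rw [add_mul, one_mul, nmul_add _ _ ha, ih, nmul_succ _ (c0_nmul j ha)]

theorem nmul_fadd (hF : F.IsComm) (j : ℕ) (ha : constantCoeff a = 0) (hb : constantCoeff b = 0) :
    nmul F j (fadd F a b) = fadd F (nmul F j a) (nmul F j b) := by
  induction j with
  | zero => rw [nmul_zero ha, nmul_zero hb, nmul_zero (c0_fadd ha hb), fadd_zero (map_zero _)]
  | succ j ih =>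
    have h1 := c0_nmul (F := F) j ha
    have h2 := c0_nmul (F := F) j hb
    rw [nmul_succ _ (c0_fadd ha hb), nmul_succ _ ha, nmul_succ _ hb, ih,
      fadd_assoc h1 h2 (c0_fadd ha hb), fadd_assoc h1 ha (c0_fadd h2 hb),
      ← fadd_assoc h2 ha hb, fadd_comm hF h2 ha, fadd_assoc ha h2 hb]

theorem map_nmul (ρ : R →+* R') (j : ℕ) (ha : constantCoeff a = 0) :
    map ρ (nmul F j a) = nmul (F.map ρ) j (map ρ a) := by
  rw [nmul, map_psubst ρ ha, map_mulSeries, nmul]

theorem subst_nmul {d : σ → MvPowerSeries τ R} (hd : HasSubst d) (j : ℕ)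
    (ha : constantCoeff a = 0) : subst d (nmul F j a) = nmul F j (subst d a) :=
  subst_psubst hd ha _

theorem IsHom.fadd {w : PowerSeries R} (hw : IsHom F G w) (ha : constantCoeff a = 0)
    (hb : constantCoeff b = 0) : w.subst (fadd F a b) = fadd G (w.subst a) (w.subst b) := by
  have h := congrArg (subst ![a, b]) hw.2
  have x0 : constantCoeff (X 0 : MvPowerSeries (Fin 2) R) = 0 := constantCoeff_X _
  have x1 : constantCoeff (X 1 : MvPowerSeries (Fin 2) R) = 0 := constantCoeff_X _
  rw [subst_psubst (hs2 ha hb) F.zero_constantCoeff,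
    subst_fadd (hs2 ha hb) (c0_subst x0 hw.1) (c0_subst x1 hw.1), subst_psubst (hs2 ha hb) x0,
    subst_psubst (hs2 ha hb) x1, subst_X (hs2 ha hb), subst_X (hs2 ha hb)] at h
  exact h

theorem IsHom.nmul {w : PowerSeries R} (hw : IsHom F G w) (j : ℕ) (ha : constantCoeff a = 0) :
    w.subst (nmul F j a) = nmul G j (w.subst a) := by
  induction j with
  | zero =>
    rw [nmul_zero ha, nmul_zero (c0_subst ha hw.1)]
    exact PowerSeries.subst_zero_of_constantCoeff_zero hw.1
  | succ j ih =>
    rw [nmul_succ _ ha, hw.fadd (c0_nmul j ha) ha, ih, nmul_succ _ (c0_subst ha hw.1)]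

theorem IsHom.map {w : PowerSeries R} (hw : IsHom F G w) (ρ : R →+* R') :
    IsHom (F.map ρ) (G.map ρ) (PowerSeries.map ρ w) := by
  have x0 : constantCoeff (X 0 : MvPowerSeries (Fin 2) R) = 0 := constantCoeff_X _
  have x1 : constantCoeff (X 1 : MvPowerSeries (Fin 2) R) = 0 := constantCoeff_X _
  refine ⟨c0_map ρ hw.1, ?_⟩
  have h := congrArg (MvPowerSeries.map ρ) hw.2
  rw [map_psubst ρ F.zero_constantCoeff, map_fadd ρ (c0_subst x0 hw.1) (c0_subst x1 hw.1),
    map_psubst ρ x0, map_psubst ρ x1, map_X, map_X] at h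
  exact h

theorem IsHom.comp {H : FormalGroup R} {v w : PowerSeries R} (hv : IsHom F G v)
    (hw : IsHom G H w) : IsHom F H (w.subst v) := by
  have x0 : constantCoeff (X 0 : MvPowerSeries (Fin 2) R) = 0 := constantCoeff_X _
  have x1 : constantCoeff (X 1 : MvPowerSeries (Fin 2) R) = 0 := constantCoeff_X _
  refine ⟨c0_subst hv.1 hw.1, ?_⟩
  rw [psubst_psubst F.zero_constantCoeff hv.1, psubst_psubst x0 hv.1, psubst_psubst x1 hv.1,
    hv.2, hw.fadd (c0_subst x0 hv.1) (c0_subst x1 hv.1)]

theorem isHom_X : IsHom F F PowerSeries.X := by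
  refine ⟨PowerSeries.constantCoeff_X, ?_⟩
  rw [PowerSeries.subst_X (hs1 F.zero_constantCoeff), PowerSeries.subst_X (hs1 (constantCoeff_X _)),
    PowerSeries.subst_X (hs1 (constantCoeff_X _)), fadd_X_X]

theorem isHom_mulSeries (hF : F.IsComm) (j : ℕ) : IsHom F F (mulSeries F j) := by
  refine ⟨c0_mulSeries j, ?_⟩
  have := nmul_fadd hF j (constantCoeff_X (R := R) (0 : Fin 2)) (constantCoeff_X 1)
  rw [fadd_X_X] at this
  exact this

theorem map_map_fg {R'' : Type*} [CommRing R''] (ρ : R →+* R') (ρ' : R' →+* R'') :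
    (F.map ρ).map ρ' = F.map (ρ'.comp ρ) := by
  ext1
  simp only [FormalGroup.map_toPowerSeries, MvPowerSeries.map_comp]
  rfl

theorem isComm_map (hF : F.IsComm) (ρ : R →+* R') : (F.map ρ).IsComm := by
  constructor
  have := map_fadd (F := F) ρ (constantCoeff_X (R := R) (1 : Fin 2)) (constantCoeff_X 0)
  rw [fadd_comm hF (constantCoeff_X _) (constantCoeff_X _), fadd_X_X, map_X, map_X] at this
  exact this

end

end Vale.Agent.P217
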