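import Vale.Agent.P217.DMP
import Vale.Agent.P217.RFG

/-!
# P217: the group of points of an integral formal group law
-/

set_option linter.unusedSectionVars false

noncomputable section

namespace Vale.Agent.P217.D

open MvPowerSeries

variable {C : Type} [NontriviallyNormedField C] [IsUltrametricDist C] [CompleteSpace C]
  [IsAlgClosed C]

/-- Points of `G` in the open unit disc. -/
@[ext] structure Pt (G : FormalGroup (O C)) where
  val : M C

variable {G G' : FormalGroup (O C)}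

/-- The coordinate of a point. -/
abbrev Pt.v (a : Pt G) : O C := a.val

lemma Pt.ext_v {a b : Pt G} (h : a.v = b.v) : a = b := Pt.ext (Subtype.ext h)

lemma Pt.norm_lt_one (a : Pt G) : ‖a.v‖ < 1 := a.val.2

instance : Zero (Pt G) := ⟨⟨0⟩⟩

instance : Add (Pt G) :=
  ⟨fun a b => ⟨evM ![a.val, b.val] G.toPowerSeries (lt_one_of_eq_zero G.zero_constantCoeff)⟩⟩

@[simp] lemma Pt.zero_v : (0 : Pt G).v = 0 := rfl

@[simp] lemma Pt.zero_val : (0 : Pt G).val = 0 := rfl

lemma Pt.add_v (a b : Pt G) : (a + b).v = ev ![a.val, b.val] G.toPowerSeries := rfl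

/-- Evaluation of a formal sum. -/
lemma ev_fadd {σ : Type*} [Finite σ] (x : σ → M C) {a b : MvPowerSeries σ (O C)}
    (ha : constantCoeff a = 0) (hb : constantCoeff b = 0) (A B : Pt G) (hA : A.v = ev x a)
    (hB : B.v = ev x b) : ev x (fadd G a b) = (A + B).v := by
  rw [Pt.add_v, fadd]
  refine ev_subst x ![a, b] (fun s => by fin_cases s <;> simpa) ![A.val, B.val] (fun s => ?_) _
  fin_cases s
  · exact hA
  · exact hB

lemma ev1_fadd (t : M C) {a b : PowerSeries (O C)}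
    (ha : PowerSeries.constantCoeff a = 0) (hb : PowerSeries.constantCoeff b = 0) (A B : Pt G)
    (hA : A.v = ev1 t a) (hB : B.v = ev1 t b) :
    ev1 t (fadd G a b : PowerSeries (O C)) = (A + B).v :=
  ev_fadd (fun _ : Unit => t) ha hb A B hA hB

lemma Pt.add_assoc' (a b c : Pt G) : a + b + c = a + (b + c) := by
  have x0 : constantCoeff (X 0 : MvPowerSeries (Fin 3) (O C)) = 0 := constantCoeff_X _
  have x1 : constantCoeff (X 1 : MvPowerSeries (Fin 3) (O C)) = 0 := constantCoeff_X _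
  have x2 : constantCoeff (X 2 : MvPowerSeries (Fin 3) (O C)) = 0 := constantCoeff_X _
  have h := congrArg (ev ![a.val, b.val, c.val]) (fadd_assoc (F := G) x0 x1 x2)
  have ha : a.v = ev ![a.val, b.val, c.val] (X 0) := by simp
  have hb : b.v = ev ![a.val, b.val, c.val] (X 1) := by simp
  have hc : c.v = ev ![a.val, b.val, c.val] (X 2) := by simp
  rw [ev_fadd _ (c0_fadd x0 x1) x2 (a + b) c (ev_fadd _ x0 x1 a b ha hb).symm hc,
    ev_fadd _ x0 (c0_fadd x1 x2) a (b + c) ha (ev_fadd _ x1 x2 b c hb hc).symm] at h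
  exact Pt.ext_v h

lemma Pt.zero_add' (a : Pt G) : 0 + a = a := by
  have h := congrArg (ev1 a.val) (zero_fadd (F := G) (PowerSeries.constantCoeff_X (R := O C)))
  rw [ev1_fadd _ (map_zero _) PowerSeries.constantCoeff_X 0 a (by simp) (by simp), ev1_X] at h
  exact Pt.ext_v h

lemma Pt.add_zero' (a : Pt G) : a + 0 = a := by
  have h := congrArg (ev1 a.val) (fadd_zero (F := G) (PowerSeries.constantCoeff_X (R := O C)))
  rw [ev1_fadd _ PowerSeries.constantCoeff_X (map_zero _) a 0 (by simp) (by simp), ev1_X] at h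
  exact Pt.ext_v h

lemma Pt.add_comm' [hG : G.IsComm] (a b : Pt G) : a + b = b + a := by
  have x0 : constantCoeff (X 0 : MvPowerSeries (Fin 2) (O C)) = 0 := constantCoeff_X _
  have x1 : constantCoeff (X 1 : MvPowerSeries (Fin 2) (O C)) = 0 := constantCoeff_X _
  have h := congrArg (ev ![a.val, b.val]) (fadd_comm hG x0 x1)
  have ha : a.v = ev ![a.val, b.val] (X 0) := by simp
  have hb : b.v = ev ![a.val, b.val] (X 1) := by simp
  rw [ev_fadd _ x0 x1 a b ha hb, ev_fadd _ x1 x0 b a hb ha] at h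
  exact Pt.ext_v h

lemma Pt.norm_add_add_le (a a' b b' : Pt G) :
    ‖(a + b).v - (a' + b').v‖ ≤ max ‖a.v - a'.v‖ ‖b.v - b'.v‖ := by
  refine (norm_ev_sub_ev _ _ _).trans ((pi_norm_le_iff_of_nonneg (by positivity)).2 fun s => ?_)
  fin_cases s
  · exact le_max_left _ _
  · exact le_max_right _ _

lemma an_add {σ : Type*} [Fintype σ] {a b : (σ → M C) → Pt G} (ha : An fun x => (a x).v)
    (hb : An fun x => (b x).v) : An fun x => (a x + b x).v :=
  An.ev G.toPowerSeries (a := fun x => ![(a x).val, (b x).val]) fun s => by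
    fin_cases s
    · exact ha
    · exact hb

lemma Pt.norm_add_sub_lip (a b b' : Pt G) :
    ‖((a + b).v - b.v) - ((a + b').v - b'.v)‖ ≤ ‖a.v‖ * ‖b.v - b'.v‖ := by
  have hA : An fun x : Unit → M C => (a + (⟨x ()⟩ : Pt G)).v - (x () : O C) :=
    (an_add (An.const _) (An.coord ())).sub (An.coord ())
  have hB : ∀ x : Unit → M C, ‖(a + (⟨x ()⟩ : Pt G)).v - (x () : O C)‖ ≤ ‖a.v‖ := fun x => by
    have := Pt.norm_add_add_le a 0 (⟨x ()⟩ : Pt G) ⟨x ()⟩
    rw [Pt.zero_add'] at this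
    simpa only [Pt.zero_v, sub_zero, sub_self, norm_zero, max_eq_left (norm_nonneg _)] using this
  have := hA.lipschitz hB (fun _ => b.val) (fun _ => b'.val)
  refine this.trans (le_of_eq ?_)
  congr 1
  exact (pi_norm_const (ι := Unit) (b.val - b'.val))

lemma Pt.norm_add_left_sub (a b b' : Pt G) : ‖(a + b).v - (a + b').v‖ = ‖b.v - b'.v‖ := by
  by_cases h : b.v - b'.v = 0
  · rw [Pt.ext_v (sub_eq_zero.1 h)]; simp
  have h1 := Pt.norm_add_sub_lip a b b'
  have h2 : ‖a.v‖ * ‖b.v - b'.v‖ < ‖b.v - b'.v‖ :=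
    mul_lt_of_lt_one_left (norm_pos_iff.2 h) a.norm_lt_one
  have e : (a + b).v - (a + b').v =
      (b.v - b'.v) + (((a + b).v - b.v) - ((a + b').v - b'.v)) := by ring
  rw [e, IsUltrametricDist.norm_add_eq_max_of_norm_ne_norm (h1.trans_lt h2).ne',
    max_eq_left (h1.trans h2.le)]

lemma Pt.norm_add_sub (a b : Pt G) : ‖(a + b).v - a.v - b.v‖ ≤ ‖a.v‖ * ‖b.v‖ := by
  have := Pt.norm_add_sub_lip a b 0
  rw [Pt.add_zero'] at this
  simp only [Pt.zero_v, sub_zero] at this
  rwa [show (a + b).v - a.v - b.v = (a + b).v - b.v - a.v by ring]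

lemma Pt.norm_add_le (a b : Pt G) : ‖(a + b).v‖ ≤ max ‖a.v‖ ‖b.v‖ := by
  have := Pt.norm_add_add_le a 0 b 0
  rw [Pt.zero_add'] at this
  simpa only [Pt.zero_v, sub_zero] using this

instance : CompleteSpace (M C) := by
  have : IsClosed ((M C : Ideal (O C)) : Set (O C)) := by
    have := IsUltrametricDist.isClosed_ball (0 : O C) 1
    have e : ((M C : Ideal (O C)) : Set (O C)) = Metric.ball 0 1 := by
      ext x
      rw [mem_ball_zero_iff]
      exact mem_M
    rwa [e]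
  exact this.completeSpace_coe

lemma Pt.exists_add_eq (a c : Pt G) : ∃ b : Pt G, a + b = c := by
  let T : M C → M C := fun y => c.val - ((a + (⟨y⟩ : Pt G)).val - y)
  have hT : ContractingWith ‖a.v‖₊ T := by
    refine ⟨a.norm_lt_one, LipschitzWith.of_dist_le_mul fun y y' => ?_⟩
    rw [dist_eq_norm, dist_eq_norm]
    have := Pt.norm_add_sub_lip a ⟨y'⟩ ⟨y⟩
    rw [norm_sub_rev (Pt.v ⟨y'⟩)] at this
    refine le_of_eq_of_le ?_ this
    refine (M.norm_coe (T y - T y')).symm.trans ?_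
    congr 1
    simp only [T, AddSubgroupClass.coe_sub]
    ring
  have hfix := hT.fixedPoint_isFixedPt
  refine ⟨⟨hT.fixedPoint T⟩, Pt.ext ?_⟩
  have : c.val - ((a + (⟨hT.fixedPoint T⟩ : Pt G)).val - hT.fixedPoint T) = hT.fixedPoint T :=
    hfix
  rw [sub_eq_iff_eq_add, add_sub_cancel] at this
  exact this.symm

instance : Neg (Pt G) := ⟨fun a => (Pt.exists_add_eq a 0).choose⟩

instance [G.IsComm] : AddCommGroup (Pt G) where
  add_assoc := Pt.add_assoc'
  zero_add := Pt.zero_add'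
  add_zero := Pt.add_zero'
  nsmul := nsmulRec
  zsmul := zsmulRec
  neg_add_cancel a := by rw [Pt.add_comm']; exact (Pt.exists_add_eq a 0).choose_spec
  add_comm := Pt.add_comm'

lemma close_add {E : ℝ}
    (h : ∀ d, ‖coeff d G.toPowerSeries - coeff d G'.toPowerSeries‖ ≤ E) (a b : M C) :
    ‖((⟨a⟩ + ⟨b⟩ : Pt G)).v - ((⟨a⟩ + ⟨b⟩ : Pt G')).v‖ ≤ E := by
  rw [Pt.add_v, Pt.add_v, ← map_sub]
  exact norm_ev_le_of_coeff _ _ fun d => by rw [map_sub]; exact h d

section comm
variable [G.IsComm] [G'.IsComm]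

lemma Pt.norm_sub (a b : Pt G) : ‖(a - b).v‖ = ‖a.v - b.v‖ := by
  have := Pt.norm_add_left_sub b (a - b) 0
  rw [add_sub_cancel, add_zero, Pt.zero_v, sub_zero] at this
  exact this.symm

lemma Pt.norm_neg (a : Pt G) : ‖(-a).v‖ = ‖a.v‖ := by
  have := Pt.norm_sub 0 a
  rwa [zero_sub, Pt.zero_v, zero_sub, _root_.norm_neg] at this

lemma Pt.norm_neg_sub_neg (a b : Pt G) : ‖(-a).v - (-b).v‖ = ‖a.v - b.v‖ := by
  rw [← Pt.norm_sub, ← Pt.norm_sub, neg_sub_neg, ← Pt.norm_neg, neg_sub]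

lemma Pt.norm_sum_le {ι : Type*} (S : Finset ι) (a : ι → Pt G) {r : ℝ} (hr : 0 ≤ r)
    (h : ∀ i ∈ S, ‖(a i).v‖ ≤ r) : ‖(∑ i ∈ S, a i).v‖ ≤ r := by
  classical
  induction S using Finset.induction_on with
  | empty => simpa using hr
  | insert i S hi ih =>
    rw [Finset.sum_insert hi]
    exact (Pt.norm_add_le _ _).trans (max_le (h i (by simp))
      (ih fun j hj => h j (by simp [hj])))

lemma Pt.norm_sum_sub {ι : Type*} (S : Finset ι) (a : ι → Pt G) {r : ℝ} (hr : 0 ≤ r)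
    (h : ∀ i ∈ S, ‖(a i).v‖ ≤ r) : ‖(∑ i ∈ S, a i).v - ∑ i ∈ S, (a i).v‖ ≤ r ^ 2 := by
  classical
  induction S using Finset.induction_on with
  | empty => simp; positivity
  | insert i S hi ih =>
    rw [Finset.sum_insert hi, Finset.sum_insert hi]
    have h1 := Pt.norm_add_sub (a i) (∑ j ∈ S, a j)
    have h2 := ih fun j hj => h j (by simp [hj])
    have h3 := Pt.norm_sum_le S a hr fun j hj => h j (by simp [hj])
    have e : (a i + ∑ j ∈ S, a j).v - ((a i).v + ∑ j ∈ S, (a j).v) =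
        ((a i + ∑ j ∈ S, a j).v - (a i).v - (∑ j ∈ S, a j).v) +
          ((∑ j ∈ S, a j).v - ∑ j ∈ S, (a j).v) := by ring
    rw [e]
    refine (IsUltrametricDist.norm_add_le_max _ _).trans (max_le (h1.trans ?_) h2)
    rw [sq]
    exact mul_le_mul (h i (by simp)) h3 (norm_nonneg _) hr

lemma Pt.norm_nsmul_le (j : ℕ) (a : Pt G) : ‖(j • a).v‖ ≤ ‖a.v‖ := by
  simpa using Pt.norm_sum_le (Finset.range j) (fun _ => a) (norm_nonneg _) fun _ _ => le_rfl

lemma Pt.norm_nsmul_sub (j : ℕ) (a : Pt G) : ‖(j • a).v - j * a.v‖ ≤ ‖a.v‖ ^ 2 := by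
  simpa using Pt.norm_sum_sub (Finset.range j) (fun _ => a) (norm_nonneg _) fun _ _ => le_rfl

lemma ev1_sumSeries (t : M C) {s : ℕ → PowerSeries (O C)}
    (hs : ∀ i, PowerSeries.constantCoeff (s i) = 0) (A : ℕ → Pt G)
    (hA : ∀ i, (A i).v = ev1 t (s i)) (j : ℕ) :
    ev1 t (sumSeries G s j) = (∑ i ∈ Finset.range j, A i).v := by
  induction j with
  | zero => exact map_zero _
  | succ j ih =>
    rw [Finset.sum_range_succ, sumSeries]
    exact ev1_fadd t (c0_sumSeries hs j) (hs j) _ _ ih.symm (hA j)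

lemma Pt.nsmul_v (j : ℕ) (a : Pt G) : (j • a).v = ev1 a.val (mulSeries G j) := by
  rw [mulSeries, ev1_sumSeries a.val (fun _ => PowerSeries.constantCoeff_X) (fun _ => a)
    (fun _ => by simp)]
  simp

/-- `E` is given by the integral series `e`. -/
def Rep (E : Pt G → Pt G') (e : PowerSeries (O C)) : Prop := ∀ a, (E a).v = ev1 a.val e

/-- The map on points defined by a series without constant term. -/
def mapPt (G G' : FormalGroup (O C)) (w : PowerSeries (O C))
    (hw : PowerSeries.constantCoeff w = 0) (a : Pt G) : Pt G' := ⟨evM1 a.val w hw⟩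

@[simp] lemma mapPt_v (w : PowerSeries (O C)) (hw) (a : Pt G) :
    (mapPt G G' w hw a).v = ev1 a.val w := rfl

lemma rep_mapPt (w : PowerSeries (O C)) (hw) : Rep (mapPt G G' w hw) w := fun _ => rfl

lemma mapPt_add_aux (w : PowerSeries (O C)) (hw : PowerSeries.constantCoeff w = 0) (a b : Pt G) :
    ev ![a.val, b.val] (w.subst G.toPowerSeries) = (mapPt G G' w hw (a + b)).v ∧
    ev ![a.val, b.val] (fadd G' (w.subst (X 0 : MvPowerSeries (Fin 2) (O C)))
      (w.subst (X 1 : MvPowerSeries (Fin 2) (O C)))) =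
      (mapPt G G' w hw a + mapPt G G' w hw b).v := by
  have x0 : constantCoeff (X 0 : MvPowerSeries (Fin 2) (O C)) = 0 := constantCoeff_X _
  have x1 : constantCoeff (X 1 : MvPowerSeries (Fin 2) (O C)) = 0 := constantCoeff_X _
  refine ⟨ev_subst1 _ _ G.zero_constantCoeff (a + b).val rfl w, ?_⟩
  exact ev_fadd _ (c0_subst x0 hw) (c0_subst x1 hw) _ _
    (ev_subst1 _ _ x0 a.val (by simp) w).symm (ev_subst1 _ _ x1 b.val (by simp) w).symm

/-- The homomorphism on points defined by a homomorphism of formal group laws. -/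
def homPt {w : PowerSeries (O C)} (hw : IsHom G G' w) : Pt G →+ Pt G' :=
  AddMonoidHom.mk' (mapPt G G' w hw.1) fun a b => by
    obtain ⟨h1, h2⟩ := mapPt_add_aux (G' := G') w hw.1 a b
    exact Pt.ext_v (by rw [← h1, ← h2, hw.2])

@[simp] lemma homPt_v {w : PowerSeries (O C)} (hw : IsHom G G' w) (a : Pt G) :
    (homPt hw a).v = ev1 a.val w := rfl

lemma rep_homPt {w : PowerSeries (O C)} (hw : IsHom G G' w) : Rep (homPt hw) w := fun _ => rfl

lemma Rep.constantCoeff {E : Pt G → Pt G'} {e : PowerSeries (O C)} (h : Rep E e)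
    (h0 : E 0 = 0) : PowerSeries.constantCoeff e = 0 := by
  have := h 0
  rw [h0, Pt.zero_val, ev1_zero] at this
  exact this.symm

lemma Rep.isHom {E : Pt G →+ Pt G'} {e : PowerSeries (O C)} (h : Rep E e) : IsHom G G' e := by
  have h0 := h.constantCoeff (map_zero E)
  have hE : ∀ a, mapPt G G' e h0 a = E a := fun a => Pt.ext_v (h a).symm
  refine ⟨h0, ident_eq fun x => ?_⟩
  obtain ⟨h1, h2⟩ := mapPt_add_aux (G := G) (G' := G') e h0 ⟨x 0⟩ ⟨x 1⟩
  have hx : ![x 0, x 1] = x := by ext1 s; fin_cases s <;> rfl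
  rw [hx] at h1 h2
  rw [h1, h2, hE, hE, hE, map_add]

lemma Rep.norm_le {E : Pt G → Pt G'} {e : PowerSeries (O C)} (h : Rep E e) (h0 : E 0 = 0)
    (a : Pt G) : ‖(E a).v‖ ≤ ‖a.v‖ := by
  rw [h a]
  exact norm_ev1_le_self _ (h.constantCoeff h0)

lemma Rep.norm_sub_le {E : Pt G → Pt G'} {e : PowerSeries (O C)} (h : Rep E e) (a b : Pt G) :
    ‖(E a).v - (E b).v‖ ≤ ‖a.v - b.v‖ := by
  rw [h a, h b]
  exact norm_ev1_sub_ev1 _ _ _

lemma Rep.comp {G'' : FormalGroup (O C)} {E : Pt G → Pt G'} {e : PowerSeries (O C)}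
    {E' : Pt G' → Pt G''} {e' : PowerSeries (O C)} (h : Rep E e) (h0 : E 0 = 0) (h' : Rep E' e') :
    Rep (fun a => E' (E a)) (e'.subst e) := fun a => by
  rw [h', ev1_subst a.val e (h.constantCoeff h0) (E a).val (h a)]

lemma rep_nsmul (j : ℕ) : Rep (fun a : Pt G => j • a) (mulSeries G j) := Pt.nsmul_v j

lemma Rep.an {σ : Type*} [Fintype σ] {E : Pt G → Pt G'} {e : PowerSeries (O C)} (h : Rep E e)
    {a : (σ → M C) → Pt G} (ha : An fun x => (a x).v) : An fun x => (E (a x)).v := by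
  have : (fun x => (E (a x)).v) = fun x => ev1 (a x).val e := funext fun x => h _
  rw [this]
  exact An.ev1 e ha

lemma an_sum {σ ι : Type*} [Fintype σ] (S : Finset ι) {a : ι → (σ → M C) → Pt G}
    (ha : ∀ i ∈ S, An fun x => (a i x).v) : An fun x => (∑ i ∈ S, a i x).v := by
  classical
  induction S using Finset.induction_on with
  | empty => simpa using An.const 0
  | insert i S hi ih =>
    simp only [Finset.sum_insert hi]
    exact an_add (ha i (by simp)) (ih fun j hj => ha j (by simp [hj]))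

/-- If `[p] = X ^ Q` then multiplication by `p ^ j` is a power map. -/
lemma Pt.pow_nsmul_v {p Q : ℕ} (hp : mulSeries G p = PowerSeries.X ^ Q) (j : ℕ) (a : Pt G) :
    (p ^ j • a).v = a.v ^ Q ^ j := by
  induction j with
  | zero => simp
  | succ j ih =>
    rw [pow_succ', mul_smul, Pt.nsmul_v, hp, map_pow, ev1_X, pow_succ, pow_mul, ← ih]

end comm

instance : (FormalGroup.𝔾ₐ (R := O C)).IsComm := inferInstance

lemma Pt.add_v_Ga (a b : Pt (FormalGroup.𝔾ₐ (R := O C))) : (a + b).v = a.v + b.v := by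
  rw [Pt.add_v, FormalGroup.𝔾ₐ_toPowerSeries, map_add]
  simp

end Vale.Agent.P217.D
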