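import Vale.Agent.P217.DStepA1
import Vale.Agent.P217.DConj

/-!
# P217: canonical coordinates of the orbit points
-/

set_option linter.unusedSectionVars false

noncomputable section

namespace Vale.Agent.P217.D

variable {C : Type} [NontriviallyNormedField C] [IsUltrametricDist C] [CompleteSpace C]
  [IsAlgClosed C] {p : ℕ} [Fact p.Prime] [CharP C p]

open PowerSeries

variable {m h n : ℕ} {θ : ℝ}

/-- The orbit of `x` contains points close to `x` where `f` vanishes. -/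
def OrbitZero (p h : ℕ) (θ : ℝ) (Γ : FormalGroup (O C))
    (𝔽 : FormalGroup (MvPowerSeries (Fin m) (O C))) (x : Fin m → M C)
    (f : MvPowerSeries (Fin m) (O C)) : Prop :=
  ∀ a : PowerSeries (O C), IsHom Γ Γ a → ∀ N : ℕ, 1 ≤ N →
    ∃ (x' : Fin m → M C) (w : PowerSeries (O C)), ‖x' - x‖ ≤ θ ^ (p ^ h) ^ N ∧
      IsHom (fib 𝔽 x) (fib 𝔽 x') w ∧
      (∀ j, ‖coeff j w - coeff j (fadd (fib 𝔽 x) X
        ((mulSeries (fib 𝔽 x) (p ^ N)).subst a) : PowerSeries (O C))‖ ≤ θ ^ (p ^ h) ^ N) ∧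
      ev x' f = 0

variable {Γ Γ' : FormalGroup (O C)} [Γ.IsComm] [Γ'.IsComm]
  {𝔽 : FormalGroup (MvPowerSeries (Fin m) (O C))} [𝔽.IsComm]

theorem stepA {x : Fin m → M C} (hN : Near p h n θ Γ (fib 𝔽 x))
    (hlow : ∀ j < p ^ h, coeff j (mulSeries 𝔽 p) = 0)
    (ha : coeff (p ^ h) (mulSeries (fib 𝔽 x) p) ≠ 0)
    {Φ : ℤ → Pt Γ →+ Pt Γ} (hΦ : IsFrob p Φ) (Λ : Pt Γ →+ Pt (fib 𝔽 x))
    (hΛ : ∀ s, ‖(Λ s).v - s.v‖ ≤ θ) {ψ : PowerSeries (O C)} (hψ : IsHom (fib 𝔽 x) Γ' ψ)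
    (hψ1 : coeff 1 ψ ≠ 0) (hp : mulSeries Γ' p = X ^ p ^ h) (ξ : Fin m → Pt Γ)
    (hξ : ∀ j, Λ (ξ j) = 0)
    (hdet : (Matrix.of fun j l =>
      (ev1 (Λ (Φ (-n) (ξ j))).val (dser (mulSeries 𝔽 p) x l) : C)).det ≠ 0)
    {f : MvPowerSeries (Fin m) (O C)} (hf : f ≠ 0) (horb : OrbitZero p h θ Γ 𝔽 x f) :
    ∃ S : Finset (Fin m →₀ ℕ), ∀ D : ℕ, ∃ F : MvPolynomial (Fin m) C,
      (∃ β ∈ S, F.coeff β ≠ 0) ∧ ∀ (a : PowerSeries (O C)) (ha : IsHom Γ Γ a), ∃ K : ℝ,
        ∀ N, 1 ≤ N → ‖MvPolynomial.eval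
          (fun l => ((-(homPt hψ (Λ (homPt ha (ξ l))))).v : C) ^ (p ^ h) ^ N) F‖ ≤
          K * θ ^ (D * (p ^ h) ^ N) := by
  classical
  have hp2 : 2 ≤ p := (Fact.out : p.Prime).two_le
  have hQ : 2 ≤ p ^ h := hp2.trans (Nat.le_self_pow (by have := hN.hh; omega) p)
  have hθ0 := hN.pos
  have hθ1 := hN.lt_one
  obtain ⟨β0, hβ0⟩ : ∃ β0, MvPowerSeries.coeff β0 (shift x f) ≠ 0 := by
    by_contra hc
    push Not at hc
    exact shift_ne_zero x hf (MvPowerSeries.ext fun d => by rw [hc d, map_zero])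
  refine ⟨(Finsupp.finite_of_degree_lt (σ := Fin m) (β0.degree + 1)).toFinset, fun D => ?_⟩
  -- the family of orbit points
  let ι := {a : PowerSeries (O C) // IsHom Γ Γ a} × {N : ℕ // 1 ≤ N}
  choose x' w hx' hw hwg hfx using fun i : ι => horb i.1.1 i.1.2 i.2.1 i.2.2
  let ρ : ι → ℝ := fun i => θ ^ (p ^ h) ^ i.2.1
  have hρ : ∀ i, 0 ≤ ρ i := fun i => by positivity
  have hρ1 : ∀ i, ρ i ≤ 1 := fun i => pow_le_one₀ hθ0.le hθ1.le
  have hI : IsFilt (gaugeI C ρ hρ) := isFilt_gaugeI hρ1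
  have hQk : (p ^ h) ^ (D + 1) ≠ 0 := by positivity
  have hDQ : D ≤ (p ^ h) ^ (D + 1) := (Nat.le_succ D).trans (Nat.lt_pow_self hQ).le
  let s : Fin m → Pt Γ := fun j => Φ (-(n * (D + 1 : ℕ))) (ξ j)
  have hs : ∀ j, p ^ (D + 1) • s j = ξ j := fun j => hΦ.nsmul_neg hN.pser (D + 1) (ξ j)
  let t : Fin m → Pt (fib 𝔽 x) := fun j => Λ (s j)
  have ht : ∀ j, p ^ (D + 1) • t j = 0 := fun j => by rw [← map_nsmul, hs, hξ]
  have ht1 : ∀ j, p ^ D • t j = Λ (Φ (-n) (ξ j)) := fun j => by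
    rw [← map_nsmul, ← hΦ.mul_nat hN.pser, ← hΦ.add]
    congr 2
    push_cast
    ring
  let dl : ∀ i : ι, Fin m → Pt (fib 𝔽 (x' i)) := fun i j => ⟨(t j).val⟩ - homPt (hw i) (t j)
  let η : Fin m → ι → M C := fun j i => powM (dl i j).val _ hQk
  let u : Fin m ⊕ Fin m → ι → M C := Sum.elim (fun l i => x' i l - x l) η
  let ε : Fin m → ι → C := fun j i =>
    ((-(homPt hψ (Λ (homPt i.1.2 (ξ j))))).v : C) ^ (p ^ h) ^ i.2.1
  set 𝕍 := contract ((p ^ h) ^ (D + 1)) (mulSeries 𝔽 (p ^ (D + 1))) with h𝕍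
  set v := coeff ((p ^ h) ^ (D + 1)) (mulSeries (fib 𝔽 x) (p ^ (D + 1))) with hv
  have hv0 : v ≠ 0 := coeff_mulSeries_pow_ne_zero hN.hh hN.low ha (D + 1)
  set ψk := PowerSeries.map (iterateFrobenius (O C) p (h * (D + 1))) ψ with hψk
  have hc0 : coeff 1 ψk ≠ 0 := by
    rw [hψk, coeff_map, iterateFrobenius_def]
    exact pow_ne_zero _ hψ1
  have hψk0 : constantCoeff ψk = 0 := by
    rw [← coeff_zero_eq_constantCoeff_apply, hψk, coeff_map, coeff_zero_eq_constantCoeff_apply,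
      hψ.1, map_zero]
  have hE1 : ∀ i j, ev1 (η j i) (PowerSeries.map (ev (x' i)).toRingHom 𝕍) =
      ev1 (t j).val (PowerSeries.map (ev (x' i)).toRingHom (mulSeries 𝔽 (p ^ (D + 1)))) :=
    fun i j => by
      rw [ev1_versch hlow (D + 1) (x' i) (dl i j) (η j i) rfl, smul_sub, ← map_nsmul, ht,
        map_zero, sub_zero, fib_nsmul_v]
  have hdisp := fun i j => displacement (hx' i) i.1.2.1 (hw i) (p ^ i.2.1) (hwg i) (t j)
  have hE2 : ∀ i j, ‖((ev1 (η j i) ψk : O C) : C) - ε j i‖ ≤ ρ i ^ D := fun i j => by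
    have := coord_est hN Λ hΛ hψ hp i.1.2 (D + 1) i.2.1 (s j) (dl i j).val (η j i) rfl
      (hdisp i j)
    rw [hs] at this
    exact (le_of_eq_of_le (by rw [← O.norm_coe]; push_cast; rfl) this).trans
      (pow_le_pow_of_le_one (hρ i) (hρ1 i) hDQ)
  have hδ : ∀ i, x + (x' i - x) = x' i := fun i => add_sub_cancel _ _
  have hu : ∀ z, (fun i => ((u z i : O C) : C)) ∈ gaugeI C ρ hρ 1 := by
    rintro (l | j)
    · refine mem_gaugeI_of_le fun i => ?_
      rw [pow_one]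
      exact (norm_le_pi_norm (x' i - x) l).trans (hx' i)
    · obtain ⟨K, hK0, hK⟩ := exists_eta_bound hv0 hθ0 (le_max_left θ ‖(t j).v‖)
        (max_lt hθ1 (t j).norm_lt_one) hQ
      refine ⟨K, hK0, fun i => ?_⟩
      rw [pow_one]
      have hm : θ ^ (p ^ h) ^ i.2.1 ≤ max θ ‖(t j).v‖ ^ (p ^ h) ^ i.2.1 :=
        pow_le_pow_left₀ hθ0.le (le_max_left _ _) _
      have h1 : ‖η j i‖ ≤ max θ ‖(t j).v‖ ^ (p ^ h) ^ i.2.1 := by
        have h2 : ‖(-(p ^ i.2.1 • mapPt (fib 𝔽 x) (fib 𝔽 x) i.1.1 i.1.2.1 (t j))).v‖ ≤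
            max θ ‖(t j).v‖ ^ (p ^ h) ^ i.2.1 := by
          rw [Pt.norm_neg]
          exact (norm_pow_nsmul_le hN.low _ _).trans (pow_le_pow_left₀ (norm_nonneg _)
            ((norm_ev1_le_self _ i.1.2.1).trans (le_max_right _ _)) _)
        have h3 := (IsUltrametricDist.norm_add_le_max _ _).trans
          (max_le ((hdisp i j).trans hm) h2)
        rw [sub_add_cancel] at h3
        refine le_trans ?_ h3
        rw [norm_powM]
        exact pow_le_of_le_one (norm_nonneg _) (M.norm_lt_one _).le hQk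
      refine hK i.2.1 (η j i) h1 ?_
      have h2 := versch_est (p := p) (h := h) (𝔽 := 𝔽) (D + 1) x (x' i) (η j i)
      have h3 := norm_ev1_map_sub (mulSeries 𝔽 (p ^ (D + 1))) (x' i) x (t j).val
      rw [← fib_nsmul_v x, ht, Pt.zero_v, sub_zero, ← hE1] at h3
      have h4 := (norm_sub_le_max _ _).trans (max_le_max (h3.trans (hx' i)) h2)
      rw [sub_sub_cancel] at h4
      refine h4.trans (max_le_max le_rfl (max_le ?_ ?_))
      · rw [sq]
        exact mul_le_mul_of_nonneg_right h1 (norm_nonneg _)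
      · exact mul_le_mul_of_nonneg_right ((hx' i).trans hm) (norm_nonneg _)
  have hε : ∀ j, ε j ∈ gaugeI C ρ hρ 1 := fun j => mem_gaugeI_of_le fun i => by
    rw [pow_one, norm_pow, O.norm_coe, Pt.norm_neg]
    refine pow_le_pow_left₀ (norm_nonneg _) (((rep_homPt hψ).norm_le (map_zero _) _).trans ?_) _
    have h1 := hΛ (ξ j)
    rw [hξ, Pt.zero_v, zero_sub, norm_neg] at h1
    have h2 := ((rep_homPt i.1.2).norm_le (map_zero _) (ξ j)).trans h1
    have h3 := (IsUltrametricDist.norm_add_le_max _ _).trans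
      (max_le (hΛ (homPt i.1.2 (ξ j))) h2)
    rwa [sub_add_cancel] at h3
  set U : Fin m ⊕ Fin m → ι → C := fun z i => ((u z i : O C) : C) with hU
  set S : Matrix (Fin m) (Fin m) C := Matrix.of fun j l =>
    (ev1 (Λ (Φ (-n) (ξ j))).val (dser (mulSeries 𝔽 p) x l) : C) with hS
  have hQ2 : ∀ j, ε j - ((coeff 1 ψk : O C) : C) • U (Sum.inr j) ∈ Q2 (gaugeI C ρ hρ) D U := fun j => by
    have h1 := mem_Q2_of_an u hu D
      (φ := fun z => ev1 (z (Sum.inr j)) ψk - coeff 1 ψk * z (Sum.inr j))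
      ((An.ev1 ψk (An.coord _)).sub ((An.const _).mul (An.coord _))) (fun z => by
        have := taylor2_one (z (Sum.inr j)) ψk
        rw [hψk0, sub_zero] at this
        exact this.trans (pow_le_pow_left₀ (norm_nonneg _) (norm_le_pi_norm z _) 2))
    have h2 : (fun i => ((ev1 (η j i) ψk : O C) : C) - ε j i) ∈ Q2 (gaugeI C ρ hρ) D U :=
      mem_Q2_of_mem (mem_gaugeI_of_le fun i => hE2 i j)
    convert sub_mem h1 h2 using 1
    ext i
    simp only [hU, u, Sum.elim_inr, Pi.sub_apply, Pi.smul_apply, smul_eq_mul]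
    push_cast
    ring
  have hQ1 : ∀ j, ∑ l, S j l • U (Sum.inl l) - (v : C) • U (Sum.inr j) ∈
      Q2 (gaugeI C ρ hρ) D U := fun j => by
    have han : ∀ l, An fun z : Fin m ⊕ Fin m → M C =>
        (((x + fun l => z (Sum.inl l)) l : M C) : O C) := fun l =>
      (An.const (x l : O C)).add (An.coord (Sum.inl l))
    have h1 := mem_Q2_of_an u hu D
      (φ := fun z => (ev1 (z (Sum.inr j))
          (PowerSeries.map (ev (x + fun l => z (Sum.inl l))).toRingHom 𝕍) - v * z (Sum.inr j)) -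
        (ev1 (t j).val (PowerSeries.map (ev (x + fun l => z (Sum.inl l))).toRingHom
          (mulSeries 𝔽 (p ^ (D + 1)))) -
          ∑ l, ev1 (p ^ D • t j).val (dser (mulSeries 𝔽 p) x l) * z (Sum.inl l)))
      (((An.ev1_map 𝕍 han (An.coord _)).sub ((An.const _).mul (An.coord _))).sub
        ((An.ev1_map _ han (An.const _)).sub
          (An.sum _ fun l _ => (An.const _).mul (An.coord _)))) (fun z => by
        have hz1 : ‖fun l => z (Sum.inl l)‖ ≤ ‖z‖ :=
          (pi_norm_le_iff_of_nonneg (norm_nonneg _)).2 fun l => norm_le_pi_norm z _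
        have hz2 : ‖z (Sum.inr j)‖ ≤ ‖z‖ := norm_le_pi_norm z _
        have h2 := versch_est (p := p) (h := h) (𝔽 := 𝔽) (D + 1) x
          (x + fun l => z (Sum.inl l)) (z (Sum.inr j))
        rw [add_sub_cancel_left] at h2
        have h3 := torsion_est hN.hh hlow D x (fun l => z (Sum.inl l)) (t j) (ht j)
        refine (norm_sub_le_max _ _).trans (max_le (h2.trans (max_le ?_ ?_))
          (h3.trans (pow_le_pow_left₀ (norm_nonneg _) hz1 2)))
        · exact pow_le_pow_left₀ (norm_nonneg _) hz2 2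
        · rw [sq]
          exact mul_le_mul hz1 hz2 (norm_nonneg _) (norm_nonneg _))
    convert h1 using 1
    ext i
    have e : (x + fun l => x' i l - x l) = x' i := hδ i
    simp only [hU, hS, u, Sum.elim_inr, Sum.elim_inl, Pi.sub_apply, Pi.smul_apply, smul_eq_mul,
      Finset.sum_apply, Matrix.of_apply, e, hE1, ht1]
    push_cast
    ring
  have hc0' : ((coeff 1 ψk : O C) : C) ≠ 0 := fun h => hc0 (Subtype.ext h)
  have hv0' : ((v : O C) : C) ≠ 0 := fun h => hv0 (Subtype.ext h)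
  set c : C := ((coeff 1 ψk : O C) : C) with hc
  have hSu : IsUnit S.det := isUnit_iff_ne_zero.2 hdet
  let L : Fin m ⊕ Fin m → Fin m → C :=
    Sum.elim (fun l j => (v : C) / c * S⁻¹ l j) (fun j j' => if j = j' then c⁻¹ else 0)
  have hL : ∀ z, U z - ∑ j, L z j • ε j ∈ Q2 (gaugeI C ρ hρ) D U := by
    rintro (l | j)
    · have h1 : ∀ j, ∑ l, S j l • U (Sum.inl l) - ((v : C) / c) • ε j ∈
          Q2 (gaugeI C ρ hρ) D U := fun j => by
        convert sub_mem (hQ1 j) (Submodule.smul_mem _ ((v : C) / c) (hQ2 j)) using 1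
        rw [smul_sub, smul_smul, div_mul_cancel₀ _ hc0']
        abel
      convert Submodule.sum_mem _ fun j (_ : j ∈ Finset.univ) =>
        Submodule.smul_mem _ (S⁻¹ l j) (h1 j) using 1
      simp only [smul_sub, Finset.sum_sub_distrib, Finset.smul_sum, smul_smul, L, Sum.elim_inl]
      congr 1
      · rw [Finset.sum_comm]
        simp only [← Finset.sum_smul, ← Matrix.mul_apply, Matrix.nonsing_inv_mul S hSu,
          Matrix.one_apply]
        simp
      · exact Finset.sum_congr rfl fun j _ => by rw [mul_comm]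
    · convert Submodule.smul_mem _ (-c⁻¹) (hQ2 j) using 1
      simp only [L, Sum.elim_inr, ite_smul, zero_smul, Finset.sum_ite_eq, Finset.mem_univ,
        if_true, smul_sub, smul_smul, neg_mul, inv_mul_cancel₀ hc0', neg_smul, one_smul]
      abel
  have hdet' : (Matrix.of fun l j => L (Sum.inl l) j).det ≠ 0 := by
    have : (Matrix.of fun l j => L (Sum.inl l) j) = ((v : C) / c) • S⁻¹ := by
      ext l j
      simp [L]
    rw [this, Matrix.det_smul]
    exact mul_ne_zero (pow_ne_zero _ (div_ne_zero hv0' hc0'))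
      (Matrix.isUnit_nonsing_inv_det S hSu).ne_zero
  obtain ⟨F, hF, hFε⟩ := hI.rel D β0.degree U hu ε hε L hL Sum.inl hdet'
    (MvPolynomial.map (O C).subtype
      (MvPowerSeries.truncTotal (max D (β0.degree + 1)) (shift x f))) (by
      rw [MvPolynomial.mem_pow_idealOfVars_iff']
      intro hcon
      have := hcon β0 (Nat.lt_succ_self _)
      rw [MvPolynomial.coeff_map, MvPowerSeries.coeff_truncTotal _
        ((Nat.lt_succ_self _).trans_le (le_max_right _ _))] at this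
      exact hβ0 (Subtype.ext this)) (by
      have h1 := trunc_mem_gaugeI (hρ := hρ) (fun l => u (Sum.inl l)) (fun l => hu (Sum.inl l))
        (shift x f) (max D (β0.degree + 1))
      have h2 : (fun i => ((ev (fun l => u (Sum.inl l) i) (shift x f) : O C) : C)) = 0 := by
        ext i
        have e : (x + fun l => u (Sum.inl l) i) = x' i := hδ i
        rw [ev_shift, e, hfx]
        rfl
      rw [h2, zero_sub, neg_mem_iff] at h1
      exact hI.anti (le_max_left _ _) h1)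
  refine ⟨F, ?_, fun a ha => ?_⟩
  · rw [MvPolynomial.mem_pow_idealOfVars_iff'] at hF
    push Not at hF
    obtain ⟨β, hβ, hβ'⟩ := hF
    exact ⟨β, by simpa using hβ, hβ'⟩
  · obtain ⟨K, -, hK⟩ := hFε
    refine ⟨K, fun N hN1 => ?_⟩
    have := hK (⟨a, ha⟩, ⟨N, hN1⟩)
    rw [aeval_pi_apply] at this
    rw [mul_comm D, pow_mul]
    exact this

end Vale.Agent.P217.D
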