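import Vale.Agent.P217.DNondeg
import Vale.Agent.P217.DLam
import Vale.Agent.P217.DFilt

/-!
# P217: asymptotic filtration and pointwise estimates for the canonical coordinates
-/

set_option linter.unusedSectionVars false

noncomputable section

namespace Vale.Agent.P217.D

variable {C : Type} [NontriviallyNormedField C] [IsUltrametricDist C] [CompleteSpace C]
  [IsAlgClosed C] {p : ℕ} [Fact p.Prime] [CharP C p]

open PowerSeries

/-- Functions that are `O(ρ ^ j)`. -/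
def gaugeI (C : Type) [NontriviallyNormedField C] {ι : Type*} (ρ : ι → ℝ) (_hρ : ∀ i, 0 ≤ ρ i)
    (j : ℕ) : Submodule C (ι → C) where
  carrier := {φ | ∃ K : ℝ, 0 ≤ K ∧ ∀ i, ‖φ i‖ ≤ K * ρ i ^ j}
  add_mem' := by
    rintro a b ⟨K, hK, ha⟩ ⟨K', hK', hb⟩
    refine ⟨K + K', by positivity, fun i => (norm_add_le _ _).trans ?_⟩
    rw [add_mul]
    exact add_le_add (ha i) (hb i)
  zero_mem' := ⟨0, le_rfl, fun i => by simp⟩
  smul_mem' := by
    rintro c a ⟨K, hK, ha⟩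
    refine ⟨‖c‖ * K, by positivity, fun i => ?_⟩
    rw [Pi.smul_apply, norm_smul, mul_assoc]
    exact mul_le_mul_of_nonneg_left (ha i) (norm_nonneg _)

section
variable {ι : Type*} {ρ : ι → ℝ} {hρ : ∀ i, 0 ≤ ρ i}

lemma mem_gaugeI {j : ℕ} {φ : ι → C} :
    φ ∈ gaugeI C ρ hρ j ↔ ∃ K : ℝ, 0 ≤ K ∧ ∀ i, ‖φ i‖ ≤ K * ρ i ^ j := Iff.rfl

lemma mem_gaugeI_of_le {j : ℕ} {φ : ι → C} (h : ∀ i, ‖φ i‖ ≤ ρ i ^ j) : φ ∈ gaugeI C ρ hρ j :=
  ⟨1, zero_le_one, fun i => by rw [one_mul]; exact h i⟩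

lemma isFilt_gaugeI (h1 : ∀ i, ρ i ≤ 1) : IsFilt (gaugeI C ρ hρ) where
  one_mem := mem_gaugeI_of_le fun i => by simp
  mul_mem := by
    rintro i j a b ⟨K, hK, ha⟩ ⟨K', hK', hb⟩
    refine ⟨K * K', by positivity, fun t => ?_⟩
    rw [Pi.mul_apply, norm_mul, pow_add, mul_mul_mul_comm]
    have := hρ t
    exact mul_le_mul (ha t) (hb t) (norm_nonneg _) (by positivity)
  anti := by
    rintro i j hij a ⟨K, hK, ha⟩
    exact ⟨K, hK, fun t => (ha t).trans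
      (mul_le_mul_of_nonneg_left (pow_le_pow_of_le_one (hρ t) (h1 t) hij) hK)⟩

lemma aeval_pi_apply {σ : Type*} (u : σ → ι → C) (F : MvPolynomial σ C) (i : ι) :
    MvPolynomial.aeval u F i = MvPolynomial.eval (fun s => u s i) F := by
  have := MvPolynomial.comp_aeval_apply (f := u) (Pi.evalAlgHom C (fun _ : ι => C) i) F
  rw [MvPolynomial.aeval_eq_eval] at this
  exact this

lemma eval_map_subtype {σ : Type*} (x : σ → M C) (P : MvPolynomial σ (O C)) :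
    MvPolynomial.eval (fun s => ((x s : O C) : C)) (MvPolynomial.map (O C).subtype P) =
      ((MvPolynomial.eval (fun s => (x s : O C)) P : O C) : C) := by
  rw [MvPolynomial.eval_map]
  exact (MvPolynomial.eval₂_comp_left (O C).subtype (RingHom.id _) (fun s => (x s : O C)) P).symm

lemma trunc_mem_gaugeI {τ : Type*} [Fintype τ] (u : τ → ι → M C)
    (hu : ∀ s, (fun i => ((u s i : O C) : C)) ∈ gaugeI C ρ hρ 1) (H : MvPowerSeries τ (O C))
    (D : ℕ) : (fun i => ((ev (fun s => u s i) H : O C) : C)) -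
      MvPolynomial.aeval (fun s i => ((u s i : O C) : C))
        (MvPolynomial.map (O C).subtype (MvPowerSeries.truncTotal D H)) ∈ gaugeI C ρ hρ D := by
  choose K hK0 hK using hu
  have hS : 0 ≤ ∑ s, K s := Finset.sum_nonneg fun s _ => hK0 s
  refine ⟨(∑ s, K s) ^ D, by positivity, fun i => ?_⟩
  rw [Pi.sub_apply, aeval_pi_apply, eval_map_subtype (fun s => u s i), ← mul_pow]
  refine (norm_ev_sub_trunc (fun s => u s i) H D).trans
    (pow_le_pow_left₀ (norm_nonneg _) ((pi_norm_le_iff_of_nonneg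
      (mul_nonneg hS (hρ i))).2 fun s => ?_) D)
  refine (hK s i).trans ?_
  rw [pow_one]
  exact mul_le_mul_of_nonneg_right (Finset.single_le_sum (fun s _ => hK0 s) (Finset.mem_univ s))
    (hρ i)

/-- An analytic function that is quadratically small is a quadratic polynomial asymptotically. -/
lemma mem_Q2_of_an {τ : Type*} [Fintype τ] (u : τ → ι → M C)
    (hu : ∀ s, (fun i => ((u s i : O C) : C)) ∈ gaugeI C ρ hρ 1) (D : ℕ)
    {φ : (τ → M C) → O C} (hφ : An φ) (hb : ∀ z, ‖φ z‖ ≤ ‖z‖ ^ 2) :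
    (fun i => ((φ (fun s => u s i) : O C) : C)) ∈
      Q2 (gaugeI C ρ hρ) D (fun s i => ((u s i : O C) : C)) := by
  obtain ⟨H, hH⟩ := hφ
  have h2 := ord_of_growth H (j := 2) (K := 1) one_pos (fun z _ => by rw [← hH, one_mul]; exact hb z)
  refine ⟨MvPolynomial.map (O C).subtype (MvPowerSeries.truncTotal D H), ?_, ?_⟩
  · rw [MvPolynomial.mem_pow_idealOfVars_iff']
    intro d hd
    rw [MvPolynomial.coeff_map, MvPowerSeries.coeff_truncTotal_eq_ite, h2 d hd]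
    simp
  · simp only [hH]
    exact trunc_mem_gaugeI u hu H D

end

variable {m h n : ℕ} {θ : ℝ} {𝔽 : FormalGroup (MvPowerSeries (Fin m) (O C))} [𝔽.IsComm]

lemma norm_pow_sub_pow (s : ℕ) (a b : O C) : ‖a ^ p ^ s - b ^ p ^ s‖ = ‖a - b‖ ^ p ^ s := by
  rw [← sub_pow_char_pow, norm_pow]

lemma ev1_versch (hlow : ∀ j < p ^ h, coeff j (mulSeries 𝔽 p) = 0) (k : ℕ) (x : Fin m → M C)
    (a : Pt (fib 𝔽 x)) (η : M C) (hη : (η : O C) = a.v ^ (p ^ h) ^ k) :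
    ev1 η (PowerSeries.map (ev x).toRingHom (contract ((p ^ h) ^ k) (mulSeries 𝔽 (p ^ k)))) =
      (p ^ k • a).v := by
  have hp : p ≠ 0 := (Fact.out : p.Prime).ne_zero
  rw [map_contract, map_mulSeries, ev1_contract (by positivity) _
    (coeff_mulSeries_pow_eq_zero (fib_low hlow x) k) a.val η hη, Pt.nsmul_v]

/-- Second order estimate for the Verschiebung. -/
lemma versch_est (k : ℕ) (x x' : Fin m → M C) (η : M C) :
    ‖ev1 η (PowerSeries.map (ev x').toRingHom (contract ((p ^ h) ^ k) (mulSeries 𝔽 (p ^ k)))) -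
      coeff ((p ^ h) ^ k) (mulSeries (fib 𝔽 x) (p ^ k)) * η‖ ≤
      max (‖η‖ ^ 2) (‖x' - x‖ * ‖η‖) := by
  set V := PowerSeries.map (ev x').toRingHom (contract ((p ^ h) ^ k) (mulSeries 𝔽 (p ^ k)))
    with hV
  have h0 : constantCoeff V = 0 := by
    rw [← coeff_zero_eq_constantCoeff_apply, hV, coeff_map, coeff_contract, mul_zero,
      coeff_zero_eq_constantCoeff_apply, c0_mulSeries, map_zero]
  have h1 := taylor2_one η V
  rw [h0, sub_zero] at h1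
  have h2 : ‖coeff 1 V - coeff ((p ^ h) ^ k) (mulSeries (fib 𝔽 x) (p ^ k))‖ ≤ ‖x' - x‖ := by
    rw [hV, coeff_map, coeff_contract, mul_one, ← map_mulSeries, coeff_map]
    exact norm_ev_sub_ev _ _ _
  have e : ev1 η V - coeff ((p ^ h) ^ k) (mulSeries (fib 𝔽 x) (p ^ k)) * η =
      (ev1 η V - coeff 1 V * η) +
        (coeff 1 V - coeff ((p ^ h) ^ k) (mulSeries (fib 𝔽 x) (p ^ k))) * η := by ring
  rw [e]
  refine (IsUltrametricDist.norm_add_le_max _ _).trans (max_le_max h1 ?_)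
  rw [norm_mul]
  exact mul_le_mul_of_nonneg_right h2 (norm_nonneg _)

/-- First order estimate for `[p ^ (k + 1)]` at a torsion point. -/
lemma torsion_est (hh : 1 ≤ h) (hlow : ∀ j < p ^ h, coeff j (mulSeries 𝔽 p) = 0) (k : ℕ)
    (x δ : Fin m → M C) (t : Pt (fib 𝔽 x)) (ht : p ^ (k + 1) • t = 0) :
    ‖ev1 t.val (PowerSeries.map (ev (x + δ)).toRingHom (mulSeries 𝔽 (p ^ (k + 1)))) -
      ∑ l, ev1 (p ^ k • t).val (dser (mulSeries 𝔽 p) x l) * δ l‖ ≤ ‖δ‖ ^ 2 := by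
  have hp2 : 2 ≤ p := (Fact.out : p.Prime).two_le
  have hQ : 2 ≤ p ^ h := hp2.trans (Nat.le_self_pow (by omega) p)
  let T : Pt (fib 𝔽 (x + δ)) := ⟨t.val⟩
  let T1 : Pt (fib 𝔽 (x + δ)) := ⟨(p ^ k • t).val⟩
  have h1 : ‖(p ^ k • T).v - T1.v‖ ≤ ‖δ‖ := by
    have := norm_ev1_map_sub (mulSeries 𝔽 (p ^ k)) (x + δ) x t.val
    rw [add_sub_cancel_left, ← fib_nsmul_v x (p ^ k) t] at this
    rw [fib_nsmul_v]
    exact this
  have h2 := norm_pow_nsmul_sub_le (fib_low hlow (x + δ)) 1 (p ^ k • T) T1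
  rw [pow_one, pow_one, ← mul_smul, ← pow_succ', fib_nsmul_v, fib_nsmul_v] at h2
  have h3 := taylor_dser (mulSeries 𝔽 p) x δ (p ^ k • t).val
  rw [← fib_nsmul_v x p (p ^ k • t), ← mul_smul, ← pow_succ', ht, Pt.zero_v, sub_zero] at h3
  have h4 : ‖(p ^ k • T).v - T1.v‖ ^ p ^ h ≤ ‖δ‖ ^ 2 :=
    (pow_le_pow_left₀ (norm_nonneg _) h1 _).trans
      (pow_le_pow_of_le_one (norm_nonneg _) (M.pi_norm_lt_one δ).le hQ)
  have := (IsUltrametricDist.norm_add_le_max _ _).trans (max_le (h2.trans h4) h3)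
  rwa [sub_add_sub_cancel] at this

variable {Γ Γ' : FormalGroup (O C)} [Γ.IsComm] [Γ'.IsComm]

/-- The displacement of a torsion point under an element of the stabilizer. -/
lemma displacement {x x' : Fin m → M C} {E : ℝ} (hx : ‖x' - x‖ ≤ E) {w a : PowerSeries (O C)}
    (ha0 : constantCoeff a = 0) (hw : IsHom (fib 𝔽 x) (fib 𝔽 x') w) (N : ℕ)
    (hwg : ∀ j, ‖coeff j w - coeff j (fadd (fib 𝔽 x) X
        ((mulSeries (fib 𝔽 x) N).subst a) : PowerSeries (O C))‖ ≤ E) (t : Pt (fib 𝔽 x)) :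
    ‖((⟨t.val⟩ : Pt (fib 𝔽 x')) - homPt hw t).v -
      (-(N • mapPt (fib 𝔽 x) (fib 𝔽 x) a ha0 t)).v‖ ≤ E := by
  set b := N • mapPt (fib 𝔽 x) (fib 𝔽 x) a ha0 t with hb
  have hbv : b.v = ev1 t.val ((mulSeries (fib 𝔽 x) N).subst a) := by
    rw [hb, Pt.nsmul_v, ev1_subst t.val a ha0 (mapPt (fib 𝔽 x) (fib 𝔽 x) a ha0 t).val rfl]
  have h1 : ‖(homPt hw t).v - (t + b).v‖ ≤ E := by
    rw [← ev1_fadd t.val constantCoeff_X (c0_subst ha0 (c0_mulSeries N)) t b (by simp) hbv,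
      homPt_v, ← map_sub]
    exact norm_ev1_le_of_coeff _ _ fun j => by rw [map_sub]; exact hwg j
  have h2 := Pt.norm_add_left_sub (homPt hw t) ((⟨t.val⟩ : Pt (fib 𝔽 x')) - homPt hw t)
    ⟨(-b).val⟩
  rw [add_sub_cancel] at h2
  have h3 := close_add (G := fib 𝔽 x) (G' := fib 𝔽 x')
    (fun d => (fib_close x x' d).trans ((norm_sub_rev x x').le.trans hx)) (t + b).val (-b).val
  have h4 := Pt.norm_add_add_le (⟨(t + b).val⟩ : Pt (fib 𝔽 x')) (homPt hw t) ⟨(-b).val⟩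
    ⟨(-b).val⟩
  rw [sub_self, norm_zero, max_eq_left (norm_nonneg _), norm_sub_rev (Pt.v _) (homPt hw t).v]
    at h4
  have h5 : ((⟨(t + b).val⟩ + ⟨(-b).val⟩ : Pt (fib 𝔽 x))).v = t.v := by
    change (t + b + -b).v = t.v
    rw [add_neg_cancel_right]
  rw [h5] at h3
  have := (IsUltrametricDist.norm_add_le_max _ _).trans (max_le h3 (h4.trans h1))
  rw [sub_add_sub_cancel] at this
  exact h2.symm.le.trans this

/-- The canonical coordinate of an orbit point. -/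
lemma coord_est {G : FormalGroup (O C)} [G.IsComm] (hN : Near p h n θ Γ G) (Λ : Pt Γ →+ Pt G)
    (hΛ : ∀ s, ‖(Λ s).v - s.v‖ ≤ θ) {ψ : PowerSeries (O C)} (hψ : IsHom G Γ' ψ)
    (hp : mulSeries Γ' p = X ^ p ^ h) {a : PowerSeries (O C)} (ha : IsHom Γ Γ a) (k N : ℕ)
    (s : Pt Γ) (d η : M C) (hη : (η : O C) = (d : O C) ^ (p ^ h) ^ k)
    (hd : ‖(d : O C) - (-(p ^ N • mapPt G G a ha.1 (Λ s))).v‖ ≤ θ ^ (p ^ h) ^ N) :
    ‖ev1 η (PowerSeries.map (iterateFrobenius (O C) p (h * k)) ψ) -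
      (-(homPt hψ (Λ (homPt ha (p ^ k • s))))).v ^ (p ^ h) ^ N‖ ≤
      (θ ^ (p ^ h) ^ N) ^ (p ^ h) ^ k := by
  set u := mapPt G G a ha.1 (Λ s) with hu
  have e1 : ev1 η (PowerSeries.map (iterateFrobenius (O C) p (h * k)) ψ) =
      ev1 d ψ ^ (p ^ h) ^ k := by
    rw [ev1_map_hom _ d η (by rw [hη, iterateFrobenius_def, pow_mul]), iterateFrobenius_def,
      pow_mul]
  have h1 : ‖ev1 d ψ ^ (p ^ h) ^ k - (homPt hψ (-(p ^ N • u))).v ^ (p ^ h) ^ k‖ ≤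
      (θ ^ (p ^ h) ^ N) ^ (p ^ h) ^ k := by
    rw [← pow_mul p h k, norm_pow_sub_pow]
    exact pow_le_pow_left₀ (norm_nonneg _) ((norm_ev1_sub_ev1 _ _ _).trans hd) _
  have e2 : (homPt hψ (-(p ^ N • u))).v ^ (p ^ h) ^ k =
      (-(homPt hψ (p ^ k • u))).v ^ (p ^ h) ^ N := by
    rw [← Pt.pow_nsmul_v hp, ← Pt.pow_nsmul_v hp, map_neg, map_nsmul, map_nsmul, smul_neg,
      smul_neg, smul_comm]
  have h2 : ‖u.v - (Λ (homPt ha s)).v‖ ≤ θ := by
    have h3 : ‖u.v - (homPt ha s).v‖ ≤ θ := (norm_ev1_sub_ev1 _ _ _).trans (hΛ s)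
    have h4 := hΛ (homPt ha s)
    rw [norm_sub_rev] at h4
    have := (IsUltrametricDist.norm_add_le_max _ _).trans (max_le h3 h4)
    rwa [sub_add_sub_cancel] at this
  have h3 : ‖(-(homPt hψ (p ^ k • u))).v ^ (p ^ h) ^ N -
      (-(homPt hψ (Λ (homPt ha (p ^ k • s))))).v ^ (p ^ h) ^ N‖ ≤
      (θ ^ (p ^ h) ^ N) ^ (p ^ h) ^ k := by
    rw [← pow_mul θ, mul_comm, pow_mul θ, ← pow_mul p h N, norm_pow_sub_pow, Pt.norm_neg_sub_neg]
    refine pow_le_pow_left₀ (norm_nonneg _) (((rep_homPt hψ).norm_sub_le _ _).trans ?_) _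
    rw [map_nsmul, map_nsmul]
    exact (norm_pow_nsmul_sub_le hN.low k _ _).trans (pow_le_pow_left₀ (norm_nonneg _) h2 _)
  rw [e2] at h1
  have := (IsUltrametricDist.norm_add_le_max _ _).trans (max_le h1 h3)
  rwa [sub_add_sub_cancel, ← e1] at this

/-- Solving `v η = O(ρ) + O(η ^ 2)`. -/
lemma exists_eta_bound {v : O C} (hv : v ≠ 0) {θ θ₁ : ℝ} (hθ : 0 < θ) (hθ1 : θ ≤ θ₁)
    (hθ₁ : θ₁ < 1) {Q : ℕ} (hQ : 2 ≤ Q) : ∃ K : ℝ, 0 ≤ K ∧ ∀ (N : ℕ) (η : M C),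
      ‖η‖ ≤ θ₁ ^ Q ^ N → ‖v * η‖ ≤ max (θ ^ Q ^ N) (θ₁ ^ Q ^ N * ‖η‖) →
      ‖η‖ ≤ K * θ ^ Q ^ N := by
  have hv0 : 0 < ‖v‖ := norm_pos_iff.2 hv
  have hθ₁0 : 0 < θ₁ := hθ.trans_le hθ1
  obtain ⟨N0, hN0⟩ := exists_pow_lt_of_lt_one hv0 hθ₁
  refine ⟨max ‖v‖⁻¹ (θ ^ Q ^ N0)⁻¹, by positivity, fun N η _ h2 => ?_⟩
  rcases le_or_gt N0 N with hN | hN
  · have h3 : θ₁ ^ Q ^ N < ‖v‖ := (pow_le_pow_of_le_one hθ₁0.le hθ₁.le
      (hN.trans (Nat.lt_pow_self hQ).le)).trans_lt hN0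
    rw [norm_mul, M.norm_coe] at h2
    have h4 : ‖v‖ * ‖η‖ ≤ θ ^ Q ^ N := by
      rcases le_max_iff.1 h2 with h | h
      · exact h
      · have : ‖η‖ ≤ 0 := by
          by_contra hc
          exact absurd h (not_le.2 (mul_lt_mul_of_pos_right h3 (not_le.1 hc)))
        rw [le_antisymm this (norm_nonneg _), mul_zero]
        positivity
    calc ‖η‖ = ‖v‖⁻¹ * (‖v‖ * ‖η‖) := by field_simp
      _ ≤ _ := mul_le_mul (le_max_left _ _) h4 (by positivity) (by positivity)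
  · have h3 : θ ^ Q ^ N0 ≤ θ ^ Q ^ N := pow_le_pow_of_le_one hθ.le (hθ1.trans hθ₁.le)
      (Nat.pow_le_pow_right (by omega) hN.le)
    calc ‖η‖ ≤ 1 := (M.norm_lt_one η).le
      _ = (θ ^ Q ^ N0)⁻¹ * θ ^ Q ^ N0 := by field_simp
      _ ≤ _ := mul_le_mul (le_max_right _ _) h3 (by positivity) (by positivity)

end Vale.Agent.P217.D
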