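import Vale.Agent.P217.DPt

/-!
# P217: consequences of the action of the roots of unity
-/

set_option linter.unusedSectionVars false

noncomputable section

namespace Vale.Agent.P217.D

variable {C : Type} [NontriviallyNormedField C] [IsUltrametricDist C] [CompleteSpace C]
  [IsAlgClosed C] {p : ℕ} [Fact p.Prime] [CharP C p]

open PowerSeries

variable {Γ : FormalGroup (O C)} [Γ.IsComm] {n : ℕ}

lemma typ_ev_smul {σ : Type*} [Finite σ] (c : O C) (x : σ → M C) (f : MvPowerSeries σ (O C)) :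
    ev (fun s => c • x s) f = ev x (MvPowerSeries.rescale (fun _ => c) f) := by
  refine (hasSum_ev _ f).unique ?_
  convert hasSum_ev x (MvPowerSeries.rescale (fun _ => c) f) using 2 with d
  rw [MvPowerSeries.coeff_rescale, mul_comm (d.prod _), mul_assoc, ← Finsupp.prod_mul]
  congr 1
  refine Finset.prod_congr rfl fun s _ => ?_
  change (c * (x s : O C)) ^ _ = _
  rw [mul_pow]

lemma typ_not_dvd (hn : 1 ≤ n) : ¬ p ∣ p ^ n - 1 := by
  intro h
  have hp : p.Prime := Fact.out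
  have h1 : p ∣ p ^ n := dvd_pow_self p (by omega)
  have h2 : 1 ≤ p ^ n := Nat.one_le_pow _ _ hp.pos
  have h3 : p ∣ p ^ n - (p ^ n - 1) := Nat.dvd_sub h1 h
  rw [show p ^ n - (p ^ n - 1) = 1 by omega] at h3
  exact hp.one_lt.ne' (Nat.dvd_one.1 h3)

lemma typ_pow_eq {ζ : O C} (hζ : IsPrimitiveRoot ζ (p ^ n - 1)) (u : ℕ) :
    (ζ ^ u) ^ p ^ n = ζ ^ u := by
  have hp : p.Prime := Fact.out
  have h2 : 1 ≤ p ^ n := Nat.one_le_pow _ _ hp.pos
  rw [← pow_mul, mul_comm, pow_mul, show p ^ n = (p ^ n - 1) + 1 by omega, pow_succ,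
    hζ.pow_eq_one, one_mul]

theorem add_approx (hn : 1 ≤ n)
    (hζ : ∀ c : O C, c ^ p ^ n = c → IsHom Γ Γ (PowerSeries.C c * X)) (a b : Pt Γ) :
    ‖(a + b).v - a.v - b.v‖ ≤ max ‖a.v‖ ‖b.v‖ ^ p ^ n := by
  classical
  obtain ⟨ζ, hz⟩ := exists_primitiveRoot_O (C := C) (typ_not_dvd (p := p) hn)
  have hw := hζ ζ (by simpa using typ_pow_eq hz 1)
  have h1 : MvPowerSeries.C ζ * Γ.toPowerSeries =
      MvPowerSeries.rescale (fun _ => ζ) Γ.toPowerSeries := by
    refine ident_eq fun x => ?_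
    have e := congrArg Pt.v (map_add (homPt hw) ⟨x 0⟩ ⟨x 1⟩)
    rw [homPt_v, map_mul, ev1_C, ev1_X, Pt.add_v] at e
    have hx : ![x 0, x 1] = x := by ext1 s; fin_cases s <;> rfl
    have hy : ![(homPt hw ⟨x 0⟩).val, (homPt hw ⟨x 1⟩).val] = fun s => ζ • x s := by
      have : ∀ t : M C, (homPt hw ⟨t⟩).val = ζ • t := fun t => Subtype.ext (by
        refine (homPt_v hw ⟨t⟩).trans ?_
        rw [map_mul, ev1_C, ev1_X]
        rfl)
      ext1 s
      fin_cases s
      · exact this _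
      · exact this _
    rw [hy, typ_ev_smul] at e
    rw [← e, map_mul, ev_C]
    congr 1
    conv_lhs => rw [← hx]
    rfl
  have h2 : ∀ d : Fin 2 →₀ ℕ, d.degree < p ^ n → MvPowerSeries.coeff d
      (Γ.toPowerSeries - MvPowerSeries.X 0 - MvPowerSeries.X 1) = 0 := by
    intro d hd
    rw [map_sub, map_sub, MvPowerSeries.coeff_X, MvPowerSeries.coeff_X]
    rcases Nat.lt_trichotomy d.degree 1 with h | h | h
    · obtain rfl : d = 0 := by simpa [Finsupp.degree_eq_zero_iff] using h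
      rw [if_neg (by simp [eq_comm (a := (0 : Fin 2 →₀ ℕ))]),
        if_neg (by simp [eq_comm (a := (0 : Fin 2 →₀ ℕ))])]
      simpa using Γ.zero_constantCoeff
    · obtain ⟨s, rfl⟩ := (Finsupp.sum_eq_one_iff d).1 h
      fin_cases s
      · simp [Γ.lin_coeff_X, Finsupp.single_left_inj]
      · simp [Γ.lin_coeff_Y, Finsupp.single_left_inj]
    · rw [if_neg (by rintro rfl; simp at h), if_neg (by rintro rfl; simp at h), sub_zero, sub_zero]
      have e := congrArg (MvPowerSeries.coeff d) h1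
      rw [MvPowerSeries.coeff_C_mul, MvPowerSeries.coeff_rescale, Finsupp.prod,
        Finset.prod_pow_eq_pow_sum, ← Finsupp.degree_apply] at e
      by_contra h0
      have e2 : ζ = ζ ^ d.degree := mul_right_cancel₀ h0 e
      have hz0 : ζ ≠ 0 := hz.ne_zero (by omega)
      have e3 : ζ ^ (d.degree - 1) = 1 := by
        refine mul_right_cancel₀ hz0 ?_
        rw [← pow_succ, one_mul, show d.degree - 1 + 1 = d.degree by omega, ← e2]
      exact hz.pow_ne_one_of_pos_of_lt (by omega) (by omega) e3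
  have h3 := norm_ev_le_pow ![a.val, b.val] _ (r := max ‖a.v‖ ‖b.v‖) (by positivity)
    (max_le a.norm_lt_one.le b.norm_lt_one.le) (fun s => by
      fin_cases s
      · exact le_max_left _ _
      · exact le_max_right _ _) h2
  rw [map_sub, map_sub, ev_X, ev_X] at h3
  exact h3

lemma typ_modEq (hn : 1 ≤ n) {ι i : ℕ} (hι : ι < n) (h : p ^ n - 1 ∣ p ^ n - 1 - p ^ ι + p ^ i) :
    ∃ a, p ^ (ι + n * a) = p ^ i := by
  have hp : p.Prime := Fact.out
  have hlt : ∀ r < n, p ^ r ≤ p ^ n - 1 := fun r hr => by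
    have := Nat.pow_lt_pow_right hp.one_lt hr
    omega
  have h1 : 1 ≡ p ^ n [MOD p ^ n - 1] :=
    (Nat.modEq_iff_dvd' (Nat.one_le_pow _ _ hp.pos)).2 dvd_rfl
  have h2 : p ^ (i % n) ≡ p ^ i [MOD p ^ n - 1] := by
    have := (Nat.ModEq.refl (n := p ^ n - 1) (p ^ (i % n))).mul (h1.pow (i / n))
    rwa [one_pow, mul_one, ← pow_mul, ← pow_add, Nat.mod_add_div] at this
  have h3 : p ^ n - 1 ∣ p ^ n - 1 - p ^ ι + p ^ (i % n) :=
    (((Nat.ModEq.refl _).add h2).dvd_iff dvd_rfl).2 h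
  have h4 := hlt ι hι
  have h5 := hlt (i % n) (Nat.mod_lt _ (by omega))
  have h6 : 0 < p ^ ι := pow_pos hp.pos _
  have h7 : 0 < p ^ (i % n) := pow_pos hp.pos _
  obtain ⟨c, hc⟩ := h3
  have h8 : c = 1 := by
    rcases c with _ | _ | c
    · omega
    · rfl
    · exfalso
      have : (p ^ n - 1) * (c + 1 + 1) = (p ^ n - 1) * c + (p ^ n - 1) + (p ^ n - 1) := by ring
      omega
  subst h8
  have h9 : p ^ (i % n) = p ^ ι := by omega
  have h10 := Nat.pow_right_injective hp.two_le h9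
  exact ⟨i / n, by rw [← h10, Nat.mod_add_div]⟩

lemma typ_geom {N : ℕ} {ζ : O C} (hz : IsPrimitiveRoot ζ N) (k : ℕ) :
    ∑ u ∈ Finset.range N, (ζ ^ u) ^ k = if N ∣ k then (N : O C) else 0 := by
  have e : ∀ u, (ζ ^ u) ^ k = (ζ ^ k) ^ u := fun u => by rw [← pow_mul, mul_comm, pow_mul]
  simp only [e]
  split_ifs with h
  · simp [(hz.pow_eq_one_iff_dvd k).2 h]
  · have h1 : ζ ^ k - 1 ≠ 0 := sub_ne_zero.2 (mt (hz.pow_eq_one_iff_dvd k).1 h)
    refine mul_right_cancel₀ h1 ?_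
    rw [geom_sum_mul, ← pow_mul, mul_comm, pow_mul, hz.pow_eq_one, one_pow, sub_self, zero_mul]

lemma typ_sep1 (hn : 1 ≤ n) {ζ : O C} (hz : IsPrimitiveRoot ζ (p ^ n - 1))
    (φ : PowerSeries (O C)) (x : M C) {B : ℝ} (hB0 : 0 ≤ B)
    (hnp : ∀ d, (¬ ∃ i, d = p ^ i) → ‖coeff d φ‖ * ‖x‖ ^ d ≤ B) (ι : ℕ) (hι : ι < n) :
    ‖∑ u ∈ Finset.range (p ^ n - 1), (ζ ^ u) ^ (p ^ n - 1 - p ^ ι) * ev1 (ζ ^ u • x) φ +
      ∑' a : ℕ, coeff (p ^ (ι + n * a)) φ * (x : O C) ^ p ^ (ι + n * a)‖ ≤ B := by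
  classical
  have hp : p.Prime := Fact.out
  set f : ℕ → O C := fun d => coeff d φ * (x : O C) ^ d with hf
  set g : ℕ → ℕ := fun a => p ^ (ι + n * a) with hg
  have hgi : Function.Injective g := fun a b hab => by
    have := Nat.pow_right_injective hp.two_le hab
    have h2 : n * a = n * b := by omega
    exact Nat.eq_of_mul_eq_mul_left (by omega) h2
  have h1 : HasSum (fun d => f d * ∑ u ∈ Finset.range (p ^ n - 1),
      (ζ ^ u) ^ (p ^ n - 1 - p ^ ι + d))
      (∑ u ∈ Finset.range (p ^ n - 1), (ζ ^ u) ^ (p ^ n - 1 - p ^ ι) * ev1 (ζ ^ u • x) φ) := by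
    simp only [Finset.mul_sum]
    refine hasSum_sum fun u _ => ?_
    have e : (fun d => f d * (ζ ^ u) ^ (p ^ n - 1 - p ^ ι + d)) = fun d =>
        (ζ ^ u) ^ (p ^ n - 1 - p ^ ι) * (coeff d φ * ((ζ ^ u • x : M C) : O C) ^ d) := by
      ext1 d
      change _ = _ * (_ * (ζ ^ u * (x : O C)) ^ d)
      rw [hf, pow_add, mul_pow]
      ring
    rw [e]
    exact (hasSum_ev1 (ζ ^ u • x) φ).mul_left _
  have h2 : HasSum (fun d => if d ∈ Set.range g then f d else 0) (∑' a, f (g a)) := by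
    rw [← hgi.hasSum_iff (fun d hd => if_neg hd)]
    have e : (fun d => if d ∈ Set.range g then f d else 0) ∘ g = f ∘ g :=
      funext fun a => if_pos ⟨a, rfl⟩
    rw [e]
    exact ((hasSum_ev1 x φ).summable.comp_injective hgi).hasSum
  have h3 := (h1.add h2).tsum_eq
  refine le_of_eq_of_le (congrArg norm h3.symm) ?_
  refine IsUltrametricDist.norm_tsum_le_of_forall_le_of_nonneg hB0 fun d => ?_
  rw [typ_geom hz]
  have hq : ((p ^ n - 1 : ℕ) : O C) = -1 := by
    rw [Nat.cast_sub (Nat.one_le_pow _ _ hp.pos), Nat.cast_pow, CharP.cast_eq_zero,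
      zero_pow (by omega), Nat.cast_one, zero_sub]
  by_cases hd : d ∈ Set.range g
  · obtain ⟨a, rfl⟩ := hd
    have hle : p ^ ι ≤ p ^ n - 1 := by
      have := Nat.pow_lt_pow_right hp.one_lt hι
      omega
    have hdv : p ^ n - 1 ∣ p ^ n - 1 - p ^ ι + g a := by
      have e1 : 1 ≡ p ^ n [MOD p ^ n - 1] :=
        (Nat.modEq_iff_dvd' (Nat.one_le_pow _ _ hp.pos)).2 dvd_rfl
      have e2 := (Nat.ModEq.refl (n := p ^ n - 1) (p ^ ι)).mul (e1.pow a)
      rw [one_pow, mul_one, ← pow_mul, ← pow_add] at e2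
      refine (((Nat.ModEq.refl (p ^ n - 1 - p ^ ι)).add e2).dvd_iff dvd_rfl).1 ?_
      rw [Nat.sub_add_cancel hle]
    rw [if_pos hdv, if_pos ⟨a, rfl⟩, hq, mul_neg_one, neg_add_cancel, norm_zero]
    exact hB0
  · rw [if_neg hd, add_zero]
    split_ifs with h
    · rw [hq, mul_neg_one, norm_neg, hf]
      simp only [norm_mul, norm_pow]
      refine hnp d ?_
      rintro ⟨i, rfl⟩
      exact hd (typ_modEq hn hι h)
    · rw [mul_zero, norm_zero]
      exact hB0

variable {m : ℕ}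

/-- Separation of the classes of exponents modulo `n` by roots of unity. -/
theorem sep (hn : 1 ≤ n) (φ : Fin m → PowerSeries (O C)) (x : Fin m → M C) {B : ℝ} (hB0 : 0 ≤ B)
    (hnp : ∀ l d, (¬ ∃ i, d = p ^ i) → ‖coeff d (φ l)‖ * ‖x l‖ ^ d ≤ B)
    (H : ∀ ζ : O C, ζ ^ p ^ n = ζ → ‖∑ l, ev1 (ζ • x l) (φ l)‖ ≤ B) (ι : ℕ) (hι : ι < n) :
    ‖∑ l, ∑' a : ℕ, ((coeff (p ^ (ι + n * a)) (φ l) : O C) : C) *
      ((x l : O C) : C) ^ p ^ (ι + n * a)‖ ≤ B := by
  have hp : p.Prime := Fact.out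
  obtain ⟨ζ, hz⟩ := exists_primitiveRoot_O (C := C) (typ_not_dvd (p := p) hn)
  set T : Fin m → O C := fun l =>
    ∑' a : ℕ, coeff (p ^ (ι + n * a)) (φ l) * (x l : O C) ^ p ^ (ι + n * a) with hT
  set S : Fin m → O C := fun l => ∑ u ∈ Finset.range (p ^ n - 1),
    (ζ ^ u) ^ (p ^ n - 1 - p ^ ι) * ev1 (ζ ^ u • x l) (φ l) with hS
  have h1 : ∀ l, ‖S l + T l‖ ≤ B := fun l => typ_sep1 hn hz (φ l) (x l) hB0 (hnp l) ι hι
  have h2 : ‖∑ l, S l‖ ≤ B := by
    rw [hS, Finset.sum_comm]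
    refine IsUltrametricDist.norm_sum_le_of_forall_le_of_nonneg hB0 fun u _ => ?_
    rw [← Finset.mul_sum, norm_mul]
    exact (mul_le_of_le_one_left (norm_nonneg _) (O.norm_le_one _)).trans (H _ (typ_pow_eq hz u))
  have h3 : ‖∑ l, T l‖ ≤ B := by
    have e : ∑ l, T l = ∑ l, (S l + T l) - ∑ l, S l := by
      rw [Finset.sum_add_distrib]; ring
    rw [e]
    exact (norm_sub_le_max _ _).trans (max_le
      (IsUltrametricDist.norm_sum_le_of_forall_le_of_nonneg hB0 fun l _ => h1 l) h2)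
  have h4 : ∀ l, ((T l : O C) : C) = ∑' a : ℕ, ((coeff (p ^ (ι + n * a)) (φ l) : O C) : C) *
      ((x l : O C) : C) ^ p ^ (ι + n * a) := fun l => by
    have hgi : Function.Injective fun a => p ^ (ι + n * a) := fun a b hab => by
      have := Nat.pow_right_injective hp.two_le hab
      have h2 : n * a = n * b := by omega
      exact Nat.eq_of_mul_eq_mul_left (by omega) h2
    have := (((hasSum_ev1 (x l) (φ l)).summable.comp_injective hgi).hasSum.map
      (O C).subtype continuous_subtype_val).tsum_eq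
    exact this.symm
  simp only [← h4]
  rw [← AddSubmonoidClass.coe_finset_sum]
  exact h3

end Vale.Agent.P217.D
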