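import Mathlib

/-! P217: a one dimensional local domain has a point in a complete algebraically closed valued field.
PLAN.
* `isAlgClosed_of_dense`: as in Mathlib's `IsAlgClosed.of_denseRange` (file Analysis/Normed/Field/Dense) but
  without Krasner: `a` a root of the monic irreducible `f` in the splitting field `F` (spectral norm); for
  every `ε` there is `b` in the image of `L` with `‖a - b‖ < ε`
  (`exists_monic_and_natDegree_eq_and_norm_map_algebraMap_coeff_sub_lt`,
  `exists_aroots_norm_sub_lt_of_norm_coeff_sub_lt`, roots of `g` lie in `K`); the image of the complete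
  field `L` is closed (`Isometry.isClosedEmbedding`), so `a` comes from `L`.
* `exists_normed`: `K = AlgebraicClosure (FractionRing (R ⧸ P))`, `ι : R →+* K` with kernel `P`.
  `IsLocalRing.exists_factor_valuationRing` (applied to `R ⧸ P → K`) gives a valuation subring `V`
  dominating the image.  `Q = radical (span {ι u})` in `V` is prime (ideals of a valuation ring are
  totally ordered) and `V' = V.ofPrime Q`.  Every nonzero `x ∈ V` divides a power of `ι u` in `V`
  (`x` is a root of a polynomial over `R ⧸ P` with nonzero constant term `a0`, so `x ∣ a0 ∣ u^j`).  Every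
  nonunit `y` of `V'` lies in `Q`, so `ι u ∣ y^N`.  Hence the value group of `V'` is `MulArchimedean`
  and `Valuation.nonempty_rankOne_iff_mulArchimedean` gives a rank one valuation; `Valued.mk'`,
  `Valued.toNormedField` (or build an `AbsoluteValue` from `RankOne.hom` and use
  `AbsoluteValue.toNormedField`).  `maximalIdeal ^ L ≤ P ⊔ (u)` gives `ι m ⊆ Q`.
* `exists_point`: `C = UniformSpace.Completion K` (normed field instance from
  `NormedField.instCompletableTopField`); ultrametric by density (`Completion.induction_on₂/₃`),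
  nontrivially normed because `0 < ‖u‖ < 1`. -/

namespace Vale.Agent.P217

open IsLocalRing

theorem isAlgClosed_of_dense {K L : Type*} [Field K] [NontriviallyNormedField L]
    [CompleteSpace L] [IsUltrametricDist L] [Algebra K L]
    (hi : DenseRange (algebraMap K L)) [IsAlgClosed K] : IsAlgClosed L := by
  apply IsAlgClosed.of_exists_root
  intro f fmon firr
  have fnatdeg0 : f.natDegree ≠ 0 := (Irreducible.natDegree_pos firr).ne'
  let F := f.SplittingField
  let : NormedField F := spectralNorm.normedField L F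
  let : NormedAlgebra L F := spectralNorm.normedAlgebra L F
  let a := Polynomial.rootOfSplits (Polynomial.SplittingField.splits f)
      (by simpa using Polynomial.degree_ne_of_natDegree_ne fnatdeg0)
  have fa0 : f.aeval a = 0 := by
    rw [← Polynomial.eval_map_algebraMap]
    exact Polynomial.eval_rootOfSplits (Polynomial.SplittingField.splits f)
      (by simpa using Polynomial.degree_ne_of_natDegree_ne fnatdeg0)
  have hcl : IsClosed (Set.range (algebraMap L F)) :=
    (algebraMap_isometry L F).isClosedEmbedding.isClosed_range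
  have ha : a ∈ Set.range (algebraMap L F) := by
    rw [← hcl.closure_eq, Metric.mem_closure_iff]
    intro δ δpos
    have hε : (δ / (max ‖a‖ 1)) ^ f.natDegree / (f.natDegree + 1) > 0 := by positivity
    obtain ⟨g, gmon, gdeg, gcoeff⟩ :=
      Polynomial.exists_monic_and_natDegree_eq_and_norm_map_algebraMap_coeff_sub_lt hi fmon hε
    obtain ⟨b, hb, hab⟩ := Polynomial.exists_aroots_norm_sub_lt_of_norm_coeff_sub_lt
      hε fa0 fmon (gmon.map _) (gdeg ▸ (g.natDegree_map _)) gcoeff
      (by simpa [Polynomial.map_map] using (IsAlgClosed.splits g).map ((algebraMap L F).comp _))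
    have hab : ‖a - b‖ < δ := by
      rw [← Real.rpow_natCast, ← mul_comm_div, div_self, one_mul,
        ← Real.rpow_mul (div_pos δpos (by positivity)).le, mul_inv_cancel₀] at hab
      · simpa [mul_assoc, div_mul_cancel₀ _ (by positivity : (max ‖a‖ 1) > 0).ne'] using hab
      · simp [fnatdeg0]
      · positivity
    rw [Polynomial.aroots_def, Polynomial.Splits.roots_map ((IsAlgClosed.splits g).map _),
      Multiset.mem_map] at hb
    obtain ⟨c, -, hc⟩ := hb
    exact ⟨b, ⟨c, hc⟩, by rwa [dist_eq_norm]⟩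
  obtain ⟨c, hc⟩ := ha
  refine ⟨c, (algebraMap L F).injective ?_⟩
  rwa [← Polynomial.aeval_algebraMap_apply_eq_algebraMap_eval, hc, map_zero]

/-- The rank one coarsening of a valuation ring along an element `t`. -/
def rpointCoarse {K : Type*} [Field K] (V : ValuationSubring K) (t : K)
    (ht : V.valuation t ≤ 1) : ValuationSubring K where
  carrier := {x | ∀ N : ℕ, V.valuation x ^ N * V.valuation t ≤ 1}
  mul_mem' := fun {x y} hx hy N => by
    have h1 := mul_le_one' (hx (N * 2)) (hy (N * 2))
    rw [← pow_le_one_iff two_ne_zero, map_mul, mul_pow, mul_pow, mul_pow, ← pow_mul, ← pow_mul]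
    refine le_trans (le_of_eq ?_) h1
    rw [pow_two]
    ac_rfl
  one_mem' := fun N => by simpa using ht
  add_mem' := fun {x y} hx hy N => by
    rcases le_max_iff.1 (V.valuation.map_add x y) with h | h
    · exact (mul_le_mul_left (pow_le_pow_left' h N) _).trans (hx N)
    · exact (mul_le_mul_left (pow_le_pow_left' h N) _).trans (hy N)
  zero_mem' := fun N => mul_le_one' (pow_le_one' (by simp) N) ht
  neg_mem' := fun {x} hx N => by simpa using hx N
  mem_or_inv_mem' := fun x => (V.mem_or_inv_mem x).imp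
    (fun h N => mul_le_one' (pow_le_one' ((V.valuation_le_one_iff _).2 h) N) ht)
    (fun h N => mul_le_one' (pow_le_one' ((V.valuation_le_one_iff _).2 h) N) ht)

theorem rpoint_normed {K : Type} [Field K] (V : ValuationSubring K) {t : K} (ht0 : t ≠ 0)
    (ht : V.valuation t < 1) (harch : ∀ x ∈ V, x ≠ 0 → ∃ j : ℕ, V.valuation t ^ j ≤ V.valuation x) :
    ∃ v : AbsoluteValue K ℝ, IsNonarchimedean v ∧ (∀ x ∈ V, v x ≤ 1) ∧ v t < 1 := by
  let W := rpointCoarse V t ht.le
  have hVW : ∀ x ∈ V, x ∈ W := fun x h N =>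
    mul_le_one' (pow_le_one' ((V.valuation_le_one_iff _).2 h) N) ht.le
  have hmono : ∀ x y, V.valuation x ≤ V.valuation y → W.valuation x ≤ W.valuation y := by
    intro x y h
    obtain ⟨a, ha⟩ := (V.valuation_le_iff x y).1 h
    exact (W.valuation_le_iff x y).2 ⟨⟨a, hVW a a.2⟩, ha⟩
  have hv0 : V.valuation t ≠ 0 := (map_ne_zero _).2 ht0
  have hWt : W.valuation t < 1 := by
    by_contra h
    have h1 : t⁻¹ ∈ W := by
      rw [← W.valuation_le_one_iff, map_inv₀]
      exact inv_le_one_of_one_le₀ (not_lt.1 h)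
    have h2 := h1 2
    rw [map_inv₀, pow_two, mul_assoc, inv_mul_cancel₀ hv0, mul_one,
      inv_le_one₀ (zero_lt_iff.2 hv0)] at h2
    exact absurd ht (not_lt.2 h2)
  have hA : MulArchimedean W.ValueGroup := ⟨fun x y hy => by
    obtain ⟨a, rfl⟩ := W.valuation_surjective x
    obtain ⟨b, rfl⟩ := W.valuation_surjective y
    have h1 : b ∉ W := fun h => absurd ((W.valuation_le_one_iff b).2 h) (not_le.2 hy)
    obtain ⟨N, hN⟩ : ∃ N : ℕ, 1 < V.valuation b ^ N * V.valuation t := by
      by_contra h
      exact h1 fun N => not_lt.1 fun h' => h ⟨N, h'⟩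
    obtain ⟨j, hj⟩ : ∃ j : ℕ, V.valuation a * V.valuation t ^ j ≤ 1 := by
      by_cases ha : a ∈ V
      · exact ⟨0, by simpa using (V.valuation_le_one_iff a).2 ha⟩
      · have ha0 : a ≠ 0 := fun h => ha (h ▸ V.zero_mem)
        obtain ⟨j, hj⟩ := harch _ ((V.mem_or_inv_mem a).resolve_left ha) (inv_ne_zero ha0)
        refine ⟨j, (mul_le_mul_right hj _).trans_eq ?_⟩
        rw [← map_mul, mul_inv_cancel₀ ha0, map_one]
    refine ⟨N * j, ?_⟩
    rw [← map_pow]
    refine hmono _ _ ?_
    calc V.valuation a ≤ V.valuation a * (V.valuation b ^ N * V.valuation t) ^ j :=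
          le_mul_of_one_le_right' (one_le_pow_of_one_le' hN.le j)
      _ = V.valuation (b ^ (N * j)) * (V.valuation a * V.valuation t ^ j) := by
          rw [map_pow, mul_pow, ← pow_mul, mul_left_comm]
      _ ≤ _ := mul_le_of_le_one_right' hj⟩
  have : W.valuation.IsNontrivial := ⟨t, (map_ne_zero _).2 ht0, hWt.ne⟩
  obtain ⟨hr⟩ := (Valuation.nonempty_rankOne_iff_mulArchimedean (v := W.valuation)).2
    (MulArchimedean.comap MonoidWithZeroHom.ValueGroup₀.embedding.toMonoidHom
      MonoidWithZeroHom.ValueGroup₀.embedding_strictMono)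
  let : Valued K W.ValueGroup := Valued.mk' W.valuation
  let : (Valued.v : Valuation K W.ValueGroup).RankOne := hr
  let : NormedField K := Valued.toNormedField K W.ValueGroup
  refine ⟨NormedField.toAbsoluteValue K, Valued.isNonarchimedean_norm K W.ValueGroup,
    fun x hx => ?_, ?_⟩
  · exact Valued.toNormedField.norm_le_one_iff.2 ((W.valuation_le_one_iff x).2 (hVW x hx))
  · exact Valued.toNormedField.norm_lt_one_iff.2 hWt

theorem exists_normed {R : Type} [CommRing R] [IsLocalRing R] {P : Ideal R} (hP : P.IsPrime)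
    {u : R} (hu : u ∉ P) (hum : u ∈ maximalIdeal R)
    (hdiv : ∀ x, x ∉ P → ∃ j : ℕ, u ^ j ∈ P ⊔ Ideal.span {x}) {L : ℕ}
    (hL : maximalIdeal R ^ L ≤ P ⊔ Ideal.span {u}) :
    ∃ (K : Type) (_ : NormedField K) (_ : IsUltrametricDist K) (_ : IsAlgClosed K) (z : R →+* K),
      (∀ f, ‖z f‖ ≤ 1) ∧ (∀ f ∈ maximalIdeal R, ‖z f‖ < 1) ∧ (∀ f ∈ P, z f = 0) ∧ z u ≠ 0 := by
  let K := AlgebraicClosure (FractionRing (R ⧸ P))
  let z : R →+* K := (algebraMap (R ⧸ P) K).comp (Ideal.Quotient.mk P)
  have hinj : Function.Injective (algebraMap (R ⧸ P) K) := by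
    rw [IsScalarTower.algebraMap_eq (R ⧸ P) (FractionRing (R ⧸ P)) K]
    exact (algebraMap (FractionRing (R ⧸ P)) K).injective.comp (IsFractionRing.injective _ _)
  have hz : ∀ f, z f = 0 ↔ f ∈ P := fun f => by
    rw [← Ideal.Quotient.eq_zero_iff_mem]
    exact map_eq_zero_iff _ hinj
  have : Algebra.IsAlgebraic (R ⧸ P) K :=
    (IsFractionRing.comap_isAlgebraic_iff (K := FractionRing (R ⧸ P))).2 inferInstance
  have : Nontrivial (R ⧸ P) := inferInstance
  have : IsLocalRing (R ⧸ P) := IsLocalRing.of_surjective' _ Ideal.Quotient.mk_surjective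
  obtain ⟨V, hV, hloc⟩ := IsLocalRing.exists_factor_valuationRing (algebraMap (R ⧸ P) K)
  have hzV : ∀ f, V.valuation (z f) ≤ 1 := fun f => (V.valuation_le_one_iff _).2 (hV _)
  have hsup : ∀ {x y : R}, y ∈ P ⊔ Ideal.span {x} → ∃ r, z y = z r * z x := fun {x y} h => by
    obtain ⟨a, ha, b, hb, rfl⟩ := Submodule.mem_sup.1 h
    obtain ⟨r, rfl⟩ := Ideal.mem_span_singleton'.1 hb
    exact ⟨r, by rw [map_add, (hz a).2 ha, zero_add, map_mul]⟩
  have hu0 : z u ≠ 0 := fun h => hu ((hz u).1 h)
  have hut : V.valuation (z u) < 1 := by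
    refine (V.valuation_lt_one_iff ⟨z u, hV _⟩).1 fun h => ?_
    have h1 : IsUnit (Ideal.Quotient.mk P u) := hloc.map_nonunit _ h
    have h2 : Ideal.Quotient.mk P u ∈ maximalIdeal (R ⧸ P) := by
      rw [← map_maximalIdeal_of_surjective _ Ideal.Quotient.mk_surjective]
      exact Ideal.mem_map_of_mem _ hum
    exact h2 h1
  obtain ⟨v, hv, hv1, hvt⟩ := rpoint_normed V hu0 hut fun x hx hx0 => by
    obtain ⟨w, hw, r, hr, e⟩ := (Algebra.IsAlgebraic.isAlgebraic (R := R ⧸ P) x
      ).exists_nonzero_eq_adjoin_mul (mem_nonZeroDivisors_of_ne_zero hx0)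
    have hwV : w ∈ V := by
      let S : Subalgebra (R ⧸ P) K := { V.toSubring with algebraMap_mem' := hV }
      exact (Algebra.adjoin_le (S := S) (Set.singleton_subset_iff.2 hx)) hw
    obtain ⟨r, rfl⟩ := Ideal.Quotient.mk_surjective r
    obtain ⟨j, hj⟩ := hdiv r fun h => hr (Ideal.Quotient.eq_zero_iff_mem.2 h)
    obtain ⟨s, hs⟩ := hsup hj
    refine ⟨j, ?_⟩
    rw [← map_pow, ← map_pow, hs, show z r = x * w from e.symm, map_mul, map_mul]
    exact (mul_le_of_le_one_left' (hzV s)).trans
      (mul_le_of_le_one_right' ((V.valuation_le_one_iff _).2 hwV))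
  let : NormedField K := v.toNormedField
  have h1 : ∀ f, ‖z f‖ ≤ 1 := fun f => hv1 _ (hV _)
  refine ⟨K, inferInstance, IsUltrametricDist.isUltrametricDist_of_isNonarchimedean_norm hv,
    inferInstance, z, h1, fun f hf => ?_, fun f hf => (hz f).2 hf, hu0⟩
  obtain ⟨r, hr⟩ := hsup (hL (Ideal.pow_mem_pow hf L))
  by_contra h
  have h2 : 1 ≤ ‖z (f ^ L)‖ := by
    rw [map_pow, norm_pow]
    exact one_le_pow₀ (not_lt.1 h)
  rw [hr, norm_mul] at h2
  have h3 : ‖z u‖ < 1 := hvt
  nlinarith [h1 r, norm_nonneg (z r), norm_nonneg (z u)]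

theorem exists_point {R : Type} [CommRing R] [IsLocalRing R] {P : Ideal R} (hP : P.IsPrime)
    {u : R} (hu : u ∉ P) (hum : u ∈ maximalIdeal R)
    (hdiv : ∀ x, x ∉ P → ∃ j : ℕ, u ^ j ∈ P ⊔ Ideal.span {x}) {L : ℕ}
    (hL : maximalIdeal R ^ L ≤ P ⊔ Ideal.span {u}) :
    ∃ (C : Type) (_ : NontriviallyNormedField C) (_ : IsUltrametricDist C) (_ : CompleteSpace C)
      (_ : IsAlgClosed C) (z : R →+* C),
      (∀ f, ‖z f‖ ≤ 1) ∧ (∀ f ∈ maximalIdeal R, ‖z f‖ < 1) ∧ (∀ f ∈ P, z f = 0) ∧ z u ≠ 0 := by
  obtain ⟨K, _, _, _, z, h1, h2, h3, h4⟩ := exists_normed hP hu hum hdiv hL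
  let C := UniformSpace.Completion K
  let c : K →+* C := UniformSpace.Completion.coeRingHom
  have hc : ∀ x, ‖c x‖ = ‖x‖ := UniformSpace.Completion.norm_coe
  let : NontriviallyNormedField C := NontriviallyNormedField.ofNormNeOne ⟨c (z u), by
    rw [← norm_ne_zero_iff, hc, norm_ne_zero_iff]
    exact h4, by
    rw [hc]
    exact (h2 u hum).ne⟩
  have : IsUltrametricDist C := by
    refine IsUltrametricDist.isUltrametricDist_of_forall_norm_add_le_max_norm fun x y => ?_
    refine UniformSpace.Completion.induction_on₂ x y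
      (isClosed_le (by fun_prop) (by fun_prop)) fun a b => ?_
    rw [← UniformSpace.Completion.coe_add, UniformSpace.Completion.norm_coe,
      UniformSpace.Completion.norm_coe, UniformSpace.Completion.norm_coe]
    exact IsUltrametricDist.norm_add_le_max a b
  have : IsAlgClosed C := by
    let : Algebra K C := c.toAlgebra
    exact isAlgClosed_of_dense (K := K) UniformSpace.Completion.denseRange_coe
  refine ⟨C, inferInstance, inferInstance, inferInstance, inferInstance, c.comp z,
    fun f => (hc _).trans_le (h1 f), fun f hf => (hc _).trans_lt (h2 f hf),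
    fun f hf => by rw [RingHom.comp_apply, h3 f hf, map_zero], (map_ne_zero c).2 h4⟩

end Vale.Agent.P217
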