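import Mathlib

/-! P217: one dimensional quotients of a Noetherian local ring.
PLAN.  `Ideal.exists_le_prime_disjoint` style Zorn argument, keeping maximality: a maximal element `P` of
the set of ideals containing `J` and missing all powers of `u` (Noetherian: `set_has_maximal_iff_noetherian`)
is prime (`Ideal.isPrime_of_maximally_disjoint`).  In `A = R ⧸ P` every nonzero ideal contains a power
of `u`.  Hence every nonzero prime contains `u`.  Every nonzero nonunit `z` lies in a prime minimal over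
`(z)`, of height one (Krull, `Ideal.height_le_one_of_isPrincipal_of_mem_minimalPrimes`), which is then
minimal over `(u)`; there are finitely many such primes (`Ideal.finite_minimalPrimes_of_isNoetherianRing`),
so by prime avoidance (`Ideal.subset_union_prime`) the maximal ideal is one of them.  So the maximal ideal
is the radical of `(u)`, and finitely generated. -/

namespace Vale.Agent.P217

open IsLocalRing

theorem rprime_dom {A : Type*} [CommRing A] [IsDomain A] [IsLocalRing A] [IsNoetherianRing A]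
    {u : A} (hu : u ≠ 0) (hum : u ∈ maximalIdeal A) (h : ∀ Q : Ideal A, Q.IsPrime → Q ≠ ⊥ → u ∈ Q) :
    ∃ L : ℕ, maximalIdeal A ^ L ≤ Ideal.span {u} := by
  have key : ∀ z ∈ maximalIdeal A, z ≠ 0 → ∃ Q ∈ (Ideal.span {u}).minimalPrimes, z ∈ Q := by
    intro z hz hz0
    obtain ⟨Q, hQ, -⟩ := Ideal.exists_minimalPrimes_le ((Ideal.span_singleton_le_iff_mem _).2 hz)
    have := hQ.isPrime
    have hzQ : z ∈ Q := hQ.le (Ideal.mem_span_singleton_self z)
    have h1 := Ideal.height_le_one_of_isPrincipal_of_mem_minimalPrimes _ Q hQ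
    refine ⟨Q, Ideal.mem_minimalPrimes_of_height_le ((Ideal.span_singleton_le_iff_mem _).2
      (h Q this fun e => hz0 (by simpa [e] using hzQ))) (h1.trans ?_), hzQ⟩
    exact Ideal.one_le_height_span_singleton_of_mem_nonZeroDivisors
      (mem_nonZeroDivisors_of_ne_zero hu)
  have h2 : (maximalIdeal A : Set A) ⊆ ⋃ Q ∈ (Ideal.span {u}).minimalPrimes, (Q : Set A) := by
    intro z hz
    by_cases hz0 : z = 0
    · obtain ⟨Q, hQ, -⟩ := key u hum hu
      exact Set.mem_biUnion hQ (hz0 ▸ Q.zero_mem)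
    · obtain ⟨Q, hQ, hzQ⟩ := key z hz hz0
      exact Set.mem_biUnion hQ hzQ
  obtain ⟨Q, hQ, hle⟩ := (Ideal.subset_union_prime_finite
    (Ideal.finite_minimalPrimes_of_isNoetherianRing A (Ideal.span {u})) ⊥ ⊥
    fun Q hQ _ _ => hQ.isPrime).1 h2
  refine Ideal.exists_pow_le_of_le_radical_of_fg ?_ (IsNoetherian.noetherian _)
  rw [← Ideal.sInf_minimalPrimes]
  refine le_sInf fun p hp => hle.trans (hQ.2 hp.1 ?_)
  exact (le_maximalIdeal hp.isPrime.ne_top).trans hle

theorem exists_prime_dim_one {R : Type*} [CommRing R] [IsLocalRing R] [IsNoetherianRing R]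
    {J : Ideal R} (hJ : J.IsRadical) {u : R} (hu : u ∉ J) (hum : u ∈ maximalIdeal R) :
    ∃ P : Ideal R, P.IsPrime ∧ J ≤ P ∧ u ∉ P ∧
      (∀ x, x ∉ P → ∃ j : ℕ, u ^ j ∈ P ⊔ Ideal.span {x}) ∧
      ∃ L : ℕ, maximalIdeal R ^ L ≤ P ⊔ Ideal.span {u} := by
  obtain ⟨P : Ideal R, ⟨hJP, hd⟩, hmax⟩ := set_has_maximal_iff_noetherian.2 (inferInstance : IsNoetherian R R)
    {I : Ideal R | J ≤ I ∧ Disjoint (I : Set R) (Submonoid.powers u)}
    ⟨J, le_rfl, Set.disjoint_left.2 fun x hx ⟨j, hj⟩ => hu (hJ ⟨j, by rwa [← hj] at hx⟩)⟩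
  have hm : ∀ I : Ideal R, P < I → ¬Disjoint (I : Set R) (Submonoid.powers u) := fun I hI h =>
    hmax I ⟨hJP.trans hI.le, h⟩ hI
  have hP : Ideal.IsPrime P := Ideal.isPrime_of_maximally_disjoint P _ hd hm
  have huP : u ∉ P := fun h => Set.disjoint_left.1 hd h (Submonoid.mem_powers u)
  have hpow : ∀ I : Ideal R, P < I → ∃ j : ℕ, u ^ j ∈ I := fun I hI => by
    obtain ⟨x, hx, j, rfl⟩ := Set.not_disjoint_iff.1 (hm I hI)
    exact ⟨j, hx⟩
  refine ⟨P, hP, hJP, huP, fun x hx => hpow _ (lt_of_le_of_ne le_sup_left fun e => hx ?_), ?_⟩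
  · rw [e]
    exact Ideal.mem_sup_right (Ideal.mem_span_singleton_self x)
  · have : IsLocalRing (R ⧸ P) := .of_surjective' _ Ideal.Quotient.mk_surjective
    have hc : (maximalIdeal (R ⧸ P)).comap (Ideal.Quotient.mk P) = maximalIdeal R :=
      eq_maximalIdeal (Ideal.comap_isMaximal_of_surjective _ Ideal.Quotient.mk_surjective)
    obtain ⟨L, hL⟩ := rprime_dom (A := R ⧸ P) (u := Ideal.Quotient.mk P u)
      (fun h => huP (Ideal.Quotient.eq_zero_iff_mem.1 h)) (by rwa [← hc] at hum) fun Q hQ hQ0 => by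
        have h1 : P ≤ Q.comap (Ideal.Quotient.mk P) := fun x hx => by
          rw [Ideal.mem_comap, Ideal.Quotient.eq_zero_iff_mem.2 hx]
          exact Q.zero_mem
        obtain ⟨j, hj⟩ := hpow _ (lt_of_le_of_ne h1 fun e => hQ0 (by
          rw [eq_bot_iff]
          intro y hy
          obtain ⟨x, rfl⟩ := Ideal.Quotient.mk_surjective y
          exact Ideal.Quotient.eq_zero_iff_mem.2 (e.ge hy)))
        exact (hQ.comap (Ideal.Quotient.mk P)).mem_of_pow_mem j hj
    refine ⟨L, fun x hx => ?_⟩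
    rw [← hc] at hx
    obtain ⟨c, hc'⟩ := Ideal.mem_span_singleton'.1 (hL (Ideal.le_comap_pow _ L hx))
    obtain ⟨c, rfl⟩ := Ideal.Quotient.mk_surjective c
    rw [← map_mul, Ideal.Quotient.eq] at hc'
    have e : x = -(c * u - x) + c * u := by ring
    rw [e]
    exact Submodule.add_mem_sup (P.neg_mem hc')
      (Ideal.mul_mem_left _ _ (Ideal.mem_span_singleton_self u))

end Vale.Agent.P217
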