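import Vale.Agent.P217.ZMain
import Vale.Agent.P217.RPrime
import Vale.Agent.P217.RPoint

/-! P217: reduction of the classification of invariant ideals to the density statement. -/

namespace Vale.Agent.P217

open MvPowerSeries IsLocalRing

noncomputable section

variable {p n : ℕ} [Fact p.Prime] {k : Type} [Field k] [CharP k p] [PerfectRing k p]

/-- density of the orbits of points of height exactly `h`, `1 ≤ h < n` -/
def DensP (F : FormalGroup (E0 p n k)) : Prop :=
  ∀ (h : ℕ) (h1 : 1 ≤ h) (hn : h < n) (C : Type) [NontriviallyNormedField C] [IsUltrametricDist C]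
    [CompleteSpace C] [IsAlgClosed C] (z : E0 p n k →+* C), (∀ f, ‖z f‖ ≤ 1) →
    (∀ f ∈ maximalIdeal (E0 p n k), ‖z f‖ < 1) → (∀ f ∈ heightIdeal p n k h, z f = 0) →
    z (X ⟨h - 1, by omega⟩) ≠ 0 →
    ∀ f, (∀ σ, InStab F σ → z (σ f) = 0) → f ∈ heightIdeal p n k h

theorem radical_classify [Fintype k] (hk : Fintype.card k = p ^ n) {Γ : FormalGroup (ZMod p)}
    {F : FormalGroup (E0 p n k)} (hn : 1 ≤ n) (hΓ : IsHonda p n Γ)
    (hU : IsUniversal (Γ.map (ZMod.castHom dvd_rfl k)) F) (hH : HeightCoords F) (hD : DensP F)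
    {J : Ideal (E0 p n k)} (hJ : J.IsRadical) (hinv : Invariant F J) (hne : J ≠ ⊤) :
    ∃ h ≤ n, J = heightIdeal p n k h := by
  classical
  let Q : ℕ → Prop := fun h => heightIdeal p n k h ≤ J
  have hQ0 : Q 0 := by
    change heightIdeal p n k 0 ≤ J
    rw [heightIdeal_zero]; exact bot_le
  set h := Nat.findGreatest Q n with hh
  have hle : h ≤ n := Nat.findGreatest_le n
  have hQ : heightIdeal p n k h ≤ J := Nat.findGreatest_spec (P := Q) (Nat.zero_le n) hQ0
  refine ⟨h, hle, le_antisymm ?_ hQ⟩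
  rcases hle.eq_or_lt with he | hlt
  · rw [he, heightIdeal_top hn]
    exact le_maximalIdeal hne
  have hu : uGen p n k h ∉ J := by
    intro hu
    have : Q (h + 1) := by
      change heightIdeal p n k (h + 1) ≤ J
      rw [heightIdeal_succ]
      exact sup_le hQ ((Ideal.span_singleton_le_iff_mem _).2 hu)
    exact Nat.findGreatest_is_greatest (Nat.lt_succ_self h) hlt this
  obtain ⟨P, hP, hJP, huP, hdiv, L, hL⟩ := exists_prime_dim_one hJ hu (uGen_mem_mE h)
  obtain ⟨C, _, _, _, _, z, z1, z2, z3, z4⟩ := exists_point hP huP (uGen_mem_mE h) hdiv hL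
  rcases Nat.eq_zero_or_pos h with h0 | hpos
  · have hp : (p : C) ≠ 0 := by
      rw [h0] at z4
      simpa [uGen] using z4
    rw [eq_bot_of_point hk hn hΓ hU hH hinv z1 z2 hp fun f hf => z3 f (hJP hf)]
    exact bot_le
  · intro f hf
    refine hD h hpos hlt C z z1 z2 (fun g hg => z3 g (hJP (hQ hg))) ?_ f fun σ hσ => ?_
    · have e : uGen p n k h = X ⟨h - 1, by omega⟩ := by
        rw [uGen, if_neg hpos.ne', dif_pos (by omega)]
      rwa [e] at z4
    · refine z3 _ (hJP ?_)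
      rw [← hinv σ hσ]
      exact Ideal.mem_map_of_mem σ.toRingHom hf

theorem classify [Fintype k] (hk : Fintype.card k = p ^ n) {Γ : FormalGroup (ZMod p)}
    {F : FormalGroup (E0 p n k)} (hn : 1 ≤ n) (hΓ : IsHonda p n Γ)
    (hU : IsUniversal (Γ.map (ZMod.castHom dvd_rfl k)) F) (hH : HeightCoords F) (hD : DensP F) :
    (∀ P : Ideal (E0 p n k), (P.IsPrime ∧ Invariant F P) ↔ ∃ h ≤ n, P = heightIdeal p n k h) ∧
    (∀ J : Ideal (E0 p n k), (J.IsRadical ∧ Invariant F J) ↔
      (∃ h ≤ n, J = heightIdeal p n k h) ∨ J = ⊤) := by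
  refine ⟨fun P => ⟨fun ⟨hP, hi⟩ => radical_classify hk hn hΓ hU hH hD hP.isRadical hi hP.ne_top,
    ?_⟩, fun J => ⟨fun ⟨hJ, hi⟩ => ?_, ?_⟩⟩
  · rintro ⟨h, hh, rfl⟩
    exact ⟨heightIdeal_isPrime h, heightIdeal_invariant hH hh⟩
  · by_cases hne : J = ⊤
    · exact Or.inr hne
    · exact Or.inl (radical_classify hk hn hΓ hU hH hD hJ hi hne)
  · rintro (⟨h, hh, rfl⟩ | rfl)
    · exact ⟨(heightIdeal_isPrime h).isRadical, heightIdeal_invariant hH hh⟩
    · exact ⟨fun _ _ => trivial, fun σ _ => Ideal.map_top _⟩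

end

end Vale.Agent.P217
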