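import Vale.Agent.P217.DGlue
import Vale.Agent.P217.RMain

/-!
# P217: Chai's invariant ideal theorem
-/

namespace Vale.Agent.P217

theorem chai {p n : ℕ} [Fact p.Prime] (hn : 1 ≤ n) {k : Type} [Field k] [Fintype k] [CharP k p]
    (hk : Fintype.card k = p ^ n) {Γ : FormalGroup (ZMod p)} (hΓ : IsHonda p n Γ)
    {F : FormalGroup (E0 p n k)} (hU : IsUniversal (Γ.map (ZMod.castHom dvd_rfl k)) F)
    (hH : HeightCoords F) :
    (∀ P : Ideal (E0 p n k), (P.IsPrime ∧ Invariant F P) ↔ ∃ h ≤ n, P = heightIdeal p n k h) ∧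
    (∀ J : Ideal (E0 p n k), (J.IsRadical ∧ Invariant F J) ↔
      (∃ h ≤ n, J = heightIdeal p n k h) ∨ J = ⊤) :=
  classify hk hn hΓ hU hH fun _ h1 h2 _ _ _ _ _ z hz1 hzm hzI hzu f hf =>
    D.densP hk hΓ hU hH h1 h2 z hz1 hzm hzI hzu f hf

end Vale.Agent.P217
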