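import Vale.Agent.P217.LOrd
import Vale.Agent.P217.RLaz

/-! P217 (existence part): symmetric 2-cocycles of a formal group law in characteristic `p`.
PLAN.
* `lz1`: induction on `e`, generalizing `d`, `a`.  `hR` with `i = 1` gives
  `(j+1) a (j+1) = choose (d-1) j * a 1`.  If `a 1 = 0` then `a i = 0` unless `p ∣ i` and (symmetry) unless
  `p ∣ d - i`.  `e = 0`: `a 1 = 0` and `p ∤ d` or `d = p`.  `e > 0`: `d = p m`, `m ≥ 2`; `j + 1 = p` gives
  `choose (d-1) (p-1) * a 1 = 0` with `choose (d-1) (p-1) ≡ ±1` (`dcoc_neg` in DCoc, or RLaz), so `a 1 = 0`;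
  `a' i = a (p i)` satisfies the hypotheses for `m` because `choose (p x) (p y) ≡ choose x y`
  (`Choose.choose_modEq_choose_mod_mul_choose_div_nat`).
* `IsCoc.ord_two`: substitute `X1, X2 ↦ 0` in the cocycle identity: `c(X, 0) = 0`; symmetry.
* `coc_lead`: `a i = coeff (e2 i (d - i)) c`; write `c = ∑ a i X0^i X1^(d-i) + c'`, `Ord (d+1) c'`; modulo
  order `d + 1` replace `fadd Γ X0 X1` by `X0 + X1` (`Ord.subst_sub`, `ord_fg`); compare the coefficients of
  `X0^i X1^j X2^l` (`add_pow`, `coeff_monomial`), or substitute further into one variable polynomials.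
  `a 0 = a d = 0` from `c(X,0) = 0`.
* `model`: `d` not a power of `p`: `e = v_p(d)`, `cob Γ (X^d)` (`Ord.pow_sub_pow`, `coeff_e2_add_pow`,
  `p ∤ choose d (p^e)` by Lucas or `(X+1)^d = (X^(p^e)+1)^(d')`); `d = p^(e+1)`, `e + 1 < n`: `c e`;
  otherwise `r = p^(e+1-n)` and `cob Γ (X^r) = (Γ - X0 - X1)^r` (`sub_pow_char_pow`), whose coefficient at
  `r • m` is the `r`-th power of the coefficient at `m` (`MvPowerSeries.map_frobenius_expand`-type lemma,
  or leading forms).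
* `h2`: iterate `coc_lead` + `model` starting from order two (recursion with `choose`); the coefficients
  `μ` are constant from `d = p^n` on, `exists_lim` with `t N = N / p^n` for `η`; `cob_ord`. -/

namespace Vale.Agent.P217

open MvPowerSeries

noncomputable section

theorem lcoc_choose {p : ℕ} [Fact p.Prime] {K : Type*} [Field K] [CharP K p] (x y : ℕ) :
    (((p * x).choose (p * y) : ℕ) : K) = (x.choose y : ℕ) := by
  have hp : p.Prime := Fact.out
  have h := Choose.choose_modEq_choose_mod_mul_choose_div_nat (n := p * x) (k := p * y) (p := p)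
  rw [Nat.mul_mod_right, Nat.mul_mod_right, Nat.mul_div_cancel_left _ hp.pos,
    Nat.mul_div_cancel_left _ hp.pos, Nat.choose_self, one_mul] at h
  exact CharP.natCast_eq_natCast' K p h

theorem lcoc_choose_pow {p : ℕ} [Fact p.Prime] {K : Type*} [Field K] [CharP K p] (e x : ℕ) :
    (((p ^ e * x).choose (p ^ e) : ℕ) : K) = x := by
  induction e with
  | zero => simp
  | succ e ih => rw [pow_succ', mul_assoc, lcoc_choose, ih]

theorem lz1 {p : ℕ} [Fact p.Prime] {K : Type*} [Field K] [CharP K p] (e d : ℕ) (a : ℕ → K)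
    (hsym : ∀ i ≤ d, a i = a (d - i))
    (hR : ∀ i j, 1 ≤ i → 1 ≤ j → i + j < d →
      a (i + j) * ((i + j).choose i : ℕ) = a i * ((d - i).choose j : ℕ))
    (h1 : p ^ e ∣ d) (h2 : p ^ e < d) (h3 : ¬ p ^ (e + 1) ∣ d ∨ p ^ (e + 1) = d)
    (h0 : a (p ^ e) = 0) : ∀ i, 0 < i → i < d → a i = 0 := by
  have hp : p.Prime := Fact.out
  have hp2 := hp.two_le
  have hcast : ∀ n : ℕ, (n : K) = 0 ↔ p ∣ n := fun n => CharP.cast_eq_zero_iff K p n
  induction e generalizing d a with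
  | zero =>
    rw [pow_zero] at h0
    have hred : ∀ i, 0 < i → i < d → ¬ p ∣ i → a i = 0 := by
      intro i hi0 hid hpi
      rcases Nat.eq_or_lt_of_le (Nat.succ_le_of_lt hi0) with rfl | hi1
      · exact h0
      obtain ⟨j, rfl⟩ : ∃ j, i = 1 + j := ⟨i - 1, by omega⟩
      have := hR 1 j le_rfl (by omega) hid
      rw [h0, zero_mul, Nat.choose_one_right] at this
      exact (mul_eq_zero.1 this).resolve_right fun h => hpi ((hcast _).1 h)
    intro i hi0 hid
    by_cases hpi : p ∣ i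
    · rw [hsym i hid.le]
      refine hred _ (by omega) (by omega) fun h => ?_
      have h4 := dvd_add h hpi
      rw [Nat.sub_add_cancel hid.le] at h4
      rw [zero_add, pow_one] at h3
      rcases h3 with h3 | h3
      · exact h3 h4
      · have := Nat.le_of_dvd hi0 hpi
        omega
    · exact hred i hi0 hid hpi
  | succ e ih =>
    obtain ⟨m, rfl⟩ : p ∣ d := (dvd_pow_self p (Nat.succ_ne_zero e)).trans h1
    rw [pow_succ'] at h0 h1 h2
    have h1' : p ^ e ∣ m := Nat.dvd_of_mul_dvd_mul_left hp.pos h1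
    have h2' : p ^ e < m := Nat.lt_of_mul_lt_mul_left h2
    have hm : 2 ≤ m := by
      have := Nat.one_le_pow e p hp.pos
      omega
    have hpm : 2 * p ≤ p * m := by nlinarith
    have ha1 : a 1 = 0 := by
      have := hR 1 (p - 1) le_rfl (by omega) (by omega)
      rw [laz_choose (K := K) (p := p) (p * m) (by omega) (dvd_mul_right _ _) (p - 1) (by omega),
        Nat.choose_one_right, show 1 + (p - 1) = p by omega, (hcast p).2 dvd_rfl, mul_zero] at this
      exact (mul_eq_zero.1 this.symm).resolve_right (pow_ne_zero _ (by simp))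
    have key := ih m (fun i => a (p * i))
      (fun i hi => by
        have := hsym (p * i) (Nat.mul_le_mul_left p hi)
        rwa [← Nat.mul_sub] at this)
      (fun i j hi hj hij => by
        have := hR (p * i) (p * j) (Nat.mul_pos hp.pos hi) (Nat.mul_pos hp.pos hj)
          (by rw [← mul_add]; exact Nat.mul_lt_mul_of_pos_left hij hp.pos)
        rwa [← mul_add, ← Nat.mul_sub, lcoc_choose, lcoc_choose] at this)
      h1' h2' (h3.imp (fun h h' => h (by rw [pow_succ']; exact Nat.mul_dvd_mul_left p h'))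
        fun h => Nat.eq_of_mul_eq_mul_left hp.pos (by rw [← h, ← pow_succ'])) h0
    intro i hi0 hid
    by_cases hpi : p ∣ i
    · obtain ⟨k, rfl⟩ := hpi
      exact key k (Nat.pos_of_mul_pos_left hi0) (Nat.lt_of_mul_lt_mul_left hid)
    · rcases Nat.eq_or_lt_of_le (Nat.succ_le_of_lt hi0) with rfl | hi1
      · exact ha1
      obtain ⟨j, rfl⟩ : ∃ j, i = 1 + j := ⟨i - 1, by omega⟩
      have := hR 1 j le_rfl (by omega) hid
      rw [ha1, zero_mul, Nat.choose_one_right] at this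
      exact (mul_eq_zero.1 this).resolve_right fun h => hpi ((hcast _).1 h)

section

variable {R : Type*} [CommRing R] {Γ : FormalGroup R} {c c' : MvPowerSeries (Fin 2) R}

/-- symmetric 2-cocycles of `Γ` with values in the additive group -/
structure IsCoc (Γ : FormalGroup R) (c : MvPowerSeries (Fin 2) R) : Prop where
  c0 : constantCoeff c = 0
  symm : subst ![(X 1 : MvPowerSeries (Fin 2) R), X 0] c = c
  coc : subst ![(X 0 : MvPowerSeries (Fin 3) R), X 1] c + subst ![fadd Γ (X 0) (X 1), X 2] c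
    = subst ![(X 1 : MvPowerSeries (Fin 3) R), X 2] c + subst ![X 0, fadd Γ (X 1) (X 2)] c

/-- the coboundary `η(Γ(X,Y)) - η(X) - η(Y)` -/
def cob (Γ : FormalGroup R) (η : PowerSeries R) : MvPowerSeries (Fin 2) R :=
  η.subst Γ.toPowerSeries - η.subst (X 0 : MvPowerSeries (Fin 2) R)
    - η.subst (X 1 : MvPowerSeries (Fin 2) R)

theorem lcoc_x {σ : Type*} (i : σ) : constantCoeff (X i : MvPowerSeries σ R) = 0 :=
  constantCoeff_X i

theorem lcoc_c2 {σ : Type*} {x y : MvPowerSeries σ R} (hx : constantCoeff x = 0)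
    (hy : constantCoeff y = 0) : ∀ i, constantCoeff (![x, y] i) = 0 := fun i => by
  fin_cases i <;> simpa

theorem lcoc_subst_cob {σ : Type*} {x y : MvPowerSeries σ R} (hx : constantCoeff x = 0)
    (hy : constantCoeff y = 0) (η : PowerSeries R) :
    subst ![x, y] (cob Γ η) = η.subst (fadd Γ x y) - η.subst x - η.subst y := by
  rw [cob, subst_sub (hs2 hx hy), subst_sub (hs2 hx hy),
    subst_psubst (hs2 hx hy) Γ.zero_constantCoeff, subst_psubst (hs2 hx hy) (lcoc_x _),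
    subst_psubst (hs2 hx hy) (lcoc_x _), subst_X (hs2 hx hy), subst_X (hs2 hx hy)]
  rfl

theorem lcoc_zero : IsCoc Γ 0 := by
  have h : ∀ {σ : Type} {x y : MvPowerSeries σ R}, constantCoeff x = 0 → constantCoeff y = 0 →
      subst ![x, y] (0 : MvPowerSeries (Fin 2) R) = 0 := fun hx hy => by
    rw [← coe_substAlgHom (hs2 hx hy), map_zero]
  refine ⟨map_zero _, h (lcoc_x _) (lcoc_x _), ?_⟩
  rw [h (lcoc_x _) (lcoc_x _), h (lcoc_x _) (lcoc_x _), h (c0_fadd (lcoc_x _) (lcoc_x _)) (lcoc_x _),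
    h (lcoc_x _) (c0_fadd (lcoc_x _) (lcoc_x _))]

theorem IsCoc.add (h : IsCoc Γ c) (h' : IsCoc Γ c') : IsCoc Γ (c + c') := by
  refine ⟨by rw [map_add, h.c0, h'.c0, add_zero], ?_, ?_⟩
  · rw [subst_add (hs2 (lcoc_x _) (lcoc_x _)), h.symm, h'.symm]
  · rw [subst_add (hs2 (lcoc_x _) (lcoc_x _)), subst_add (hs2 (lcoc_x _) (lcoc_x _)),
      subst_add (hs2 (c0_fadd (lcoc_x _) (lcoc_x _)) (lcoc_x _)),
      subst_add (hs2 (lcoc_x _) (c0_fadd (lcoc_x _) (lcoc_x _)))]
    linear_combination h.coc + h'.coc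

theorem IsCoc.sub (h : IsCoc Γ c) (h' : IsCoc Γ c') : IsCoc Γ (c - c') := by
  refine ⟨by rw [map_sub, h.c0, h'.c0, sub_zero], ?_, ?_⟩
  · rw [subst_sub (hs2 (lcoc_x _) (lcoc_x _)), h.symm, h'.symm]
  · rw [subst_sub (hs2 (lcoc_x _) (lcoc_x _)), subst_sub (hs2 (lcoc_x _) (lcoc_x _)),
      subst_sub (hs2 (c0_fadd (lcoc_x _) (lcoc_x _)) (lcoc_x _)),
      subst_sub (hs2 (lcoc_x _) (c0_fadd (lcoc_x _) (lcoc_x _)))]
    linear_combination h.coc - h'.coc

theorem IsCoc.C_mul (h : IsCoc Γ c) (r : R) : IsCoc Γ (C r * c) := by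
  refine ⟨by rw [map_mul, h.c0, mul_zero], ?_, ?_⟩
  · rw [subst_mul (hs2 (lcoc_x _) (lcoc_x _)), subst_C, h.symm]
  · rw [subst_mul (hs2 (lcoc_x _) (lcoc_x _)), subst_mul (hs2 (lcoc_x _) (lcoc_x _)),
      subst_mul (hs2 (c0_fadd (lcoc_x _) (lcoc_x _)) (lcoc_x _)),
      subst_mul (hs2 (lcoc_x _) (c0_fadd (lcoc_x _) (lcoc_x _)))]
    simp only [subst_C]
    linear_combination C r * h.coc

theorem isCoc_sum {ι : Type*} (s : Finset ι) {f : ι → MvPowerSeries (Fin 2) R}
    (h : ∀ i ∈ s, IsCoc Γ (f i)) : IsCoc Γ (∑ i ∈ s, f i) :=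
  Finset.sum_induction f (IsCoc Γ) (fun _ _ => IsCoc.add) lcoc_zero h

theorem isCoc_cob (hΓ : Γ.IsComm) {η : PowerSeries R} (h0 : PowerSeries.constantCoeff η = 0) :
    IsCoc Γ (cob Γ η) := by
  refine ⟨?_, ?_, ?_⟩
  · rw [cob, map_sub, map_sub, c0_subst Γ.zero_constantCoeff h0, c0_subst (lcoc_x _) h0,
      c0_subst (lcoc_x _) h0, sub_zero, sub_zero]
  · rw [lcoc_subst_cob (lcoc_x _) (lcoc_x _), fadd_comm hΓ (lcoc_x _) (lcoc_x _), fadd_X_X, cob]
    ring
  · rw [lcoc_subst_cob (lcoc_x _) (lcoc_x _), lcoc_subst_cob (lcoc_x _) (lcoc_x _),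
      lcoc_subst_cob (c0_fadd (lcoc_x _) (lcoc_x _)) (lcoc_x _),
      lcoc_subst_cob (lcoc_x _) (c0_fadd (lcoc_x _) (lcoc_x _)),
      fadd_assoc (lcoc_x _) (lcoc_x _) (lcoc_x _)]
    ring

theorem cob_add (η η' : PowerSeries R) : cob Γ (η + η') = cob Γ η + cob Γ η' := by
  simp only [cob, PowerSeries.subst_add (hs1 Γ.zero_constantCoeff),
    PowerSeries.subst_add (hs1 (lcoc_x (R := R) (0 : Fin 2))),
    PowerSeries.subst_add (hs1 (lcoc_x (R := R) (1 : Fin 2)))]
  ring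

theorem cob_sub (η η' : PowerSeries R) : cob Γ (η - η') = cob Γ η - cob Γ η' := by
  simp only [cob, PowerSeries.subst_sub (hs1 Γ.zero_constantCoeff),
    PowerSeries.subst_sub (hs1 (lcoc_x (R := R) (0 : Fin 2))),
    PowerSeries.subst_sub (hs1 (lcoc_x (R := R) (1 : Fin 2)))]
  ring

theorem cob_C_mul (r : R) (η : PowerSeries R) :
    cob Γ (PowerSeries.C r * η) = C r * cob Γ η := by
  simp only [cob, PowerSeries.subst_mul (hs1 Γ.zero_constantCoeff),
    PowerSeries.subst_mul (hs1 (lcoc_x (R := R) (0 : Fin 2))),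
    PowerSeries.subst_mul (hs1 (lcoc_x (R := R) (1 : Fin 2))), PowerSeries.subst_C]
  ring

theorem cob_ord {d : ℕ} {η : PowerSeries R} (h : Ord d η) : Ord d (cob Γ η) := by
  have k : ∀ a : MvPowerSeries (Fin 2) R, constantCoeff a = 0 → Ord d (η.subst a) := fun a ha => by
    simpa only [one_mul] using (ord_one_iff.2 ha).psubst le_rfl h
  exact ((k _ Γ.zero_constantCoeff).sub (k _ (lcoc_x _))).sub (k _ (lcoc_x _))

theorem map_cob {R' : Type*} [CommRing R'] (ρ : R →+* R') (η : PowerSeries R) :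
    map ρ (cob Γ η) = cob (Γ.map ρ) (PowerSeries.map ρ η) := by
  rw [cob, map_sub, map_sub, map_psubst ρ Γ.zero_constantCoeff, map_psubst ρ (lcoc_x _),
    map_psubst ρ (lcoc_x _), map_X, map_X]
  rfl

theorem lcoc_e2_inj {i j i' j' : ℕ} : e2 i j = e2 i' j' ↔ i = i' ∧ j = j' := by
  refine ⟨fun h => ⟨?_, ?_⟩, fun h => by rw [h.1, h.2]⟩
  · simpa [e2] using congrArg (fun m : Fin 2 →₀ ℕ => m 0) h
  · simpa [e2] using congrArg (fun m : Fin 2 →₀ ℕ => m 1) h

theorem lcoc_coeff2 (i j α β : ℕ) :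
    coeff (e2 i j) (X 0 ^ α * X 1 ^ β : MvPowerSeries (Fin 2) R)
      = if i = α ∧ j = β then 1 else 0 := by
  classical
  rw [X_pow_eq, X_pow_eq, monomial_mul_monomial, coeff_monomial, mul_one]
  exact if_congr lcoc_e2_inj rfl rfl

/-- the exponent `(i, j, l)` -/
def lcocE3 (i j l : ℕ) : Fin 3 →₀ ℕ := Finsupp.single 0 i + Finsupp.single 1 j + Finsupp.single 2 l

theorem lcoc_coeff3 (i j l α β γ : ℕ) :
    coeff (lcocE3 i j l) (X 0 ^ α * X 1 ^ β * X 2 ^ γ : MvPowerSeries (Fin 3) R)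
      = if i = α ∧ j = β ∧ l = γ then 1 else 0 := by
  classical
  rw [X_pow_eq, X_pow_eq, X_pow_eq, monomial_mul_monomial, monomial_mul_monomial, coeff_monomial,
    mul_one, mul_one]
  refine if_congr ⟨fun h => ⟨?_, ?_, ?_⟩, fun h => by rw [h.1, h.2.1, h.2.2, lcocE3]⟩ rfl rfl
  · simpa [lcocE3] using congrArg (fun m : Fin 3 →₀ ℕ => m 0) h
  · simpa [lcocE3] using congrArg (fun m : Fin 3 →₀ ℕ => m 1) h
  · simpa [lcocE3] using congrArg (fun m : Fin 3 →₀ ℕ => m 2) h

/-- the form of degree `d` of `c`, evaluated at `x, y` -/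
def lcocF {σ : Type*} (d : ℕ) (c : MvPowerSeries (Fin 2) R) (x y : MvPowerSeries σ R) :
    MvPowerSeries σ R :=
  ∑ k ∈ Finset.range (d + 1), C (coeff (e2 k (d - k)) c) * (x ^ k * y ^ (d - k))

theorem lcoc_ord_succ {d : ℕ} (hd : Ord d c) (h : ∀ i ≤ d, coeff (e2 i (d - i)) c = 0) :
    Ord (d + 1) c := by
  intro m hm
  rcases Nat.eq_or_lt_of_le (Nat.le_of_lt_succ hm) with e | e
  · rw [eq_e2 m, e2_degree] at e
    rw [eq_e2 m, show m 1 = d - m 0 by omega]
    exact h _ (by omega)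
  · exact hd m e

theorem lcoc_split {σ : Type*} {d : ℕ} (hd : Ord d c) {x y : MvPowerSeries σ R}
    (hx : constantCoeff x = 0) (hy : constantCoeff y = 0) :
    Ord (d + 1) (subst ![x, y] c - lcocF d c x y) := by
  have h1 : Ord (d + 1) (c - lcocF d c (X 0) (X 1)) := by
    refine lcoc_ord_succ (hd.sub (ord_sum _ fun k hk => Ord.mul_left ?_ _)) fun i hi => ?_
    · have := ((ord_one_iff.2 (lcoc_x (R := R) (0 : Fin 2))).pow k).mul
        ((ord_one_iff.2 (lcoc_x (R := R) (1 : Fin 2))).pow (d - k))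
      refine this.mono ?_
      have := Finset.mem_range.1 hk
      omega
    · rw [map_sub, lcocF, map_sum, Finset.sum_eq_single i]
      · rw [coeff_C_mul, lcoc_coeff2, if_pos ⟨rfl, rfl⟩, mul_one, sub_self]
      · intro b _ hb
        rw [coeff_C_mul, lcoc_coeff2, if_neg fun h => hb h.1.symm, mul_zero]
      · intro h
        exact absurd (Finset.mem_range.2 (by omega)) h
  have h2 := h1.subst (lcoc_c2 hx hy)
  have h3 : subst ![x, y] (lcocF d c (X 0) (X 1)) = lcocF d c x y := by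
    rw [lcocF, ← coe_substAlgHom (hs2 hx hy), map_sum, lcocF]
    refine Finset.sum_congr rfl fun k _ => ?_
    rw [coe_substAlgHom, subst_mul (hs2 hx hy), subst_mul (hs2 hx hy), subst_pow (hs2 hx hy),
      subst_pow (hs2 hx hy), subst_X (hs2 hx hy), subst_X (hs2 hx hy), subst_C]
    rfl
  rwa [subst_sub (hs2 hx hy), h3] at h2

theorem IsCoc.lcoc_sym (h : IsCoc Γ c) {d : ℕ} (hd : Ord d c) (i : ℕ) (hi : i ≤ d) :
    coeff (e2 i (d - i)) c = coeff (e2 (d - i) (d - (d - i))) c := by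
  have h1 := lcoc_split hd (lcoc_x (1 : Fin 2)) (lcoc_x 0) (e2 i (d - i))
    (by rw [e2_degree]; omega)
  rw [h.symm, map_sub, lcocF, map_sum, Finset.sum_eq_single (d - i)] at h1
  · rw [coeff_C_mul, mul_comm (X 1 ^ _), lcoc_coeff2, if_pos ⟨by omega, rfl⟩, mul_one] at h1
    exact sub_eq_zero.1 h1
  · intro b _ hb
    rw [coeff_C_mul, mul_comm (X 1 ^ _), lcoc_coeff2, if_neg fun h => hb h.2.symm, mul_zero]
  · intro h
    exact absurd (Finset.mem_range.2 (by omega)) h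

theorem IsCoc.lcoc_right (h : IsCoc Γ c) :
    subst ![(X 0 : MvPowerSeries (Fin 2) R), 0] c = 0 := by
  have z : constantCoeff (0 : MvPowerSeries (Fin 2) R) = 0 := map_zero _
  have hs : HasSubst ![(X 0 : MvPowerSeries (Fin 2) R), 0, 0] :=
    hasSubst_of_constantCoeff_zero fun i => by fin_cases i <;> simp
  have k : ∀ {x y : MvPowerSeries (Fin 3) R}, constantCoeff x = 0 → constantCoeff y = 0 →
      subst ![(X 0 : MvPowerSeries (Fin 2) R), 0, 0] (subst ![x, y] c) =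
        subst ![subst ![(X 0 : MvPowerSeries (Fin 2) R), 0, 0] x,
          subst ![(X 0 : MvPowerSeries (Fin 2) R), 0, 0] y] c := fun hx hy => by
    rw [subst_comp_subst_apply (hs2 hx hy) hs]
    congr 1
    funext i; fin_cases i <;> rfl
  have h1 := congrArg (subst ![(X 0 : MvPowerSeries (Fin 2) R), 0, 0]) h.coc
  rw [subst_add hs, subst_add hs, k (lcoc_x _) (lcoc_x _), k (lcoc_x _) (lcoc_x _),
    k (c0_fadd (lcoc_x _) (lcoc_x _)) (lcoc_x _), k (lcoc_x _) (c0_fadd (lcoc_x _) (lcoc_x _)),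
    subst_fadd hs (lcoc_x _) (lcoc_x _), subst_fadd hs (lcoc_x _) (lcoc_x _), subst_X hs,
    subst_X hs, subst_X hs] at h1
  have h2 : subst ![(X 0 : MvPowerSeries (Fin 2) R), 0] c +
      subst ![fadd Γ (X 0 : MvPowerSeries (Fin 2) R) 0, 0] c =
      subst ![(0 : MvPowerSeries (Fin 2) R), 0] c +
        subst ![(X 0 : MvPowerSeries (Fin 2) R), fadd Γ 0 0] c := h1
  have h3 : (![0, 0] : Fin 2 → MvPowerSeries (Fin 2) R) = 0 := by
    funext i; fin_cases i <;> rfl
  rw [fadd_zero (lcoc_x _), fadd_zero z, h3, subst_zero_of_constantCoeff_zero h.c0] at h2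
  exact add_right_cancel h2

theorem IsCoc.lcoc_end (h : IsCoc Γ c) {d : ℕ} (hd : Ord d c) :
    coeff (e2 d (d - d)) c = 0 := by
  have h1 := lcoc_split hd (lcoc_x (0 : Fin 2)) (map_zero _) (e2 d 0) (by rw [e2_degree]; omega)
  rw [h.lcoc_right, zero_sub, map_neg, neg_eq_zero, lcocF, map_sum, Finset.sum_eq_single d] at h1
  · have h2 := lcoc_coeff2 (R := R) d 0 d 0
    rw [pow_zero, if_pos ⟨rfl, rfl⟩] at h2
    rwa [coeff_C_mul, Nat.sub_self, pow_zero, h2, mul_one, ← Nat.sub_self d] at h1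
  · intro b hb hb'
    have := Finset.mem_range.1 hb
    rw [zero_pow (by omega), mul_zero, mul_zero, map_zero]
  · intro h
    exact absurd (Finset.mem_range.2 (by omega)) h

theorem IsCoc.lcoc_rel (h : IsCoc Γ c) {d : ℕ} (hd : Ord d c) (i j : ℕ) (hi : 1 ≤ i) (hj : 1 ≤ j)
    (hij : i + j < d) :
    coeff (e2 (i + j) (d - (i + j))) c * ((i + j).choose i : ℕ)
      = coeff (e2 i (d - i)) c * ((d - i).choose j : ℕ) := by
  obtain ⟨d', rfl⟩ : ∃ d', d = d' + 1 := ⟨d - 1, by omega⟩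
  have ad : ∀ a b : Fin 3, constantCoeff (X a + X b : MvPowerSeries (Fin 3) R) = 0 := fun a b => by
    rw [map_add, lcoc_x, lcoc_x, add_zero]
  have fg : ∀ a b : Fin 3, Ord (1 + 1) (fadd Γ (X a) (X b) - (X a + X b)) := fun a b => by
    have := (ord_fg Γ).subst (lcoc_c2 (lcoc_x a) (lcoc_x b))
    rw [subst_sub (hs2 (lcoc_x _) (lcoc_x _)), subst_sub (hs2 (lcoc_x _) (lcoc_x _)),
      subst_X (hs2 (lcoc_x _) (lcoc_x _)), subst_X (hs2 (lcoc_x _) (lcoc_x _)), sub_sub] at this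
    exact this
  have k1 := lcoc_split hd (lcoc_x (0 : Fin 3)) (lcoc_x 1)
  have k2 := lcoc_split hd (ad 0 1) (lcoc_x 2)
  have k3 := lcoc_split hd (lcoc_x (1 : Fin 3)) (lcoc_x 2)
  have k4 := lcoc_split hd (lcoc_x (0 : Fin 3)) (ad 1 2)
  have k5 := Ord.subst_sub (e := 1) (lcoc_c2 (c0_fadd (F := Γ) (lcoc_x 0) (lcoc_x 1)) (lcoc_x 2))
    (lcoc_c2 (ad 0 1) (lcoc_x 2)) (fun i => by
      fin_cases i
      · exact fg 0 1
      · exact (sub_self (X 2 : MvPowerSeries (Fin 3) R)).symm ▸ ord_zero _) hd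
  have k6 := Ord.subst_sub (e := 1) (lcoc_c2 (lcoc_x 0) (c0_fadd (F := Γ) (lcoc_x 1) (lcoc_x 2)))
    (lcoc_c2 (lcoc_x 0) (ad 1 2)) (fun i => by
      fin_cases i
      · exact (sub_self (X 0 : MvPowerSeries (Fin 3) R)).symm ▸ ord_zero _
      · exact fg 1 2) hd
  have k7 : Ord (d' + 1 + 1) (lcocF (d' + 1) c (X 0 : MvPowerSeries (Fin 3) R) (X 1)
      + lcocF (d' + 1) c (X 0 + X 1) (X 2) - lcocF (d' + 1) c (X 1) (X 2)
      - lcocF (d' + 1) c (X 0) (X 1 + X 2)) := by
    have := ((((k3.add k4).add k6).sub k1).sub k2).sub k5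
    convert this using 1
    linear_combination h.coc
  generalize d' + 1 = d at *
  have k8 := k7 (lcocE3 i j (d - (i + j))) (by
    simp only [lcocE3, map_add, Finsupp.degree_single]; omega)
  have t1 : coeff (lcocE3 i j (d - (i + j))) (lcocF d c (X 0) (X 1)) = 0 := by
    rw [lcocF, map_sum]
    refine Finset.sum_eq_zero fun k _ => ?_
    have := lcoc_coeff3 (R := R) i j (d - (i + j)) k (d - k) 0
    rw [pow_zero, mul_one, if_neg (by omega)] at this
    rw [coeff_C_mul, this, mul_zero]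
  have t3 : coeff (lcocE3 i j (d - (i + j))) (lcocF d c (X 1) (X 2)) = 0 := by
    rw [lcocF, map_sum]
    refine Finset.sum_eq_zero fun k _ => ?_
    have := lcoc_coeff3 (R := R) i j (d - (i + j)) 0 k (d - k)
    rw [pow_zero, one_mul, if_neg (by omega)] at this
    rw [coeff_C_mul, this, mul_zero]
  have t2 : coeff (lcocE3 i j (d - (i + j))) (lcocF d c (X 0 + X 1) (X 2))
      = coeff (e2 (i + j) (d - (i + j))) c * ((i + j).choose i : ℕ) := by
    have u : ∀ k, coeff (lcocE3 i j (d - (i + j)))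
        ((X 0 + X 1) ^ k * X 2 ^ (d - k) : MvPowerSeries (Fin 3) R) = ∑ m ∈ Finset.range (k + 1),
          (k.choose m : ℕ) * if i = m ∧ j = k - m ∧ d - (i + j) = d - k then (1 : R) else 0 := by
      intro k
      rw [add_pow, Finset.sum_mul, map_sum]
      refine Finset.sum_congr rfl fun m _ => ?_
      rw [← lcoc_coeff3, ← coeff_C_mul, map_natCast]
      congr 1
      ring
    rw [lcocF, map_sum, Finset.sum_eq_single (i + j)]
    · rw [coeff_C_mul, u, Finset.sum_eq_single i]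
      · rw [if_pos ⟨rfl, by omega, rfl⟩, mul_one]
      · intro b _ hb
        rw [if_neg fun h => hb h.1.symm, mul_zero]
      · intro h
        exact absurd (Finset.mem_range.2 (by omega)) h
    · intro b hb hb'
      have := Finset.mem_range.1 hb
      rw [coeff_C_mul, u, Finset.sum_eq_zero fun m _ => ?_, mul_zero]
      rw [if_neg (by omega), mul_zero]
    · intro h
      exact absurd (Finset.mem_range.2 (by omega)) h
  have t4 : coeff (lcocE3 i j (d - (i + j))) (lcocF d c (X 0) (X 1 + X 2))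
      = coeff (e2 i (d - i)) c * ((d - i).choose j : ℕ) := by
    have u : ∀ k, coeff (lcocE3 i j (d - (i + j)))
        (X 0 ^ k * (X 1 + X 2) ^ (d - k) : MvPowerSeries (Fin 3) R) =
          ∑ m ∈ Finset.range (d - k + 1), ((d - k).choose m : ℕ) *
            if i = k ∧ j = m ∧ d - (i + j) = d - k - m then (1 : R) else 0 := by
      intro k
      rw [add_pow, Finset.mul_sum, map_sum]
      refine Finset.sum_congr rfl fun m _ => ?_
      rw [← lcoc_coeff3, ← coeff_C_mul, map_natCast]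
      congr 1
      ring
    rw [lcocF, map_sum, Finset.sum_eq_single i]
    · rw [coeff_C_mul, u, Finset.sum_eq_single j]
      · rw [if_pos ⟨rfl, rfl, by omega⟩, mul_one]
      · intro b _ hb
        rw [if_neg fun h => hb h.2.1.symm, mul_zero]
      · intro h
        exact absurd (Finset.mem_range.2 (by omega)) h
    · intro b _ hb'
      rw [coeff_C_mul, u, Finset.sum_eq_zero fun m _ => ?_, mul_zero]
      rw [if_neg fun h => hb' h.1.symm, mul_zero]
    · intro h
      exact absurd (Finset.mem_range.2 (by omega)) h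
  rw [map_sub, map_sub, map_add, t1, t2, t3, t4] at k8
  linear_combination k8

theorem IsCoc.ord_two (h : IsCoc Γ c) : Ord 2 c := by
  have h1 : Ord 1 c := ord_one_iff.2 h.c0
  refine lcoc_ord_succ h1 fun i hi => ?_
  rcases Nat.eq_or_lt_of_le hi with rfl | hi
  · exact h.lcoc_end h1
  · rw [h.lcoc_sym h1 i hi.le, show 1 - i = 1 by omega]
    exact h.lcoc_end h1

end

variable {p : ℕ} [Fact p.Prime] {K : Type*} [Field K] [CharP K p] {Γ : FormalGroup K}

theorem coc_lead {c : MvPowerSeries (Fin 2) K} (hc : IsCoc Γ c) {d e : ℕ} (hd : Ord d c)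
    (h1 : p ^ e ∣ d) (h2 : p ^ e < d) (h3 : ¬ p ^ (e + 1) ∣ d ∨ p ^ (e + 1) = d)
    (h0 : coeff (e2 (p ^ e) (d - p ^ e)) c = 0) : Ord (d + 1) c := by
  have key := lz1 e d (fun i => coeff (e2 i (d - i)) c) (hc.lcoc_sym hd) (hc.lcoc_rel hd)
    h1 h2 h3 h0
  refine lcoc_ord_succ hd fun i hi => ?_
  rcases Nat.eq_or_lt_of_le hi with rfl | hi
  · exact hc.lcoc_end hd
  rcases Nat.eq_zero_or_pos i with rfl | hi0
  · rw [hc.lcoc_sym hd 0 hi.le]
    exact hc.lcoc_end hd
  · exact key i hi0 hi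

theorem lcoc_cob_pow {R : Type*} [CommRing R] (Γ : FormalGroup R) (d : ℕ) :
    cob Γ (PowerSeries.X ^ d) = Γ.toPowerSeries ^ d - X 0 ^ d - X 1 ^ d := by
  rw [cob, PowerSeries.subst_pow (hs1 Γ.zero_constantCoeff), PowerSeries.subst_pow (hs1 (lcoc_x _)),
    PowerSeries.subst_pow (hs1 (lcoc_x _)), PowerSeries.subst_X (hs1 Γ.zero_constantCoeff),
    PowerSeries.subst_X (hs1 (lcoc_x _)), PowerSeries.subst_X (hs1 (lcoc_x _))]

theorem lcoc_ord_pow {R : Type*} [CommRing R] (d : ℕ) :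
    Ord d (PowerSeries.X ^ d : PowerSeries R) := by
  have : Ord 1 (PowerSeries.X : PowerSeries R) := ord_one_iff.2 PowerSeries.constantCoeff_X
  simpa only [one_mul] using this.pow d

theorem lcoc_cob_zero {R : Type*} [CommRing R] (Γ : FormalGroup R) : cob Γ 0 = 0 := by
  have := cob_sub (Γ := Γ) 0 0
  rwa [sub_self, sub_self] at this

theorem lcoc_lead_pow {R : Type*} [CommRing R] (Γ : FormalGroup R) {i j : ℕ} (hi : 1 ≤ i)
    (hj : 1 ≤ j) : coeff (e2 i j) (cob Γ (PowerSeries.X ^ (i + j))) = ((i + j).choose i : ℕ) := by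
  obtain ⟨d, hd⟩ : ∃ d, i + j = d + 1 := ⟨i + j - 1, by omega⟩
  have h1 : Ord 1 (X 0 + X 1 : MvPowerSeries (Fin 2) R) :=
    ord_one_iff.2 (by rw [map_add, lcoc_x, lcoc_x, add_zero])
  have h2 := Ord.pow_sub_pow (ord_one_iff.2 Γ.zero_constantCoeff) h1
    (by have := ord_fg Γ; rwa [sub_sub] at this) d (e2 i j) (by rw [e2_degree]; omega)
  have h3 := lcoc_coeff2 (R := R) i j (i + j) 0
  have h4 := lcoc_coeff2 (R := R) i j 0 (i + j)
  rw [pow_zero, mul_one, if_neg (by omega)] at h3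
  rw [pow_zero, one_mul, if_neg (by omega)] at h4
  rw [← hd, map_sub, coeff_e2_add_pow] at h2
  rw [lcoc_cob_pow, map_sub, map_sub, h3, h4, sub_zero, sub_zero]
  exact sub_eq_zero.1 h2

theorem lcoc_coeff_pow (f : MvPowerSeries (Fin 2) K) (s i j : ℕ) :
    coeff (e2 (p ^ s * i) (p ^ s * j)) (f ^ p ^ s) = coeff (e2 i j) f ^ p ^ s := by
  have hp : p.Prime := Fact.out
  have h : e2 (p ^ s * i) (p ^ s * j) = p ^ s • e2 i j := by
    simp only [e2, smul_add, Finsupp.smul_single, smul_eq_mul]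
  rw [← map_iterateFrobenius_expand p hp.ne_zero, coeff_map, h, coeff_expand_smul,
    iterateFrobenius_def]

theorem model {n : ℕ} (hn : 1 ≤ n) (c : Fin (n - 1) → MvPowerSeries (Fin 2) K)
    (ho : ∀ i : Fin (n - 1), Ord (p ^ ((i : ℕ) + 1)) (c i))
    (hne : ∀ i : Fin (n - 1), coeff (e2 (p ^ (i : ℕ)) (p ^ ((i : ℕ) + 1) - p ^ (i : ℕ))) (c i) ≠ 0)
    (hΓo : Ord (p ^ n) (Γ.toPowerSeries - X 0 - X 1))
    (hΓne : coeff (e2 (p ^ (n - 1)) (p ^ n - p ^ (n - 1))) Γ.toPowerSeries ≠ 0)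
    {d : ℕ} (hd : 2 ≤ d) :
    ∃ (e : ℕ) (μ : Fin (n - 1) → K) (η : PowerSeries K), p ^ e ∣ d ∧ p ^ e < d ∧
      (¬ p ^ (e + 1) ∣ d ∨ p ^ (e + 1) = d) ∧ PowerSeries.constantCoeff η = 0 ∧
      Ord (d / p ^ n) η ∧ (p ^ n ≤ d → μ = 0) ∧ Ord d (∑ i, C (μ i) * c i + cob Γ η) ∧
      coeff (e2 (p ^ e) (d - p ^ e)) (∑ i, C (μ i) * c i + cob Γ η) ≠ 0 := by
  have hp : p.Prime := Fact.out
  have hp2 := hp.two_le
  have c0 : ∀ r : ℕ, r ≠ 0 → PowerSeries.constantCoeff (PowerSeries.X ^ r : PowerSeries K) = 0 :=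
    fun r hr => by rw [map_pow, PowerSeries.constantCoeff_X, zero_pow hr]
  have z : ∑ i, C ((0 : Fin (n - 1) → K) i) * c i = 0 := by simp
  obtain ⟨e, m, hm, rfl⟩ := Nat.exists_eq_pow_mul_and_not_dvd (show d ≠ 0 by omega) p hp.ne_one
  have hpe : ∀ e, 0 < p ^ e := fun e => pow_pos hp.pos e
  have hlt : ∀ e, p ^ e < p ^ (e + 1) := fun e => Nat.pow_lt_pow_right hp.one_lt (by omega)
  have hm0 : m ≠ 0 := by rintro rfl; exact hm (dvd_zero p)
  by_cases hm1 : m = 1
  · subst hm1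
    rw [mul_one] at hd ⊢
    obtain ⟨e, rfl⟩ : ∃ e', e = e' + 1 := ⟨e - 1, by
      rcases Nat.eq_zero_or_pos e with rfl | h
      · simp at hd
      · omega⟩
    by_cases hen : e + 1 < n
    · have hs : ∑ i, C ((Pi.single ⟨e, by omega⟩ 1 : Fin (n - 1) → K) i) * c i
          = c ⟨e, by omega⟩ := by
        rw [Finset.sum_eq_single ⟨e, by omega⟩]
        · simp
        · intro b _ hb
          simp [hb]
        · simp
      refine ⟨e, Pi.single ⟨e, by omega⟩ 1, 0, pow_dvd_pow p (by omega), hlt e, Or.inr rfl,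
        map_zero _, ord_zero _, fun h => ?_, ?_, ?_⟩
      · exact absurd (Nat.pow_lt_pow_right hp.one_lt hen) (by omega)
      · rw [hs, lcoc_cob_zero, add_zero]
        exact ho ⟨e, by omega⟩
      · rw [hs, lcoc_cob_zero, add_zero]
        exact hne ⟨e, by omega⟩
    · obtain ⟨s, hs⟩ : ∃ s, e + 1 = s + n := ⟨e + 1 - n, by omega⟩
      have : CharP (MvPowerSeries (Fin 2) K) p := charP_of_injective_ringHom (C_injective) p
      have hc : cob Γ (PowerSeries.X ^ p ^ s) = (Γ.toPowerSeries - X 0 - X 1) ^ p ^ s := by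
        rw [lcoc_cob_pow, sub_pow_char_pow, sub_pow_char_pow]
      refine ⟨e, 0, PowerSeries.X ^ p ^ s, pow_dvd_pow p (by omega), hlt e, Or.inr rfl,
        c0 _ (hpe s).ne', ?_, fun _ => rfl, ?_, ?_⟩
      · rw [hs, pow_add, Nat.mul_div_cancel _ (hpe n)]
        exact lcoc_ord_pow _
      · rw [z, zero_add, hc, hs, pow_add, mul_comm]
        exact hΓo.pow _
      · have h1 : p ^ e = p ^ s * p ^ (n - 1) := by rw [← pow_add]; congr 1; omega
        have h2 := lcoc_coeff2 (R := K) (p ^ (n - 1)) (p ^ n - p ^ (n - 1)) 1 0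
        have h3 := lcoc_coeff2 (R := K) (p ^ (n - 1)) (p ^ n - p ^ (n - 1)) 0 1
        have h4 := hpe (n - 1)
        have h5 := hlt (n - 1)
        rw [show n - 1 + 1 = n by omega] at h5
        rw [pow_zero, mul_one, pow_one, if_neg (by omega)] at h2
        rw [pow_zero, one_mul, pow_one, if_neg (by omega)] at h3
        rw [z, zero_add, hc, hs, pow_add, h1, ← Nat.mul_sub, lcoc_coeff_pow, map_sub, map_sub, h2,
          h3, sub_zero, sub_zero]
        exact pow_ne_zero _ hΓne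
  · have h1 : p ^ e < p ^ e * m := by
      have := hpe e
      have : 2 ≤ m := by omega
      nlinarith
    refine ⟨e, 0, PowerSeries.X ^ (p ^ e * m), dvd_mul_right _ _, h1, Or.inl fun h => hm ?_,
      c0 _ (by omega), (lcoc_ord_pow _).mono (Nat.div_le_self _ _), fun _ => rfl, ?_, ?_⟩
    · rw [pow_succ] at h
      exact Nat.dvd_of_mul_dvd_mul_left (hpe e) h
    · rw [z, zero_add]
      exact cob_ord (lcoc_ord_pow _)
    · have h2 := lcoc_lead_pow Γ (i := p ^ e) (j := p ^ e * m - p ^ e) (hpe e) (by omega)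
      rw [show p ^ e + (p ^ e * m - p ^ e) = p ^ e * m by omega, lcoc_choose_pow] at h2
      rw [z, zero_add, h2]
      exact fun h => hm ((CharP.cast_eq_zero_iff K p m).1 h)

theorem h2 {n : ℕ} (hn : 1 ≤ n) (hΓ : Γ.IsComm) (c : Fin (n - 1) → MvPowerSeries (Fin 2) K)
    (hc : ∀ i, IsCoc Γ (c i)) (ho : ∀ i : Fin (n - 1), Ord (p ^ ((i : ℕ) + 1)) (c i))
    (hne : ∀ i : Fin (n - 1), coeff (e2 (p ^ (i : ℕ)) (p ^ ((i : ℕ) + 1) - p ^ (i : ℕ))) (c i) ≠ 0)
    (hΓo : Ord (p ^ n) (Γ.toPowerSeries - X 0 - X 1))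
    (hΓne : coeff (e2 (p ^ (n - 1)) (p ^ n - p ^ (n - 1))) Γ.toPowerSeries ≠ 0)
    {g : MvPowerSeries (Fin 2) K} (hg : IsCoc Γ g) :
    ∃ (μ : Fin (n - 1) → K) (η : PowerSeries K), PowerSeries.constantCoeff η = 0 ∧
      g = ∑ i, C (μ i) * c i + cob Γ η := by
  have hp : p.Prime := Fact.out
  have hpn : 0 < p ^ n := pow_pos hp.pos n
  have co : ∀ (μ : Fin (n - 1) → K) (η : PowerSeries K), PowerSeries.constantCoeff η = 0 →
      IsCoc Γ (∑ i, C (μ i) * c i + cob Γ η) := fun μ η h =>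
    (isCoc_sum _ fun i _ => (hc i).C_mul _).add (isCoc_cob hΓ h)
  have step : ∀ (N : ℕ) (x : (Fin (n - 1) → K) × PowerSeries K),
      ∃ y : (Fin (n - 1) → K) × PowerSeries K, PowerSeries.constantCoeff x.2 = 0 ∧
        Ord (N + 2) (g - (∑ i, C (x.1 i) * c i + cob Γ x.2)) →
      (PowerSeries.constantCoeff y.2 = 0 ∧
        Ord (N + 1 + 2) (g - (∑ i, C (y.1 i) * c i + cob Γ y.2))) ∧
      Ord ((N + 2) / p ^ n) (y.2 - x.2) ∧ (p ^ n ≤ N + 2 → y.1 = x.1) := by
    intro N x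
    obtain ⟨e, μ, η, h1, h2, h3, h4, h5, h6, h7, h8⟩ :=
      model hn c ho hne hΓo hΓne (d := N + 2) (by omega)
    obtain ⟨l, hl⟩ : ∃ l : K, l * coeff (e2 (p ^ e) (N + 2 - p ^ e))
        (∑ i, C (μ i) * c i + cob Γ η) = coeff (e2 (p ^ e) (N + 2 - p ^ e))
          (g - (∑ i, C (x.1 i) * c i + cob Γ x.2)) := ⟨_, div_mul_cancel₀ _ h8⟩
    refine ⟨(x.1 + l • μ, x.2 + PowerSeries.C l * η), fun hx => ⟨⟨?_, ?_⟩, ?_, fun h => ?_⟩⟩
    · rw [map_add, map_mul, hx.1, h4, mul_zero, add_zero]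
    · have k := coc_lead ((hg.sub (co _ _ hx.1)).sub ((co _ _ h4).C_mul l))
        (hx.2.sub (h7.mul_left _)) h1 h2 h3 (by rw [map_sub, coeff_C_mul, hl, sub_self])
      convert k using 1
      simp only [cob_add, cob_C_mul, Pi.add_apply, Pi.smul_apply, smul_eq_mul, map_add, map_mul,
        add_mul, Finset.sum_add_distrib, mul_add, Finset.mul_sum, mul_assoc]
      ring
    · rw [add_sub_cancel_left]
      exact h5.mul_left _
    · rw [h6 h, smul_zero, add_zero]
  choose f hf using step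
  obtain ⟨s, s0, ss⟩ : ∃ s : ℕ → (Fin (n - 1) → K) × PowerSeries K, s 0 = (0, 0) ∧
      ∀ N, s (N + 1) = f N (s N) := ⟨fun N => Nat.rec (0, 0) f N, rfl, fun _ => rfl⟩
  have inv : ∀ N, PowerSeries.constantCoeff (s N).2 = 0 ∧
      Ord (N + 2) (g - (∑ i, C ((s N).1 i) * c i + cob Γ (s N).2)) := by
    intro N
    induction N with
    | zero =>
      rw [s0]
      refine ⟨map_zero _, ?_⟩
      simpa [lcoc_cob_zero] using hg.ord_two
    | succ N ih => rw [ss]; exact (hf N _ ih).1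
  have stab : ∀ N, (s (p ^ n + N)).1 = (s (p ^ n)).1 := by
    intro N
    induction N with
    | zero => rfl
    | succ N ih => rw [← add_assoc, ss, (hf _ _ (inv _)).2.2 (by omega), ih]
  have big : ∀ j N, j * p ^ n ≤ N → j ≤ (N + 2) / p ^ n := fun j N h =>
    (Nat.le_div_iff_mul_le hpn).2 (by omega)
  obtain ⟨L, hL⟩ := exists_lim (fun N => (s N).2) (fun N => (N + 2) / p ^ n)
    (fun a b h => Nat.div_le_div_right (by omega)) (fun j => ⟨j * p ^ n, big j _ le_rfl⟩)
    (fun N => by rw [ss]; exact (hf N _ (inv N)).2.1)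
  refine ⟨(s (p ^ n)).1, L, ?_, sub_eq_zero.1 (eq_zero_of_ord fun d => ?_)⟩
  · have h1 : PowerSeries.constantCoeff (L - (s (p ^ n)).2) = 0 :=
      ord_one_iff.1 ((hL (p ^ n)).mono (big 1 _ (by omega)))
    rwa [map_sub, (inv _).1, sub_zero] at h1
  · have h1 : d ≤ d * p ^ n := Nat.le_mul_of_pos_right d hpn
    have h2 := ((inv (p ^ n + d * p ^ n)).2.mono (show d ≤ _ by omega)).sub
      (cob_ord (Γ := Γ) ((hL (p ^ n + d * p ^ n)).mono (big d _ (by omega))))
    rw [stab, cob_sub] at h2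
    convert h2 using 1
    ring

end

end Vale.Agent.P217
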