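import Vale.Agent.P217.RCong

/-! P217: ring theoretic facts about `E0`.
PLAN.  `WittVector p k` is a discrete valuation ring for a perfect field `k`
(`WittVector.isDiscreteValuationRing`, `WittVector.irreducible`, `WittVector.isAdicCompleteIdealSpanP`,
`WittVector.ker_constantCoeff` or `WittVector.mem_span_p_iff_coeff_zero_eq_zero`).
* `mem_mE`: `mE` is the kernel of `res`; `f - C (constantCoeff f) ∈ span (range X)` (`mem_pow_span_X`).
* `mem_mE_pow`: `f ∈ mE^N ↔ ∀ d, p^(N - degree d) ∣ coeff d f`: left to right by induction on `N`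
  (the right side defines a multiplicative filtration); right to left: `f = trunc_N f + (X)^N`, and each
  monomial `c X^d` of the truncation is in `(p)^(N-|d|) (X)^|d|`.
* completeness: coefficientwise from `mem_mE_pow` and completeness of `WittVector p k`.
* `isAdicComplete_quot`: precomplete by lifting a Cauchy sequence (choose lifts of differences),
  Hausdorff by Krull intersection in the Noetherian local ring `R ⧸ J`
  (`IsHausdorff` instance for Noetherian local rings, `Ideal.iInf_pow_eq_bot_of_isLocalRing`).
* `bij_of_sub_mem_sq`: `φ - id` maps `m^j` into `m^(j+1)`; injective by Hausdorff, surjective by the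
  geometric series `∑ (id - φ)^j y`.  -/

namespace Vale.Agent.P217

open MvPowerSeries IsLocalRing

noncomputable section

variable {p n : ℕ} [Fact p.Prime] {k : Type} [Field k] [CharP k p] [PerfectRing k p]

instance isLocalRing_E0 : IsLocalRing (E0 p n k) :=
  inferInstanceAs (IsLocalRing (MvPowerSeries (Fin (n - 1)) (WittVector p k)))

instance isNoetherianRing_E0 : IsNoetherianRing (E0 p n k) :=
  MvPowerSeries.isNoetherianRing _

instance isDomain_E0 : IsDomain (E0 p n k) := NoZeroDivisors.to_isDomain _

theorem re_charZero_witt : CharZero (WittVector p k) := by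
  have hq := ringChar.charP (WittVector p k)
  rcases CharP.char_is_prime_or_zero (WittVector p k) (ringChar (WittVector p k)) with h | h
  · exfalso
    have h1 : ((ringChar (WittVector p k) : ℕ) : WittVector p k) = 0 := CharP.cast_eq_zero _ _
    have h2 := congrArg (WittVector.constantCoeff (p := p) (R := k)) h1
    rw [map_natCast, map_zero, CharP.cast_eq_zero_iff k p,
      Nat.prime_dvd_prime_iff_eq Fact.out h] at h2
    rw [← h2] at h1
    exact (WittVector.irreducible (k := k) p).ne_zero h1
  · rw [h] at hq
    exact CharP.charP_to_charZero _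

instance charZero_E0 : CharZero (E0 p n k) :=
  haveI := re_charZero_witt (p := p) (k := k)
  charZero_of_injective_ringHom (f := (C : WittVector p k →+* E0 p n k)) C_injective

/-- the maximal ideal -/
abbrev mE (p n : ℕ) [Fact p.Prime] (k : Type) [Field k] [CharP k p] [PerfectRing k p] :
    Ideal (E0 p n k) := maximalIdeal (E0 p n k)

omit [CharP k p] [PerfectRing k p] in
theorem re_res_apply (f : E0 p n k) : res f = (constantCoeff f).coeff 0 := rfl

omit [CharP k p] [PerfectRing k p] in
theorem re_res_surjective : Function.Surjective (res : E0 p n k → k) := by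
  intro x
  refine ⟨C (WittVector.teichmuller p x), ?_⟩
  rw [re_res_apply, constantCoeff_C, WittVector.teichmuller_coeff_zero]

theorem mem_mE {f : E0 p n k} : f ∈ mE p n k ↔ res f = 0 := by
  have h := RingHom.ker_isMaximal_of_surjective (res : E0 p n k →+* k) re_res_surjective
  rw [mE, ← eq_maximalIdeal h, RingHom.mem_ker]

theorem res_surjective : Function.Surjective (res : E0 p n k → k) := re_res_surjective

theorem res_C (a : WittVector p k) : res (C a : E0 p n k) = a.coeff 0 := by
  rw [re_res_apply, constantCoeff_C]

theorem p_mem_mE : (p : E0 p n k) ∈ mE p n k := by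
  rw [mem_mE, map_natCast, CharP.cast_eq_zero]

theorem X_mem_mE (i : Fin (n - 1)) : (X i : E0 p n k) ∈ mE p n k := by
  rw [mem_mE, re_res_apply, constantCoeff_X, WittVector.zero_coeff]

theorem re_span_X_le : Ideal.span (Set.range X) ≤ mE p n k := by
  rw [Ideal.span_le]
  rintro _ ⟨i, rfl⟩
  exact X_mem_mE i

theorem re_mem_mE_iff_dvd {f : E0 p n k} :
    f ∈ mE p n k ↔ (p : WittVector p k) ∣ constantCoeff f := by
  rw [mem_mE, re_res_apply, ← WittVector.mem_span_p_iff_coeff_zero_eq_zero,
    Ideal.mem_span_singleton]

theorem mE_eq_span : mE p n k = Ideal.span {(p : E0 p n k)} ⊔ Ideal.span (Set.range X) := by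
  apply le_antisymm
  · intro f hf
    obtain ⟨c, hc⟩ := re_mem_mE_iff_dvd.1 hf
    have e : f = C (constantCoeff f) + (f - C (constantCoeff f)) := by ring
    rw [e]
    refine Submodule.add_mem_sup ?_ (rc_mem_span_X (by simp))
    rw [hc, map_mul, map_natCast]
    exact Ideal.mul_mem_right _ _ (Ideal.mem_span_singleton_self _)
  · refine sup_le ?_ re_span_X_le
    rw [Ideal.span_singleton_le_iff_mem]
    exact p_mem_mE

theorem heightIdeal_top (hn : 1 ≤ n) : heightIdeal p n k n = mE p n k := by
  rw [mE_eq_span, heightIdeal, Ideal.span_union]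
  congr 2
  · ext x
    simp only [Set.mem_ofPred_eq, Set.mem_singleton_iff]
    exact ⟨fun h => h.2, fun h => ⟨hn, h⟩⟩
  · ext x
    simp only [Set.mem_ofPred_eq, Set.mem_range]
    constructor
    · rintro ⟨i, -, rfl⟩
      exact ⟨i, rfl⟩
    · rintro ⟨i, rfl⟩
      exact ⟨i, by have := i.2; omega, rfl⟩

omit [CharP k p] [PerfectRing k p] in
theorem re_filt_mul {f g : E0 p n k} {N M : ℕ}
    (hf : ∀ d, (p : WittVector p k) ^ (N - d.degree) ∣ coeff d f)
    (hg : ∀ d, (p : WittVector p k) ^ (M - d.degree) ∣ coeff d g) (d : Fin (n - 1) →₀ ℕ) :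
    (p : WittVector p k) ^ (N + M - d.degree) ∣ coeff d (f * g) := by
  rw [coeff_mul]
  refine Finset.dvd_sum fun q hq => ?_
  rw [Finset.HasAntidiagonal.mem_antidiagonal] at hq
  have h := mul_dvd_mul (hf q.1) (hg q.2)
  rw [← pow_add] at h
  refine (pow_dvd_pow _ ?_).trans h
  rw [← hq, map_add]
  omega

theorem mem_mE_pow {f : E0 p n k} {N : ℕ} :
    f ∈ mE p n k ^ N ↔ ∀ d, (p : WittVector p k) ^ (N - d.degree) ∣ coeff d f := by
  constructor
  · induction N generalizing f with
    | zero => intro _ d; simp
    | succ N ih =>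
      intro hf
      rw [pow_succ] at hf
      refine Submodule.mul_induction_on hf ?_ ?_
      · intro x hx y hy
        refine re_filt_mul (ih hx) fun d => ?_
        by_cases hd : d = 0
        · subst hd
          simpa using re_mem_mE_iff_dvd.1 hy
        · have : d.degree ≠ 0 := fun h => hd ((Finsupp.degree_eq_zero_iff d).1 h)
          have e : 1 - d.degree = 0 := by omega
          rw [e, pow_zero]
          exact one_dvd _
      · intro x y hx hy d
        rw [map_add]
        exact dvd_add (hx d) (hy d)
  · intro h
    have hmon : ∀ d, (monomial d (coeff d f) : E0 p n k) ∈ mE p n k ^ N := by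
      intro d
      obtain ⟨c, hc⟩ := h d
      have e : (monomial d (coeff d f) : E0 p n k)
          = (p : E0 p n k) ^ (N - d.degree) * monomial d c := by
        rw [hc, ← map_natCast (C : WittVector p k →+* E0 p n k), ← map_pow, ← monomial_zero_eq_C_apply,
          monomial_mul_monomial, zero_add]
      have h1 : (monomial d c : E0 p n k) ∈ mE p n k ^ d.degree := by
        refine Ideal.pow_right_mono re_span_X_le _ (mem_pow_span_X _ _ fun d' hd' => ?_)
        rw [coeff_monomial_ne]
        rintro rfl
        exact lt_irrefl _ hd'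
      have h2 := Ideal.mul_mem_mul (Ideal.pow_mem_pow (p_mem_mE (p := p) (n := n) (k := k))
        (N - d.degree)) h1
      rw [← pow_add] at h2
      rw [e]
      exact Ideal.pow_le_pow_right (by omega) h2
    have h1 := Ideal.pow_right_mono re_span_X_le N (sub_truncTotal_mem N f)
    have h2 : ((truncTotal N f : MvPolynomial (Fin (n - 1)) (WittVector p k)) : E0 p n k)
        ∈ mE p n k ^ N := by
      rw [(truncTotal N f).as_sum, ← MvPolynomial.coeToMvPowerSeries.ringHom_apply, map_sum]
      refine Ideal.sum_mem _ fun d _ => ?_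
      rw [MvPolynomial.coeToMvPowerSeries.ringHom_apply, MvPolynomial.coe_monomial]
      by_cases hd : d.degree < N
      · rw [coeff_truncTotal _ hd]
        exact hmon d
      · rw [coeff_truncTotal_eq_zero _ (not_lt.1 hd), map_zero]
        exact Ideal.zero_mem _
    simpa using Ideal.add_mem _ h1 h2

instance isAdicComplete_E0 : IsAdicComplete (mE p n k) (E0 p n k) where
  prec' f hf := by
    simp only [SModEq.sub_mem, smul_eq_mul, Ideal.mul_top, mem_mE_pow] at hf ⊢
    have key : ∀ d : Fin (n - 1) →₀ ℕ, ∃ L : WittVector p k, ∀ m,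
        (p : WittVector p k) ^ m ∣ coeff d (f (m + d.degree)) - L := by
      intro d
      have h := IsPrecomplete.prec' (I := Ideal.span {(p : WittVector p k)})
        (fun m => coeff d (f (m + d.degree))) (fun {m m'} hmm => by
          rw [SModEq.sub_mem, smul_eq_mul, Ideal.mul_top, Ideal.span_singleton_pow,
            Ideal.mem_span_singleton, ← map_sub]
          have := hf (Nat.add_le_add_right hmm d.degree) d
          rwa [Nat.add_sub_cancel] at this)
      simpa only [SModEq.sub_mem, smul_eq_mul, Ideal.mul_top, Ideal.span_singleton_pow,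
        Ideal.mem_span_singleton] using h
    choose L hL using key
    let L' : E0 p n k := L
    refine ⟨L', fun m d => ?_⟩
    by_cases hd : d.degree ≤ m
    · have := hL d (m - d.degree)
      rw [Nat.sub_add_cancel hd] at this
      rw [map_sub]
      exact this
    · have e : m - d.degree = 0 := by omega
      rw [e, pow_zero]
      exact one_dvd _

/-- a quotient of a complete Noetherian local ring is complete -/
theorem isAdicComplete_quot {R : Type*} [CommRing R] [IsLocalRing R] [IsNoetherianRing R]
    [IsAdicComplete (maximalIdeal R) R] (J : Ideal R) [IsLocalRing (R ⧸ J)] :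
    IsAdicComplete (maximalIdeal (R ⧸ J)) (R ⧸ J) where
  prec' f hf := by
    have hm : maximalIdeal (R ⧸ J) = (maximalIdeal R).map (Ideal.Quotient.mk J) :=
      (map_maximalIdeal_of_surjective _ Ideal.Quotient.mk_surjective).symm
    simp only [SModEq.sub_mem, smul_eq_mul, Ideal.mul_top, hm, ← Ideal.map_pow] at hf ⊢
    have h1 : ∀ j, ∃ δ ∈ maximalIdeal R ^ j, Ideal.Quotient.mk J δ = f (j + 1) - f j := by
      intro j
      have := neg_mem (hf (Nat.le_succ j))
      rw [neg_sub] at this
      exact (Ideal.mem_map_iff_of_surjective _ Ideal.Quotient.mk_surjective).1 this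
    choose δ hδ hδ' using h1
    obtain ⟨x, hx⟩ := Ideal.Quotient.mk_surjective (f 0)
    have h2 : ∀ j, Ideal.Quotient.mk J (x + ∑ i ∈ Finset.range j, δ i) = f j := by
      intro j
      induction j with
      | zero => simpa using hx
      | succ j ih => rw [Finset.sum_range_succ, ← add_assoc, map_add, ih, hδ', add_sub_cancel]
    obtain ⟨L, hL⟩ := rc_exists_lim (maximalIdeal R) (fun j => x + ∑ i ∈ Finset.range j, δ i)
      (fun j => by rw [Finset.sum_range_succ, ← add_assoc, add_sub_cancel_left]; exact hδ j)
    refine ⟨Ideal.Quotient.mk J L, fun j => ?_⟩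
    rw [← h2, ← map_sub, ← neg_sub, map_neg]
    exact neg_mem (Ideal.mem_map_of_mem _ (hL j))

theorem bij_of_sub_mem_sq {R : Type*} [CommRing R] (m : Ideal R) [IsAdicComplete m R]
    (φ : R →+* R) (h : ∀ f, φ f - f ∈ m ^ 2) : Function.Bijective φ := by
  have h1 : ∀ y ∈ m, φ y ∈ m := by
    intro y hy
    have := m.add_mem (Ideal.pow_le_self two_ne_zero (h y)) hy
    rwa [sub_add_cancel] at this
  have key : ∀ j, ∀ x ∈ m ^ j, φ x - x ∈ m ^ (j + 1) := by
    intro j
    induction j with
    | zero => intro x _; exact Ideal.pow_le_pow_right (by omega) (h x)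
    | succ j ih =>
      intro x hx
      rw [pow_succ] at hx
      refine Submodule.mul_induction_on hx ?_ ?_
      · intro x hx y hy
        have e : φ (x * y) - x * y = (φ x - x) * φ y + x * (φ y - y) := by rw [map_mul]; ring
        rw [e]
        refine Ideal.add_mem _ ?_ ?_
        · rw [pow_succ]
          exact Ideal.mul_mem_mul (ih x hx) (h1 y hy)
        · rw [add_assoc, pow_add]
          exact Ideal.mul_mem_mul hx (h y)
      · intro x y hx hy
        have e : φ (x + y) - (x + y) = (φ x - x) + (φ y - y) := by rw [map_add]; ring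
        rw [e]
        exact Ideal.add_mem _ hx hy
  constructor
  · rw [injective_iff_map_eq_zero]
    intro x hx
    apply eq_zero_of_mem_pow m
    intro j
    induction j with
    | zero => simp
    | succ j ih =>
      have := neg_mem (key j x ih)
      rwa [hx, zero_sub, neg_neg] at this
  · intro y
    let s : ℕ → R := fun j => Nat.rec (motive := fun _ => R) 0 (fun _ x => x + (y - φ x)) j
    have sS : ∀ j, s (j + 1) = s j + (y - φ (s j)) := fun _ => rfl
    have hδ : ∀ j, y - φ (s j) ∈ m ^ j := by
      intro j
      induction j with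
      | zero => simp
      | succ j ih =>
        have e : y - φ (s (j + 1)) = -(φ (y - φ (s j)) - (y - φ (s j))) := by
          rw [sS, map_add]; ring
        rw [e]
        exact neg_mem (key j _ ih)
    obtain ⟨L, hL⟩ := rc_exists_lim m s (fun j => by rw [sS, add_sub_cancel_left]; exact hδ j)
    refine ⟨L, ?_⟩
    rw [← sub_eq_zero]
    apply eq_zero_of_mem_pow m
    intro j
    have e : φ L - y = (φ (L - s j) - (L - s j)) + (L - s j) - (y - φ (s j)) := by
      rw [map_sub]; ring
    rw [e]
    exact Ideal.sub_mem _ (Ideal.add_mem _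
      (Ideal.pow_le_pow_right (Nat.le_succ j) (key j _ (hL j))) (hL j)) (hδ j)

/-- a nonzero element of `E0` is `p^j` times a series with a unit coefficient -/
theorem exists_pow_mul_unit_coeff {f : E0 p n k} (hf : f ≠ 0) :
    ∃ (j : ℕ) (g : E0 p n k) (d : Fin (n - 1) →₀ ℕ), f = (p : E0 p n k) ^ j * g ∧
      IsUnit (coeff d g) := by
  classical
  have hex : ∃ j : ℕ, ∃ d, ¬ (p : WittVector p k) ^ (j + 1) ∣ coeff d f := by
    by_contra hc
    push Not at hc
    apply hf
    ext1 d
    rw [map_zero]
    apply eq_zero_of_mem_pow (Ideal.span {(p : WittVector p k)})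
    intro j
    rw [Ideal.span_singleton_pow, Ideal.mem_span_singleton]
    exact (pow_dvd_pow _ (Nat.le_succ j)).trans (hc j d)
  obtain ⟨d, hd⟩ := Nat.find_spec hex
  have hall : ∀ d', (p : WittVector p k) ^ Nat.find hex ∣ coeff d' f := by
    intro d'
    rcases Nat.eq_zero_or_pos (Nat.find hex) with h0 | h0
    · rw [h0, pow_zero]; exact one_dvd _
    · have := Nat.find_min hex (Nat.sub_lt h0 one_pos)
      push Not at this
      have h2 := this d'
      rwa [show Nat.find hex - 1 + 1 = Nat.find hex by omega] at h2
  generalize Nat.find hex = j at hd hall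
  obtain ⟨g, hg⟩ := (mem_cId_span_singleton (a := f)).1
    (mem_cId.2 fun d' => Ideal.mem_span_singleton.2 (hall d'))
  refine ⟨j, g, d, by rw [hg, map_pow, map_natCast], ?_⟩
  apply WittVector.isUnit_of_coeff_zero_ne_zero
  intro h0
  apply hd
  rw [← WittVector.mem_span_p_iff_coeff_zero_eq_zero, Ideal.mem_span_singleton] at h0
  conv_rhs => rw [hg]
  rw [coeff_C_mul, pow_succ]
  exact mul_dvd_mul_left _ h0

end

end Vale.Agent.P217
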