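import Vale.Agent.P217.ZNorm
import Vale.Agent.P217.RE0

/-! P217: points of `E0` in a valued field of characteristic zero.
PLAN.
* `norm_le_of_mem_span`: `Submodule.span_induction`.
* `exists_isPt`: `mE_eq_span`; `ρ` = the maximum of the finitely many norms `‖z p‖`, `‖z (X i)‖`.
* `IsPt.comp`: a ring automorphism of a local ring preserves the maximal ideal (units go to units).
* `IsPt.pow`: induction, `Submodule.mul_induction_on`.
* `IsPt.taylor`: `σ = ev C (X + δ)` with `δ i = σ (X i) - X i` (`eq_ev`, `Good.of_mem mE`), `ev C X = id`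
  (`ev_X_self`); `ev_add_sub_mem` with `I = mE`, `J = span {δ i * δ j}`; `J` is closed by Krull's
  intersection theorem in the Noetherian local ring `E0 ⧸ J` (`Ideal.iInf_pow_eq_bot_of_isLocalRing`, or
  `Ideal.mem_iInf_smul_pow_eq_bot_iff`; the case `J = ⊤` is trivial); then `norm_le_of_mem_span`. -/

namespace Vale.Agent.P217

open MvPowerSeries IsLocalRing

noncomputable section

variable {C : Type*} [NormedField C] [IsUltrametricDist C]

theorem norm_le_of_mem_span {R : Type*} [CommRing R] (y : R →+* C) (hy : ∀ r, ‖y r‖ ≤ 1)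
    {s : Set R} {ε : ℝ} (hε : 0 ≤ ε) (hs : ∀ x ∈ s, ‖y x‖ ≤ ε) {f : R} (hf : f ∈ Ideal.span s) :
    ‖y f‖ ≤ ε := by
  induction hf using Submodule.span_induction with
  | mem x hx => exact hs x hx
  | zero => simpa using hε
  | add a b _ _ ha hb =>
    rw [map_add]
    exact (IsUltrametricDist.norm_add_le_max _ _).trans (max_le ha hb)
  | smul r a _ ha =>
    rw [smul_eq_mul, map_mul, norm_mul]
    exact (mul_le_of_le_one_left (norm_nonneg _) (hy r)).trans ha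

theorem norm_eq_one_of_isUnit {R : Type*} [CommRing R] (y : R →+* C) (hy : ∀ r, ‖y r‖ ≤ 1)
    {f : R} (hf : IsUnit f) : ‖y f‖ = 1 := by
  obtain ⟨g, hg⟩ := hf.exists_right_inv
  refine le_antisymm (hy f) ?_
  have h : ‖y f‖ * ‖y g‖ = 1 := by rw [← norm_mul, ← map_mul, hg, map_one, norm_one]
  exact h ▸ mul_le_of_le_one_right (norm_nonneg _) (hy g)

/-- ideals of a Noetherian local ring are closed -/
theorem mem_of_forall_mem_sup {R : Type*} [CommRing R] [IsLocalRing R] [IsNoetherianRing R]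
    (J : Ideal R) {x : R} (hx : ∀ j, x ∈ J ⊔ maximalIdeal R ^ j) : x ∈ J := by
  rcases eq_or_ne J ⊤ with rfl | hJ
  · trivial
  haveI := Ideal.Quotient.nontrivial_iff.2 hJ
  haveI := IsLocalRing.of_surjective' (Ideal.Quotient.mk J) Ideal.Quotient.mk_surjective
  have h := Ideal.iInf_pow_eq_bot_of_isLocalRing (maximalIdeal (R ⧸ J))
    (maximalIdeal.isMaximal _).ne_top
  rw [← Ideal.Quotient.eq_zero_iff_mem, ← Ideal.mem_bot, ← h, Ideal.mem_iInf]
  intro j
  obtain ⟨a, ha, b, hb, rfl⟩ := Submodule.mem_sup.1 (hx j)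
  rw [map_add, Ideal.Quotient.eq_zero_iff_mem.2 ha, zero_add,
    ← map_maximalIdeal_of_surjective _ Ideal.Quotient.mk_surjective, ← Ideal.map_pow]
  exact Ideal.mem_map_of_mem _ hb

variable {p n : ℕ} [Fact p.Prime] {k : Type} [Field k] [CharP k p] [PerfectRing k p]
  {y : E0 p n k →+* C} {ρ : ℝ}

/-- a point of the open disc in characteristic zero -/
structure IsPt (y : E0 p n k →+* C) (ρ : ℝ) : Prop where
  le_one : ∀ f, ‖y f‖ ≤ 1
  le_rho : ∀ f ∈ mE p n k, ‖y f‖ ≤ ρ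
  lt_one : ρ < 1
  p_ne : (p : C) ≠ 0

theorem exists_isPt (h1 : ∀ f, ‖y f‖ ≤ 1) (h2 : ∀ f ∈ mE p n k, ‖y f‖ < 1) (hp : (p : C) ≠ 0) :
    ∃ ρ, IsPt y ρ := by
  obtain ⟨s, hs⟩ := IsNoetherian.noetherian (mE p n k)
  refine ⟨((s.sup fun f => ‖y f‖₊ : NNReal) : ℝ), h1, fun f hf => ?_, ?_, hp⟩
  · refine norm_le_of_mem_span y h1 (s := s) NNReal.zero_le_coe (fun x hx => ?_)
      (hs.ge hf)
    exact NNReal.coe_le_coe.2 (Finset.le_sup (f := fun f => ‖y f‖₊) hx)
  · rw [NNReal.coe_lt_one, Finset.sup_lt_iff (by simp)]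
    exact fun f hf => h2 f (hs ▸ Submodule.subset_span hf)

theorem zpt_mem (σ : E0 p n k ≃+* E0 p n k) {f : E0 p n k} (hf : f ∈ mE p n k) :
    σ f ∈ mE p n k := fun h => hf (by simpa using h.map σ.symm)
theorem IsPt.comp (hy : IsPt y ρ) (σ : E0 p n k ≃+* E0 p n k) :
    IsPt (y.comp σ.toRingHom) ρ :=   ⟨fun _ => hy.le_one _, fun _ hf => hy.le_rho _ (zpt_mem σ hf), hy.lt_one, hy.p_ne⟩

theorem IsPt.norm_p (hy : IsPt y ρ) : ‖(p : C)‖ ≤ ρ := by
  simpa using hy.le_rho _ p_mem_mE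

theorem IsPt.rho_pos (hy : IsPt y ρ) : 0 < ρ := (norm_pos_iff.2 hy.p_ne).trans_le hy.norm_p

theorem IsPt.qAlg (hy : IsPt y ρ) : QAlg C :=   qAlg_of_norm Fact.out hy.p_ne (hy.norm_p.trans_lt hy.lt_one)

theorem IsPt.exists_goodB (hy : IsPt y ρ) : ∃ B, GoodB C ρ B :=   P217.exists_goodB Fact.out hy.p_ne (hy.norm_p.trans_lt hy.lt_one) hy.rho_pos.le hy.lt_one

theorem IsPt.pow (hy : IsPt y ρ) {N : ℕ} {f : E0 p n k} (hf : f ∈ mE p n k ^ N) :
    ‖y f‖ ≤ ρ ^ N := by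
  induction N generalizing f with
  | zero => simpa using hy.le_one f
  | succ N ih =>
    rw [pow_succ] at hf
    refine Submodule.mul_induction_on hf (fun a ha b hb => ?_) fun a b ha hb => ?_
    · rw [map_mul, norm_mul, pow_succ]
      exact mul_le_mul (ih ha) (hy.le_rho b hb) (norm_nonneg _) (pow_nonneg hy.rho_pos.le _)
    · rw [map_add]
      exact (IsUltrametricDist.norm_add_le_max _ _).trans (max_le ha hb)

theorem IsPt.taylor (hy : IsPt y ρ) (σ : E0 p n k ≃+* E0 p n k)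
    (hσ : ∀ c : WittVector p k, σ (MvPowerSeries.C c) = MvPowerSeries.C c) {ε : ℝ} (hε : 0 ≤ ε)
    (hδ : ∀ i, ‖y (σ (X i)) - y (X i)‖ ≤ ε) (f : E0 p n k) :
    ‖y (σ f) - y f - ∑ i, (y (σ (X i)) - y (X i)) * y (pderiv (WittVector p k) i f)‖ ≤ ε ^ 2 := by
  have h1 : ∀ i, (X i : E0 p n k) ∈ (mE p n k).radical := fun i => Ideal.le_radical (X_mem_mE i)
  have h2 : ∀ i, σ (X i) - X i ∈ (mE p n k).radical := fun i =>
    Ideal.le_radical (sub_mem (zpt_mem σ (X_mem_mE i)) (X_mem_mE i))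
  have h3 := ev_add_sub_mem MvPowerSeries.C (mE p n k) h1 h2
    (Ideal.span {x | ∃ i j, x = (σ (X i) - X i) * (σ (X j) - X j)})
    (fun x hx => mem_of_forall_mem_sup _ hx) (fun i j => Ideal.subset_span ⟨i, j, rfl⟩) f
  rw [← eq_ev (Good.of_mem _ fun i => Ideal.add_mem _ (h1 i) (h2 i)) σ.toRingHom hσ
    (fun i => by simp)] at h3
  simp only [ev_X_self] at h3
  have h4 := norm_le_of_mem_span y hy.le_one (sq_nonneg ε) (by
    rintro _ ⟨i, j, rfl⟩
    rw [map_mul, norm_mul, map_sub, map_sub, sq]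
    exact mul_le_mul (hδ i) (hδ j) (norm_nonneg _) hε) h3
  simpa using h4

theorem IsPt.lip (hy : IsPt y ρ) (σ : E0 p n k ≃+* E0 p n k)
    (hσ : ∀ c : WittVector p k, σ (MvPowerSeries.C c) = MvPowerSeries.C c) {ε : ℝ} (hε : 0 ≤ ε)
    (hε1 : ε ≤ 1) (hδ : ∀ i, ‖y (σ (X i)) - y (X i)‖ ≤ ε) (f : E0 p n k) :
    ‖y (σ f) - y f‖ ≤ ε := by
  have h1 := (hy.taylor σ hσ hε hδ f).trans (pow_le_of_le_one hε hε1 two_ne_zero)
  have h2 : ‖∑ i, (y (σ (X i)) - y (X i)) * y (pderiv (WittVector p k) i f)‖ ≤ ε :=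
    IsUltrametricDist.norm_sum_le_of_forall_le_of_nonneg hε fun i _ => by
      rw [norm_mul]
      exact (mul_le_of_le_one_right (norm_nonneg _) (hy.le_one _)).trans (hδ i)
  have h3 := (IsUltrametricDist.norm_add_le_max _ _).trans (max_le h1 h2)
  rwa [sub_add_cancel] at h3

end

end Vale.Agent.P217
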