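import Vale.Agent.P217.LCoc
import Vale.Agent.P217.ZPt
import Vale.Agent.P217.RTrans

/-! P217 (existence part): first order deformation theory.
PLAN.
* `fadd_first`: universal case `F = X0 + psi(X0) X1 + X1^2 z` (`X_pow_dvd_iff`; coefficients of `psi`
  by `coeff_subst`/`coeff_pderiv`; `fadd_zero`), then substitute.
* `coc_of_diff`: `exists_fsub` gives `e` with `G = F +_F e`, `e ∈ cId I`; `fadd_first`, `psi_mul_omega` give
  `e ≡ ∑ x_b g_b` modulo `J`.  For arguments `u, v`: `fadd G u v = fadd F (fadd F u v) (e(u,v))`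
  (`subst_fadd`).  Commutativity of `G` and `fadd_sub_fadd` give the symmetry of `e`.  Associativity of `G`
  gives `A +_F e(X,Y) +_F e(G(X,Y),Z) = A +_F e(Y,Z) +_F e(X,G(Y,Z))`, `A = F(F(X,Y),Z)`; cancel `A`; use
  `fadd_eq` (`u +_F v ≡ u + v` modulo `I^2`) and `e(G(X,Y),Z) ≡ e(F(X,Y),Z)` modulo `I * m`
  (`subst_bilin`).  Substitution is linear, so coefficientwise `hind` applies; then `map_subst`, `map_fadd`.
* `homMod_of_diff`: `t = X +_F η`; `t(F') ≡ F' +_F η(F')`, `F' ≡ F +_F e'`, `G = F +_F e`,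
  `F(tX, tY) = F +_F (ηX +_F ηY)`; everything is `F +_F (...)` modulo `J`.  It is convenient to map to
  `R ⧸ J` first, where `I * I = 0`, `I * m = 0`, and `fadd F u v = u + psi(u) v` for `v ∈ cId I`.
* `exists_gens`: among the finite families spanning `m^j` modulo `m^(j+1)` take one of minimal size
  (`Nat.find`); if a relation has a unit coefficient drop that generator (`Fin.succAbove`). -/

namespace Vale.Agent.P217

open MvPowerSeries IsLocalRing

noncomputable section

variable {σ τ R : Type*} [CommRing R]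

namespace LDef

theorem sq_dvd {D : MvPowerSeries (Fin 2) R}
    (h0 : subst ![(X 0 : MvPowerSeries (Fin 2) R), 0] D = 0)
    (h1 : subst ![(X 0 : MvPowerSeries (Fin 2) R), 0] (pderiv R 1 D) = 0) :
    (X 1 : MvPowerSeries (Fin 2) R) ^ 2 ∣ D := by
  have e : (![X 0, 0] : Fin 2 → MvPowerSeries (Fin 2) R)
      = fun j => if j = 1 then (0 : MvPowerSeries (Fin 2) R) else X j := by
    funext j; fin_cases j <;> simp
  rw [e] at h0 h1
  rw [X_pow_dvd_iff]
  intro d hd
  have hd' : d 1 = 0 ∨ d 1 = 1 := by omega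
  rcases hd' with h | h
  · rw [← rc_coeff_kill 1 D d h, h0, map_zero]
  · have h2 : (d - Finsupp.single 1 1 : Fin 2 →₀ ℕ) 1 = 0 := by simp [h]
    have h3 := rc_coeff_kill 1 (pderiv R 1 D) _ h2
    rw [h1, map_zero, coeff_pderiv, h2, tsub_add_cancel_of_le
      (Finsupp.single_le_iff.2 h.ge)] at h3
    simpa using h3.symm

theorem first_univ (F : FormalGroup R) : (X 1 : MvPowerSeries (Fin 2) R) ^ 2 ∣
    F.toPowerSeries - X 0 - (psi F).subst (X 0 : MvPowerSeries (Fin 2) R) * X 1 := by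
  have x0 := rc_c0X (R := R) (0 : Fin 2)
  have hs := hs2 x0 (map_zero _)
  refine sq_dvd ?_ ?_
  · rw [subst_sub hs, subst_sub hs, subst_mul hs, subst_X hs, subst_X hs]
    have := fadd_zero (F := F) x0
    rw [fadd] at this
    simp [this]
  · rw [map_sub, map_sub, Derivation.leibniz, pderiv_X_self, pderiv_X_of_ne (by decide), sub_zero,
      smul_eq_mul, smul_eq_mul, mul_one, subst_sub hs, subst_add hs, subst_mul hs, subst_X hs,
      subst_psubst hs x0, subst_X hs, ← rlog_psi_subst x0]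
    simp

end LDef

theorem fadd_first (F : FormalGroup R) {a e : MvPowerSeries σ R} (ha : constantCoeff a = 0)
    (he : constantCoeff e = 0) : ∃ z, fadd F a e = a + (psi F).subst a * e + e ^ 2 * z := by
  obtain ⟨z, hz⟩ := LDef.first_univ F
  have hs := hs2 ha he
  have h := congrArg (subst ![a, e]) hz
  rw [subst_sub hs, subst_sub hs, subst_mul hs, subst_mul hs, subst_pow hs,
    subst_psubst hs (rc_c0X _), subst_X hs, subst_X hs] at h
  refine ⟨subst ![a, e] z, ?_⟩
  simp only [Matrix.cons_val_zero, Matrix.cons_val_one, Matrix.cons_val_fin_one] at h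
  rw [fadd]
  linear_combination h

theorem subst_bilin [Finite τ] {I m : Ideal R} {s t : τ → MvPowerSeries σ R}
    (hs : ∀ i, constantCoeff (s i) = 0) (ht : ∀ i, constantCoeff (t i) = 0)
    (hst : ∀ i, s i - t i ∈ cId σ m) {w : MvPowerSeries τ R} (hw : w ∈ cId τ I) :
    subst s w - subst t w ∈ cId σ (I * m) := by
  have h1 := hasSubst_of_constantCoeff_zero hs
  have h2 := hasSubst_of_constantCoeff_zero ht
  rw [mem_cId] at hw ⊢
  intro d
  rw [map_sub, coeff_subst h1, coeff_subst h2,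
    ← finsum_sub_distrib (coeff_subst_finite h1 w d) (coeff_subst_finite h2 w d)]
  refine finsum_induction (· ∈ I * m) (zero_mem _) (fun _ _ => add_mem) fun e => ?_
  rw [← smul_sub, ← map_sub, smul_eq_mul]
  refine Ideal.mul_mem_mul (hw e) (mem_cId.1 ?_ d)
  rw [sub_mem_cId, Finsupp.prod, Finsupp.prod, map_prod, map_prod]
  refine Finset.prod_congr rfl fun i _ => ?_
  rw [map_pow, map_pow, sub_mem_cId.1 (hst i)]

/-- `s` is a homomorphism modulo `J` -/
def HomMod (J : Ideal R) (F G : FormalGroup R) (s : PowerSeries R) : Prop :=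
  PowerSeries.constantCoeff s = 0 ∧ IsHom (F.map (Ideal.Quotient.mk J))
    (G.map (Ideal.Quotient.mk J)) (PowerSeries.map (Ideal.Quotient.mk J) s)

theorem homMod_iff {J : Ideal R} {F G : FormalGroup R} {s : PowerSeries R} :
    HomMod J F G s ↔ PowerSeries.constantCoeff s = 0 ∧ s.subst F.toPowerSeries
      - fadd G (s.subst (X 0 : MvPowerSeries (Fin 2) R)) (s.subst (X 1 : MvPowerSeries (Fin 2) R))
        ∈ cId (Fin 2) J := by
  refine and_congr_right fun hw => ?_
  rw [sub_mem_cId, map_psubst _ F.zero_constantCoeff,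
    map_fadd _ (c0_subst (rc_c0X _) hw) (c0_subst (rc_c0X _) hw), map_psubst _ (rc_c0X _),
    map_psubst _ (rc_c0X _), map_X, map_X]
  exact ⟨fun h => h.2, fun h => ⟨c0_map _ hw, h⟩⟩

namespace LDef

variable {F F' G : FormalGroup R} {I : Ideal R}

theorem eq_zero_of_bot (hI : I * I = ⊥) {a : MvPowerSeries σ R} (ha : a ∈ cId σ (I * I)) :
    a = 0 := by
  ext d
  have := mem_cId.1 ha d
  rwa [hI, Ideal.mem_bot] at this

theorem mul_nil (hI : I * I = ⊥) {a b : MvPowerSeries σ R} (ha : a ∈ cId σ I)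
    (hb : b ∈ cId σ I) : a * b = 0 :=
  eq_zero_of_bot hI (cId_mul I I (Ideal.mul_mem_mul ha hb))

theorem fadd_nil (hI : I * I = ⊥) {a e : MvPowerSeries σ R} (ha : constantCoeff a = 0)
    (he : constantCoeff e = 0) (heI : e ∈ cId σ I) : fadd F a e = a + (psi F).subst a * e := by
  obtain ⟨z, hz⟩ := fadd_first F ha he
  rw [hz, sq, mul_nil hI heI heI, zero_mul, add_zero]

theorem fadd_sub_mem (hI : I * I = ⊥) {a e : MvPowerSeries σ R} (ha : constantCoeff a = 0)
    (he : constantCoeff e = 0) (heI : e ∈ cId σ I) : fadd F a e - a ∈ cId σ I := by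
  rw [fadd_nil hI ha he heI, add_sub_cancel_left]
  exact Ideal.mul_mem_left _ _ heI

theorem fadd_add (hI : I * I = ⊥) {a b : MvPowerSeries σ R} (ha : constantCoeff a = 0)
    (hb : constantCoeff b = 0) (haI : a ∈ cId σ I) (hbI : b ∈ cId σ I) : fadd F a b = a + b := by
  obtain ⟨z, hz⟩ := fadd_eq F ha hb
  rw [hz, mul_nil hI haI hbI, zero_mul, add_zero]

theorem fadd_cancel {a b b' : MvPowerSeries σ R} (ha : constantCoeff a = 0)
    (hb : constantCoeff b = 0) (hb' : constantCoeff b' = 0) (h : fadd F a b = fadd F a b') :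
    b = b' := by
  obtain ⟨u, hu, e⟩ := fadd_sub_fadd F ha hb hb'
  rw [h, sub_self] at e
  exact sub_eq_zero.1 (hu.mul_left_eq_zero.1 e.symm)

theorem fadd4 (hF : F.IsComm) {a b c d : MvPowerSeries σ R} (ha : constantCoeff a = 0)
    (hb : constantCoeff b = 0) (hc : constantCoeff c = 0) (hd : constantCoeff d = 0) :
    fadd F (fadd F a b) (fadd F c d) = fadd F (fadd F a c) (fadd F b d) := by
  rw [fadd_assoc ha hb (c0_fadd hc hd), ← fadd_assoc hb hc hd, fadd_comm hF hb hc,
    fadd_assoc hc hb hd, ← fadd_assoc ha hc (c0_fadd hb hd)]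

theorem fadd4' (hF : F.IsComm) {a b c d : MvPowerSeries σ R} (ha : constantCoeff a = 0)
    (hb : constantCoeff b = 0) (hc : constantCoeff c = 0) (hd : constantCoeff d = 0) :
    fadd F (fadd F (fadd F a b) c) d = fadd F (fadd F a c) (fadd F b d) := by
  rw [fadd_assoc (c0_fadd ha hb) hc hd, fadd4 hF ha hb hc hd]

theorem c2 {a b : MvPowerSeries σ R} (ha : constantCoeff a = 0) (hb : constantCoeff b = 0) :
    ∀ i, constantCoeff ((![a, b] : Fin 2 → MvPowerSeries σ R) i) = 0 := fun i => by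
  fin_cases i <;> simpa

theorem c0_sb {a b : MvPowerSeries σ R} (ha : constantCoeff a = 0) (hb : constantCoeff b = 0)
    {e : MvPowerSeries (Fin 2) R} (he : constantCoeff e = 0) :
    constantCoeff (subst ![a, b] e) = 0 := (rlog_c0_subst (c2 ha hb) e).trans he

theorem map_sb {R' : Type*} [CommRing R'] (ρ : R →+* R') {a b : MvPowerSeries σ R}
    (ha : constantCoeff a = 0) (hb : constantCoeff b = 0) (e : MvPowerSeries (Fin 2) R) :
    map ρ (subst ![a, b] e) = subst ![map ρ a, map ρ b] (map ρ e) := by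
  rw [map_subst (hs2 ha hb)]
  congr 1
  funext i; fin_cases i <;> rfl

theorem sb_mem {a b : MvPowerSeries σ R} (ha : constantCoeff a = 0) (hb : constantCoeff b = 0)
    {e : MvPowerSeries (Fin 2) R} (he : e ∈ cId (Fin 2) I) : subst ![a, b] e ∈ cId σ I := by
  have h : map (Ideal.Quotient.mk I) e = 0 := he
  rw [cId, RingHom.mem_ker, map_sb _ ha hb, h]
  exact rlog_subst_zero (hs2 (c0_map _ ha) (c0_map _ hb))

theorem sb_congr (hI : I * I = ⊥) {a b a' b' : MvPowerSeries σ R} (ha : constantCoeff a = 0)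
    (hb : constantCoeff b = 0) (ha' : constantCoeff a' = 0) (hb' : constantCoeff b' = 0)
    (h1 : a - a' ∈ cId σ I) (h2 : b - b' ∈ cId σ I) {e : MvPowerSeries (Fin 2) R}
    (he : e ∈ cId (Fin 2) I) : subst ![a, b] e = subst ![a', b'] e :=
  sub_eq_zero.1 (eq_zero_of_bot hI (subst_bilin (c2 ha hb) (c2 ha' hb')
    (fun i => by fin_cases i <;> simpa) he))

theorem sb_X (e : MvPowerSeries (Fin 2) R) :
    subst ![(X 0 : MvPowerSeries (Fin 2) R), X 1] e = e := by
  have : (![X 0, X 1] : Fin 2 → MvPowerSeries (Fin 2) R) = X := by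
    funext i; fin_cases i <;> rfl
  rw [this, subst_self]; rfl

theorem sb_sum {ι : Type*} [Fintype ι] {a b : MvPowerSeries σ R} (ha : constantCoeff a = 0)
    (hb : constantCoeff b = 0) (x : ι → R) (g : ι → MvPowerSeries (Fin 2) R) :
    subst ![a, b] (∑ i, C (x i) * g i) = ∑ i, C (x i) * subst ![a, b] (g i) := by
  have hs := hs2 ha hb
  rw [← coe_substAlgHom hs, map_sum]
  refine Finset.sum_congr rfl fun i _ => ?_
  rw [← smul_eq_C_mul, map_smul, smul_eq_C_mul]

theorem fadd_def {e : MvPowerSeries (Fin 2) R} (he : constantCoeff e = 0)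
    (h : G.toPowerSeries = fadd F F.toPowerSeries e) {a b : MvPowerSeries σ R}
    (ha : constantCoeff a = 0) (hb : constantCoeff b = 0) :
    fadd G a b = fadd F (fadd F a b) (subst ![a, b] e) := by
  rw [fadd, h, subst_fadd (hs2 ha hb) F.zero_constantCoeff he]
  rfl

theorem core_coc (hF : F.IsComm) (hG : G.IsComm) (hI : I * I = ⊥) {e : MvPowerSeries (Fin 2) R}
    (he : constantCoeff e = 0) (heI : e ∈ cId (Fin 2) I)
    (h : G.toPowerSeries = fadd F F.toPowerSeries e) : IsCoc F e := by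
  refine ⟨he, ?_, ?_⟩
  · have x0 := rc_c0X (R := R) (0 : Fin 2)
    have x1 := rc_c0X (R := R) (1 : Fin 2)
    have h1 := fadd_comm hG x1 x0
    rw [fadd_def he h x1 x0, fadd_def he h x0 x1, fadd_comm hF x1 x0, sb_X] at h1
    exact fadd_cancel (c0_fadd x0 x1) (c0_sb x1 x0 he) he h1
  · have x0 := rc_c0X (R := R) (0 : Fin 3)
    have x1 := rc_c0X (R := R) (1 : Fin 3)
    have x2 := rc_c0X (R := R) (2 : Fin 3)
    have f01 := c0_fadd (F := F) x0 x1
    have f12 := c0_fadd (F := F) x1 x2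
    have e01 := c0_sb x0 x1 he
    have e12 := c0_sb x1 x2 he
    have e1 := c0_sb f01 x2 he
    have e2 := c0_sb x0 f12 he
    have h1 := fadd_assoc (F := G) x0 x1 x2
    rw [fadd_def he h (c0_fadd x0 x1) x2, fadd_def he h x0 (c0_fadd x1 x2), fadd_def he h x0 x1,
      fadd_def he h x1 x2,
      sb_congr hI (c0_fadd f01 e01) x2 f01 x2 (fadd_sub_mem hI f01 e01 (sb_mem x0 x1 heI))
        (by simp) heI,
      sb_congr hI x0 (c0_fadd f12 e12) x0 f12 (by simp)
        (fadd_sub_mem hI f12 e12 (sb_mem x1 x2 heI)) heI,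
      fadd4' hF f01 e01 x2 e1, ← fadd_assoc x0 f12 e12, fadd_assoc (c0_fadd x0 f12) e12 e2,
      fadd_assoc x0 x1 x2] at h1
    have h2 := fadd_cancel (c0_fadd x0 f12) (c0_fadd e01 e1) (c0_fadd e12 e2) h1
    rwa [fadd_add hI e01 e1 (sb_mem x0 x1 heI) (sb_mem f01 x2 heI),
      fadd_add hI e12 e2 (sb_mem x1 x2 heI) (sb_mem x0 f12 heI)] at h2

theorem core_hom (hF : F.IsComm) (hI : I * I = ⊥) {e e' : MvPowerSeries (Fin 2) R}
    {η : PowerSeries R} (he0 : constantCoeff e = 0) (he0' : constantCoeff e' = 0)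
    (hη0 : PowerSeries.constantCoeff η = 0) (he : e ∈ cId (Fin 2) I) (he' : e' ∈ cId (Fin 2) I)
    (hη : η ∈ cId Unit I) (hG : G.toPowerSeries = fadd F F.toPowerSeries e)
    (hF' : F'.toPowerSeries = fadd F F.toPowerSeries e') (h : e - e' - cob F η = 0) :
    IsHom F' G (fadd F PowerSeries.X η) := by
  have hX0 : PowerSeries.constantCoeff (PowerSeries.X : PowerSeries R) = 0 :=
    PowerSeries.constantCoeff_X
  have ht : ∀ a : MvPowerSeries (Fin 2) R, constantCoeff a = 0 →
      PowerSeries.subst a (fadd F PowerSeries.X η : PowerSeries R) = fadd F a (η.subst a) := by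
    intro a ha
    rw [psubst_fadd ha hX0 hη0, PowerSeries.subst_X (hs1 ha)]
  have x0 := rc_c0X (R := R) (0 : Fin 2)
  have x1 := rc_c0X (R := R) (1 : Fin 2)
  have n0 := c0_subst x0 hη0
  have n1 := c0_subst x1 hη0
  have m0 := psubst_mem_cId x0 hη
  have m1 := psubst_mem_cId x1 hη
  have f0 := F.zero_constantCoeff
  have nF := c0_subst f0 hη0
  have h1 : η.subst F'.toPowerSeries = η.subst F.toPowerSeries := by
    refine sub_eq_zero.1 (eq_zero_of_bot hI (rt_psubst_sub hη F'.zero_constantCoeff f0 ?_))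
    rw [hF']
    exact fadd_sub_mem hI f0 he0' he'
  refine ⟨c0_fadd hX0 hη0, ?_⟩
  rw [ht _ F'.zero_constantCoeff, ht _ x0, ht _ x1, h1, hF', fadd_assoc f0 he0' nF,
    fadd_add hI he0' nF he' (psubst_mem_cId f0 hη),
    fadd_def he0 hG (c0_fadd x0 n0) (c0_fadd x1 n1),
    sb_congr hI (c0_fadd x0 n0) (c0_fadd x1 n1) x0 x1 (fadd_sub_mem hI x0 n0 m0)
      (fadd_sub_mem hI x1 n1 m1) he, sb_X, fadd4 hF x0 n0 x1 n1, fadd_X_X,
    fadd_assoc f0 (c0_fadd n0 n1) he0, fadd_add hI n0 n1 m0 m1,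
    fadd_add hI (by rw [map_add, n0, n1, add_zero]) he0 (add_mem m0 m1) he]
  congr 1
  rw [cob] at h
  linear_combination -h

theorem map_sq {J : Ideal R} (h : I * I ≤ J) :
    I.map (Ideal.Quotient.mk J) * I.map (Ideal.Quotient.mk J) = ⊥ := by
  rw [← Ideal.map_mul, Ideal.map_eq_bot_iff_le_ker, Ideal.mk_ker]
  exact h

theorem red {J : Ideal R} (hJ : I * I ≤ J) {e : MvPowerSeries (Fin 2) R}
    (he0 : constantCoeff e = 0) (he : e ∈ cId (Fin 2) I)
    (h : G.toPowerSeries - F.toPowerSeries - (psi F).subst F.toPowerSeries * e ∈ cId (Fin 2) J) :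
    (G.map (Ideal.Quotient.mk J)).toPowerSeries = fadd (F.map (Ideal.Quotient.mk J))
      (F.map (Ideal.Quotient.mk J)).toPowerSeries (map (Ideal.Quotient.mk J) e) := by
  rw [fadd_nil (map_sq hJ) (F.map _).zero_constantCoeff (c0_map _ he0) (map_mem_cId _ le_rfl he)]
  rw [sub_sub, sub_mem_cId, map_add, map_mul, map_psubst _ F.zero_constantCoeff,
    rlog_map_psi] at h
  exact h

/-- the symmetry defect -/
def Ls (w : MvPowerSeries (Fin 2) R) : MvPowerSeries (Fin 2) R :=
  subst ![(X 1 : MvPowerSeries (Fin 2) R), X 0] w - w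

/-- the cocycle defect -/
def Lc (F : FormalGroup R) (w : MvPowerSeries (Fin 2) R) : MvPowerSeries (Fin 3) R :=
  (subst ![(X 0 : MvPowerSeries (Fin 3) R), X 1] w + subst ![fadd F (X 0) (X 1), X 2] w)
    - (subst ![(X 1 : MvPowerSeries (Fin 3) R), X 2] w + subst ![X 0, fadd F (X 1) (X 2)] w)

theorem map_Ls {R' : Type*} [CommRing R'] (ρ : R →+* R') (w : MvPowerSeries (Fin 2) R) :
    map ρ (Ls w) = Ls (map ρ w) := by
  rw [Ls, Ls, map_sub, map_sb ρ (rc_c0X _) (rc_c0X _), map_X, map_X]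

theorem map_Lc (F : FormalGroup R) {R' : Type*} [CommRing R'] (ρ : R →+* R')
    (w : MvPowerSeries (Fin 2) R) : map ρ (Lc F w) = Lc (F.map ρ) (map ρ w) := by
  have x := rc_c0X (R := R) (σ := Fin 3)
  rw [Lc, Lc, map_sub, map_add, map_add, map_sb ρ (x _) (x _), map_sb ρ (x _) (x _),
    map_sb ρ (c0_fadd (x _) (x _)) (x _), map_sb ρ (x _) (c0_fadd (x _) (x _)),
    map_fadd ρ (x _) (x _), map_fadd ρ (x _) (x _), map_X, map_X, map_X]

theorem Ls_sum {ι : Type*} [Fintype ι] (x : ι → R) (g : ι → MvPowerSeries (Fin 2) R) :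
    Ls (∑ i, C (x i) * g i) = ∑ i, C (x i) * Ls (g i) := by
  simp only [Ls, sb_sum (rc_c0X _) (rc_c0X _), mul_sub, Finset.sum_sub_distrib]

theorem Lc_sum (F : FormalGroup R) {ι : Type*} [Fintype ι] (x : ι → R)
    (g : ι → MvPowerSeries (Fin 2) R) :
    Lc F (∑ i, C (x i) * g i) = ∑ i, C (x i) * Lc F (g i) := by
  have y := rc_c0X (R := R) (σ := Fin 3)
  simp only [Lc, sb_sum (y _) (y _), sb_sum (c0_fadd (y _) (y _)) (y _),
    sb_sum (y _) (c0_fadd (y _) (y _)), mul_sub, mul_add, Finset.sum_sub_distrib,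
    Finset.sum_add_distrib]

end LDef

theorem coc_of_diff {F G : FormalGroup R} (hF : F.IsComm) (hG : G.IsComm) {I m J : Ideal R}
    (hIm : I ≤ m) (hJ : I * m ≤ J) (hJI : J ≤ I) {k : Type*} [CommRing k] (ρ : R →+* k)
    (hρ : ∀ r ∈ m, ρ r = 0) {ι : Type*} [Fintype ι] (x : ι → R) (hx : ∀ b, x b ∈ I)
    (hind : ∀ r : ι → R, ∑ b, x b * r b ∈ J → ∀ b, r b ∈ m) (g : ι → MvPowerSeries (Fin 2) R)
    (hg : ∀ b, constantCoeff (g b) = 0)
    (h : G.toPowerSeries - F.toPowerSeries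
      - (psi F).subst F.toPowerSeries * ∑ b, C (x b) * g b ∈ cId (Fin 2) J) (b : ι) :
    IsCoc (F.map ρ) (map ρ (g b)) := by
  have hII : I * I ≤ J := (Ideal.mul_mono_right hIm).trans hJ
  have hE0 : constantCoeff (∑ b, C (x b) * g b) = 0 := by simp [hg]
  have hE : ∑ b, C (x b) * g b ∈ cId (Fin 2) I :=
    Ideal.sum_mem _ fun b _ => C_mul_mem_cId (hx b) _
  have hc := LDef.core_coc (isComm_map hF _) (isComm_map hG _) (LDef.map_sq hII)
    (c0_map _ hE0) (map_mem_cId _ le_rfl hE) (LDef.red hII hE0 hE h)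
  have comp : ∀ {σ : Type} (w : ι → MvPowerSeries σ R),
      map (Ideal.Quotient.mk J) (∑ b, C (x b) * w b) = 0 → map ρ (w b) = 0 := by
    intro σ w hw
    ext d
    rw [coeff_map, map_zero]
    refine hρ _ (hind (fun b => coeff d (w b)) ?_ b)
    have := mem_cId.1 (show ∑ b, C (x b) * w b ∈ cId σ J from hw) d
    simpa only [map_sum, coeff_C_mul] using this
  refine ⟨c0_map _ (hg b), sub_eq_zero.1 ?_, sub_eq_zero.1 ?_⟩
  · refine (LDef.map_Ls ρ (g b)).symm.trans (comp (fun b => LDef.Ls (g b)) ?_)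
    rw [← LDef.Ls_sum, LDef.map_Ls]
    exact sub_eq_zero.2 hc.symm
  · refine (LDef.map_Lc F ρ (g b)).symm.trans (comp (fun b => LDef.Lc F (g b)) ?_)
    rw [← LDef.Lc_sum, LDef.map_Lc]
    exact sub_eq_zero.2 hc.coc

theorem homMod_of_diff {F F' G : FormalGroup R} (hF : F.IsComm) {I m J : Ideal R}
    (hIm : I ≤ m) (hJ : I * m ≤ J) {e e' : MvPowerSeries (Fin 2) R} {η : PowerSeries R}
    (he0 : constantCoeff e = 0) (he0' : constantCoeff e' = 0)
    (hη0 : PowerSeries.constantCoeff η = 0) (he : e ∈ cId (Fin 2) I) (he' : e' ∈ cId (Fin 2) I)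
    (hη : η ∈ cId Unit I)
    (hG : G.toPowerSeries - F.toPowerSeries - (psi F).subst F.toPowerSeries * e ∈ cId (Fin 2) J)
    (hF' : F'.toPowerSeries - F.toPowerSeries - (psi F).subst F.toPowerSeries * e' ∈ cId (Fin 2) J)
    (h : e - e' - cob F η ∈ cId (Fin 2) J) :
    HomMod J F' G (fadd F PowerSeries.X η) := by
  have hII : I * I ≤ J := (Ideal.mul_mono_right hIm).trans hJ
  have hX0 : PowerSeries.constantCoeff (PowerSeries.X : PowerSeries R) = 0 :=
    PowerSeries.constantCoeff_X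
  refine ⟨c0_fadd hX0 hη0, ?_⟩
  have e1 : PowerSeries.map (Ideal.Quotient.mk J) (fadd F PowerSeries.X η)
      = fadd (F.map (Ideal.Quotient.mk J)) PowerSeries.X
        (PowerSeries.map (Ideal.Quotient.mk J) η) := by
    refine (map_fadd (F := F) (Ideal.Quotient.mk J) hX0 hη0).trans ?_
    congr 1
    exact map_X _ ()
  rw [e1]
  refine LDef.core_hom (isComm_map hF _) (LDef.map_sq hII) (c0_map _ he0) (c0_map _ he0')
    (c0_map _ hη0) (map_mem_cId _ le_rfl he) (map_mem_cId _ le_rfl he') (map_mem_cId _ le_rfl hη)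
    (LDef.red hII he0 he hG) (LDef.red hII he0' he' hF') ?_
  rw [← map_cob, ← map_sub, ← map_sub]
  exact h

theorem exists_gens [IsLocalRing R] [IsNoetherianRing R] (j : ℕ) :
    ∃ (r : ℕ) (x : Fin r → R), (∀ b, x b ∈ maximalIdeal R ^ j) ∧
      (∀ y ∈ maximalIdeal R ^ j, ∃ c : Fin r → R, y - ∑ b, x b * c b ∈ maximalIdeal R ^ (j + 1)) ∧
      ∀ c : Fin r → R, ∑ b, x b * c b ∈ maximalIdeal R ^ (j + 1) → ∀ b, c b ∈ maximalIdeal R := by
  classical
  have hex : ∃ r : ℕ, ∃ x : Fin r → R, (∀ b, x b ∈ maximalIdeal R ^ j) ∧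
      ∀ y ∈ maximalIdeal R ^ j, ∃ c : Fin r → R,
        y - ∑ b, x b * c b ∈ maximalIdeal R ^ (j + 1) := by
    obtain ⟨r, x, hx⟩ := Submodule.fg_iff_exists_fin_generating_family.1
      (IsNoetherian.noetherian (maximalIdeal R ^ j))
    refine ⟨r, x, fun b => hx ▸ Submodule.subset_span ⟨b, rfl⟩, fun y hy => ?_⟩
    rw [← hx, Submodule.mem_span_range_iff_exists_fun] at hy
    obtain ⟨c, hc⟩ := hy
    refine ⟨c, ?_⟩
    rw [← hc]
    simp [mul_comm]
  obtain ⟨x, hx, hy⟩ := Nat.find_spec hex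
  have hmin := fun r => Nat.find_min hex (m := r)
  generalize Nat.find hex = r at x hx hy hmin
  refine ⟨r, x, hx, hy, fun c hc b => ?_⟩
  by_contra hb
  obtain ⟨u, hu⟩ := (notMem_maximalIdeal.1 hb).exists_left_inv
  obtain ⟨r, rfl⟩ := Nat.exists_eq_succ_of_ne_zero (Nat.pos_iff_ne_zero.1 b.pos)
  refine hmin r r.lt_succ_self ⟨fun i => x (b.succAbove i), fun i => hx _, fun y hy' => ?_⟩
  obtain ⟨c', hc'⟩ := hy y hy'
  refine ⟨fun i => c' (b.succAbove i) - c' b * u * c (b.succAbove i), ?_⟩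
  have h := add_mem hc' (Ideal.mul_mem_left _ (c' b * u) hc)
  convert h using 1
  rw [Fin.sum_univ_succAbove _ b, Fin.sum_univ_succAbove _ b]
  simp only [mul_sub, mul_add, Finset.sum_sub_distrib, Finset.mul_sum]
  have e : ∀ i : Fin r, x (b.succAbove i) * (c' b * u * c (b.succAbove i))
      = c' b * u * (x (b.succAbove i) * c (b.succAbove i)) := fun i => by ring
  simp only [e]
  linear_combination (-(x b * c' b)) * hu

end

end Vale.Agent.P217
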