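import Vale.Agent.P217.LOrd
import Vale.Agent.P217.RTrans

/-! P217 (existence part): Hazewinkel's functional equation lemma.
PLAN.
* `plog_congr`: a coefficient of `l(a) - l(b)` is a finite sum of `l_j * coeff (a^j - b^j)`
  (`PowerSeries.coeff_subst`, `finsum_sub_distrib`); only `j = p^s` matter and
  `p^(s+1) ∣ a^(p^s) - b^(p^s)` (`dvd_sub_pow_of_dvd_sub`, `mem_cId_span_singleton`).  State it
  coefficientwise: every coefficient lies in the additive subgroup `p * range ι`.
* `frob_congr`: both sides are ring homomorphisms in `g` modulo `p` (`hom_sub_mem`/`hom_ext` into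
  `MvPowerSeries σ (A ⧸ p)`, of characteristic `p` or trivial); `φ^[i] x ≡ x^(p^i)`.
* `integral_of_fe`: induction on `d`: all coefficients of `FK` of degree `< d` lie in `range ι`.  Let `g` over
  `A` have these coefficients (and zero in degrees `≥ d`), `FK = map ι g + H`, `Ord d H`.  Modulo order `d+1`:
  `l(FK) ≡ l(g) + H` (`taylor1`), `p l(g) = p g + ∑ v_i l_i(g^(p^i))` with `l_i = map Φ^i l`,
  `l_i(g^(p^i)) ≡ l_i(g_i(X^(p^i), Y^(p^i)))` modulo `p * integral` (`plog_congr`, `frob_congr`), and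
  `l_i(g_i(X^(p^i), Y^(p^i))) ≡ l_i(X^(p^i)) + l_i(Y^(p^i))` modulo order `d p^i ≥ d + 1` (apply `map Φ^i`
  to `l(g) ≡ l X + l Y` modulo order `d`, then `Ord.subst`-type bound for `X ↦ X^(p^i)`).  The case `d ≤ 1`
  is direct.  Divide by the unit `p`.
* `exists_fg_omega`: `K = Localization.Away (p : A)`, `Φ = IsLocalization.map`, `l = ∑ ι(b s) p^(-s) X^(p^s)`;
  `FK` = transport of `FormalGroup.𝔾ₐ` along `l.substInvOfIsUnit` (`exists_transport`, `IsIso.symm`);
  build `F` over `A` from the integral coefficients, axioms by injectivity of `map ι` (`map_subst`);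
  `omega FK = l'` (differentiate `l(FK) = l X + l Y`: `pderiv_psubst`, then put `Y = 0`), `map_omega`. -/

namespace Vale.Agent.P217

open MvPowerSeries

noncomputable section

variable {σ A K : Type*} [CommRing A] [CommRing K] {p : ℕ}

/-- `l = ∑ a_s X^(p^s)` with `p^s a_s` integral -/
def PLog (ι : A →+* K) (p : ℕ) (l : PowerSeries K) : Prop :=
  (∀ s, ∃ b, ι b = (p : K) ^ s * PowerSeries.coeff (p ^ s) l) ∧
    ∀ j, (∀ s, j ≠ p ^ s) → PowerSeries.coeff j l = 0

theorem lfe_of_coeff (ι : A →+* K) {w : MvPowerSeries σ K} (h : ∀ m, ∃ x, ι x = coeff m w) :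
    ∃ g : MvPowerSeries σ A, map ι g = w := by
  choose g hg using h
  exact ⟨g, MvPowerSeries.ext hg⟩

theorem lfe_ord_congr {d : ℕ} {a b : MvPowerSeries σ K} (h : Ord d a) (e : a = b) : Ord d b :=
  e ▸ h

theorem plog_congr (ι : A →+* K) (hp : IsUnit (p : K)) {l : PowerSeries K} (hl : PLog ι p l)
    {a b : MvPowerSeries σ A} (ha : constantCoeff a = 0) (hb : constantCoeff b = 0)
    (hab : a - b ∈ cId σ (Ideal.span {(p : A)})) :
    ∃ g : MvPowerSeries σ A, l.subst (map ι a) - l.subst (map ι b) = C (p : K) * map ι g := by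
  have key : ∀ m : σ →₀ ℕ, ∃ x : A,
      coeff m (l.subst (map ι a) - l.subst (map ι b)) = (p : K) * ι x := by
    intro m
    have h1 := hs1 (c0_map ι ha)
    have h2 := hs1 (c0_map ι hb)
    rw [map_sub, PowerSeries.coeff_subst h1, PowerSeries.coeff_subst h2,
      ← finsum_sub_distrib (PowerSeries.coeff_subst_finite h1 l m)
        (PowerSeries.coeff_subst_finite h2 l m)]
    refine finsum_induction (fun y => ∃ x : A, y = (p : K) * ι x) ⟨0, by simp⟩ ?_ fun j => ?_
    · rintro _ _ ⟨x, rfl⟩ ⟨y, rfl⟩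
      exact ⟨x + y, by rw [map_add, mul_add]⟩
    by_cases hj : ∃ s, j = p ^ s
    · obtain ⟨s, rfl⟩ := hj
      obtain ⟨c, hc⟩ := mem_cId_span_singleton.1 hab
      obtain ⟨e, he⟩ := dvd_sub_pow_of_dvd_sub (p := p) (a := a) (b := b)
        ⟨c, by rw [hc, map_natCast]⟩ s
      obtain ⟨w, hw⟩ := hl.1 s
      refine ⟨w * coeff m e, ?_⟩
      have e1 : (p : MvPowerSeries σ A) ^ (s + 1) = C ((p : A) ^ (s + 1)) := by
        rw [map_pow, map_natCast]
      rw [← smul_sub, ← map_sub, ← map_pow, ← map_pow, ← map_sub, he, e1, coeff_map, coeff_C_mul,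
        map_mul, map_mul, hw, map_pow, map_natCast, smul_eq_mul]
      ring
    · refine ⟨0, ?_⟩
      rw [hl.2 j fun s hs => hj ⟨s, hs⟩]
      simp
  choose g hg using key
  refine ⟨g, MvPowerSeries.ext fun m => ?_⟩
  rw [hg, coeff_C_mul]
  rfl

theorem lfe_mk_iter (φ : A →+* A) (hφ : ∀ x, φ x - x ^ p ∈ Ideal.span {(p : A)}) (i : ℕ) (x : A) :
    Ideal.Quotient.mk (Ideal.span {(p : A)}) ((φ ^ i) x)
      = Ideal.Quotient.mk (Ideal.span {(p : A)}) x ^ p ^ i := by
  induction i with
  | zero => simp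
  | succ i ih =>
    rw [pow_succ' φ, RingHom.mul_def, RingHom.comp_apply, Ideal.Quotient.eq.2 (hφ _), map_pow, ih,
      ← pow_mul, pow_succ]

theorem lfe_c0_X_pow {q : ℕ} (hq : q ≠ 0) (s : σ) :
    constantCoeff ((X s : MvPowerSeries σ A) ^ q) = 0 := by
  rw [map_pow, constantCoeff_X, zero_pow hq]

theorem frob_congr [Finite σ] (hp : p.Prime) (φ : A →+* A)
    (hφ : ∀ x, φ x - x ^ p ∈ Ideal.span {(p : A)}) (i : ℕ) (g : MvPowerSeries σ A) :
    g ^ p ^ i - subst (fun s => (X s : MvPowerSeries σ A) ^ p ^ i) (map (φ ^ i) g)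
      ∈ cId σ (Ideal.span {(p : A)}) := by
  rw [sub_mem_cId]
  rcases subsingleton_or_nontrivial (MvPowerSeries σ (A ⧸ Ideal.span {(p : A)})) with h | h
  · exact Subsingleton.elim _ _
  have := Fact.mk hp
  have hq : p ^ i ≠ 0 := pow_ne_zero _ hp.ne_zero
  have hc : CharP (MvPowerSeries σ (A ⧸ Ideal.span {(p : A)})) p := by
    refine (CharP.charP_iff_prime_eq_zero hp).2 ?_
    rw [← map_natCast (C (σ := σ) (R := A ⧸ Ideal.span {(p : A)})),
      ← map_natCast (Ideal.Quotient.mk (Ideal.span {(p : A)})),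
      Ideal.Quotient.eq_zero_iff_mem.2 (Ideal.mem_span_singleton_self _), map_zero]
  have hs : HasSubst fun s => (X s : MvPowerSeries σ A) ^ p ^ i := HasSubst.X_pow hq
  have hA : ∀ w, (substAlgHom (R := A) hs).toRingHom w
      = subst (fun s => (X s : MvPowerSeries σ A) ^ p ^ i) w := fun w => substAlgHom_apply hs w
  have key := hom_ext
    (ψ := (iterateFrobenius (MvPowerSeries σ (A ⧸ Ideal.span {(p : A)})) p i).comp
      (map (Ideal.Quotient.mk (Ideal.span {(p : A)}))))
    (ψ' := (map (Ideal.Quotient.mk (Ideal.span {(p : A)}))).comp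
      ((substAlgHom (R := A) hs).toRingHom.comp (map (φ ^ i))))
    (good_of_constantCoeff fun s => by
      rw [RingHom.comp_apply, map_X, iterateFrobenius_def]; exact lfe_c0_X_pow hq s)
    (fun r => by
      rw [RingHom.comp_apply, RingHom.comp_apply, RingHom.comp_apply, iterateFrobenius_def,
        map_C, map_C, hA, subst_C, map_C, lfe_mk_iter φ hφ, map_pow])
    (fun s => by
      rw [RingHom.comp_apply, RingHom.comp_apply, RingHom.comp_apply, iterateFrobenius_def,
        map_X, map_X, hA, subst_X hs, map_pow, map_X])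
  have h2 := RingHom.congr_fun key g
  rw [RingHom.comp_apply, RingHom.comp_apply, RingHom.comp_apply, iterateFrobenius_def, hA] at h2
  rw [map_pow, h2]

theorem lfe_iter (ι : A →+* K) (φ : A →+* A) (Φ : K →+* K) (hΦ : ∀ x, Φ (ι x) = ι (φ x)) (i : ℕ)
    (x : A) : (Φ ^ i) (ι x) = ι ((φ ^ i) x) := by
  induction i with
  | zero => simp
  | succ i ih =>
    rw [pow_succ' φ, pow_succ' Φ, RingHom.mul_def, RingHom.mul_def, RingHom.comp_apply,
      RingHom.comp_apply, ih, hΦ]

theorem lfe_plog_map {ι : A →+* K} {φ : A →+* A} {Φ : K →+* K} (hΦ : ∀ x, Φ (ι x) = ι (φ x))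
    {l : PowerSeries K} (hl : PLog ι p l) : PLog ι p (PowerSeries.map Φ l) := by
  refine ⟨fun s => ?_, fun j hj => by rw [PowerSeries.coeff_map, hl.2 j hj, map_zero]⟩
  obtain ⟨b, hb⟩ := hl.1 s
  exact ⟨φ b, by rw [← hΦ, hb, map_mul, map_pow, map_natCast, PowerSeries.coeff_map]⟩

theorem lfe_ord_pow {q d : ℕ} (hq : 2 ≤ q) {w : MvPowerSeries (Fin 2) K} (hw : Ord (d + 1) w) :
    Ord (d + 2) (subst (fun s => (X s : MvPowerSeries (Fin 2) K) ^ q) w) := by
  have h := Ord.subst_sub (s := fun s => (X s : MvPowerSeries (Fin 2) K) ^ q) (t := 0) (e := 1)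
    (lfe_c0_X_pow (by omega)) (fun _ => map_zero _) (fun s => by
      rw [Pi.zero_apply, sub_zero]
      exact ((ord_one_iff.2 (constantCoeff_X s)).pow q).mono (by omega)) hw
  rwa [subst_zero_of_constantCoeff_zero (ord_one_iff.1 (hw.mono (by omega))), sub_zero] at h

theorem lfe_term (hp : p.Prime) {ι : A →+* K} (hpK : IsUnit (p : K)) {φ : A →+* A}
    {Φ : K →+* K} (hΦ : ∀ x, Φ (ι x) = ι (φ x)) (hφ : ∀ x, φ x - x ^ p ∈ Ideal.span {(p : A)})
    {l : PowerSeries K} (hl : PLog ι p l) {g : MvPowerSeries (Fin 2) A} (g0 : constantCoeff g = 0)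
    {d : ℕ} (hE : Ord (d + 1) (l.subst (X 0 : MvPowerSeries (Fin 2) K)
      + l.subst (X 1 : MvPowerSeries (Fin 2) K) - l.subst (map ι g))) (i : ℕ) :
    ∃ w : MvPowerSeries (Fin 2) A, Ord (d + 2)
      ((PowerSeries.map (Φ ^ (i + 1)) l).subst ((X 0 : MvPowerSeries (Fin 2) K) ^ p ^ (i + 1))
        + (PowerSeries.map (Φ ^ (i + 1)) l).subst ((X 1 : MvPowerSeries (Fin 2) K) ^ p ^ (i + 1))
        - (PowerSeries.map (Φ ^ (i + 1)) l).subst (map ι g ^ p ^ (i + 1))
        + C (p : K) * map ι w) := by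
  have hq : p ^ (i + 1) ≠ 0 := pow_ne_zero _ hp.ne_zero
  have hq2 : 2 ≤ p ^ (i + 1) := hp.two_le.trans (Nat.le_self_pow (by omega) p)
  have hI := lfe_iter ι φ Φ hΦ (i + 1)
  have hsA : HasSubst fun s => (X s : MvPowerSeries (Fin 2) A) ^ p ^ (i + 1) := HasSubst.X_pow hq
  have hsK : HasSubst fun s => (X s : MvPowerSeries (Fin 2) K) ^ p ^ (i + 1) := HasSubst.X_pow hq
  obtain ⟨w, hw⟩ := plog_congr ι hpK (lfe_plog_map hI hl) (a := g ^ p ^ (i + 1))
    (by rw [map_pow, g0, zero_pow hq])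
    ((rlog_c0_subst (lfe_c0_X_pow hq) _).trans (c0_map _ g0)) (frob_congr hp φ hφ (i + 1) g)
  refine ⟨w, ?_⟩
  have h1 := lfe_ord_pow hq2 (hE.map (Φ ^ (i + 1)))
  have e1 : map ι (subst (fun s => (X s : MvPowerSeries (Fin 2) A) ^ p ^ (i + 1))
      (map (φ ^ (i + 1)) g)) = subst (fun s => (X s : MvPowerSeries (Fin 2) K) ^ p ^ (i + 1))
        (map (Φ ^ (i + 1)) (map ι g)) := by
    rw [map_subst hsA]
    simp only [map_pow, map_X]
    congr 1
    ext m
    simp only [coeff_map, hI]
  have y : ∀ i : Fin 2, constantCoeff (X i : MvPowerSeries (Fin 2) K) = 0 := constantCoeff_X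
  rw [map_sub, map_add, map_psubst _ (y 0), map_psubst _ (y 1), map_psubst _ (c0_map ι g0),
    map_X, map_X, subst_sub hsK, subst_add hsK, subst_psubst hsK (y 0), subst_psubst hsK (y 1),
    subst_psubst hsK (c0_map _ (c0_map ι g0)), subst_X hsK, subst_X hsK, ← e1] at h1
  rw [← hw, map_pow]
  exact lfe_ord_congr (h1) (by ring)

theorem lfe_fe_subst {q : ℕ → ℕ} (hq : ∀ i, q i ≠ 0) {n : ℕ} {c : K} {v : ℕ → K}
    {l : PowerSeries K} {L : ℕ → PowerSeries K}
    (hfe : PowerSeries.C c * l = PowerSeries.C c * PowerSeries.X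
      + ∑ i ∈ Finset.range n, PowerSeries.C (v i) *
        (L i).subst (PowerSeries.X ^ q i : PowerSeries K))
    {a : MvPowerSeries σ K} (ha : constantCoeff a = 0) :
    C c * l.subst a = C c * a + ∑ i ∈ Finset.range n, C (v i) * (L i).subst (a ^ q i) := by
  have hs := hs1 ha
  have h := congrArg (PowerSeries.subst a) hfe
  rw [PowerSeries.subst_add hs, PowerSeries.subst_mul hs, PowerSeries.subst_mul hs,
    PowerSeries.subst_C, PowerSeries.subst_X hs] at h
  rw [h, ← PowerSeries.coe_substAlgHom hs, map_sum]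
  refine congrArg _ (Finset.sum_congr rfl fun i _ => ?_)
  rw [PowerSeries.coe_substAlgHom hs, PowerSeries.subst_mul hs, PowerSeries.subst_C,
    psubst_psubst ha (by simp [hq i]), PowerSeries.subst_pow hs, PowerSeries.subst_X hs]

theorem lfe_ord_cancel {c : K} (hc : IsUnit c) {d : ℕ} {w : MvPowerSeries σ K}
    (h : Ord d (C c * w)) : Ord d w := by
  intro m hm
  have := h m hm
  rw [coeff_C_mul] at this
  exact hc.mul_right_eq_zero.1 this

theorem lfe_c0_deriv {l : PowerSeries K} {a : MvPowerSeries σ K} (ha : constantCoeff a = 0) :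
    constantCoeff ((PowerSeries.derivative K l).subst a) = PowerSeries.coeff 1 l := by
  refine (rlog_c0_subst (a := fun _ : Unit => a) (fun _ => ha) _).trans ?_
  show PowerSeries.constantCoeff (PowerSeries.derivative K l) = _
  rw [← PowerSeries.coeff_zero_eq_constantCoeff_apply, PowerSeries.coeff_derivative]
  simp

theorem integral_of_fe (hp : p.Prime) (ι : A →+* K) (hpK : IsUnit (p : K)) (φ : A →+* A)
    (Φ : K →+* K) (hΦ : ∀ x, Φ (ι x) = ι (φ x)) (hφ : ∀ x, φ x - x ^ p ∈ Ideal.span {(p : A)})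
    (n : ℕ) (v : ℕ → A) {l : PowerSeries K} (hl : PLog ι p l) (hl1 : PowerSeries.coeff 1 l = 1)
    (hfe : PowerSeries.C (p : K) * l = PowerSeries.C (p : K) * PowerSeries.X
      + ∑ i ∈ Finset.range n, PowerSeries.C (ι (v (i + 1))) *
        (PowerSeries.map (Φ ^ (i + 1)) l).subst (PowerSeries.X ^ p ^ (i + 1) : PowerSeries K))
    {FK : MvPowerSeries (Fin 2) K} (h0 : constantCoeff FK = 0)
    (hF : l.subst FK = l.subst (X 0 : MvPowerSeries (Fin 2) K)
      + l.subst (X 1 : MvPowerSeries (Fin 2) K)) :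
    ∃ g : MvPowerSeries (Fin 2) A, map ι g = FK := by
  have y : ∀ i : Fin 2, constantCoeff (X i : MvPowerSeries (Fin 2) K) = 0 := constantCoeff_X
  have step : ∀ d, ∃ g : MvPowerSeries (Fin 2) A, constantCoeff g = 0 ∧
      Ord (d + 1) (FK - map ι g) := by
    intro d
    induction d with
    | zero => exact ⟨0, map_zero _, by rw [map_zero, sub_zero]; exact ord_one_iff.2 h0⟩
    | succ d ih =>
      obtain ⟨g, g0, hH⟩ := ih
      obtain ⟨H, hH'⟩ : ∃ H, H = FK - map ι g := ⟨_, rfl⟩
      rw [← hH'] at hH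
      have G0 := c0_map ι g0
      have H0 : constantCoeff H = 0 := ord_one_iff.1 (hH.mono (by omega))
      obtain ⟨z, hz⟩ := taylor1 G0 H0 l
      have e0 : map ι g + H = FK := by rw [hH']; ring
      rw [e0, hF] at hz
      obtain ⟨E, hE⟩ : ∃ E, E = l.subst (X 0 : MvPowerSeries (Fin 2) K)
        + l.subst (X 1 : MvPowerSeries (Fin 2) K) - l.subst (map ι g) := ⟨_, rfl⟩
      have hEH : Ord (d + 2) (E - H) := by
        have h1 : Ord 1 ((PowerSeries.derivative K l).subst (map ι g) - 1) :=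
          ord_one_iff.2 (by rw [map_sub, lfe_c0_deriv G0, hl1, map_one, sub_self])
        have h2 := ((h1.mul hH).mono (e := d + 2) (by omega)).add
          (((hH.pow 2).mono (e := d + 2) (by omega)).mul_left z)
        rw [hE, hz]
        exact lfe_ord_congr (h2) (by ring)
      have hE1 : Ord (d + 1) E := by
        have := (hEH.mono (e := d + 1) (by omega)).add hH
        rwa [sub_add_cancel] at this
      choose w hw using lfe_term hp hpK hΦ hφ hl g0 (hE ▸ hE1)
      have f0 := lfe_fe_subst (fun i => pow_ne_zero (i + 1) hp.ne_zero) hfe (y 0)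
      have f1 := lfe_fe_subst (fun i => pow_ne_zero (i + 1) hp.ne_zero) hfe (y 1)
      have f2 := lfe_fe_subst (fun i => pow_ne_zero (i + 1) hp.ne_zero) hfe G0
      obtain ⟨W, hW⟩ : ∃ W : MvPowerSeries (Fin 2) A,
        W = X 0 + X 1 - g - ∑ i ∈ Finset.range n, C (v (i + 1)) * w i := ⟨_, rfl⟩
      have h3 : Ord (d + 2) (E - map ι W) := by
        refine lfe_ord_cancel hpK ?_
        have h4 := ord_sum (Finset.range n) fun i _ => (hw i).mul_left (C (ι (v (i + 1))))
        simp only [mul_add, mul_sub, Finset.sum_add_distrib, Finset.sum_sub_distrib] at h4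
        have e2 : C (p : K) * map ι (∑ i ∈ Finset.range n, C (v (i + 1)) * w i)
            = ∑ i ∈ Finset.range n, C (ι (v (i + 1))) * (C (p : K) * map ι (w i)) := by
          rw [map_sum, Finset.mul_sum]
          refine Finset.sum_congr rfl fun i _ => ?_
          rw [map_mul, map_C]; ring
        rw [hE, hW, map_sub, map_sub, map_add, map_X, map_X]
        simp only [mul_add, mul_sub]
        rw [f0, f1, f2, e2]
        exact lfe_ord_congr (h4) (by ring)
      refine ⟨g + (W - C (constantCoeff W)), by simp [g0], ?_⟩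
      have h5 : ι (constantCoeff W) = 0 := by
        have h6 := ord_one_iff.1 (h3.mono (e := 1) (by omega))
        rw [map_sub, ord_one_iff.1 (hE1.mono (e := 1) (by omega)), constantCoeff_map] at h6
        simpa using h6
      rw [map_add, map_sub, map_C, h5, map_zero, sub_zero, ← e0]
      exact lfe_ord_congr (h3.sub hEH) (by ring)
  have key : ∀ m : Fin 2 →₀ ℕ, ∃ x, ι x = coeff m FK := fun m => by
    obtain ⟨g, -, hg⟩ := step m.degree
    have := hg m (Nat.lt_succ_self _)
    rw [map_sub, sub_eq_zero, coeff_map] at this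
    exact ⟨_, this.symm⟩
  exact lfe_of_coeff ι key

theorem omega_eq_of_add {F : FormalGroup K} {l : PowerSeries K} (hl1 : PowerSeries.coeff 1 l = 1)
    (hF : l.subst F.toPowerSeries = l.subst (X 0 : MvPowerSeries (Fin 2) K)
      + l.subst (X 1 : MvPowerSeries (Fin 2) K)) : omega F = PowerSeries.derivative K l := by
  have y : ∀ i : Fin 2, constantCoeff (X i : MvPowerSeries (Fin 2) K) = 0 := constantCoeff_X
  rw [← fadd_X_X] at hF
  have h1 := congrArg (pderiv K (1 : Fin 2)) hF
  have e1 : pderiv K (1 : Fin 2) (X 0 : MvPowerSeries (Fin 2) K) = 0 := pderiv_X_of_ne (by decide)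
  rw [map_add, pderiv_psubst (y 0), pderiv_psubst (y 1), pderiv_psubst (c0_fadd (y 0) (y 1)), e1,
    pderiv_X_self, mul_zero, zero_add, mul_one] at h1
  have hX : constantCoeff (PowerSeries.X : PowerSeries K) = 0 := PowerSeries.constantCoeff_X
  have hd := hs2 hX (map_zero _)
  have h2 := congrArg (subst ![(PowerSeries.X : PowerSeries K), 0]) h1
  rw [subst_mul hd, subst_psubst hd (c0_fadd (y 0) (y 1)), subst_psubst hd (y 1),
    subst_fadd hd (y 0) (y 1), subst_X hd, subst_X hd, fadd_X_X] at h2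
  have h3 : (PowerSeries.derivative K l).subst (P217.fadd F (PowerSeries.X : PowerSeries K) 0)
      * psi F = (PowerSeries.derivative K l).subst (0 : PowerSeries K) := h2
  rw [fadd_zero hX, PowerSeries.X_subst] at h3
  have h4 : (PowerSeries.derivative K l).subst (0 : PowerSeries K) = 1 := by
    have h5 : PowerSeries.constantCoeff (PowerSeries.derivative K l - 1) = 0 := by
      rw [map_sub, map_one, ← PowerSeries.coeff_zero_eq_constantCoeff_apply,
        PowerSeries.coeff_derivative, hl1]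
      simp
    have h6 := PowerSeries.subst_zero_of_constantCoeff_zero (τ := Unit) (S := K) h5
    have hs : PowerSeries.HasSubst (0 : MvPowerSeries Unit K) := hs1 (map_zero _)
    rw [PowerSeries.subst_sub hs, sub_eq_zero, ← PowerSeries.coe_substAlgHom hs, map_one,
      PowerSeries.coe_substAlgHom hs] at h6
    exact h6
  rw [h4] at h3
  calc omega F = PowerSeries.derivative K l * psi F * omega F := by rw [h3, one_mul]
    _ = _ := by rw [mul_assoc, psi_mul_omega, mul_one]

/-- the logarithm with coefficients `c s` at the powers of `p` -/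
def lfeLog (p : ℕ) (c : ℕ → K) : PowerSeries K :=
  PowerSeries.mk fun j => if j = p ^ Nat.log p j then c (Nat.log p j) else 0

theorem lfe_log_pow (hp : p.Prime) (c : ℕ → K) (s : ℕ) :
    PowerSeries.coeff (p ^ s) (lfeLog p c) = c s := by
  rw [lfeLog, PowerSeries.coeff_mk, Nat.log_pow hp.one_lt, if_pos rfl]

theorem lfe_log_ne (c : ℕ → K) {j : ℕ} (hj : ∀ s, j ≠ p ^ s) :
    PowerSeries.coeff j (lfeLog p c) = 0 := by
  rw [lfeLog, PowerSeries.coeff_mk, if_neg (hj _)]

theorem lfe_log_fe (hp : p.Prime) (Φ : K →+* K) (n : ℕ) (v c : ℕ → K) (hc0 : c 0 = 1)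
    (hc : ∀ s, (p : K) * c (s + 1) = ∑ i ∈ Finset.range n,
      if i ≤ s then v (i + 1) * (Φ ^ (i + 1)) (c (s - i)) else 0) :
    PowerSeries.C (p : K) * lfeLog p c = PowerSeries.C (p : K) * PowerSeries.X
      + ∑ i ∈ Finset.range n, PowerSeries.C (v (i + 1)) *
        (PowerSeries.map (Φ ^ (i + 1)) (lfeLog p c)).subst
          (PowerSeries.X ^ p ^ (i + 1) : PowerSeries K) := by
  ext j
  simp only [map_add, map_sum, PowerSeries.coeff_C_mul, PowerSeries.coeff_X,
    PowerSeries.coeff_subst_X_pow (pow_ne_zero _ hp.ne_zero), PowerSeries.coeff_map,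
    Algebra.algebraMap_self, RingHom.id_apply]
  by_cases hj : ∃ s, j = p ^ s
  · obtain ⟨s, rfl⟩ := hj
    rw [lfe_log_pow hp]
    cases s with
    | zero =>
      rw [hc0, if_pos (pow_zero p), Finset.sum_eq_zero, add_zero]
      intro i _
      rw [if_neg, mul_zero]
      rw [Nat.pow_dvd_pow_iff_le_right hp.one_lt]
      omega
    | succ s =>
      rw [hc, if_neg (Nat.one_lt_pow (by omega) hp.one_lt).ne', mul_zero, zero_add]
      refine Finset.sum_congr rfl fun i _ => ?_
      by_cases hi : i ≤ s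
      · rw [if_pos hi, if_pos (pow_dvd_pow p (by omega)),
          Nat.pow_div (by omega) hp.pos, lfe_log_pow hp, Nat.add_sub_add_right]
      · rw [if_neg hi, if_neg, mul_zero]
        rw [Nat.pow_dvd_pow_iff_le_right hp.one_lt]
        omega
  · have hj' : ∀ s, j ≠ p ^ s := fun s hs => hj ⟨s, hs⟩
    rw [lfe_log_ne c hj', if_neg (by simpa using hj' 0), Finset.sum_eq_zero, add_zero]
    intro i _
    split_ifs with hd
    · rw [lfe_log_ne, map_zero, mul_zero]
      intro s hs
      refine hj' (i + 1 + s) ?_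
      rw [pow_add, ← hs, Nat.mul_div_cancel' hd]
    · exact mul_zero _

theorem lfe_exists_add {l : PowerSeries K} (h0 : PowerSeries.constantCoeff l = 0)
    (h1 : PowerSeries.coeff 1 l = 1) : ∃ G : FormalGroup K, G.IsComm ∧
      l.subst G.toPowerSeries = l.subst (X 0 : MvPowerSeries (Fin 2) K)
        + l.subst (X 1 : MvPowerSeries (Fin 2) K) := by
  have hu : IsUnit (PowerSeries.coeff 1 l) := h1 ▸ isUnit_one
  have y : ∀ i : Fin 2, constantCoeff (X i : MvPowerSeries (Fin 2) K) = 0 := constantCoeff_X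
  obtain ⟨G, hG, hI⟩ := exists_transport (F := FormalGroup.𝔾ₐ) inferInstance
    (PowerSeries.constantCoeff_substInvOfIsUnit l hu)
    (by rw [PowerSeries.coeff_one_substInvOfIsUnit]; exact Units.isUnit _)
  refine ⟨G, hG, ?_⟩
  have a0 := c0_subst (y 0) h0
  have a1 := c0_subst (y 1) h0
  have h := hI.1.fadd a0 a1
  rw [rt_left h0 hu (y 0), rt_left h0 hu (y 1), fadd_X_X] at h
  rw [← h, rt_right h0 hu (c0_fadd a0 a1), fadd, FormalGroup.𝔾ₐ_toPowerSeries,
    subst_add (hs2 a0 a1), subst_X (hs2 a0 a1), subst_X (hs2 a0 a1)]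
  rfl

theorem lfe_descend {ι : A →+* K} (hι : Function.Injective ι) {G : FormalGroup K} (hG : G.IsComm)
    {g : MvPowerSeries (Fin 2) A} (hg : map ι g = G.toPowerSeries) :
    ∃ F : FormalGroup A, F.IsComm ∧ F.map ι = G := by
  have inj : ∀ {τ : Type} {a b : MvPowerSeries τ A}, map ι a = map ι b → a = b := by
    intro τ a b h
    ext m
    apply hι
    rw [← coeff_map, ← coeff_map, h]
  have g0 : constantCoeff g = 0 := hι (by
    rw [← constantCoeff_map, hg, G.zero_constantCoeff, map_zero])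
  have e2 : ∀ {τ : Type} {a b : MvPowerSeries τ A}, constantCoeff a = 0 → constantCoeff b = 0 →
      map ι (subst ![a, b] g) = fadd G (map ι a) (map ι b) := by
    intro τ a b ha hb
    rw [map_subst (hs2 ha hb), hg, fadd]
    congr 1
    funext i; fin_cases i <;> rfl
  have c2 : ∀ {τ : Type} {a b : MvPowerSeries τ A}, constantCoeff a = 0 → constantCoeff b = 0 →
      constantCoeff (subst ![a, b] g) = 0 := by
    intro τ a b ha hb
    rw [rlog_c0_subst, g0]
    intro i; fin_cases i <;> assumption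
  have y : ∀ i : Fin 3, constantCoeff (X i : MvPowerSeries (Fin 3) A) = 0 := constantCoeff_X
  have y' : ∀ i : Fin 3, constantCoeff (X i : MvPowerSeries (Fin 3) K) = 0 := constantCoeff_X
  refine ⟨⟨g, g0, hι ?_, hι ?_, inj ?_⟩, ⟨inj ?_⟩, FormalGroup.ext hg⟩
  · rw [← coeff_map, hg, G.lin_coeff_X, map_one]
  · rw [← coeff_map, hg, G.lin_coeff_Y, map_one]
  · rw [e2 (c2 (y 0) (y 1)) (y 2), e2 (y 0) (c2 (y 1) (y 2)), e2 (y 0) (y 1), e2 (y 1) (y 2),
      map_X, map_X, map_X, fadd_assoc (y' 0) (y' 1) (y' 2)]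
  · show map ι g = map ι (subst ![X 1, X 0] g)
    rw [e2 (constantCoeff_X _) (constantCoeff_X _), map_X, map_X,
      fadd_comm hG (constantCoeff_X _) (constantCoeff_X _), fadd_X_X, hg]

theorem exists_fg_omega (hp : p.Prime) (hA : ∀ x : A, (p : A) * x = 0 → x = 0) (φ : A →+* A)
    (hφ : ∀ x, φ x - x ^ p ∈ Ideal.span {(p : A)}) (n : ℕ) (v b : ℕ → A) (hb0 : b 0 = 1)
    (hb : ∀ s, b (s + 1) = ∑ i ∈ Finset.range n,
      if i ≤ s then v (i + 1) * (p : A) ^ i * (φ ^ (i + 1)) (b (s - i)) else 0) :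
    ∃ F : FormalGroup A, F.IsComm ∧ (∀ s, PowerSeries.coeff (p ^ s - 1) (omega F) = b s) ∧
      ∀ j, (∀ s, j + 1 ≠ p ^ s) → PowerSeries.coeff j (omega F) = 0 := by
  let K := Localization.Away (p : A)
  let ι : A →+* K := algebraMap A K
  have hι : Function.Injective ι := IsLocalization.injective K (M := Submonoid.powers (p : A))
    (Submonoid.powers_le.2 (mem_nonZeroDivisors_iff_left.2 hA))
  have hpK : IsUnit (p : K) := by
    rw [← map_natCast ι]; exact IsLocalization.Away.algebraMap_isUnit _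
  have hpφ : IsUnit ((ι.comp φ) (p : A)) := by rw [map_natCast]; exact hpK
  let Φ : K →+* K := IsLocalization.Away.lift (p : A) hpφ
  have hΦ : ∀ x, Φ (ι x) = ι (φ x) := fun x => IsLocalization.Away.lift_eq (p : A) hpφ x
  obtain ⟨u, hu⟩ := hpK.exists_right_inv
  have hus : ∀ s, (p : K) ^ s * u ^ s = 1 := fun s => by rw [← mul_pow, hu, one_pow]
  have hΦu : ∀ i, (Φ ^ i) u = u := fun i => by
    have h := congrArg (Φ ^ i) hu
    rw [map_mul, map_natCast, map_one] at h
    exact hpK.mul_left_cancel (h.trans hu.symm)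
  obtain ⟨l, hl⟩ : ∃ l : PowerSeries K, l = lfeLog p fun s => ι (b s) * u ^ s := ⟨_, rfl⟩
  have c1 : ∀ s, PowerSeries.coeff (p ^ s) l = ι (b s) * u ^ s := fun s => by
    rw [hl, lfe_log_pow hp]
  have c2 : ∀ j, (∀ s, j ≠ p ^ s) → PowerSeries.coeff j l = 0 := fun j hj => by
    rw [hl, lfe_log_ne _ hj]
  have hP : PLog ι p l := ⟨fun s => ⟨b s, by rw [c1]; linear_combination -ι (b s) * hus s⟩, c2⟩
  have hl1 : PowerSeries.coeff 1 l = 1 := by
    have := c1 0
    rwa [pow_zero, pow_zero, hb0, map_one, mul_one] at this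
  have hl0 : PowerSeries.constantCoeff l = 0 := by
    rw [← PowerSeries.coeff_zero_eq_constantCoeff_apply]
    exact c2 0 fun s => (pow_ne_zero s hp.ne_zero).symm
  have hfe := lfe_log_fe hp Φ n (fun i => ι (v i)) (fun s => ι (b s) * u ^ s)
    (by rw [hb0, map_one, pow_zero, mul_one]) (fun s => by
      have e : (p : K) * (ι (b (s + 1)) * u ^ (s + 1)) = ι (b (s + 1)) * u ^ s := by
        linear_combination ι (b (s + 1)) * u ^ s * hu
      rw [e, hb, map_sum, Finset.sum_mul]
      refine Finset.sum_congr rfl fun i _ => ?_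
      split_ifs with hi
      · obtain ⟨t, rfl⟩ := Nat.exists_eq_add_of_le hi
        rw [Nat.add_sub_cancel_left, map_mul, map_mul, map_mul, map_pow, map_pow, map_natCast,
          hΦu, lfe_iter ι φ Φ hΦ, pow_add u]
        linear_combination ι (v (i + 1)) * ι ((φ ^ (i + 1)) (b t)) * u ^ t * hus i
      · simp)
  rw [← hl] at hfe
  obtain ⟨G, hG, hadd⟩ := lfe_exists_add hl0 hl1
  obtain ⟨g, hg⟩ := integral_of_fe hp ι hpK φ Φ hΦ hφ n v hP hl1 hfe G.zero_constantCoeff hadd
  obtain ⟨F, hF, hFG⟩ := lfe_descend hι hG hg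
  have hω : ∀ j, ι (PowerSeries.coeff j (omega F))
      = PowerSeries.coeff (j + 1) l * ((j + 1 : ℕ) : K) := fun j => by
    rw [← PowerSeries.coeff_map, map_omega, hFG, omega_eq_of_add hl1 hadd,
      PowerSeries.coeff_derivative, Nat.cast_succ]
  refine ⟨F, hF, fun s => hι ?_, fun j hj => hι ?_⟩
  · rw [hω, Nat.sub_add_cancel (Nat.one_le_pow _ _ hp.pos), c1, Nat.cast_pow]
    linear_combination ι (b s) * hus s
  · rw [hω, c2 _ hj, zero_mul, map_zero]

end

end Vale.Agent.P217
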