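import Vale.Agent.P217.LOrd

/-! P217 (existence part): consequences of the shape of the invariant differential.
Everything is computed over `K = FractionRing A` (`QAlg K` because `K` has characteristic zero) with the
logarithm `l` of `F.map (algebraMap A K)` (`exists_isLog`, `IsLog.coeff`, `map_omega`, `IsLog.fadd`,
`IsLog.nmul`) and pulled back by injectivity of `algebraMap A K`.
PLAN.
* `shape_fg`: `l = X + (w/d) X^d + r`, `Ord (d+1) r`; `l(F) = l X + l Y` gives
  `F - X - Y = (w/d)(X^d + Y^d - F^d) + (order ≥ d+1)`; `Ord.pow_sub_pow` with `ord_fg` replaces `F^d` by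
  `(X+Y)^d`; `coeff_e2_add_pow`.
* `shape_mul`: the same with `l(P) = j l`, `P = mulSeries F j`, `P^d ≡ j^d X^d`.
* `typical_of_omega`: `l(sumSeries) = ∑_i l(t^i X)` (induction), whose coefficient at `j = p^s` is
  `l_j ∑_i (t^j)^i = 0`; `psubst_inj`.
* `pseries_of_omega`: `l = X + l(X^q)/p` (coefficients).  The series `m(T) = l(pT)/p` has integral
  coefficients `p^(p^s - 1 - s) b_s` and linear coefficient one; `E1 = m.substInvOfIsUnit` over `A`,
  `l(p E1) = p X`, so `l(fadd F (p E1) (X^q)) = p l = l([p] X)`; `psubst_inj`, `fadd_congr`, `zero_fadd`. -/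

namespace Vale.Agent.P217

open MvPowerSeries

noncomputable section

namespace LHon

section

variable {R : Type*} [CommRing R] {G : FormalGroup R} {l : PowerSeries R}

theorem coeff_eq_zero (hR : QAlg R) (hl : IsLog G l) {j : ℕ}
    (h : PowerSeries.coeff j (omega G) = 0) : PowerSeries.coeff (j + 1) l = 0 :=
  (hR _ j.succ_ne_zero).mul_right_eq_zero.1 ((hl.coeff j).trans h)

theorem coeff_one (hl : IsLog G l) : PowerSeries.coeff 1 l = 1 := by
  simpa [c0_omega] using hl.coeff 0

theorem expand (hR : QAlg R) (hl : IsLog G l) {d : ℕ} (hd : 2 ≤ d)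
    (h : ∀ j, 1 ≤ j → j + 1 < d → PowerSeries.coeff j (omega G) = 0) {σ : Type}
    {a : MvPowerSeries σ R} (ha : constantCoeff a = 0) :
    Ord (d + 1) (l.subst a - a - C (PowerSeries.coeff d l) * a ^ d) := by
  have h1 : Ord (d + 1) (l - PowerSeries.X - PowerSeries.C (PowerSeries.coeff d l) *
      PowerSeries.X ^ d : PowerSeries R) := by
    refine ord_iff.2 fun j hj => ?_
    simp only [map_sub, PowerSeries.coeff_C_mul, PowerSeries.coeff_X_pow, PowerSeries.coeff_X]
    rcases j with _ | _ | j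
    · simp [hl.1, show 0 ≠ d by omega]
    · simp [coeff_one hl, show 1 ≠ d by omega]
    · split_ifs with h2 h3 h3
      · omega
      · omega
      · simp [h3]
      · simp [coeff_eq_zero hR hl (h (j + 1) (by omega) (by omega))]
  have h2 := Ord.psubst (ord_one_iff.2 ha) le_rfl h1
  rwa [one_mul, PowerSeries.subst_sub (hs1 ha), PowerSeries.subst_sub (hs1 ha),
    PowerSeries.subst_mul (hs1 ha), PowerSeries.subst_pow (hs1 ha), PowerSeries.subst_X (hs1 ha),
    PowerSeries.subst_C] at h2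

theorem ord_pow {σ : Type} {a : MvPowerSeries σ R} (ha : constantCoeff a = 0) (d : ℕ) :
    Ord d (a ^ d) := by
  simpa using (ord_one_iff.2 ha).pow d

theorem ord_pow_sub {σ : Type} {a b : MvPowerSeries σ R} (ha : constantCoeff a = 0)
    (hb : constantCoeff b = 0) (h : Ord 2 (a - b)) {d : ℕ} (hd : 2 ≤ d) :
    Ord (d + 1) (a ^ d - b ^ d) := by
  obtain ⟨e, rfl⟩ : ∃ e, d = e + 1 := ⟨d - 1, by omega⟩
  exact ((ord_one_iff.2 ha).pow_sub_pow (ord_one_iff.2 hb) h e).mono (by omega)

theorem coeff_e2_X_pow {i j : ℕ} (hi : 0 < i) (hj : 0 < j) (s : Fin 2) (m : ℕ) :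
    coeff (e2 i j) ((X s : MvPowerSeries (Fin 2) R) ^ m) = 0 := by
  rw [coeff_X_pow, if_neg]
  intro h
  have h0 := DFunLike.congr_fun h 0
  have h1 := DFunLike.congr_fun h 1
  fin_cases s <;> simp [e2] at h0 h1 <;> omega

theorem fg (hR : QAlg R) (hG : G.IsComm) {d : ℕ} (hd : 2 ≤ d)
    (h : ∀ j, 1 ≤ j → j + 1 < d → PowerSeries.coeff j (omega G) = 0) :
    Ord d (G.toPowerSeries - X 0 - X 1) ∧ ∀ i, 0 < i → i < d →
      (d : R) * coeff (e2 i (d - i)) G.toPowerSeries
        = -(PowerSeries.coeff (d - 1) (omega G) * (d.choose i : ℕ)) := by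
  obtain ⟨l, hl⟩ := exists_isLog hR G
  have y : ∀ i : Fin 2, constantCoeff (X i : MvPowerSeries (Fin 2) R) = 0 := constantCoeff_X
  have y2 : constantCoeff (X 0 + X 1 : MvPowerSeries (Fin 2) R) = 0 := by simp
  have h1 := hl.fadd hR hG (y 0) (y 1)
  rw [fadd_X_X] at h1
  have h2 := (((expand hR hl hd h (y 0)).add (expand hR hl hd h (y 1))).sub
    (expand hR hl hd h G.zero_constantCoeff)).sub ((ord_pow_sub G.zero_constantCoeff y2
      (by simpa [sub_sub] using ord_fg G) hd).mul_left (C (PowerSeries.coeff d l)))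
  have h3 : Ord (d + 1) (G.toPowerSeries - X 0 - X 1 -
      C (PowerSeries.coeff d l) * (X 0 ^ d + X 1 ^ d - (X 0 + X 1) ^ d)) := by
    convert h2 using 1
    rw [h1]
    ring
  refine ⟨?_, fun i h4 h5 => ?_⟩
  · simpa using (h3.mono d.le_succ).add ((((ord_pow (y 0) d).add (ord_pow (y 1) d)).sub
      (ord_pow y2 d)).mul_left (C (PowerSeries.coeff d l)))
  · have h6 := h3 (e2 i (d - i)) (by rw [e2_degree]; omega)
    have h7 := coeff_e2_add_pow (R := R) i (d - i)
    have h8 := fun s m => coeff_e2_X_pow (R := R) h4 (Nat.sub_pos_of_lt h5) s m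
    have h9 := hl.coeff (d - 1)
    rw [Nat.add_sub_cancel' h5.le] at h7
    rw [Nat.sub_add_cancel (by omega)] at h9
    have h10 : ∀ s, coeff (e2 i (d - i)) (X s : MvPowerSeries (Fin 2) R) = 0 :=
      fun s => by simpa using h8 s 1
    simp only [map_sub, map_add, coeff_C_mul, h7, h8, h10] at h6
    linear_combination (d : R) * h6 - (d.choose i : R) * h9

theorem mul (hR : QAlg R) (hG : G.IsComm) {d : ℕ} (hd : 2 ≤ d)
    (h : ∀ j, 1 ≤ j → j + 1 < d → PowerSeries.coeff j (omega G) = 0) (j : ℕ) :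
    Ord d (mulSeries G j - PowerSeries.C (j : R) * PowerSeries.X) ∧
      (d : R) * PowerSeries.coeff d (mulSeries G j)
        = PowerSeries.coeff (d - 1) (omega G) * ((j : R) - (j : R) ^ d) := by
  obtain ⟨l, hl⟩ := exists_isLog hR G
  have y : constantCoeff (PowerSeries.X : PowerSeries R) = 0 := PowerSeries.constantCoeff_X
  have y2 : constantCoeff (PowerSeries.C (j : R) * PowerSeries.X) = 0 := by
    rw [map_mul, y, mul_zero]
  have y3 : constantCoeff (mulSeries G j) = 0 := c0_mulSeries j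
  have h1 := hl.nmul hR hG j y
  rw [nmul_X] at h1
  have h0 : Ord 2 (mulSeries G j - PowerSeries.C (j : R) * PowerSeries.X) := by
    refine ord_iff.2 fun i hi => ?_
    interval_cases i
    · simp [c0_mulSeries]
    · simp [coeff_one_mulSeries]
  have h2 := (((expand hR hl hd h y).mul_left (C (j : R))).sub (expand hR hl hd h y3)).sub
    ((ord_pow_sub y3 y2 h0 hd).mul_left (C (PowerSeries.coeff d l)))
  have h3 : Ord (d + 1) (mulSeries G j - PowerSeries.C (j : R) * PowerSeries.X -
      PowerSeries.C (PowerSeries.coeff d l * (j - j ^ d)) * PowerSeries.X ^ d) := by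
    convert h2 using 1
    rw [h1]
    simp only [map_mul, map_sub, map_pow, PowerSeries.C]
    ring
  refine ⟨?_, ?_⟩
  · simpa using (h3.mono d.le_succ).add
      ((ord_pow y d).mul_left (PowerSeries.C (PowerSeries.coeff d l * (j - j ^ d))))
  · have h6 := ord_iff.1 h3 d d.lt_succ_self
    have h9 := hl.coeff (d - 1)
    rw [Nat.sub_add_cancel (by omega)] at h9
    simp only [map_sub, PowerSeries.coeff_C_mul, PowerSeries.coeff_X_pow_self, PowerSeries.coeff_X,
      if_neg (show d ≠ 1 by omega)] at h6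
    linear_combination (d : R) * h6 + ((j : R) - j ^ d) * h9

theorem coeff_scale (u : R) (j : ℕ) :
    PowerSeries.coeff j (l.subst (PowerSeries.C u * PowerSeries.X : PowerSeries R)) =
      u ^ j * PowerSeries.coeff j l := by
  rw [← PowerSeries.smul_eq_C_mul, ← PowerSeries.rescale_eq_subst, PowerSeries.coeff_rescale]

theorem log_sum (hR : QAlg R) (hG : G.IsComm) (hl : IsLog G l) {s : ℕ → PowerSeries R}
    (hs : ∀ i, PowerSeries.constantCoeff (s i) = 0) (m : ℕ) :
    (l.subst (sumSeries G s m) : PowerSeries R) = ∑ i ∈ Finset.range m, l.subst (s i) := by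
  induction m with
  | zero => exact PowerSeries.subst_zero_of_constantCoeff_zero hl.1
  | succ m ih =>
    rw [Finset.sum_range_succ, ← ih]
    exact hl.fadd hR hG (c0_sumSeries hs m) (hs m)

theorem coeff_not_pow (hR : QAlg R) (hl : IsLog G l) {p : ℕ}
    (h : ∀ j, (∀ s, j + 1 ≠ p ^ s) → PowerSeries.coeff j (omega G) = 0) {j : ℕ}
    (hj : ∀ s, j ≠ p ^ s) : PowerSeries.coeff j l = 0 := by
  rcases j with _ | j
  · simpa using hl.1
  · exact coeff_eq_zero hR hl (h j hj)

theorem typical (hR : QAlg R) (hG : G.IsComm) {p : ℕ}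
    (h : ∀ j, (∀ s, j + 1 ≠ p ^ s) → PowerSeries.coeff j (omega G) = 0) {m : ℕ} {t : R}
    (ht : ∀ s, ∑ i ∈ Finset.range m, (t ^ p ^ s) ^ i = 0) :
    sumSeries G (fun i => PowerSeries.C (t ^ i) * PowerSeries.X) m = 0 := by
  obtain ⟨l, hl⟩ := exists_isLog hR G
  have hs : ∀ i, PowerSeries.constantCoeff (PowerSeries.C (t ^ i) * PowerSeries.X) = 0 := by simp
  refine psubst_inj hl.1 (coeff_one hl ▸ isUnit_one) (c0_sumSeries hs m) (map_zero _) ?_
  refine (log_sum hR hG hl hs m).trans
    (Eq.trans ?_ (PowerSeries.subst_zero_of_constantCoeff_zero hl.1).symm)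
  refine PowerSeries.ext fun j => ?_
  simp only [map_sum, coeff_scale, map_zero, ← Finset.sum_mul, pow_right_comm t _ j]
  by_cases hj : ∀ s, j ≠ p ^ s
  · rw [coeff_not_pow hR hl h hj, mul_zero]
  · push Not at hj
    obtain ⟨s, rfl⟩ := hj
    rw [ht, zero_mul]

theorem log_rec (hR : QAlg R) (hl : IsLog G l) {p n : ℕ} (hp : p.Prime) (hn : 1 ≤ n)
    (h : ∀ j, (∀ s, j + 1 ≠ p ^ s) → PowerSeries.coeff j (omega G) = 0)
    (h1 : ∀ s, 0 < s → s < n → PowerSeries.coeff (p ^ s - 1) (omega G) = 0)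
    (h2 : ∀ s, PowerSeries.coeff (p ^ (s + n) - 1) (omega G)
      = (p : R) ^ (n - 1) * PowerSeries.coeff (p ^ s - 1) (omega G)) :
    PowerSeries.C (p : R) * l = PowerSeries.C (p : R) * PowerSeries.X +
      l.subst (PowerSeries.X ^ p ^ n : PowerSeries R) := by
  have hc : ∀ s, (p : R) ^ s * PowerSeries.coeff (p ^ s) l =
      PowerSeries.coeff (p ^ s - 1) (omega G) := fun s => by
    have h3 := hl.coeff (p ^ s - 1)
    rwa [Nat.sub_add_cancel (Nat.one_le_pow _ _ hp.pos), Nat.cast_pow] at h3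
  have hu : ∀ s, IsUnit ((p : R) ^ s) := fun s => (hR p hp.ne_zero).pow s
  have hq : 1 < p ^ n := Nat.one_lt_pow (by omega) hp.one_lt
  ext j
  rw [map_add, PowerSeries.coeff_C_mul, PowerSeries.coeff_C_mul,
    PowerSeries.coeff_subst_X_pow (by omega), PowerSeries.coeff_X, Algebra.algebraMap_self_apply]
  by_cases hj : ∀ s, j ≠ p ^ s
  · rw [coeff_not_pow hR hl h hj, if_neg (by simpa using hj 0)]
    split_ifs with h3
    · obtain ⟨i, rfl⟩ := h3
      rw [Nat.mul_div_cancel_left _ (by omega), coeff_not_pow hR hl h, add_zero]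
      rintro s rfl
      exact hj (n + s) (pow_add _ _ _).symm
    · rw [add_zero]
  · push Not at hj
    obtain ⟨s, rfl⟩ := hj
    by_cases hs : s < n
    · rw [if_neg (c := p ^ n ∣ p ^ s) (by rw [Nat.pow_dvd_pow_iff_le_right hp.one_lt]; omega),
        add_zero]
      rcases Nat.eq_zero_or_pos s with rfl | h3
      · simp [coeff_one hl]
      · rw [if_neg (Nat.one_lt_pow h3.ne' hp.one_lt).ne',
          (hu s).mul_right_eq_zero.1 ((hc s).trans (h1 s h3 hs))]
    · obtain ⟨s, rfl⟩ : ∃ t, s = t + n := ⟨s - n, by omega⟩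
      rw [if_neg (Nat.one_lt_pow (by omega) hp.one_lt).ne', if_pos (pow_dvd_pow p (by omega)),
        mul_zero, zero_add, Nat.pow_div (by omega) hp.pos, Nat.add_sub_cancel]
      obtain ⟨n, rfl⟩ : ∃ t, n = t + 1 := ⟨n - 1, by omega⟩
      refine (hu (s + n)).mul_left_cancel ?_
      have h3 := h2 s
      rw [← hc, ← hc, Nat.add_sub_cancel] at h3
      linear_combination h3

end

theorem qalg (A : Type*) [CommRing A] [IsDomain A] [CharZero A] : QAlg (FractionRing A) :=
  fun _ hj => (Nat.cast_ne_zero.2 hj).isUnit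

theorem om {A K : Type*} [CommRing A] [CommRing K] (ρ : A →+* K) (F : FormalGroup A) (j : ℕ) :
    PowerSeries.coeff j (omega (F.map ρ)) = ρ (PowerSeries.coeff j (omega F)) := by
  rw [← map_omega, PowerSeries.coeff_map]

theorem ord_of_map {σ A K : Type*} [CommRing A] [CommRing K] {ρ : A →+* K}
    (hρ : Function.Injective ρ) {d : ℕ} {a : MvPowerSeries σ A} (h : Ord d (map ρ a)) : Ord d a :=
  fun m hm => hρ (by simpa using h m hm)

end LHon

open LHon

variable {A : Type*} [CommRing A] [IsDomain A] [CharZero A] {F : FormalGroup A}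

theorem shape_fg (hF : F.IsComm) {d : ℕ} (hd : 2 ≤ d)
    (h : ∀ j, 1 ≤ j → j + 1 < d → PowerSeries.coeff j (omega F) = 0) :
    Ord d (F.toPowerSeries - X 0 - X 1) ∧ ∀ i, 0 < i → i < d →
      (d : A) * coeff (e2 i (d - i)) F.toPowerSeries
        = -(PowerSeries.coeff (d - 1) (omega F) * (d.choose i : ℕ)) := by
  have hi := IsFractionRing.injective A (FractionRing A)
  obtain ⟨h1, h2⟩ := fg (qalg A) (isComm_map hF (algebraMap A _)) hd
    fun j h1 h2 => by rw [om, h j h1 h2, map_zero]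
  refine ⟨ord_of_map hi (by simpa using h1), fun i h3 h4 => hi ?_⟩
  simpa [om] using h2 i h3 h4

theorem shape_mul (hF : F.IsComm) {d : ℕ} (hd : 2 ≤ d)
    (h : ∀ j, 1 ≤ j → j + 1 < d → PowerSeries.coeff j (omega F) = 0) (j : ℕ) :
    Ord d (mulSeries F j - PowerSeries.C (j : A) * PowerSeries.X) ∧
      (d : A) * PowerSeries.coeff d (mulSeries F j)
        = PowerSeries.coeff (d - 1) (omega F) * ((j : A) - (j : A) ^ d) := by
  have hi := IsFractionRing.injective A (FractionRing A)
  obtain ⟨h1, h2⟩ := mul (qalg A) (isComm_map hF (algebraMap A _)) hd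
    (fun j h1 h2 => by rw [om, h j h1 h2, map_zero]) j
  rw [← map_mulSeries] at h1 h2
  refine ⟨ord_of_map hi ?_, hi (by simpa [om] using h2)⟩
  change Ord d (PowerSeries.map _ _)
  rwa [map_sub, map_mul, PowerSeries.map_C, PowerSeries.map_X, map_natCast (algebraMap A _)]

theorem typical_of_omega (hF : F.IsComm) {p : ℕ}
    (h : ∀ j, (∀ s, j + 1 ≠ p ^ s) → PowerSeries.coeff j (omega F) = 0) {l : ℕ} {t : A}
    (ht : ∀ s, ∑ i ∈ Finset.range l, (t ^ p ^ s) ^ i = 0) :
    sumSeries F (fun i => PowerSeries.C (t ^ i) * PowerSeries.X) l = 0 := by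
  have hi := IsFractionRing.injective A (FractionRing A)
  have h1 := typical (qalg A) (isComm_map hF (algebraMap A _)) (p := p)
    (fun j h1 => by rw [om, h j h1, map_zero]) (m := l) (t := algebraMap A _ t)
    fun s => by simpa using congrArg (algebraMap A (FractionRing A)) (ht s)
  refine PowerSeries.map_injective _ hi ?_
  rw [map_sumSeries _ (by simp), map_zero, ← h1]
  simp

theorem pseries_of_omega (hF : F.IsComm) {p n : ℕ} (hp : p.Prime) (hn : 1 ≤ n)
    (h : ∀ j, (∀ s, j + 1 ≠ p ^ s) → PowerSeries.coeff j (omega F) = 0)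
    (h1 : ∀ s, 0 < s → s < n → PowerSeries.coeff (p ^ s - 1) (omega F) = 0)
    (h2 : ∀ s, PowerSeries.coeff (p ^ (s + n) - 1) (omega F)
      = (p : A) ^ (n - 1) * PowerSeries.coeff (p ^ s - 1) (omega F)) :
    mulSeries F p - PowerSeries.X ^ p ^ n ∈ cId Unit (Ideal.span {(p : A)}) := by
  obtain ⟨K, _, ρ, hi, hR⟩ : ∃ (K : Type _) (_ : CommRing K) (ρ : A →+* K),
      Function.Injective ρ ∧ QAlg K :=
    ⟨_, _, _, IsFractionRing.injective A (FractionRing A), qalg A⟩
  have hG := isComm_map hF ρ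
  obtain ⟨l, hl⟩ := exists_isLog hR (F.map ρ)
  have h0 : ∀ j, (∀ s, j + 1 ≠ p ^ s) → PowerSeries.coeff j (omega (F.map ρ)) = 0 :=
    fun j h1 => by rw [om, h j h1, map_zero]
  have h3 := log_rec hR hl hp hn h0 (fun s a b => by rw [om, h1 s a b, map_zero])
    fun s => by rw [om, om, h2, map_mul, map_pow, map_natCast]
  have h4 : ∀ j, ∃ a : A, ρ a = p ^ (j - 1) * PowerSeries.coeff j l := by
    intro j
    by_cases hj : ∀ s, j ≠ p ^ s
    · exact ⟨0, by rw [coeff_not_pow hR hl h0 hj, mul_zero, map_zero]⟩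
    · push Not at hj
      obtain ⟨s, rfl⟩ := hj
      have h5 := hl.coeff (p ^ s - 1)
      have h6 := Nat.lt_pow_self (n := s) hp.one_lt
      rw [Nat.sub_add_cancel (by omega), Nat.cast_pow, om] at h5
      refine ⟨p ^ (p ^ s - 1 - s) * PowerSeries.coeff (p ^ s - 1) (omega F), ?_⟩
      rw [map_mul, map_pow, map_natCast, ← h5, ← mul_assoc, ← pow_add,
        Nat.sub_add_cancel (by omega)]
  choose a ha using h4
  have hm0 : PowerSeries.constantCoeff (PowerSeries.mk a) = 0 := hi (by simpa [hl.1] using ha 0)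
  have hm1 : IsUnit (PowerSeries.coeff 1 (PowerSeries.mk a)) := by
    have : a 1 = 1 := hi (by simpa [coeff_one hl] using ha 1)
    simp [this]
  set E := (PowerSeries.mk a).substInvOfIsUnit hm1
  have hE : PowerSeries.constantCoeff E = 0 := PowerSeries.constantCoeff_substInvOfIsUnit _ _
  have hE' : constantCoeff (PowerSeries.map ρ E) = 0 := c0_map ρ hE
  have h5 : (PowerSeries.map ρ (PowerSeries.mk a)).subst (PowerSeries.map ρ E) = PowerSeries.X := by
    have h6 := map_psubst ρ hE (PowerSeries.mk a)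
    rw [PowerSeries.subst_substInvOfIsUnit_right _ hm0] at h6
    exact h6.symm.trans (PowerSeries.map_X ρ)
  have h6 : l.subst (PowerSeries.C (p : K) * PowerSeries.X) =
      PowerSeries.C (p : K) * PowerSeries.map ρ (PowerSeries.mk a) := by
    refine PowerSeries.ext fun j => ?_
    rw [coeff_scale, PowerSeries.coeff_C_mul, PowerSeries.coeff_map, PowerSeries.coeff_mk, ha]
    rcases j with _ | j
    · simp [hl.1]
    · rw [Nat.add_sub_cancel, pow_succ']
      ring
  have h7 := psubst_psubst hE' (u := PowerSeries.C (p : K) * PowerSeries.X)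
    (by simp) l
  rw [h6, PowerSeries.subst_mul (hs1 hE'), PowerSeries.subst_mul (hs1 hE'), h5,
    PowerSeries.subst_X (hs1 hE'), PowerSeries.subst_C] at h7
  have y : ∀ (B : Type _) [CommRing B], constantCoeff (PowerSeries.X ^ p ^ n : PowerSeries B) = 0 :=
    fun B _ => by
      rw [map_pow, show constantCoeff (PowerSeries.X : PowerSeries B) = 0 from
        PowerSeries.constantCoeff_X, zero_pow (pow_ne_zero _ hp.ne_zero)]
  have y2 : constantCoeff (C (p : A) * E) = 0 := by
    rw [map_mul, show constantCoeff E = 0 from hE, mul_zero]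
  have h8 : mulSeries F p = fadd F (C (p : A) * E) (PowerSeries.X ^ p ^ n) := by
    refine PowerSeries.map_injective _ hi ?_
    refine (map_mulSeries ρ p).trans (Eq.trans ?_ (map_fadd ρ y2 (y A)).symm)
    refine psubst_inj hl.1 (coeff_one hl ▸ isUnit_one) (c0_mulSeries p)
      (c0_fadd (c0_map ρ y2) (c0_map ρ (y A))) ?_
    rw [hl.fadd hR hG (c0_map ρ y2) (c0_map ρ (y A)), ← nmul_X,
      hl.nmul hR hG p PowerSeries.constantCoeff_X, PowerSeries.X_subst]
    refine h3.trans (congrArg₂ (· + ·) ?_ ?_)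
    · refine h7.trans ?_
      rw [map_mul, map_C, map_natCast ρ]
      rfl
    · rw [map_pow]
      exact congrArg (fun z : PowerSeries K => l.subst (z ^ p ^ n))
        (PowerSeries.map_X ρ).symm
  have h9 := fadd_congr (F := F) (G := F) (J := Ideal.span {(p : A)}) y2 (y A) (map_zero _) (y A)
    (by simp) (by rw [sub_zero]; exact C_mul_mem_cId (Ideal.mem_span_singleton_self _) E) (by simp)
  rwa [zero_fadd (y A), ← h8] at h9

end

end Vale.Agent.P217
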