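import Vale.Agent.P217.LShape
import Vale.Agent.P217.LFE

/-! P217 (existence part): Honda's law and its universal deformation exist.
PLAN.
* `exists_haz`: `A = E0 p n (ZMod p)`, `φ = ev C (fun i => X i ^ p)`; `φ x ≡ x^p` modulo `p` (`frob_congr`
  with the identity of `W = WittVector p (ZMod p)`, where `x ≡ x^p` modulo `p` because `W/p = ZMod p`;
  `subst_eq_ev`); `b` by strong recursion; `exists_fg_omega` with `v = vv p n (ZMod p)`.  `Shape`: for
  `1 ≤ s < h` every term of `b s` contains `vv (i+1) ∈ Jh h`; in `b h` only `i = h - 1` survives.  With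
  `c = constantCoeff : A →+* W` we have `c ∘ φ = c`, `c (vv i) = 0` for `1 ≤ i < n`, `c (vv n) = 1`.
* `exists_LT`: `F0` from `exists_haz`, `F1 = F0.map constantCoeff` over `W`, `Γ = F0.map res
  = F1.map WittVector.constantCoeff`.  `pseries_of_omega` for `F1` gives the `p`-series of `Γ`.
  Typicality: map `F1` to `W(Kbar)` by `WittVector.map`, `t = teichmuller p ζ`; `t^(p^s)` is a primitive
  `l`-th root of unity (`teichmuller` is an injective monoid map, `IsPrimitiveRoot.map_of_injective`,
  `pow_of_coprime`), `IsPrimitiveRoot.geom_sum_eq_zero`; `typical_of_omega`, `map_sumSeries`, `map_map_fg`.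
  `F = F0.map β`, `β = MvPowerSeries.map (WittVector.map (ZMod.castHom dvd_rfl k))`; `Shape` passes along
  `β` (`map_omega`), `res ∘ β = castHom ∘ res`; `Shape.isUniversal`, `Shape.heightCoords`. -/

namespace Vale.Agent.P217

open MvPowerSeries IsLocalRing

noncomputable section

variable {p n : ℕ} [Fact p.Prime]

theorem lm_rec {A : Type*} [CommRing A] (φ : A →+* A) (p n : ℕ) (v : ℕ → A) :
    ∃ b : ℕ → A, b 0 = 1 ∧ ∀ s, b (s + 1) = ∑ i ∈ Finset.range n,
      if i ≤ s then v (i + 1) * (p : A) ^ i * (φ ^ (i + 1)) (b (s - i)) else 0 := by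
  let T : ∀ s : ℕ, (∀ i < s, A) → A := fun s ih => if h : s = 0 then 1 else
    ∑ i ∈ Finset.range n, if i ≤ s - 1 then
      v (i + 1) * (p : A) ^ i * (φ ^ (i + 1)) (ih (s - 1 - i) (by omega)) else 0
  refine ⟨fun s => Nat.strongRec T s, Nat.strongRec_eq _ _, fun s => ?_⟩
  exact Nat.strongRec_eq T (s + 1)

theorem lm_vv {k : Type} [Field k] {h i : ℕ} (hh : h ≤ n) (hi : i + 1 < h) :
    vv p n k (i + 1) ∈ Jh p n k h := by
  have h1 : i + 1 - 1 < n - 1 := by omega
  rw [vv, if_neg (by omega), uGen, if_neg i.succ_ne_zero, dif_pos h1]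
  exact Ideal.subset_span ⟨_, hi, rfl⟩

theorem lm_shape {k k' : Type} [Field k] [Field k'] (ι : k →+* k') {F : FormalGroup (E0 p n k)}
    (hS : Shape F) : Shape (F.map (map (WittVector.map ι)) : FormalGroup (E0 p n k')) := by
  have hJ : ∀ h, ∀ x ∈ Jh p n k h, map (WittVector.map ι) x ∈ Jh p n k' h := fun h => by
    refine Ideal.span_le (I := (Jh p n k' h).comap (map (WittVector.map ι))).2 ?_
    rintro _ ⟨i, hi, rfl⟩
    exact Ideal.subset_span ⟨i, hi, map_X _ i⟩
  have hv : ∀ h, map (WittVector.map ι) (vv p n k h) = vv p n k' h := fun h => by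
    unfold vv uGen
    split_ifs
    exacts [map_one _, map_natCast _ _, map_X _ _, map_zero _]
  intro h h1 hn
  rw [← map_omega]
  refine ⟨fun j hj hj' => hJ h _ ((hS h h1 hn).1 j hj hj'), ?_⟩
  have := hJ h _ (hS h h1 hn).2
  rwa [map_sub, map_mul, map_pow, map_natCast, hv] at this

theorem exists_haz (hn : 1 ≤ n) : ∃ F : FormalGroup (E0 p n (ZMod p)), F.IsComm ∧ Shape F ∧
    (∀ j, (∀ s, j + 1 ≠ p ^ s) → PowerSeries.coeff j (omega F) = 0) ∧
    (∀ s, 0 < s → s < n → constantCoeff (PowerSeries.coeff (p ^ s - 1) (omega F)) = 0) ∧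
    ∀ s, constantCoeff (PowerSeries.coeff (p ^ (s + n) - 1) (omega F))
      = (p : WittVector p (ZMod p)) ^ (n - 1)
        * constantCoeff (PowerSeries.coeff (p ^ s - 1) (omega F)) := by
  have hp : p.Prime := Fact.out
  have hX : ∀ i : Fin (n - 1), constantCoeff ((X i : E0 p n (ZMod p)) ^ p) = 0 := fun i =>
    lfe_c0_X_pow hp.ne_zero i
  let φ : E0 p n (ZMod p) →+* E0 p n (ZMod p) := ev C fun i => X i ^ p
  have hc : ∀ x, constantCoeff (φ x) = constantCoeff x := fun x => by
    rw [← rlog_c0_subst hX x, subst_eq_ev hX]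
  have hc' : ∀ i x, constantCoeff ((φ ^ i) x) = constantCoeff x := fun i => by
    induction i with
    | zero => exact fun x => rfl
    | succ i ih => exact fun x => by rw [pow_succ, RingHom.coe_mul, Function.comp_apply, ih, hc]
  have hW : ∀ x : WittVector p (ZMod p), RingHom.id _ x - x ^ p ∈
      Ideal.span {(p : WittVector p (ZMod p))} := fun x => by
    rw [← WittVector.ker_constantCoeff, RingHom.mem_ker, map_sub, map_pow, ZMod.pow_card]
    exact sub_self _
  have hφ : ∀ x, φ x - x ^ p ∈ Ideal.span {(p : E0 p n (ZMod p))} := fun x => by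
    obtain ⟨y, hy⟩ := mem_cId_span_singleton.1 (frob_congr hp _ hW 1 x)
    rw [pow_one, pow_one, map_id, RingHom.id_apply, subst_eq_ev hX, map_natCast] at hy
    rw [← neg_mem_iff, neg_sub, hy]
    exact Ideal.mul_mem_right _ _ (Ideal.mem_span_singleton_self _)
  have hA : ∀ x : E0 p n (ZMod p), (p : E0 p n (ZMod p)) * x = 0 → x = 0 := fun x hx => by
    refine (mul_eq_zero.1 hx).resolve_left fun h => WittVector.p_nonzero p (ZMod p) ?_
    simpa using congrArg constantCoeff h
  obtain ⟨b, hb0, hb⟩ := lm_rec φ p n (vv p n (ZMod p))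
  obtain ⟨F, hF, h1, h2⟩ := exists_fg_omega hp hA φ hφ n _ b hb0 hb
  have hJ : ∀ h, h ≤ n → ∀ s, 0 < s → s < h → b s ∈ Jh p n (ZMod p) h := fun h hh s hs hsh => by
    obtain ⟨s, rfl⟩ := Nat.exists_eq_succ_of_ne_zero hs.ne'
    rw [hb]
    refine sum_mem fun i _ => ?_
    split_ifs with hi
    · exact Ideal.mul_mem_right _ _ (Ideal.mul_mem_right _ _ (lm_vv hh (by omega)))
    · exact zero_mem _
  have hker : ∀ x ∈ Jh p n (ZMod p) n, constantCoeff x = 0 := fun x hx =>
    rc_c0_of_mem_span_X (Ideal.span_mono (by rintro _ ⟨i, -, rfl⟩; exact ⟨i, rfl⟩) hx)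
  refine ⟨F, hF, fun h h3 hh => ⟨fun j hj hj' => ?_, ?_⟩, h2,
    fun s hs hsn => (h1 s).symm ▸ hker _ (hJ n le_rfl s hs hsn), fun s => ?_⟩
  · by_cases h4 : ∃ s, j + 1 = p ^ s
    · obtain ⟨s, hs⟩ := h4
      rw [show j = p ^ s - 1 by omega, h1]
      refine hJ h hh s (Nat.pos_of_ne_zero ?_) ((Nat.pow_lt_pow_iff_right hp.one_lt).1 (hs ▸ hj'))
      rintro rfl
      rw [pow_zero] at hs
      omega
    · rw [h2 j fun s hs => h4 ⟨s, hs⟩]
      exact zero_mem _
  · obtain ⟨s, rfl⟩ := Nat.exists_eq_succ_of_ne_zero (Nat.one_le_iff_ne_zero.1 h3)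
    rw [h1, hb, ← Finset.add_sum_erase _ _ (Finset.mem_range.2 (show s < n from hh)),
      if_pos le_rfl, Nat.sub_self, hb0, map_one, mul_one, Nat.succ_sub_one, mul_comm,
      add_sub_cancel_left]
    refine sum_mem fun i hi => ?_
    have := Finset.ne_of_mem_erase hi
    split_ifs with hi
    · exact Ideal.mul_mem_right _ _ (Ideal.mul_mem_right _ _ (lm_vv hh (by omega)))
    · exact zero_mem _
  · obtain ⟨m, rfl⟩ := Nat.exists_eq_succ_of_ne_zero (Nat.one_le_iff_ne_zero.1 hn)
    rw [h1, h1, Nat.add_succ, hb, Finset.sum_range_succ, if_pos (Nat.le_add_left m s), map_add,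
      hker _ (sum_mem fun i hi => ?_), zero_add, map_mul, map_mul, hc', Nat.add_sub_cancel, vv,
      if_pos rfl, map_one, one_mul, map_pow, map_natCast]
    · rfl
    have := Finset.mem_range.1 hi
    split_ifs with hi
    · exact Ideal.mul_mem_right _ _ (Ideal.mul_mem_right _ _ (lm_vv le_rfl (by omega)))
    · exact zero_mem _

theorem exists_LT (hn : 1 ≤ n) (k : Type) [Field k] [CharP k p] [PerfectRing k p] :
    ∃ (Γ : FormalGroup (ZMod p)) (F : FormalGroup (E0 p n k)), IsHonda p n Γ ∧
      IsUniversal (Γ.map (ZMod.castHom dvd_rfl k)) F ∧ HeightCoords F := by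
  have hp : p.Prime := Fact.out
  obtain ⟨F, hF, hS, h1, h2, h3⟩ := exists_haz (p := p) hn
  have hco : ∀ {B : Type} [CommRing B] (ψ : E0 p n (ZMod p) →+* B) (j : ℕ),
      PowerSeries.coeff j (omega (F.map ψ)) = ψ (PowerSeries.coeff j (omega F)) := fun ψ j => by
    rw [← map_omega, PowerSeries.coeff_map]
  have hps : mulSeries (F.map res) p = PowerSeries.X ^ p ^ n := by
    have := re_charZero_witt (p := p) (k := ZMod p)
    have h4 := pseries_of_omega (isComm_map hF constantCoeff) hp hn
      (fun j hj => by rw [hco, h1 j hj, map_zero]) (fun s hs hs' => by rw [hco, h2 s hs hs'])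
      (fun s => by rw [hco, hco, h3])
    have h5 : PowerSeries.map WittVector.constantCoeff
        (mulSeries (F.map constantCoeff) p - PowerSeries.X ^ p ^ n) = 0 := by
      ext d
      rw [PowerSeries.coeff_map, map_zero, ← RingHom.mem_ker, WittVector.ker_constantCoeff]
      exact rt_mem_unit.1 h4 d
    rwa [map_sub, map_pow, PowerSeries.map_X, map_mulSeries, map_map_fg, sub_eq_zero] at h5
  have hty : IsPTypical p (F.map res) := fun l hl hlp ζ hζ => by
    have := re_charZero_witt (p := p) (k := AlgebraicClosure (ZMod p))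
    have ht : IsPrimitiveRoot (WittVector.teichmuller p ζ) l :=
      hζ.map_of_injective fun a b hab => congrArg (fun x => WittVector.coeff x 0) hab
    have h4 := typical_of_omega (isComm_map hF ((WittVector.map
      (algebraMap (ZMod p) (AlgebraicClosure (ZMod p)))).comp constantCoeff))
      (fun j hj => by rw [hco, h1 j hj, map_zero]) (l := l) (t := WittVector.teichmuller p ζ)
      fun s => (ht.pow_of_coprime _ (((Nat.coprime_primes hp hl).2 hlp.symm).pow_left s)
        ).geom_sum_eq_zero hl.one_lt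
    have h5 := congrArg (PowerSeries.map WittVector.constantCoeff) h4
    rw [map_sumSeries _ (fun i => by simp), map_zero, map_map_fg] at h5
    simp only [map_mul, PowerSeries.map_C, PowerSeries.map_X, map_pow] at h5
    rw [map_map_fg]
    simp only [map_pow]
    exact h5
  have hS' := lm_shape (ZMod.castHom dvd_rfl k) hS
  have hF' := isComm_map hF (map (WittVector.map (ZMod.castHom dvd_rfl k)))
  have hres : (F.map (map (WittVector.map (ZMod.castHom dvd_rfl k)))).map res =
      (F.map res).map (ZMod.castHom dvd_rfl k) := by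
    rw [map_map_fg, map_map_fg]
    rfl
  refine ⟨F.map res, _, ⟨isComm_map hF _, hty, hps⟩, hres ▸ hS'.isUniversal hF' hn ?_,
    hS'.heightCoords hF'⟩
  refine rt_mem_unit.2 fun d => mem_mE.2 ?_
  rw [← PowerSeries.coeff_map, map_sub, map_mulSeries, hres, ← map_mulSeries, hps, map_pow, map_pow,
    PowerSeries.map_X, PowerSeries.map_X, sub_self, map_zero]

end

end Vale.Agent.P217
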