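import Vale.Agent.P217.RLog

/-! P217 (existence part): order of power series, limits.
PLAN.  `Ord d a ↔ a ∈ span (range X) ^ d` for finite `σ` (`mem_pow_span_X`; conversely `Ord.mul` and induction).
* `Ord.mul`: `coeff_mul`, `Finsupp.degree` is additive.
* `Ord.subst`, `Ord.subst_sub`: `coeff_subst` (finite sums) or `exists_sum_X_mul`; for `subst_sub` the set of
  `w` with `Ord (d+1) (w(a) - w(b))` contains products `X i * w'` with `w'` good for `d - 1`, and for
  `d = 0` use `hom_sub_mem`.
* `exists_lim`: define the limit coefficientwise (the coefficient at `j` is eventually constant). -/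

namespace Vale.Agent.P217

open MvPowerSeries

noncomputable section

variable {σ τ R R' : Type*} [CommRing R] [CommRing R'] {a b : MvPowerSeries σ R} {d e : ℕ}

/-- the exponent `(i, j)` -/
def e2 (i j : ℕ) : Fin 2 →₀ ℕ := Finsupp.single 0 i + Finsupp.single 1 j

theorem e2_degree (i j : ℕ) : (e2 i j).degree = i + j := by
  rw [e2, map_add, Finsupp.degree_single, Finsupp.degree_single]

theorem eq_e2 (m : Fin 2 →₀ ℕ) : m = e2 (m 0) (m 1) := by
  ext i; fin_cases i <;> simp [e2]

/-- order at least `d` -/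
def Ord (d : ℕ) (a : MvPowerSeries σ R) : Prop := ∀ m : σ →₀ ℕ, m.degree < d → coeff m a = 0

theorem ord_iff {f : PowerSeries R} : Ord d f ↔ ∀ j < d, PowerSeries.coeff j f = 0 := by
  constructor
  · intro h j hj
    exact h (Finsupp.single () j) (by rwa [Finsupp.degree_single])
  · intro h m hm
    have e : m = Finsupp.single () (m ()) := Finsupp.unique_single m
    rw [e, Finsupp.degree_single] at hm
    rw [e]
    exact h _ hm

theorem ord_one_iff : Ord 1 a ↔ constantCoeff a = 0 := by
  constructor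
  · intro h
    exact h 0 (by simp)
  · intro h m hm
    have : m = 0 := (Finsupp.degree_eq_zero_iff m).1 (by omega)
    subst this; exact h

theorem ord_zero_left (a : MvPowerSeries σ R) : Ord 0 a := fun _ hm => absurd hm (Nat.not_lt_zero _)

theorem ord_zero (d : ℕ) : Ord d (0 : MvPowerSeries σ R) := fun _ _ => map_zero _

theorem Ord.mono (h : Ord d a) (he : e ≤ d) : Ord e a := fun m hm => h m (hm.trans_le he)

theorem Ord.add (ha : Ord d a) (hb : Ord d b) : Ord d (a + b) := fun m hm => by
  rw [map_add, ha m hm, hb m hm, add_zero]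

theorem Ord.neg (ha : Ord d a) : Ord d (-a) := fun m hm => by rw [map_neg, ha m hm, neg_zero]

theorem Ord.sub (ha : Ord d a) (hb : Ord d b) : Ord d (a - b) := fun m hm => by
  rw [map_sub, ha m hm, hb m hm, sub_zero]

theorem Ord.mul (ha : Ord d a) (hb : Ord e b) : Ord (d + e) (a * b) := by
  classical
  intro m hm
  rw [coeff_mul]
  refine Finset.sum_eq_zero fun p hp => ?_
  have h : p.1.degree + p.2.degree = m.degree := by
    rw [← map_add, Finset.HasAntidiagonal.mem_antidiagonal.1 hp]
  by_cases h1 : p.1.degree < d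
  · rw [ha _ h1, zero_mul]
  · rw [hb _ (by omega), mul_zero]

theorem Ord.mul_left (hb : Ord d b) (a : MvPowerSeries σ R) : Ord d (a * b) := by
  simpa using (ord_zero_left a).mul hb

theorem Ord.pow (ha : Ord d a) (j : ℕ) : Ord (d * j) (a ^ j) := by
  induction j with
  | zero => exact ord_zero_left _
  | succ j ih => rw [pow_succ, Nat.mul_succ]; exact ih.mul ha

theorem ord_sum {ι : Type*} (s : Finset ι) {f : ι → MvPowerSeries σ R} (h : ∀ i ∈ s, Ord d (f i)) :
    Ord d (∑ i ∈ s, f i) := fun m hm => by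
  rw [map_sum]
  exact Finset.sum_eq_zero fun i hi => h i hi m hm

theorem Ord.map (ha : Ord d a) (ρ : R →+* R') : Ord d (map ρ a) := fun m hm => by
  rw [coeff_map, ha m hm, map_zero]

theorem eq_zero_of_ord (h : ∀ d, Ord d a) : a = 0 := by
  ext m
  exact h (m.degree + 1) m (Nat.lt_succ_self _)

/-- the lowest coefficient of a product with a series with constant term one -/
theorem Ord.coeff_mul_left (hb : Ord d b) (a : MvPowerSeries σ R) {m : σ →₀ ℕ} (hm : m.degree = d) :
    coeff m (a * b) = constantCoeff a * coeff m b := by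
  have h1 : Ord 1 (a - C (constantCoeff a)) := ord_one_iff.2 (by simp)
  have h2 := (h1.mul hb) m (by omega)
  rw [sub_mul, map_sub, coeff_C_mul, sub_eq_zero] at h2
  exact h2

theorem Ord.pow_sub_pow (ha : Ord 1 a) (hb : Ord 1 b) (hab : Ord d (a - b)) (j : ℕ) :
    Ord (d + j) (a ^ (j + 1) - b ^ (j + 1)) := by
  induction j with
  | zero => simpa using hab
  | succ j ih =>
    have e1 : a ^ (j + 1 + 1) - b ^ (j + 1 + 1)
        = (a ^ (j + 1) - b ^ (j + 1)) * a + (a - b) * b ^ (j + 1) := by ring
    rw [e1]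
    exact (ih.mul ha).add ((hab.mul (hb.pow (j + 1))).mono (by omega))

theorem lord_subst_sum_X_mul [Fintype τ] {s : τ → MvPowerSeries σ R} (hs : HasSubst s)
    (g : τ → MvPowerSeries τ R) :
    MvPowerSeries.subst s (∑ i, X i * g i) = ∑ i, s i * MvPowerSeries.subst s (g i) := by
  rw [← coe_substAlgHom hs, map_sum]
  refine Finset.sum_congr rfl fun i _ => ?_
  rw [map_mul, coe_substAlgHom hs, subst_X hs]

theorem Ord.subst [Finite τ] {s : τ → MvPowerSeries σ R} (hs : ∀ i, constantCoeff (s i) = 0)
    {w : MvPowerSeries τ R} (hw : Ord d w) : Ord d (subst s w) := by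
  have := Fintype.ofFinite τ
  have hs' : HasSubst s := hasSubst_of_constantCoeff_zero hs
  induction d generalizing w with
  | zero => exact ord_zero_left _
  | succ d ih =>
    obtain ⟨g, hg, rfl⟩ := exists_sum_X_mul d w hw
    rw [lord_subst_sum_X_mul hs']
    refine ord_sum _ fun i _ => ?_
    rw [add_comm]
    exact (ord_one_iff.2 (hs i)).mul (ih (hg i))

theorem Ord.psubst (ha : Ord e a) (he : 1 ≤ e) {w : PowerSeries R} (hw : Ord d w) :
    Ord (e * d) (w.subst a) := by
  have ha' : PowerSeries.HasSubst a := hs1 (ord_one_iff.1 (ha.mono he))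
  obtain ⟨v, rfl⟩ := PowerSeries.X_pow_dvd_iff.2 (ord_iff.1 hw)
  rw [PowerSeries.subst_mul ha', PowerSeries.subst_pow ha', PowerSeries.subst_X ha',
    mul_comm (a ^ d)]
  exact (ha.pow d).mul_left _

/-- the ideal of series of order at least `d` -/
def lordIdeal (σ R : Type*) [CommRing R] (d : ℕ) : Ideal (MvPowerSeries σ R) where
  carrier := {a | Ord d a}
  add_mem' := fun ha hb => Ord.add ha hb
  zero_mem' := ord_zero d
  smul_mem' := fun c _ hx => Ord.mul_left hx c

theorem mem_lordIdeal : a ∈ lordIdeal σ R d ↔ Ord d a := Iff.rfl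

theorem lordIdeal_pow_le (k : ℕ) : lordIdeal σ R 1 ^ k ≤ lordIdeal σ R k := by
  induction k with
  | zero => intro x _; exact ord_zero_left x
  | succ k ih =>
    rw [pow_succ, Ideal.mul_le]
    intro x hx y hy
    exact Ord.mul (ih hx) hy

theorem lord_subst_sub [Finite τ] {s t : τ → MvPowerSeries σ R}
    (hs : ∀ i, constantCoeff (s i) = 0) (ht : ∀ i, constantCoeff (t i) = 0)
    (hst : ∀ i, Ord (e + 1) (s i - t i)) {w : MvPowerSeries τ R} (hw : Ord d w) :
    Ord (d + e) (MvPowerSeries.subst s w - MvPowerSeries.subst t w) := by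
  have := Fintype.ofFinite τ
  have hs' : HasSubst s := hasSubst_of_constantCoeff_zero hs
  have ht' : HasSubst t := hasSubst_of_constantCoeff_zero ht
  induction d generalizing w with
  | zero =>
    have h := hom_sub_mem (ψ := (substAlgHom (R := R) hs').toRingHom)
      (ψ' := (substAlgHom (R := R) ht').toRingHom) (lordIdeal σ R e) (lordIdeal σ R 1)
      (fun r => by simp [subst_C])
      (fun i => by
        have : Ord e (s i - t i) := (hst i).mono (Nat.le_succ e)
        simpa [subst_X hs', subst_X ht', mem_lordIdeal] using this)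
      (fun i => by
        have : Ord 1 (s i) := ord_one_iff.2 (hs i)
        simpa [subst_X hs', mem_lordIdeal] using this)
      (fun i => by
        have : Ord 1 (t i) := ord_one_iff.2 (ht i)
        simpa [subst_X ht', mem_lordIdeal] using this) e w
    have h2 := (sup_le le_rfl (lordIdeal_pow_le e)) h
    simpa [coe_substAlgHom, mem_lordIdeal] using h2
  | succ d ih =>
    obtain ⟨g, hg, rfl⟩ := exists_sum_X_mul d w hw
    rw [lord_subst_sum_X_mul hs', lord_subst_sum_X_mul ht', ← Finset.sum_sub_distrib]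
    refine ord_sum _ fun i _ => ?_
    have e1 : s i * MvPowerSeries.subst s (g i) - t i * MvPowerSeries.subst t (g i)
        = (s i - t i) * MvPowerSeries.subst s (g i)
          + t i * (MvPowerSeries.subst s (g i) - MvPowerSeries.subst t (g i)) := by ring
    rw [e1]
    refine Ord.add (((hst i).mul (Ord.subst hs (hg i))).mono (by omega))
      (((ord_one_iff.2 (ht i)).mul (ih (hg i))).mono (by omega))

theorem Ord.subst_sub [Finite σ] [Finite τ] {s t : τ → MvPowerSeries σ R}
    (hs : ∀ i, constantCoeff (s i) = 0) (ht : ∀ i, constantCoeff (t i) = 0)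
    (hst : ∀ i, Ord (e + 1) (s i - t i)) {w : MvPowerSeries τ R} (hw : Ord (d + 1) w) :
    Ord (d + e + 1) (MvPowerSeries.subst s w - MvPowerSeries.subst t w) :=
  (lord_subst_sub hs ht hst hw).mono (by omega)

theorem ord_fg (F : FormalGroup R) : Ord 2 (F.toPowerSeries - X 0 - X 1) := by
  intro m hm
  rw [eq_e2 m, e2_degree] at hm
  rw [eq_e2 m]
  have h0 := F.zero_constantCoeff
  have h1 := F.lin_coeff_X
  have h2 := F.lin_coeff_Y
  have n01 : (Finsupp.single 0 1 : Fin 2 →₀ ℕ) ≠ Finsupp.single 1 1 := by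
    intro h; have := congrArg (fun d : Fin 2 →₀ ℕ => d 0) h; simp at this
  rcases (by omega : (m 0 = 0 ∧ m 1 = 0) ∨ (m 0 = 1 ∧ m 1 = 0) ∨ (m 0 = 0 ∧ m 1 = 1)) with
    ⟨p, q⟩ | ⟨p, q⟩ | ⟨p, q⟩
  · simp [p, q, e2, h0]
  · simp [p, q, e2, h1, coeff_X, n01]
  · simp [p, q, e2, h2, coeff_X, n01.symm]

theorem coeff_e2_add_pow (i j : ℕ) :
    coeff (e2 i j) ((X 0 + X 1 : MvPowerSeries (Fin 2) R) ^ (i + j)) = ((i + j).choose i : ℕ) := by
  have h := MvPolynomial.coeff_add_pow (R := R) (e2 i j) (i + j)
  rw [← MvPolynomial.coeff_coe] at h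
  simpa [e2] using h

theorem exists_lim (s : ℕ → PowerSeries R) (t : ℕ → ℕ) (ht : Monotone t)
    (ht' : ∀ j, ∃ N, j ≤ t N) (h : ∀ N, Ord (t N) (s (N + 1) - s N)) :
    ∃ L : PowerSeries R, ∀ N, Ord (t N) (L - s N) := by
  have key : ∀ N M, N ≤ M → Ord (t N) (s M - s N) := by
    intro N M hNM
    induction M, hNM using Nat.le_induction with
    | base => rw [sub_self]; exact ord_zero _
    | succ M hM ih =>
      have e1 : s (M + 1) - s N = (s (M + 1) - s M) + (s M - s N) := by ring
      rw [e1]
      exact ((h M).mono (ht hM)).add ih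
  choose n hn using ht'
  refine ⟨PowerSeries.mk fun j => PowerSeries.coeff j (s (n (j + 1))), fun N => ?_⟩
  rw [ord_iff]
  intro j hj
  have h1 := ord_iff.1 (key N (max N (n (j + 1))) (le_max_left _ _)) j hj
  have h2 := ord_iff.1 (key (n (j + 1)) (max N (n (j + 1))) (le_max_right _ _)) j (hn (j + 1))
  rw [map_sub, sub_eq_zero] at h1 h2
  rw [map_sub, PowerSeries.coeff_mk, ← h1, ← h2, sub_self]

end

end Vale.Agent.P217
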