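import Vale.Agent.P217.LUniv
import Vale.Agent.P217.LHon

/-! P217 (existence part): a group law of Hazewinkel shape has height coordinates and is universal.
PLAN.  `kill h = ev C (fun i => if i + 1 < h then 0 else X i) : E0 →+* E0`; `kill h f - f ∈ Jh h`
(`hom_sub_mem` with `mem_of_forall_mem_sup`), `kill h` vanishes on `Jh h` and fixes `vv h`.  So
`F' = F.map (kill h)` satisfies the hypotheses of `shape_fg`, `shape_mul` with `d = p^h` and
`coeff (d-1) (omega F') = p^(h-1) vv h` (`map_omega`).  Cancel `p^(h-1)` (`E0` is a domain of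
characteristic zero): `p * coeff (e2 i (d-i)) F' = -(vv h * choose d i)` and
`coeff d [p]_F' = vv h * (1 - p^(d-1))`.
* `Shape.coeff_mul`: `map_mulSeries`; `Jh h ≤ heightIdeal h`, `p ∈ heightIdeal h`.
* `Shape.heightCoords`: `≤` from the first part; `≥` by induction on `h` with `heightIdeal_succ`
  (`uGen h = vv h` for `1 ≤ h < n`, `coeff_one_mulSeries` for `h = 0`, `p^h < p^(h+1)`).
* `choose_eq_mul`: `choose (p^(e+1)) (p^e) = p c` with `p ∤ c` (`Nat.Prime.emultiplicity_choose_prime_pow`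
  or `Nat.factorization_choose_prime_pow`).
* `Shape.cI`: with `h = i + 1`: `res (∂_i f) = 0` for `f ∈ Jh h` (Leibniz, `pderiv_X`), so `map res (dF F i)`
  may be computed from `F'`; in degrees `< p^h` the coefficients of `F'` are `0` or `1`; at
  `e2 (p^i) (p^h - p^i)` the coefficient is `-c * X i`.  `Ord.mul_left`, `Ord.coeff_mul_left`, `c0_omega`.
* `Shape.special`: `h = n`, `vv n = 1`, `res ∘ kill n = res`. -/

namespace Vale.Agent.P217

open MvPowerSeries IsLocalRing

noncomputable section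

theorem choose_eq_mul {p : ℕ} (hp : p.Prime) (e : ℕ) :
    ∃ c, (p ^ (e + 1)).choose (p ^ e) = p * c ∧ ¬ p ∣ c := by
  have h0 : p ^ e ≤ p ^ (e + 1) := pow_le_pow_right₀ hp.one_le e.le_succ
  have h1 := Nat.factorization_choose_prime_pow hp h0 (pow_ne_zero e hp.ne_zero)
  have h2 := Nat.choose_pos h0
  rw [hp.factorization_pow, Finsupp.single_eq_same, Nat.add_sub_cancel_left] at h1
  refine ⟨_, ?_, Nat.not_dvd_ordCompl hp h2.ne'⟩
  have h3 := Nat.ordProj_mul_ordCompl_eq_self ((p ^ (e + 1)).choose (p ^ e)) p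
  nth_rw 1 [h1, pow_one] at h3
  exact h3.symm

variable {p n : ℕ} [Fact p.Prime] {k : Type} [Field k]

/-- the parameters `v_h = u_h` for `1 ≤ h < n`, `v_n = 1` -/
def vv (p n : ℕ) [Fact p.Prime] (k : Type) [Field k] (h : ℕ) : E0 p n k :=
  if h = n then 1 else uGen p n k h

/-- the ideal `(u_1, ..., u_(h-1))` -/
def Jh (p n : ℕ) [Fact p.Prime] (k : Type) [Field k] (h : ℕ) : Ideal (E0 p n k) :=
  Ideal.span {x | ∃ i : Fin (n - 1), (i : ℕ) + 1 < h ∧ x = X i}

/-- shape of the invariant differential of Hazewinkel's law -/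
def Shape (F : FormalGroup (E0 p n k)) : Prop :=
  ∀ h, 1 ≤ h → h ≤ n →
    (∀ j, 1 ≤ j → j + 1 < p ^ h → PowerSeries.coeff j (omega F) ∈ Jh p n k h) ∧
    PowerSeries.coeff (p ^ h - 1) (omega F) - (p : E0 p n k) ^ (h - 1) * vv p n k h ∈ Jh p n k h

variable [CharP k p] [PerfectRing k p] {F : FormalGroup (E0 p n k)}

namespace LShape

theorem exists_kill (h : ℕ) : ∃ κ : E0 p n k →+* E0 p n k, (∀ f, f - κ f ∈ Jh p n k h) ∧
    (∀ f ∈ Jh p n k h, κ f = 0) ∧ κ (vv p n k h) = vv p n k h := by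
  obtain ⟨κ, h1, h2⟩ := exists_ev (C : WittVector p k →+* E0 p n k)
    (a := fun i : Fin (n - 1) => if (i : ℕ) + 1 < h then (0 : E0 p n k) else X i)
    (good_of_constantCoeff fun i => by split_ifs <;> simp)
  refine ⟨κ, fun f => mem_of_forall_mem_sup _ fun j => ?_, fun f hf => ?_, ?_⟩
  · refine hom_sub_mem (ψ := RingHom.id (E0 p n k)) (ψ' := κ) (Jh p n k h) (mE p n k)
      (fun r => by simp [h1]) (fun i => ?_) X_mem_mE (fun i => ?_) j f
    · rw [h2]
      split_ifs with h3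
      · rw [sub_zero]
        exact Ideal.subset_span ⟨i, h3, rfl⟩
      · simp
    · rw [h2]
      split_ifs
      exacts [zero_mem _, X_mem_mE i]
  · refine (Ideal.span_le (I := RingHom.ker κ)).2 ?_ hf
    rintro _ ⟨i, hi, rfl⟩
    exact (h2 i).trans (if_pos hi)
  · simp only [vv, uGen]
    split_ifs with h3 h4 h5
    · exact map_one _
    · exact map_natCast _ _
    · exact (h2 _).trans (if_neg (by simp only; omega))
    · exact map_zero _

theorem key (hS : Shape F) (hF : F.IsComm) {h : ℕ} (h1 : 1 ≤ h) (hn : h ≤ n) :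
    ∃ c : ℕ, ¬ p ∣ c ∧
      (∀ m : Fin 2 →₀ ℕ, m.degree < p ^ h → coeff m (F.toPowerSeries - X 0 - X 1) ∈ Jh p n k h) ∧
      coeff (e2 (p ^ (h - 1)) (p ^ h - p ^ (h - 1))) F.toPowerSeries + c * vv p n k h
        ∈ Jh p n k h ∧
      (∀ j < p ^ h, PowerSeries.coeff j (mulSeries F p - PowerSeries.C (p : E0 p n k) *
        PowerSeries.X) ∈ Jh p n k h) ∧
      PowerSeries.coeff (p ^ h) (mulSeries F p) - vv p n k h * (1 - p ^ (p ^ h - 1))
        ∈ Jh p n k h := by
  have hp : p.Prime := Fact.out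
  obtain ⟨κ, k1, k2, k3⟩ := exists_kill (p := p) (n := n) (k := k) h
  obtain ⟨s1, s2⟩ := hS h h1 hn
  obtain ⟨e, rfl⟩ : ∃ e, h = e + 1 := ⟨h - 1, by omega⟩
  obtain ⟨c, c1, c2⟩ := choose_eq_mul hp e
  have hd : 2 ≤ p ^ (e + 1) := Nat.one_lt_pow (by omega) hp.one_lt
  have a1 : ∀ j, 1 ≤ j → j + 1 < p ^ (e + 1) → PowerSeries.coeff j (omega (F.map κ)) = 0 :=
    fun j a b => by rw [LHon.om, k2 _ (s1 j a b)]
  have a2 : PowerSeries.coeff (p ^ (e + 1) - 1) (omega (F.map κ)) = p ^ e * vv p n k (e + 1) := by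
    have h2 := k2 _ s2
    rwa [map_sub, map_mul, map_pow, map_natCast, k3, sub_eq_zero, ← LHon.om] at h2
  obtain ⟨b1, b2⟩ := shape_fg (isComm_map hF κ) hd a1
  obtain ⟨b3, b4⟩ := shape_mul (isComm_map hF κ) hd a1 p
  have b5 := b2 (p ^ e) (pow_pos hp.pos e) (Nat.pow_lt_pow_succ hp.one_lt)
  have hu : ((p : E0 p n k) ^ (e + 1)) ≠ 0 := pow_ne_zero _ (Nat.cast_ne_zero.2 hp.ne_zero)
  rw [a2, Nat.cast_pow] at b4 b5
  rw [← map_mulSeries] at b3 b4
  have k4 : ∀ f, κ f = 0 → f ∈ Jh p n k (e + 1) := fun f hf => by simpa [hf] using k1 f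
  refine ⟨c, c2, fun m hm => k4 _ ?_, k4 _ (mul_left_cancel₀ hu ?_), fun j hj => k4 _ ?_,
    k4 _ (mul_left_cancel₀ hu ?_)⟩
  · rw [← b1 m hm, ← coeff_map]
    simp
  · rw [FormalGroup.map_toPowerSeries, coeff_map, c1] at b5
    rw [map_add, map_mul, map_natCast, k3, mul_add, Nat.add_sub_cancel, b5]
    push_cast
    ring
  · rw [← ord_iff.1 b3 j hj, ← PowerSeries.coeff_map, map_sub, map_mul, PowerSeries.map_C,
      PowerSeries.map_X, map_natCast κ]
  · rw [PowerSeries.coeff_map] at b4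
    rw [map_sub, map_mul, map_sub, map_one, map_pow, map_natCast, k3, mul_sub, b4]
    obtain ⟨q, hq⟩ : ∃ q, p ^ (e + 1) = q + 1 := ⟨p ^ (e + 1) - 1, by omega⟩
    rw [hq, Nat.add_sub_cancel]
    ring

omit [CharP k p] [PerfectRing k p] in
theorem J_le (h : ℕ) : Jh p n k h ≤ heightIdeal p n k h := Ideal.span_mono Set.subset_union_right

theorem res_J {h : ℕ} {f : E0 p n k} (hf : f ∈ Jh p n k h) : res f = 0 :=
  mem_mE.1 (heightIdeal_le_mE h (J_le h hf))

theorem res_pderiv (i : Fin (n - 1)) {f : E0 p n k} (hf : f ∈ Jh p n k (i + 1)) :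
    res (pderiv (WittVector p k) i f) = 0 := by
  induction hf using Submodule.span_induction with
  | mem x hx =>
    obtain ⟨j, hj, rfl⟩ := hx
    rw [pderiv_X_of_ne (by rintro rfl; omega), map_zero]
  | zero => simp
  | add x y _ _ hx hy => rw [map_add, map_add, hx, hy, add_zero]
  | smul a x h hx =>
    rw [smul_eq_mul, Derivation.leibniz, smul_eq_mul, smul_eq_mul, map_add, map_mul, map_mul, hx,
      res_J h, mul_zero, zero_mul, add_zero]

end LShape

open LShape

theorem Shape.coeff_mul (hS : Shape F) (hF : F.IsComm) {h : ℕ} (h1 : 1 ≤ h) (hn : h ≤ n) :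
    (∀ j < p ^ h, PowerSeries.coeff j (mulSeries F p) ∈ heightIdeal p n k h) ∧
      PowerSeries.coeff (p ^ h) (mulSeries F p) - vv p n k h ∈ heightIdeal p n k h := by
  obtain ⟨c, -, -, -, h2, h3⟩ := key hS hF h1 hn
  have hp : (p : E0 p n k) ∈ heightIdeal p n k h := Ideal.subset_span (.inl ⟨h1, rfl⟩)
  have hd : 2 ≤ p ^ h := Nat.one_lt_pow (by omega) (Fact.out : p.Prime).one_lt
  refine ⟨fun j hj => ?_, ?_⟩
  · have h4 := add_mem (J_le h (h2 j hj))
      (Ideal.mul_mem_right (PowerSeries.coeff j PowerSeries.X) _ hp)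
    rwa [map_sub, PowerSeries.coeff_C_mul, sub_add_cancel] at h4
  · convert sub_mem (J_le h h3) (Ideal.mul_mem_left _ (vv p n k h)
      (Ideal.pow_mem_of_mem _ hp (p ^ h - 1) (by omega))) using 1
    ring

theorem Shape.heightCoords (hS : Shape F) (hF : F.IsComm) : HeightCoords F := by
  have hp : p.Prime := Fact.out
  have key : ∀ h ≤ n, heightIdeal p n k h ≤
      Ideal.span {x | ∃ j < p ^ h, x = PowerSeries.coeff j (mulSeries F p)} := by
    intro h hn
    induction h with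
    | zero => rw [heightIdeal_zero]; exact bot_le
    | succ h ih =>
      have h0 := Nat.pow_lt_pow_succ (n := h) hp.one_lt
      have h1 := (ih (by omega)).trans (Ideal.span_mono (t := {x | ∃ j < p ^ (h + 1),
        x = PowerSeries.coeff j (mulSeries F p)}) fun x ⟨j, hj, e⟩ => ⟨j, hj.trans h0, e⟩)
      have h2 : PowerSeries.coeff (p ^ h) (mulSeries F p) ∈ Ideal.span {x | ∃ j < p ^ (h + 1),
        x = PowerSeries.coeff j (mulSeries F p)} := Ideal.subset_span ⟨_, h0, rfl⟩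
      rw [heightIdeal_succ, sup_le_iff, Ideal.span_singleton_le_iff_mem]
      refine ⟨h1, ?_⟩
      rcases Nat.eq_zero_or_pos h with rfl | h3
      · simpa [coeff_one_mulSeries, uGen] using h2
      · have h4 := sub_mem h2 (h1 (hS.coeff_mul hF h3 (by omega)).2)
        rwa [sub_sub_cancel, vv, if_neg (by omega)] at h4
  intro h h1 hn
  refine le_antisymm (Ideal.span_le.2 ?_) (key h hn)
  rintro _ ⟨j, hj, rfl⟩
  exact (hS.coeff_mul hF h1 hn).1 j hj

theorem Shape.cI (hS : Shape F) (hF : F.IsComm) (i : Fin (n - 1)) :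
    Ord (p ^ ((i : ℕ) + 1)) (cI F i) ∧
      coeff (e2 (p ^ (i : ℕ)) (p ^ ((i : ℕ) + 1) - p ^ (i : ℕ))) (cI F i) ≠ 0 := by
  have hi := i.2
  obtain ⟨c, h1, h2, h3, -⟩ := key hS hF (h := i + 1) (by omega) (by omega)
  have h4 : vv p n k (i + 1) = X i := by
    rw [vv, if_neg (by omega), uGen, if_neg (by omega), dif_pos (by omega)]
    rfl
  have h5 : ∀ m, coeff m (map res (dF F i)) =
      res (pderiv (WittVector p k) i (coeff m F.toPowerSeries)) := fun m => rfl
  have h6 : Ord (p ^ ((i : ℕ) + 1)) (map res (dF F i)) := fun m hm => by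
    have h7 := res_pderiv i (h2 m hm)
    simp only [map_sub, coeff_X, apply_ite (pderiv (WittVector p k) i), Derivation.map_one_eq_zero,
      map_zero, ite_self, sub_zero] at h7
    exact (h5 m).trans h7
  refine ⟨h6.mul_left _, ?_⟩
  have h7 : constantCoeff ((omega (F.map res)).subst (F.map res).toPowerSeries) = 1 :=
    (rlog_c0_subst (a := fun _ : Unit => (F.map res).toPowerSeries)
      (fun _ => (F.map res).zero_constantCoeff) _).trans (c0_omega _)
  have h8 := res_pderiv i h3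
  rw [h4, ← nsmul_eq_mul, map_add, map_add, map_nsmul, map_nsmul, pderiv_X_self, map_one,
    nsmul_one, add_eq_zero_iff_eq_neg, Nat.add_sub_cancel] at h8
  rw [P217.cI, h6.coeff_mul_left _ (by
    rw [e2_degree, Nat.add_sub_cancel' (pow_le_pow_right₀ (Fact.out : p.Prime).one_le (by omega))]),
    h7, one_mul, h5, h8, neg_ne_zero, Ne, CharP.cast_eq_zero_iff k p]
  exact h1

theorem Shape.special (hS : Shape F) (hF : F.IsComm) (hn : 1 ≤ n) :
    Ord (p ^ n) ((F.map res).toPowerSeries - X 0 - X 1) ∧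
      coeff (e2 (p ^ (n - 1)) (p ^ n - p ^ (n - 1))) (F.map res).toPowerSeries ≠ 0 := by
  obtain ⟨c, h1, h2, h3, -⟩ := key hS hF hn le_rfl
  refine ⟨fun m hm => ?_, ?_⟩
  · rw [← res_J (h2 m hm), ← coeff_map]
    simp
  · have h4 := res_J h3
    rw [vv, if_pos rfl, mul_one, map_add, map_natCast, add_eq_zero_iff_eq_neg] at h4
    rw [FormalGroup.map_toPowerSeries, coeff_map, h4, neg_ne_zero, Ne, CharP.cast_eq_zero_iff k p]
    exact h1

theorem Shape.isUniversal (hS : Shape F) (hF : F.IsComm) (hn : 1 ≤ n)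
    (hP : mulSeries F p - PowerSeries.X ^ p ^ n ∈ cId Unit (mE p n k)) :
    IsUniversal (F.map res) F :=
  isUniversal_of hn hF (fun _ hg => h2 hn (isComm_map hF res) (Vale.Agent.P217.cI F) (isCoc_cI hF)
    (fun i => (hS.cI hF i).1) (fun i => (hS.cI hF i).2) (hS.special hF hn).1 (hS.special hF hn).2 hg)
    (hS.heightCoords hF) hP

end

end Vale.Agent.P217
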