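import Vale.Agent.P217.LDef

/-! P217 (existence part): the lifting step of the Lubin-Tate theorem.
PLAN.
* `first_order`: coefficientwise `ev_add_sub_mem` with `J = m^(j+1)` (closed: `mem_of_forall_mem_sup`,
  `δ_i δ_l ∈ m^(2j)`).
* `res_ev`: `hom_ext`-type uniqueness (`eq_ev`, `map_ev`; `Good` for the zero family in `k` with `I = ⊥`):
  `ρ` is surjective onto a field, so its kernel is the maximal ideal (`ker_rho`).
* `isCoc_cI`: `coc_of_diff` for `R = E0`, `I = m = mE`, `J = mE^2`, `ι = Unit`, `x = X i`,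
  `F0 = F.map (ev C 0)`, `G = F.map (ev C (Pi.single i (X i)))`,
  `g = (omega F0).subst F0 * map (ev C 0) (dF F i)`; `first_order` with `j = 1`, `psi_mul_omega`;
  `X i * r ∈ mE^2 → r ∈ mE` (`mem_mE_pow` at the exponent `single i 1`); `map_omega`, `res_ev`.
* `lt_step`: `F1 = F.map (ev alg a)`, `e = ω(F1) (G - F1) ∈ cId (m^j)`; `exists_gens` coefficientwise writes
  `e ≡ ∑ x_b g_b` (choose zero coefficients in degree zero); `coc_of_diff`, `H2` give `μ_b`, `η_b` over `k`;
  lift along the surjection `ρ`; `δ i = ∑ x_b μ_b i`, `η = ∑ x_b η_b`,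
  `e' = ω(F1) ∑ δ_i map (ev alg a) (dF F i)`; `first_order`, `homMod_of_diff`, `cob_add`, `cob_C_mul`,
  `map_cob`. -/

namespace Vale.Agent.P217

open MvPowerSeries IsLocalRing

noncomputable section

variable {p n : ℕ} [Fact p.Prime] {k : Type} [Field k] [CharP k p] [PerfectRing k p]

/-- derivative of the group law with respect to the parameter `u_(i+1)` -/
def dF (F : FormalGroup (E0 p n k)) (i : Fin (n - 1)) : MvPowerSeries (Fin 2) (E0 p n k) :=
  fun d => pderiv (WittVector p k) i (coeff d F.toPowerSeries)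

/-- the cocycle of the tangent direction `u_(i+1)` -/
def cI (F : FormalGroup (E0 p n k)) (i : Fin (n - 1)) : MvPowerSeries (Fin 2) k :=
  (omega (F.map res)).subst (F.map res).toPowerSeries * map res (dF F i)

/-- the classes `cI F i` span the second symmetric cohomology -/
def H2 (F : FormalGroup (E0 p n k)) : Prop :=
  ∀ g, IsCoc (F.map res) g → ∃ (μ : Fin (n - 1) → k) (η : PowerSeries k),
    PowerSeries.constantCoeff η = 0 ∧ g = ∑ i, C (μ i) * cI F i + cob (F.map res) η

section

variable {R : Type*} [CommRing R] [IsLocalRing R] [IsNoetherianRing R]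
  [IsAdicComplete (maximalIdeal R) R]

theorem first_order (F : FormalGroup (E0 p n k)) (α : WittVector p k →+* R)
    {a δ : Fin (n - 1) → R} (ha : ∀ i, a i ∈ maximalIdeal R) {j : ℕ} (hj : 1 ≤ j)
    (hδ : ∀ i, δ i ∈ maximalIdeal R ^ j) :
    (F.map (ev α (a + δ))).toPowerSeries - (F.map (ev α a)).toPowerSeries
      - ∑ i, C (δ i) * map (ev α a) (dF F i) ∈ cId (Fin 2) (maximalIdeal R ^ (j + 1)) := by
  have h1 : ∀ i, δ i ∈ maximalIdeal R := fun i => Ideal.pow_le_self (by omega) (hδ i)
  refine mem_cId.2 fun d => ?_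
  have h2 := ev_add_sub_mem α (maximalIdeal R) (fun i => Ideal.le_radical (ha i))
    (fun i => Ideal.le_radical (h1 i)) (maximalIdeal R ^ (j + 1))
    (fun x hx => mem_of_forall_mem_sup _ hx)
    (fun i l => by
      rw [pow_succ]
      exact Ideal.mul_mem_mul (hδ i) (h1 l)) (coeff d F.toPowerSeries)
  simp only [map_sub, map_sum, coeff_C_mul, FormalGroup.map_toPowerSeries, coeff_map]
  exact h2

omit [IsLocalRing R] [IsNoetherianRing R] [IsAdicComplete (maximalIdeal R) R] [CharP k p]
  [PerfectRing k p] in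
theorem lstep_sec (α : WittVector p k →+* R) (ρ : R →+* k)
    (hρ : ρ.comp α = WittVector.constantCoeff) (x : k) :
    ρ (α (WittVector.teichmuller p x)) = x := by
  rw [← RingHom.comp_apply, hρ]
  exact WittVector.teichmuller_coeff_zero p x

omit [IsNoetherianRing R] [IsAdicComplete (maximalIdeal R) R] in
theorem ker_rho (α : WittVector p k →+* R) (ρ : R →+* k)
    (hρ : ρ.comp α = WittVector.constantCoeff) (r : R) : ρ r = 0 ↔ r ∈ maximalIdeal R := by
  have h := RingHom.ker_isMaximal_of_surjective ρ fun x => ⟨_, lstep_sec α ρ hρ x⟩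
  rw [← eq_maximalIdeal h, RingHom.mem_ker]

omit [IsNoetherianRing R] in
theorem res_ev (α : WittVector p k →+* R) (ρ : R →+* k)
    (hρ : ρ.comp α = WittVector.constantCoeff) {a : Fin (n - 1) → R}
    (ha : ∀ i, a i ∈ maximalIdeal R) : ρ.comp (ev α a) = (res : E0 p n k →+* k) := by
  have hg : Good a := Good.of_mem (maximalIdeal R) fun i => Ideal.le_radical (ha i)
  have h0 : ∀ i, (ρ.comp (ev α a)) (X i) = 0 := fun i => by
    rw [RingHom.comp_apply, ev_X α hg]
    exact (ker_rho α ρ hρ _).2 (ha i)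
  refine hom_ext (Good.of_mem ⊥ fun i => ?_) (fun r => ?_) fun i => ?_
  · rw [h0]
    exact zero_mem _
  · rw [RingHom.comp_apply, ev_C, ← RingHom.comp_apply, hρ, res_C]
    rfl
  · rw [h0]
    exact (mem_mE.1 (X_mem_mE i)).symm

omit [CharP k p] [PerfectRing k p] in
theorem lstep_c0_dF (F : FormalGroup (E0 p n k)) (i : Fin (n - 1)) :
    constantCoeff (dF F i) = 0 := by
  have h : coeff 0 F.toPowerSeries = 0 := F.zero_constantCoeff
  show pderiv (WittVector p k) i (coeff 0 F.toPowerSeries) = 0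
  rw [h, map_zero]

omit [IsNoetherianRing R] in
theorem lstep_map_cI (F : FormalGroup (E0 p n k)) (α : WittVector p k →+* R) (ρ : R →+* k)
    (hρ : ρ.comp α = WittVector.constantCoeff) {a : Fin (n - 1) → R}
    (ha : ∀ i, a i ∈ maximalIdeal R) (i : Fin (n - 1)) :
    map ρ ((omega (F.map (ev α a))).subst (F.map (ev α a)).toPowerSeries
      * map (ev α a) (dF F i)) = cI F i := by
  have e : map ρ (F.map (ev α a)).toPowerSeries = (F.map res).toPowerSeries :=
    congrArg FormalGroup.toPowerSeries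
      ((map_map_fg (F := F) (ev α a) ρ).trans (congrArg F.map (res_ev α ρ hρ ha)))
  rw [map_mul, map_psubst ρ (F.map (ev α a)).zero_constantCoeff, map_omega, e, map_map_fg,
    res_ev α ρ hρ ha, ← RingHom.comp_apply, ← map_comp, res_ev α ρ hρ ha, cI]

omit [IsLocalRing R] [IsNoetherianRing R] [IsAdicComplete (maximalIdeal R) R] in
theorem lstep_cob_sum (Γ : FormalGroup R) {ι : Type*} (s : Finset ι) (x : ι → R)
    (η : ι → PowerSeries R) :
    cob Γ (∑ b ∈ s, PowerSeries.C (x b) * η b) = ∑ b ∈ s, C (x b) * cob Γ (η b) := by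
  classical
  induction s using Finset.induction_on with
  | empty =>
    have h := cob_sub (Γ := Γ) 0 0
    rw [sub_self, sub_self] at h
    rw [Finset.sum_empty, Finset.sum_empty, h]
  | insert b s hb ih => rw [Finset.sum_insert hb, Finset.sum_insert hb, cob_add, cob_C_mul, ih]

theorem lt_step {F : FormalGroup (E0 p n k)} (hF : F.IsComm) (h2 : H2 F)
    (α : WittVector p k →+* R) (ρ : R →+* k) (hρ : ρ.comp α = WittVector.constantCoeff)
    {a : Fin (n - 1) → R} (ha : ∀ i, a i ∈ maximalIdeal R) {G : FormalGroup R} (hG : G.IsComm)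
    {j : ℕ} (hj : 1 ≤ j) (h : G.toPowerSeries - (F.map (ev α a)).toPowerSeries
      ∈ cId (Fin 2) (maximalIdeal R ^ j)) :
    ∃ (δ : Fin (n - 1) → R) (t : PowerSeries R), (∀ i, δ i ∈ maximalIdeal R ^ j) ∧
      t - PowerSeries.X ∈ cId Unit (maximalIdeal R ^ j) ∧
      HomMod (maximalIdeal R ^ (j + 1)) (F.map (ev α (a + δ))) G t := by
  have hcI := lstep_map_cI F α ρ hρ ha
  have hfo := fun δ => first_order F α (δ := δ) ha hj
  have hres : (F.map (ev α a)).map ρ = F.map res :=
    (map_map_fg (F := F) (ev α a) ρ).trans (congrArg F.map (res_ev α ρ hρ ha))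
  have hF1 := isComm_map hF (ev α a)
  have hD0 : ∀ i, constantCoeff (map (ev α a) (dF F i)) = 0 := fun i =>
    c0_map _ (lstep_c0_dF F i)
  generalize F.map (ev α a) = F1 at hcI hfo hres hF1 h
  have hPW := rlog_omega_psi_subst (F := F1) F1.zero_constantCoeff
  generalize (omega F1).subst F1.toPowerSeries = W at hcI hPW
  have hIm : maximalIdeal R ^ j ≤ maximalIdeal R := Ideal.pow_le_self (by omega)
  have hJ : maximalIdeal R ^ j * maximalIdeal R ≤ maximalIdeal R ^ (j + 1) := (pow_succ _ _).ge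
  obtain ⟨r, x, hx, hsp, hind⟩ := exists_gens (R := R) j
  have he := mem_cId.1 (Ideal.mul_mem_left _ W h)
  have hc : ∀ d, ∃ c : Fin r → R, (d = 0 → c = 0) ∧
      coeff d (W * (G.toPowerSeries - F1.toPowerSeries)) - ∑ b, x b * c b
        ∈ maximalIdeal R ^ (j + 1) := fun d => by
    by_cases hd : d = 0
    · refine ⟨0, fun _ => rfl, ?_⟩
      rw [hd, coeff_zero_eq_constantCoeff_apply, map_mul, map_sub, G.zero_constantCoeff,
        F1.zero_constantCoeff]
      simp
    · obtain ⟨c, hc⟩ := hsp _ (he d)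
      exact ⟨c, fun h => absurd h hd, hc⟩
  choose c hc0 hc using hc
  obtain ⟨g, hg⟩ : ∃ g : Fin r → MvPowerSeries (Fin 2) R, ∀ b d, coeff d (g b) = c d b :=
    ⟨fun b d => c d b, fun _ _ => rfl⟩
  have hg0 : ∀ b, constantCoeff (g b) = 0 := fun b => by
    rw [← coeff_zero_eq_constantCoeff_apply, hg, hc0 0 rfl, Pi.zero_apply]
  have h3 : G.toPowerSeries - F1.toPowerSeries
      - (psi F1).subst F1.toPowerSeries * ∑ b, C (x b) * g b
        ∈ cId (Fin 2) (maximalIdeal R ^ (j + 1)) := by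
    have h4 : W * (G.toPowerSeries - F1.toPowerSeries) - ∑ b, C (x b) * g b
        ∈ cId (Fin 2) (maximalIdeal R ^ (j + 1)) := mem_cId.2 fun d => by
      rw [map_sub, map_sum]
      simp only [coeff_C_mul, hg]
      exact hc d
    have h5 := Ideal.mul_mem_left _ ((psi F1).subst F1.toPowerSeries) h4
    rwa [mul_sub, ← mul_assoc, hPW, one_mul] at h5
  have h4 := coc_of_diff hF1 hG hIm hJ (Ideal.pow_le_pow_right (Nat.le_succ j)) ρ
    (fun r hr => (ker_rho α ρ hρ r).2 hr) x hx hind g hg0 h3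
  rw [hres] at h4
  choose μ η hη0 hη using fun b => h2 _ (h4 b)
  obtain ⟨s, hs0, hs⟩ : ∃ s : k → R, s 0 = 0 ∧ ∀ y, ρ (s y) = y :=
    ⟨fun y => α (WittVector.teichmuller p y),
      (congrArg α (WittVector.teichmuller_zero p)).trans (map_zero α), lstep_sec α ρ hρ⟩
  obtain ⟨η', h5, h6⟩ : ∃ η' : Fin r → PowerSeries R,
      (∀ b, PowerSeries.constantCoeff (η' b) = 0) ∧ ∀ b, PowerSeries.map ρ (η' b) = η b :=
    ⟨fun b => PowerSeries.mk fun l => s (PowerSeries.coeff l (η b)), fun b => by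
      rw [PowerSeries.constantCoeff_mk, PowerSeries.coeff_zero_eq_constantCoeff_apply, hη0, hs0],
      fun b => PowerSeries.ext fun l => by rw [PowerSeries.coeff_map, PowerSeries.coeff_mk, hs]⟩
  have hδ : ∀ i, ∑ b, x b * s (μ b i) ∈ maximalIdeal R ^ j := fun i =>
    Ideal.sum_mem _ fun b _ => Ideal.mul_mem_right _ _ (hx b)
  have h7 : PowerSeries.constantCoeff (∑ b, PowerSeries.C (x b) * η' b) = 0 := by
    rw [map_sum]
    exact Finset.sum_eq_zero fun b _ => by rw [map_mul, h5, mul_zero]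
  have h8 : ∑ b, PowerSeries.C (x b) * η' b ∈ cId Unit (maximalIdeal R ^ j) :=
    Ideal.sum_mem _ fun b _ => C_mul_mem_cId (hx b) _
  refine ⟨fun i => ∑ b, x b * s (μ b i), fadd F1 PowerSeries.X (∑ b, PowerSeries.C (x b) * η' b),
    hδ, ?_, homMod_of_diff hF1 hIm hJ (e := ∑ b, C (x b) * g b)
      (e' := W * ∑ i, C (∑ b, x b * s (μ b i)) * map (ev α a) (dF F i)) ?_ ?_ h7
      (Ideal.sum_mem _ fun b _ => C_mul_mem_cId (hx b) _)
      (Ideal.mul_mem_left _ _ (Ideal.sum_mem _ fun i _ => C_mul_mem_cId (hδ i) _)) h8 h3 ?_ ?_⟩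
  · obtain ⟨z, hz⟩ := fadd_eq F1 (a := (PowerSeries.X : PowerSeries R))
      PowerSeries.constantCoeff_X h7
    rw [hz, add_assoc, add_sub_cancel_left]
    exact add_mem h8 (Ideal.mul_mem_right _ _ (Ideal.mul_mem_left _ _ h8))
  · rw [map_sum]
    exact Finset.sum_eq_zero fun b _ => by rw [map_mul, hg0, mul_zero]
  · rw [map_mul, map_sum, Finset.sum_eq_zero fun i _ => by rw [map_mul, hD0, mul_zero], mul_zero]
  · rw [← mul_assoc, hPW, one_mul]
    exact hfo _ hδ
  · have h9 : ∀ b, g b - ∑ i, C (s (μ b i)) * (W * map (ev α a) (dF F i)) - cob F1 (η' b)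
        ∈ cId (Fin 2) (maximalIdeal R) := fun b => mem_cId.2 fun d => by
      rw [← ker_rho α ρ hρ, ← coeff_map, map_sub (map ρ), map_sub (map ρ), map_sum (map ρ),
        map_cob, hres, h6, hη b]
      simp only [map_mul (map ρ) (C _), hcI, map_C, hs]
      rw [add_sub_cancel_left, sub_self, map_zero]
    have h10 : ∑ b, C (x b) * (g b - ∑ i, C (s (μ b i)) * (W * map (ev α a) (dF F i))
        - cob F1 (η' b)) ∈ cId (Fin 2) (maximalIdeal R ^ (j + 1)) :=
      Ideal.sum_mem _ fun b _ => cId_mono hJ (cId_mul _ _ (Ideal.mul_mem_mul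
        ((mul_one (C (x b) : MvPowerSeries (Fin 2) R)) ▸ C_mul_mem_cId (hx b) 1) (h9 b)))
    refine cast (congrArg (· ∈ _) ?_) h10
    rw [lstep_cob_sum]
    simp only [mul_sub, Finset.sum_sub_distrib, Finset.mul_sum, map_sum, map_mul, Finset.sum_mul]
    rw [Finset.sum_comm]
    refine congrArg₂ _ (congrArg₂ _ rfl (Finset.sum_congr rfl fun i _ =>
      Finset.sum_congr rfl fun b _ => by ring)) rfl

end

theorem isCoc_cI {F : FormalGroup (E0 p n k)} (hF : F.IsComm) (i : Fin (n - 1)) :
    IsCoc (F.map res) (cI F i) := by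
  classical
  have hρ : (res : E0 p n k →+* k).comp C = WittVector.constantCoeff :=
    RingHom.ext fun a => res_C a
  have ha : ∀ l : Fin (n - 1), (0 : Fin (n - 1) → E0 p n k) l ∈ mE p n k := fun _ => zero_mem _
  have h1 := first_order F C (δ := Pi.single i (X i)) ha le_rfl fun l => by
    rw [pow_one]
    by_cases h : l = i
    · rw [h, Pi.single_eq_same]
      exact X_mem_mE i
    · rw [Pi.single_eq_of_ne h]
      exact zero_mem _
  rw [Finset.sum_eq_single i (fun l _ h => by rw [Pi.single_eq_of_ne h, map_zero, zero_mul])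
    (fun h => absurd (Finset.mem_univ i) h), Pi.single_eq_same] at h1
  have h2 := coc_of_diff (isComm_map hF (ev C 0)) (isComm_map hF (ev C (0 + Pi.single i (X i))))
    (I := mE p n k) (m := mE p n k) (J := mE p n k ^ (1 + 1)) le_rfl
    (by rw [pow_succ, pow_one]) (Ideal.pow_le_self (by omega)) res (fun r hr => mem_mE.1 hr)
    (fun _ : Unit => X i) (fun _ => X_mem_mE i) (fun r hr b => by
      have h3 := mem_mE_pow.1 hr (Finsupp.single i 1)
      rw [Fintype.sum_unique, rc_coeff_single_mul, constantCoeff_X, coeff_index_single_self_X,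
        Finsupp.degree_single, zero_mul, zero_add, mul_one, Nat.add_sub_cancel, pow_one] at h3
      exact re_mem_mE_iff_dvd.2 h3)
    (fun _ => (omega (F.map (ev C 0))).subst (F.map (ev C 0)).toPowerSeries
      * map (ev C 0) (dF F i))
    (fun _ => by rw [map_mul, c0_map _ (lstep_c0_dF F i), mul_zero]) (by
      rw [Fintype.sum_unique, mul_left_comm, ← mul_assoc _ _ (map _ _),
        rlog_omega_psi_subst (F.map (ev C 0)).zero_constantCoeff, one_mul]
      exact h1) ()
  rwa [lstep_map_cI F C res hρ ha, map_map_fg, res_ev C res hρ ha] at h2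

end

end Vale.Agent.P217
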