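import Vale.Agent.P217.LStep
import Vale.Agent.P217.RIdeal

/-! P217 (existence part): the Lubin-Tate theorem from the cohomology computation.
PLAN.
* `lt_next`: `s` has a unit linear coefficient; `exists_transport` along `s.substInvOfIsUnit` gives `G'` with
  `s : G' → G` an isomorphism (`IsIso.symm`); modulo `m^j` both `F.map (ev a)` and `G'` are carried to `G`
  by `s`, so they agree (`psubst_inj` over the quotient); `lt_step` gives `δ`, `t`; put `s' = s.subst t`
  (`IsHom.comp` over the quotient, `psubst_congr`).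
* `lt_exists`: start with `a = 0`, `s = X`, `j = 1` (`res_ev`, `ker_rho`, `map_map_fg`); recursion with
  `choose`; limits by `IsPrecomplete.prec'` (or `IsPrecomplete.prec`) for each `a i` and each coefficient
  of `s`; `ev α a f ≡ ev α a' f` modulo `m^j` when `a ≡ a'` (`hom_sub_mem`); `homMod_iff`, `psubst_congr`,
  `fadd_congr`, `eq_zero_of_mem_cId_pow`.
* `lt_unique`: induction on `j`: `φ f - φ' f ∈ m^j` for all `f` and `s - X ∈ cId (m^j)`.  With `s = X + η`,
  `s([p]_φ X) = [p]_φ'(s X)` (`IsHom.nmul`) reads `[p]_φ + η(X^q) ≡ [p]_φ'` modulo `m^(j+1)` (`taylor1`,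
  `subst_bilin` or the argument of `rigid`; the derivative of `[p]` lies in `cId m`).  Degrees `< q`:
  `φ c_l ≡ φ' c_l`; the set of `f ∈ mE` with `φ f - φ' f ∈ m^(j+1)` is an ideal, contains the `c_l`, so all
  `X i` (`HeightCoords` at `h = n`, `heightIdeal_top`); `hom_sub_mem` gives all `f`.  Then
  `η(X^q) ∈ cId (m^(j+1))`.
* `isUniversal_of`: `φ = ev (algebraMap) a` as an `AlgHom` (`ev_C`; `algebraMap` into `E0` is `C`);
  uniqueness: compose one star-isomorphism with the inverse of the other (`IsIso.symm`, `IsIso.comp`). -/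

namespace Vale.Agent.P217

open MvPowerSeries IsLocalRing

noncomputable section

variable {p n : ℕ} [Fact p.Prime] {k : Type} [Field k] [CharP k p] [PerfectRing k p]
  {F : FormalGroup (E0 p n k)}

section

variable {R : Type*} [CommRing R] [IsLocalRing R] [IsNoetherianRing R]
  [IsAdicComplete (maximalIdeal R) R]

omit [IsNoetherianRing R] [IsAdicComplete (maximalIdeal R) R] in
theorem lu_unit {s : PowerSeries R} (hs : s - PowerSeries.X ∈ cId Unit (maximalIdeal R)) :
    IsUnit (PowerSeries.coeff 1 s) := by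
  have h := rt_mem_unit.1 hs 1
  rw [map_sub, PowerSeries.coeff_one_X] at h
  simpa using isUnit_one_sub_self_of_mem_nonunits _ (neg_mem h)

omit [CharP k p] [PerfectRing k p] [IsNoetherianRing R] [IsAdicComplete (maximalIdeal R) R] in
theorem lu_congr {φ φ' : E0 p n k →+* R} (hC : ∀ c, φ (C c) = φ' (C c))
    (hφ : ∀ i, φ (X i) ∈ maximalIdeal R) (hφ' : ∀ i, φ' (X i) ∈ maximalIdeal R) {j : ℕ}
    (h : ∀ i, φ (X i) - φ' (X i) ∈ maximalIdeal R ^ j) (f : E0 p n k) :
    φ f - φ' f ∈ maximalIdeal R ^ j := by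
  have h1 := hom_sub_mem (maximalIdeal R ^ j) (maximalIdeal R)
    (fun r => by rw [hC, sub_self]; exact zero_mem _) h hφ hφ' j f
  rwa [sup_idem] at h1

omit [IsNoetherianRing R] [IsAdicComplete (maximalIdeal R) R] in
theorem lu_rho (α : WittVector p k →+* R) (ρ : R →+* k)
    (hρ : ρ.comp α = WittVector.constantCoeff) {σ : Type*} {a b : MvPowerSeries σ R} :
    a - b ∈ cId σ (maximalIdeal R) ↔ map ρ a = map ρ b := by
  rw [mem_cId, MvPowerSeries.ext_iff]
  refine forall_congr' fun d => ?_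
  rw [← ker_rho α ρ hρ, map_sub, map_sub, sub_eq_zero, coeff_map, coeff_map]

theorem lt_next (hF : F.IsComm) (h2 : H2 F) (α : WittVector p k →+* R) (ρ : R →+* k)
    (hρ : ρ.comp α = WittVector.constantCoeff) {G : FormalGroup R} (hG : G.IsComm) {j : ℕ}
    (hj : 1 ≤ j) {a : Fin (n - 1) → R} (ha : ∀ i, a i ∈ maximalIdeal R) {s : PowerSeries R}
    (hs : s - PowerSeries.X ∈ cId Unit (maximalIdeal R))
    (h : HomMod (maximalIdeal R ^ j) (F.map (ev α a)) G s) :
    ∃ (a' : Fin (n - 1) → R) (s' : PowerSeries R), (∀ i, a' i - a i ∈ maximalIdeal R ^ j) ∧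
      s' - s ∈ cId Unit (maximalIdeal R ^ j) ∧
      HomMod (maximalIdeal R ^ (j + 1)) (F.map (ev α a')) G s' := by
  have s0 : PowerSeries.constantCoeff s = 0 := h.1
  have hu := lu_unit hs
  obtain ⟨G', hG', hiso⟩ := exists_transport hG (PowerSeries.constantCoeff_substInvOfIsUnit s hu)
    (by rw [PowerSeries.coeff_one_substInvOfIsUnit]; exact Units.isUnit _)
  have x0 := c0_subst (rc_c0X (R := R) (0 : Fin 2)) s0
  have x1 := c0_subst (rc_c0X (R := R) (1 : Fin 2)) s0
  have hs' : IsHom G' G s := by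
    refine ⟨s0, ?_⟩
    have h1 := hiso.1.fadd x0 x1
    rw [rt_left s0 hu (rc_c0X _), rt_left s0 hu (rc_c0X _), fadd_X_X] at h1
    rw [← h1, rt_right s0 hu (c0_fadd x0 x1)]
  have h3 := hs'.map (Ideal.Quotient.mk (maximalIdeal R ^ j))
  have h4 := psubst_inj h3.1 (by rw [PowerSeries.coeff_map]; exact hu.map _)
    (FormalGroup.zero_constantCoeff _) (FormalGroup.zero_constantCoeff _) (h3.2.trans h.2.2.symm)
  obtain ⟨δ, t, hδ, ht, ht'⟩ := lt_step hF h2 α ρ hρ ha hG' hj (sub_mem_cId.2 h4)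
  refine ⟨a + δ, s.subst t, fun i => by simpa using hδ i, ?_, c0_subst ht'.1 s0, ?_⟩
  · have h5 := psubst_congr ht'.1 (PowerSeries.constantCoeff_X (R := R)) (u := s) (v := s) ht
      (by rw [sub_self]; exact zero_mem _)
    rwa [PowerSeries.X_subst] at h5
  · have h5 := ht'.2.comp (hs'.map _)
    have e : PowerSeries.map (Ideal.Quotient.mk (maximalIdeal R ^ (j + 1))) (s.subst t) =
        (PowerSeries.map (Ideal.Quotient.mk (maximalIdeal R ^ (j + 1))) s).subst
          (PowerSeries.map (Ideal.Quotient.mk (maximalIdeal R ^ (j + 1))) t) :=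
      map_psubst _ ht'.1 s
    rw [e]
    exact h5

theorem lt_exists (hF : F.IsComm) (h2 : H2 F) (α : WittVector p k →+* R) (ρ : R →+* k)
    (hρ : ρ.comp α = WittVector.constantCoeff) {G : FormalGroup R} (hG : G.IsComm)
    (hGρ : G.map ρ = F.map res) :
    ∃ (a : Fin (n - 1) → R) (s : PowerSeries R), (∀ i, a i ∈ maximalIdeal R) ∧
      s - PowerSeries.X ∈ cId Unit (maximalIdeal R) ∧ IsHom (F.map (ev α a)) G s := by
  let P : ℕ → (Fin (n - 1) → R) × PowerSeries R → Prop := fun j x =>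
    (∀ i, x.1 i ∈ maximalIdeal R) ∧ x.2 - PowerSeries.X ∈ cId Unit (maximalIdeal R) ∧
      HomMod (maximalIdeal R ^ (j + 1)) (F.map (ev α x.1)) G x.2
  have hle : ∀ j, maximalIdeal R ^ (j + 1) ≤ maximalIdeal R := fun j =>
    Ideal.pow_le_self j.succ_ne_zero
  have step : ∀ j (x : Subtype (P j)), ∃ y : Subtype (P (j + 1)),
      (∀ i, y.1.1 i - x.1.1 i ∈ maximalIdeal R ^ (j + 1)) ∧
        y.1.2 - x.1.2 ∈ cId Unit (maximalIdeal R ^ (j + 1)) := fun j x => by
    obtain ⟨a', s', h1, h3, h4⟩ := lt_next hF h2 α ρ hρ hG (Nat.le_add_left 1 j) x.2.1 x.2.2.1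
      x.2.2.2
    refine ⟨⟨(a', s'), fun i => ?_, ?_, h4⟩, h1, h3⟩
    · simpa using add_mem (hle j (h1 i)) (x.2.1 i)
    · simpa using add_mem (cId_mono (hle j) h3) x.2.2.1
  choose nx hnx hnx' using step
  have base : P 0 (0, PowerSeries.X) := by
    refine ⟨fun _ => zero_mem _, by rw [sub_self]; exact zero_mem _,
      PowerSeries.constantCoeff_X, ?_⟩
    have h1 : (F.map (ev α 0)).map ρ = G.map ρ := by
      rw [map_map_fg, res_ev α ρ hρ (a := 0) fun _ => zero_mem _, hGρ]
    have h3 := (lu_rho α ρ hρ).2 (congrArg FormalGroup.toPowerSeries h1)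
    rw [← pow_one (maximalIdeal R)] at h3
    have h4 : (F.map (ev α 0)).map (Ideal.Quotient.mk (maximalIdeal R ^ 1)) =
        G.map (Ideal.Quotient.mk (maximalIdeal R ^ 1)) := FormalGroup.ext (sub_mem_cId.1 h3)
    rw [PowerSeries.map_X]
    exact h4 ▸ isHom_X
  let x : ∀ j, Subtype (P j) := fun j => Nat.rec ⟨_, base⟩ nx j
  have hle' : ∀ j, maximalIdeal R ^ (j + 1) ≤ maximalIdeal R ^ j := fun j =>
    Ideal.pow_le_pow_right j.le_succ
  choose a ha using fun i => rc_exists_lim (maximalIdeal R) (fun j => (x j).1.1 i)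
    fun j => hle' j (hnx j (x j) i)
  choose c hc using fun l => rc_exists_lim (maximalIdeal R)
    (fun j => PowerSeries.coeff l (x j).1.2) fun j => by
      rw [← map_sub]
      exact hle' j (rt_mem_unit.1 (hnx' j (x j)) l)
  have hs : ∀ j, PowerSeries.mk c - (x j).1.2 ∈ cId Unit (maximalIdeal R ^ j) := fun j =>
    rt_mem_unit.2 fun l => by
      rw [map_sub, PowerSeries.coeff_mk]
      exact hc l j
  have ha' : ∀ i, a i ∈ maximalIdeal R := fun i => by
    simpa using add_mem (hle 0 (ha i 1)) ((x 1).2.1 i)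
  have s0 : PowerSeries.constantCoeff (PowerSeries.mk c) = 0 :=
    eq_zero_of_mem_pow (maximalIdeal R) fun j => by
      have h1 := rt_mem_unit.1 (hs j) 0
      rwa [map_sub, PowerSeries.coeff_zero_eq_constantCoeff, (x j).2.2.2.1, sub_zero] at h1
  have hg : ∀ {b : Fin (n - 1) → R}, (∀ i, b i ∈ maximalIdeal R) → Good b := fun hb =>
    Good.of_mem (maximalIdeal R) fun i => Ideal.le_radical (hb i)
  refine ⟨a, PowerSeries.mk c, ha', by simpa using add_mem (cId_mono (hle 0) (hs 1)) (x 1).2.2.1,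
    s0, sub_eq_zero.1 (eq_zero_of_mem_cId_pow (maximalIdeal R) fun j => (homMod_iff.1 ⟨s0, ?_⟩).2)⟩
  have h1 := homMod_iff.1 (x j).2.2.2
  have h3 := (homMod_iff.2 ⟨h1.1, cId_mono (hle' j) h1.2⟩).2
  have h4 : (Ideal.Quotient.mk (maximalIdeal R ^ j)).comp (ev α a) =
      (Ideal.Quotient.mk (maximalIdeal R ^ j)).comp (ev α (x j).1.1) :=
    RingHom.ext fun f => Ideal.Quotient.eq.2 (lu_congr (fun c => by rw [ev_C, ev_C])
      (fun i => by rw [ev_X α (hg ha')]; exact ha' i)
      (fun i => by rw [ev_X α (hg (x j).2.1)]; exact (x j).2.1 i)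
      (fun i => by rw [ev_X α (hg ha'), ev_X α (hg (x j).2.1)]; exact ha i j) f)
  have h5 : PowerSeries.map (Ideal.Quotient.mk (maximalIdeal R ^ j)) (PowerSeries.mk c) =
      PowerSeries.map (Ideal.Quotient.mk (maximalIdeal R ^ j)) (x j).1.2 := sub_mem_cId.1 (hs j)
  rw [map_map_fg] at h3
  rwa [map_map_fg, h4, h5]

omit [IsNoetherianRing R] in
theorem lt_unique (hn : 1 ≤ n) (hH : HeightCoords F)
    (hP : mulSeries F p - PowerSeries.X ^ p ^ n ∈ cId Unit (mE p n k)) {φ φ' : E0 p n k →+* R}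
    (hC : ∀ c, φ (C c) = φ' (C c)) (hφ : ∀ f ∈ mE p n k, φ f ∈ maximalIdeal R)
    (hφ' : ∀ f ∈ mE p n k, φ' f ∈ maximalIdeal R) {s : PowerSeries R}
    (hs : IsHom (F.map φ) (F.map φ') s) (hsX : s - PowerSeries.X ∈ cId Unit (maximalIdeal R)) :
    φ = φ' := by
  have hq : p ^ n ≠ 0 := pow_ne_zero _ (Fact.out : p.Prime).ne_zero
  have hp : ((p ^ n : ℕ) : R) ∈ maximalIdeal R := by
    have h1 := hφ _ p_mem_mE
    rw [map_natCast] at h1
    rw [Nat.cast_pow]
    exact Ideal.pow_mem_of_mem _ h1 n hn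
  have hm : ∀ {ψ : E0 p n k →+* R}, (∀ f ∈ mE p n k, ψ f ∈ maximalIdeal R) →
      mulSeries (F.map ψ) p - PowerSeries.X ^ p ^ n ∈ cId Unit (maximalIdeal R) :=
    fun {ψ} hψ => by
      have h1 : PowerSeries.map ψ (mulSeries F p - PowerSeries.X ^ p ^ n) ∈
          cId Unit (maximalIdeal R) := map_mem_cId ψ (Ideal.map_le_iff_le_comap.2 hψ) hP
      rwa [map_sub, map_pow, PowerSeries.map_X, map_mulSeries] at h1
  have hcoef : ∀ (ψ : E0 p n k →+* R) (l : ℕ), PowerSeries.coeff l (mulSeries (F.map ψ) p) =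
      ψ (PowerSeries.coeff l (mulSeries F p)) := fun ψ l => by
    rw [← map_mulSeries, PowerSeries.coeff_map]
  have hpq := hm hφ
  have hpq' := hm hφ'
  have h1 : s.subst (mulSeries (F.map φ) p) = (mulSeries (F.map φ') p).subst s := by
    have := hs.nmul p (PowerSeries.constantCoeff_X (R := R))
    rwa [nmul_X, PowerSeries.X_subst] at this
  have hP0 : PowerSeries.constantCoeff (mulSeries (F.map φ) p) = 0 := c0_mulSeries p
  have e1 := hcoef φ
  have e2 := hcoef φ'
  generalize mulSeries (F.map φ) p = P at hpq h1 hP0 e1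
  generalize mulSeries (F.map φ') p = P' at hpq' h1 e2
  have hX0 : constantCoeff (PowerSeries.X : PowerSeries R) = 0 := PowerSeries.constantCoeff_X
  have hXq : constantCoeff (PowerSeries.X ^ p ^ n : PowerSeries R) = 0 := by
    rw [map_pow, hX0, zero_pow hq]
  obtain ⟨η, rfl⟩ : ∃ η, s = PowerSeries.X + η := ⟨s - PowerSeries.X, (add_sub_cancel _ _).symm⟩
  rw [add_sub_cancel_left] at hsX
  have hη0 : PowerSeries.constantCoeff η = 0 := by simpa using hs.1
  obtain ⟨z, hz⟩ := taylor1 hX0 hη0 P'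
  rw [PowerSeries.X_subst, PowerSeries.X_subst, ← h1, PowerSeries.subst_add (hs1 hP0),
    PowerSeries.subst_X (hs1 hP0)] at hz
  have h3 : P - P' + η.subst P = PowerSeries.derivative R P' * η + η * (η * z) := by
    linear_combination hz
  have hD : PowerSeries.derivative R P' ∈ cId Unit (maximalIdeal R) := by
    rw [rt_mem_unit] at hpq' ⊢
    intro l
    have h4 := hpq' (l + 1)
    rw [map_sub, PowerSeries.coeff_X_pow] at h4
    rw [PowerSeries.coeff_derivative]
    split_ifs at h4 with h5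
    · have h6 : (l : R) + 1 = (p ^ n : ℕ) := by rw [← h5]; push_cast; rfl
      rw [h6]
      exact Ideal.mul_mem_left _ _ hp
    · rw [sub_zero] at h4
      exact Ideal.mul_mem_right _ _ h4
  have hc := fun j => lu_congr hC (fun i => hφ _ (X_mem_mE i)) (fun i => hφ' _ (X_mem_mE i))
    (j := j)
  have hspan := (hH n hn le_rfl).trans (heightIdeal_top hn)
  have key : ∀ j, (∀ f, φ f - φ' f ∈ maximalIdeal R ^ (j + 1)) ∧
      η ∈ cId Unit (maximalIdeal R ^ (j + 1)) := by
    intro j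
    induction j with
    | zero =>
      refine ⟨hc _ fun i => ?_, by simpa using hsX⟩
      simpa using sub_mem (hφ _ (X_mem_mE i)) (hφ' _ (X_mem_mE i))
    | succ j ih =>
      have h4 : P - P' + η.subst P ∈ cId Unit (maximalIdeal R ^ (j + 1 + 1)) := by
        rw [h3, pow_succ']
        exact cId_mul _ _ (add_mem (Ideal.mul_mem_mul hD ih.2)
          (Ideal.mul_mem_mul hsX (Ideal.mul_mem_right _ _ ih.2)))
      have h5 := rt_psubst_sub ih.2 hP0 hXq hpq
      rw [← pow_succ'] at h5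
      have h6 : P - P' + η.subst (PowerSeries.X ^ p ^ n : PowerSeries R) ∈
          cId Unit (maximalIdeal R ^ (j + 1 + 1)) := by
        have := sub_mem h4 h5
        rwa [add_sub_assoc, sub_sub_cancel] at this
      rw [rt_mem_unit] at h6
      have h7 : ∀ f ∈ mE p n k, φ f - φ' f ∈ maximalIdeal R ^ (j + 1 + 1) := fun f hf => by
        rw [← hspan] at hf
        induction hf using Submodule.span_induction with
        | mem f hf =>
          obtain ⟨l, hl, rfl⟩ := hf
          have h8 := h6 l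
          rw [map_add, map_sub, e1, e2, PowerSeries.coeff_subst_X_pow hq] at h8
          split_ifs at h8 with h9
          · rwa [Nat.div_eq_of_lt hl, PowerSeries.coeff_zero_eq_constantCoeff, hη0, map_zero,
              add_zero] at h8
          · rwa [add_zero] at h8
        | zero => simp
        | add f g _ _ hf hg =>
          rw [map_add, map_add, add_sub_add_comm]
          exact add_mem hf hg
        | smul g f hf' hf =>
          rw [smul_eq_mul, map_mul, map_mul, show φ g * φ f - φ' g * φ' f =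
            φ g * (φ f - φ' f) + (φ g - φ' g) * φ' f by ring]
          refine add_mem (Ideal.mul_mem_left _ _ hf) ?_
          rw [pow_succ]
          exact Ideal.mul_mem_mul (ih.1 g) (hφ' f (hspan.le hf'))
      have h8 := hc _ fun i => h7 _ (X_mem_mE i)
      refine ⟨h8, rt_mem_unit.2 fun l => ?_⟩
      have h9 := h6 (p ^ n * l)
      rw [map_add, map_sub, e1, e2, PowerSeries.coeff_subst_X_pow hq, if_pos (dvd_mul_right _ _),
        Nat.mul_div_cancel_left _ (Nat.pos_of_ne_zero hq)] at h9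
      simpa using sub_mem h9 (h8 (PowerSeries.coeff (p ^ n * l) (mulSeries F p)))
  exact RingHom.ext fun f => sub_eq_zero.1 (eq_zero_of_mem_pow (maximalIdeal R) fun j =>
    Ideal.pow_le_pow_right j.le_succ ((key j).1 f))

end

theorem isUniversal_of (hn : 1 ≤ n) (hF : F.IsComm) (h2 : H2 F) (hH : HeightCoords F)
    (hP : mulSeries F p - PowerSeries.X ^ p ^ n ∈ cId Unit (mE p n k)) :
    IsUniversal (F.map res) F := by
  refine ⟨hF, rfl, fun R _ _ _ _ _ ρ hρ G hG hGρ => ?_⟩
  obtain ⟨a, s, ha, hs, hs'⟩ := lt_exists hF h2 _ ρ hρ hG hGρ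
  have hX : ∀ {s : PowerSeries R}, s - PowerSeries.X ∈ cId Unit (maximalIdeal R) ↔
      PowerSeries.map ρ s = PowerSeries.X := fun {s} => by
    rw [← PowerSeries.map_X ρ]
    exact lu_rho _ ρ hρ
  have hm : ∀ {ψ : E0 p n k →+* R}, ρ.comp ψ = res → ∀ f ∈ mE p n k, ψ f ∈ maximalIdeal R :=
    fun {ψ} hψ f hf => (ker_rho _ ρ hρ _).1 ((RingHom.congr_fun hψ f).trans (mem_mE.1 hf))
  have hi : IsIso (F.map (ev (algebraMap (WittVector p k) R) a)) G s := ⟨hs', lu_unit hs⟩
  refine ⟨⟨ev (algebraMap _ R) a, fun c => ev_C _ a c⟩, ⟨res_ev _ ρ hρ ha, s, hi, hX.1 hs⟩, ?_⟩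
  rintro φ ⟨h3, t, ht, ht'⟩
  have h4 := ht.comp hi.symm
  refine AlgHom.coe_ringHom_injective (lt_unique hn hH hP
    (fun c => (φ.commutes c).trans (ev_C _ a c).symm) (hm h3) (hm (res_ev _ ρ hρ ha)) h4.1
    (hX.2 ?_))
  have h5 := map_psubst ρ h4.1.1 s
  rw [rt_right hs'.1 hi.2 ht.1.1, hX.1 hs, PowerSeries.subst_X (hs1 (c0_map ρ h4.1.1))] at h5
  exact h5.symm.trans ht'

end

end Vale.Agent.P217
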