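import Vale.Agent.P217.RFG

/-! P217: coefficientwise ideals, first order Taylor formula, subtraction in a formal group.
PLAN.
* `cId J` is the kernel of `map (Ideal.Quotient.mk J)`; `cId_mul` by `coeff_mul` (finite sums).
* `taylor1`: universal case in `MvPowerSeries (Fin 2) R`: `w(X0+X1) - w(X0) - w'(X0) X1` is divisible
  by `X1^2` (`X_pow_dvd_iff`, `PowerSeries.coeff_subst_X_zero_add_X_one`, `coeff_subst_single`), then
  apply `subst ![a, e]` (`subst_psubst`).
* `fadd_eq`: `F = X0 + X1 + X0*X1*r`: `F - X0 - X1` has zero coefficients whenever `d 0 = 0` or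
  `d 1 = 0` (`FormalGroup.Xzero_eq_X`, `zeroX_eq_X`, or `fadd_zero`), use `X_dvd_iff` twice.
* `fadd_sub_fadd`: `F(a, b) - F(a, b')`: universal case in three variables: `F(X0, X1+X2) - F(X0,X1)`
  is divisible by `X2` (it vanishes under `X2 -> 0`), quotient has constant coefficient 1
  (linear coefficient of `F`), hence is a unit (`isUnit_iff_constantCoeff`).
* `exists_fsub`: solve `F(a, e) = b` by iteration in the complete ring (ideal `span (range X)`):
  `e_{k+1} = e_k + (b - F(a, e_k))`; or universally: inverse series and `e = F(i(a), b)`.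
* linear coefficients: `coeff_subst` + `finsum_eq_single`, or use `fadd_eq` / `exists_sum_X_mul`. -/

namespace Vale.Agent.P217

open MvPowerSeries

noncomputable section

variable {σ τ R R' : Type*} [CommRing R] [CommRing R'] {F G : FormalGroup R}
  {a b c e : MvPowerSeries σ R}

/-- series with all coefficients in `J` -/
def cId (σ : Type*) (J : Ideal R) : Ideal (MvPowerSeries σ R) :=
  RingHom.ker (map (σ := σ) (Ideal.Quotient.mk J))

theorem mem_cId {J : Ideal R} : a ∈ cId σ J ↔ ∀ d, coeff d a ∈ J := by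
  rw [cId, RingHom.mem_ker, MvPowerSeries.ext_iff]
  refine forall_congr' fun d => ?_
  rw [coeff_map, map_zero, Ideal.Quotient.eq_zero_iff_mem]

theorem sub_mem_cId {J : Ideal R} :
    a - b ∈ cId σ J ↔ map (Ideal.Quotient.mk J) a = map (Ideal.Quotient.mk J) b := by
  rw [cId, RingHom.mem_ker, map_sub, sub_eq_zero]

theorem cId_mono {I J : Ideal R} (h : I ≤ J) : cId σ I ≤ cId σ J :=
  fun _ ha => mem_cId.2 fun d => h (mem_cId.1 ha d)

theorem cId_mul (I J : Ideal R) : cId σ I * cId σ J ≤ cId σ (I * J) := by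
  classical
  rw [Ideal.mul_le]
  intro x hx y hy
  rw [mem_cId] at hx hy ⊢
  intro d
  rw [coeff_mul]
  exact Ideal.sum_mem _ fun q _ => Ideal.mul_mem_mul (hx _) (hy _)

theorem cId_pow (I : Ideal R) (k : ℕ) : cId σ I ^ k ≤ cId σ (I ^ k) := by
  induction k with
  | zero => intro x _; rw [mem_cId]; intro d; simp
  | succ k ih =>
    rw [pow_succ, pow_succ]
    exact (Ideal.mul_mono_left ih).trans (cId_mul _ _)

theorem C_mul_mem_cId {J : Ideal R} {r : R} (hr : r ∈ J) (a : MvPowerSeries σ R) :
    C r * a ∈ cId σ J := by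
  rw [mem_cId]
  intro d
  rw [coeff_C_mul]
  exact J.mul_mem_right _ hr

theorem mem_cId_span_singleton {r : R} : a ∈ cId σ (Ideal.span {r}) ↔ ∃ b, a = C r * b := by
  constructor
  · intro h
    rw [mem_cId] at h
    simp only [Ideal.mem_span_singleton] at h
    choose b hb using h
    let b' : MvPowerSeries σ R := b
    refine ⟨b', ?_⟩
    ext d
    rw [coeff_C_mul]
    exact hb d
  · rintro ⟨b, rfl⟩
    exact C_mul_mem_cId (Ideal.mem_span_singleton_self r) b

theorem map_mem_cId (ρ : R →+* R') {J : Ideal R} {J' : Ideal R'} (h : J.map ρ ≤ J')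
    (ha : a ∈ cId σ J) : map ρ a ∈ cId σ J' := by
  rw [mem_cId] at ha ⊢
  intro d
  rw [coeff_map]
  exact h (Ideal.mem_map_of_mem ρ (ha d))

theorem eq_zero_of_mem_cId_pow (I : Ideal R) [IsHausdorff I R] (h : ∀ k, a ∈ cId σ (I ^ k)) :
    a = 0 := by
  ext d
  rw [map_zero]
  exact eq_zero_of_mem_pow I fun k => mem_cId.1 (h k) d

theorem psubst_congr {J : Ideal R} (ha : constantCoeff a = 0) (hb : constantCoeff b = 0)
    {u v : PowerSeries R} (hab : a - b ∈ cId σ J) (huv : u - v ∈ cId Unit J) :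
    u.subst a - v.subst b ∈ cId σ J := by
  rw [sub_mem_cId] at hab ⊢
  have huv' : PowerSeries.map (Ideal.Quotient.mk J) u = PowerSeries.map (Ideal.Quotient.mk J) v :=
    sub_mem_cId.1 huv
  rw [map_psubst _ ha, map_psubst _ hb, hab, huv']

theorem psubst_mem_cId {J : Ideal R} (ha : constantCoeff a = 0) {u : PowerSeries R}
    (hu : u ∈ cId Unit J) : u.subst a ∈ cId σ J := by
  have h := psubst_congr (J := J) (u := u) (v := 0) ha ha (by simp) (by simpa using hu)
  have h0 : (0 : PowerSeries R).subst a = 0 := by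
    rw [← PowerSeries.coe_substAlgHom (hs1 ha)]; exact map_zero _
  rwa [h0, sub_zero] at h

theorem fadd_congr {J : Ideal R} {a' b' : MvPowerSeries σ R} (ha : constantCoeff a = 0)
    (hb : constantCoeff b = 0) (ha' : constantCoeff a' = 0) (hb' : constantCoeff b' = 0)
    (hFG : F.toPowerSeries - G.toPowerSeries ∈ cId (Fin 2) J) (h1 : a - a' ∈ cId σ J)
    (h2 : b - b' ∈ cId σ J) : fadd F a b - fadd G a' b' ∈ cId σ J := by
  rw [sub_mem_cId] at hFG h1 h2 ⊢
  have e1 : F.map (Ideal.Quotient.mk J) = G.map (Ideal.Quotient.mk J) := by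
    ext1
    exact hFG
  rw [map_fadd _ ha hb, map_fadd _ ha' hb', h1, h2, e1]

theorem rc_c0X (i : σ) : constantCoeff (X i : MvPowerSeries σ R) = 0 := constantCoeff_X i

theorem rc_taylor_univ (w : PowerSeries R) :
    (X 1 : MvPowerSeries (Fin 2) R) ^ 2 ∣ w.subst (X 0 + X 1 : MvPowerSeries (Fin 2) R)
      - w.subst (X 0 : MvPowerSeries (Fin 2) R)
      - (PowerSeries.derivative R w).subst (X 0 : MvPowerSeries (Fin 2) R) * X 1 := by
  rw [X_pow_dvd_iff]
  intro m hm
  rw [map_sub, map_sub, PowerSeries.coeff_subst_X_zero_add_X_one, PowerSeries.coeff_subst_single,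
    X_def 1, coeff_mul_monomial]
  have hm' : m 1 = 0 ∨ m 1 = 1 := by omega
  rcases hm' with h | h
  · have e1 : m = Finsupp.single 0 (m 0) := by
      ext i; fin_cases i
      · simp
      · simpa using h
    have e2 : ¬ Finsupp.single (1 : Fin 2) 1 ≤ m := by
      rw [Finsupp.single_le_iff]; omega
    rw [if_pos e1, if_neg e2, h]
    simp
  · have e1 : m ≠ Finsupp.single 0 (m 0) := by
      intro e
      have := congrArg (fun d : Fin 2 →₀ ℕ => d 1) e
      simp [h] at this
    have e2 : Finsupp.single (1 : Fin 2) 1 ≤ m := by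
      rw [Finsupp.single_le_iff]; omega
    have e3 : m - Finsupp.single (1 : Fin 2) 1
        = Finsupp.single 0 ((m - Finsupp.single (1 : Fin 2) 1 : Fin 2 →₀ ℕ) 0) := by
      ext i; fin_cases i
      · simp
      · simp [h]
    have e4 : (m - Finsupp.single (1 : Fin 2) 1 : Fin 2 →₀ ℕ) 0 = m 0 := by simp
    rw [if_neg e1, if_pos e2, PowerSeries.coeff_subst_single, if_pos e3, e4, h,
      PowerSeries.coeff_derivative, Nat.choose_succ_self_right]
    push_cast
    ring

theorem taylor1 (ha : constantCoeff a = 0) (he : constantCoeff e = 0) (w : PowerSeries R) :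
    ∃ z, w.subst (a + e) = w.subst a + (PowerSeries.derivative R w).subst a * e + e ^ 2 * z := by
  obtain ⟨z, hz⟩ := rc_taylor_univ w
  have hs := hs2 ha he
  have h01 : constantCoeff (X 0 + X 1 : MvPowerSeries (Fin 2) R) = 0 := by simp
  have h := congrArg (subst ![a, e]) hz
  rw [subst_sub hs, subst_sub hs, subst_mul hs, subst_mul hs, subst_pow hs,
    subst_psubst hs h01, subst_psubst hs (rc_c0X _), subst_psubst hs (rc_c0X _), subst_add hs,
    subst_X hs, subst_X hs] at h
  refine ⟨subst ![a, e] z, ?_⟩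
  simp only [Matrix.cons_val_zero, Matrix.cons_val_one, Matrix.cons_val_fin_one] at h
  linear_combination h

theorem psubst_sub_dvd (ha : constantCoeff a = 0) (hb : constantCoeff b = 0) (w : PowerSeries R) :
    a - b ∣ w.subst a - w.subst b := by
  have he : constantCoeff (a - b) = 0 := by rw [map_sub, ha, hb, sub_zero]
  obtain ⟨z, hz⟩ := taylor1 hb he w
  rw [add_sub_cancel] at hz
  exact ⟨(PowerSeries.derivative R w).subst b + (a - b) * z, by linear_combination hz⟩

/-- a series of order at least `k` sends `a` into `(a^k)` -/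
theorem pow_dvd_psubst (ha : constantCoeff a = 0) {w : PowerSeries R} {k : ℕ}
    (hw : ∀ j < k, PowerSeries.coeff j w = 0) : a ^ k ∣ w.subst a := by
  obtain ⟨v, rfl⟩ := PowerSeries.X_pow_dvd_iff.2 hw
  rw [PowerSeries.subst_mul (hs1 ha), PowerSeries.subst_pow (hs1 ha), PowerSeries.subst_X (hs1 ha)]
  exact dvd_mul_right _ _

/-- killing a variable -/
theorem rc_coeff_kill [DecidableEq τ] (i : τ) (f : MvPowerSeries τ R) (d : τ →₀ ℕ) (hd : d i = 0) :
    coeff d (subst (fun j => if j = i then (0 : MvPowerSeries τ R) else X j) f) = coeff d f := by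
  have e1 : (fun j => if j = i then (0 : MvPowerSeries τ R) else X j)
      = (fun j => if j = i then (0 : R) else 1) • X := by
    funext j
    by_cases h : j = i <;> simp [h]
  rw [e1, ← rescale_eq_subst, coeff_rescale]
  have e2 : (d.prod fun s m => (if s = i then (0 : R) else 1) ^ m) = 1 := by
    apply Finset.prod_eq_one
    intro s hs
    have : s ≠ i := by
      rintro rfl
      exact (Finsupp.mem_support_iff.1 hs) hd
    simp [this]
  rw [e2, one_mul]

theorem rc_hs_kill [DecidableEq τ] [Finite τ] (i : τ) :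
    HasSubst (fun j => if j = i then (0 : MvPowerSeries τ R) else X j) :=
  hasSubst_of_constantCoeff_zero fun j => by
    by_cases h : j = i <;> simp [h]

theorem rc_fadd_univ (F : FormalGroup R) :
    ∃ r, F.toPowerSeries = X 0 + X 1 + X 0 * X 1 * r := by
  have k0 : ∀ d : Fin 2 →₀ ℕ, d 0 = 0 → coeff d (F.toPowerSeries - X 0 - X 1) = 0 := by
    intro d hd
    have hs := rc_hs_kill (R := R) (0 : Fin 2)
    rw [← rc_coeff_kill 0 _ d hd, ← fadd_X_X (F := F), subst_sub hs, subst_sub hs,
      subst_fadd hs (rc_c0X _) (rc_c0X _), subst_X hs, subst_X hs]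
    simp [zero_fadd (rc_c0X _)]
  have k1 : ∀ d : Fin 2 →₀ ℕ, d 1 = 0 → coeff d (F.toPowerSeries - X 0 - X 1) = 0 := by
    intro d hd
    have hs := rc_hs_kill (R := R) (1 : Fin 2)
    rw [← rc_coeff_kill 1 _ d hd, ← fadd_X_X (F := F), subst_sub hs, subst_sub hs,
      subst_fadd hs (rc_c0X _) (rc_c0X _), subst_X hs, subst_X hs]
    simp [fadd_zero (rc_c0X _)]
  obtain ⟨h, hh⟩ := X_dvd_iff.2 k0
  have k2 : ∀ d : Fin 2 →₀ ℕ, d 1 = 0 → coeff d h = 0 := by
    intro d hd
    have := k1 (Finsupp.single 0 1 + d) (by simpa using hd)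
    rwa [hh, X_def, coeff_add_monomial_mul, one_mul] at this
  obtain ⟨r, rfl⟩ := X_dvd_iff.2 k2
  exact ⟨r, by linear_combination hh⟩

theorem fadd_eq (F : FormalGroup R) (ha : constantCoeff a = 0) (hb : constantCoeff b = 0) :
    ∃ z, fadd F a b = a + b + a * b * z := by
  obtain ⟨r, hr⟩ := rc_fadd_univ F
  have hs := hs2 ha hb
  refine ⟨subst ![a, b] r, ?_⟩
  rw [fadd]
  conv_lhs => rw [hr]
  rw [subst_add hs, subst_add hs, subst_mul hs, subst_mul hs, subst_X hs, subst_X hs]
  rfl

theorem rc_coeff_single_mul (f g : MvPowerSeries σ R) (i : σ) :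
    coeff (Finsupp.single i 1) (f * g) = constantCoeff f * coeff (Finsupp.single i 1) g
      + constantCoeff g * coeff (Finsupp.single i 1) f := by
  have key : ∀ h : MvPowerSeries σ R,
      coeff (Finsupp.single i 1) h = constantCoeff (pderiv R i h) := by
    intro h
    rw [← coeff_zero_eq_constantCoeff_apply, coeff_pderiv]
    simp
  rw [key, key, key, Derivation.leibniz]
  simp

theorem rc_coeff_single_fadd (F : FormalGroup R) (ha : constantCoeff a = 0)
    (hb : constantCoeff b = 0) (i : σ) : coeff (Finsupp.single i 1) (fadd F a b)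
      = coeff (Finsupp.single i 1) a + coeff (Finsupp.single i 1) b := by
  obtain ⟨z, hz⟩ := fadd_eq F ha hb
  rw [hz, map_add, map_add, rc_coeff_single_mul, rc_coeff_single_mul, map_mul, ha, hb]
  simp

theorem rc_fadd_sub_univ (F : FormalGroup R) :
    ∃ u : MvPowerSeries (Fin 3) R, constantCoeff u = 1 ∧
      fadd F (X 0) (X 1 + X 2) - fadd F (X 0) (X 1) = X 2 * u := by
  have h12 : constantCoeff (X 1 + X 2 : MvPowerSeries (Fin 3) R) = 0 := by simp
  have k0 : ∀ d : Fin 3 →₀ ℕ, d 2 = 0 →
      coeff d (fadd F (X 0) (X 1 + X 2) - fadd F (X 0) (X 1) : MvPowerSeries (Fin 3) R) = 0 := by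
    intro d hd
    have hs := rc_hs_kill (R := R) (2 : Fin 3)
    rw [← rc_coeff_kill 2 _ d hd, subst_sub hs, subst_fadd hs (rc_c0X _) h12,
      subst_fadd hs (rc_c0X _) (rc_c0X _), subst_add hs, subst_X hs, subst_X hs, subst_X hs]
    simp
  obtain ⟨u, hu⟩ := X_dvd_iff.2 k0
  refine ⟨u, ?_, hu⟩
  have h := congrArg (coeff (Finsupp.single (2 : Fin 3) 1)) hu
  rw [map_sub, rc_coeff_single_fadd F (rc_c0X _) h12, rc_coeff_single_fadd F (rc_c0X _) (rc_c0X _),
    rc_coeff_single_mul, map_add, coeff_index_single_self_X] at h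
  simpa using h.symm

theorem rc_fadd_sub_fadd (F : FormalGroup R) (ha : constantCoeff a = 0)
    (hb : constantCoeff b = 0) (he : constantCoeff e = 0) :
    ∃ u, constantCoeff u = 1 ∧ fadd F a (b + e) - fadd F a b = e * u := by
  obtain ⟨u, hu1, hu⟩ := rc_fadd_sub_univ F
  have h0 : ∀ i, constantCoeff (![a, b, e] i) = 0 := fun i => by fin_cases i <;> simpa
  have hs : HasSubst ![a, b, e] := hasSubst_of_constantCoeff_zero h0
  have h12 : constantCoeff (X 1 + X 2 : MvPowerSeries (Fin 3) R) = 0 := by simp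
  have h := congrArg (subst ![a, b, e]) hu
  rw [subst_sub hs, subst_fadd hs (rc_c0X _) h12, subst_fadd hs (rc_c0X _) (rc_c0X _),
    subst_add hs, subst_mul hs, subst_X hs, subst_X hs, subst_X hs] at h
  refine ⟨subst ![a, b, e] u, ?_, h⟩
  have h1 : constantCoeff (subst ![a, b, e] (u - 1)) = 0 :=
    constantCoeff_subst_eq_zero hs h0 (by rw [map_sub, hu1, map_one, sub_self])
  have h2 : subst ![a, b, e] (1 : MvPowerSeries (Fin 3) R) = 1 := by
    rw [← coe_substAlgHom hs]; exact map_one _
  rwa [subst_sub hs, h2, map_sub, map_one, sub_eq_zero] at h1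

theorem fadd_sub_fadd (F : FormalGroup R) {b' : MvPowerSeries σ R} (ha : constantCoeff a = 0)
    (hb : constantCoeff b = 0) (hb' : constantCoeff b' = 0) :
    ∃ u, IsUnit u ∧ fadd F a b - fadd F a b' = (b - b') * u := by
  have he : constantCoeff (b - b') = 0 := by rw [map_sub, hb, hb', sub_zero]
  obtain ⟨u, hu1, hu⟩ := rc_fadd_sub_fadd F ha hb' he
  rw [add_sub_cancel] at hu
  exact ⟨u, isUnit_iff_constantCoeff.2 (hu1 ▸ isUnit_one), hu⟩

/-- limits of sequences whose consecutive differences lie in the powers of `I` -/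
theorem rc_exists_lim {A : Type*} [CommRing A] (I : Ideal A) [IsPrecomplete I A] (f : ℕ → A)
    (h : ∀ k, f (k + 1) - f k ∈ I ^ k) : ∃ L, ∀ k, L - f k ∈ I ^ k := by
  have h1 : ∀ m n, m ≤ n → f n - f m ∈ I ^ m := by
    intro m n hmn
    induction n, hmn using Nat.le_induction with
    | base => simp
    | succ n hmn ih =>
      have : f (n + 1) - f m = (f (n + 1) - f n) + (f n - f m) := by ring
      rw [this]
      exact Ideal.add_mem _ (Ideal.pow_le_pow_right hmn (h n)) ih
  obtain ⟨L, hL⟩ := IsPrecomplete.prec' (I := I) f (fun {m n} hmn => by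
    rw [SModEq.sub_mem, smul_eq_mul, Ideal.mul_top, ← neg_sub]
    exact neg_mem (h1 m n hmn))
  refine ⟨L, fun k => ?_⟩
  have := hL k
  rw [SModEq.sub_mem, smul_eq_mul, Ideal.mul_top] at this
  rw [← neg_sub]
  exact neg_mem this

theorem rc_mem_span_X [Finite σ] (ha : constantCoeff a = 0) :
    a ∈ Ideal.span (Set.range (X : σ → MvPowerSeries σ R)) := by
  have := mem_pow_span_X 1 a (fun d hd => by
    have : d = 0 := (Finsupp.degree_eq_zero_iff d).1 (by omega)
    subst this; exact ha)
  rwa [pow_one] at this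

theorem rc_c0_of_mem_span_X (ha : a ∈ Ideal.span (Set.range (X : σ → MvPowerSeries σ R))) :
    constantCoeff a = 0 := by
  have : Ideal.span (Set.range (X : σ → MvPowerSeries σ R)) ≤ RingHom.ker constantCoeff := by
    rw [Ideal.span_le]
    rintro _ ⟨i, rfl⟩
    exact constantCoeff_X i
  exact this ha

theorem exists_fsub [Finite σ] (F : FormalGroup R) (ha : constantCoeff a = 0)
    (hb : constantCoeff b = 0) :
    ∃ e, constantCoeff e = 0 ∧ fadd F a e = b ∧ b - a ∣ e := by
  set m : Ideal (MvPowerSeries σ R) := Ideal.span (Set.range X) with hm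
  let s : ℕ → MvPowerSeries σ R := fun k =>
    Nat.rec (motive := fun _ => MvPowerSeries σ R) 0 (fun _ x => x + (b - fadd F a x)) k
  have s0 : s 0 = 0 := rfl
  have sS : ∀ k, s (k + 1) = s k + (b - fadd F a (s k)) := fun _ => rfl
  have hc : ∀ k, constantCoeff (s k) = 0 := by
    intro k
    induction k with
    | zero => rw [s0, map_zero]
    | succ k ih => rw [sS, map_add, map_sub, ih, hb, c0_fadd ha ih]; simp
  have hδ0 : ∀ k, constantCoeff (b - fadd F a (s k)) = 0 := fun k => by
    rw [map_sub, hb, c0_fadd ha (hc k), sub_zero]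
  have hδ : ∀ k, b - fadd F a (s k) ∈ m ^ k := by
    intro k
    induction k with
    | zero => simp
    | succ k ih =>
      obtain ⟨u, hu1, hu⟩ := rc_fadd_sub_fadd F ha (hc k) (hδ0 k)
      have e1 : b - fadd F a (s (k + 1)) = (b - fadd F a (s k)) * (1 - u) := by
        rw [sS]; linear_combination -hu
      rw [e1, pow_succ]
      exact Ideal.mul_mem_mul ih (rc_mem_span_X (by rw [map_sub, hu1, map_one, sub_self]))
  obtain ⟨L, hL⟩ := rc_exists_lim m s (fun k => by rw [sS, add_sub_cancel_left]; exact hδ k)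
  have hL0 : constantCoeff L = 0 := by
    have h1 := hL 1
    rw [pow_one] at h1
    have h2 := rc_c0_of_mem_span_X h1
    rwa [map_sub, hc, sub_zero] at h2
  have key : fadd F a L = b := by
    rw [← sub_eq_zero]
    apply eq_zero_of_mem_pow m
    intro k
    obtain ⟨u, -, hu⟩ := fadd_sub_fadd F ha hL0 (hc k)
    have e1 : fadd F a L - b = (L - s k) * u - (b - fadd F a (s k)) := by linear_combination hu
    rw [e1]
    exact Ideal.sub_mem _ (Ideal.mul_mem_right _ _ (hL k)) (hδ k)
  refine ⟨L, hL0, key, ?_⟩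
  obtain ⟨u, hu1, hu⟩ := fadd_sub_fadd F ha hL0 (map_zero _)
  rw [key, fadd_zero ha, sub_zero] at hu
  rw [hu]
  exact (hu1.mul_right_dvd).2 dvd_rfl

theorem coeff_single_fadd (F : FormalGroup R) (ha : constantCoeff a = 0)
    (hb : constantCoeff b = 0) (i : σ) : coeff (Finsupp.single i 1) (fadd F a b)
      = coeff (Finsupp.single i 1) a + coeff (Finsupp.single i 1) b :=
  rc_coeff_single_fadd F ha hb i

theorem coeff_single_psubst (ha : constantCoeff a = 0) (w : PowerSeries R) (i : σ) :
    coeff (Finsupp.single i 1) (w.subst a)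
      = PowerSeries.coeff 1 w * coeff (Finsupp.single i 1) a := by
  obtain ⟨z, hz⟩ := taylor1 (a := 0) (map_zero _) ha w
  rw [zero_add, PowerSeries.subst_zero_eq_C_constantCoeff,
    PowerSeries.subst_zero_eq_C_constantCoeff] at hz
  have e1 : PowerSeries.constantCoeff (PowerSeries.derivative R w) = PowerSeries.coeff 1 w := by
    rw [← PowerSeries.coeff_zero_eq_constantCoeff_apply, PowerSeries.coeff_derivative]
    simp
  rw [hz, map_add, map_add, pow_two, rc_coeff_single_mul (a * a), rc_coeff_single_mul a a,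
    map_C, map_C, coeff_C_mul, map_mul constantCoeff, ha, e1]
  classical
  simp [coeff_C]

theorem coeff_one_mulSeries (F : FormalGroup R) (j : ℕ) :
    PowerSeries.coeff 1 (mulSeries F j) = j := by
  induction j with
  | zero => simp [mulSeries, sumSeries]
  | succ j ih =>
    have h := coeff_single_fadd F (c0_mulSeries (F := F) j)
      (PowerSeries.constantCoeff_X (R := R)) ()
    have e1 : PowerSeries.coeff 1 (mulSeries F (j + 1))
        = PowerSeries.coeff 1 (mulSeries F j) + PowerSeries.coeff 1 (PowerSeries.X : PowerSeries R) :=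
      h
    rw [e1, ih, PowerSeries.coeff_one_X]
    push_cast
    rfl

/-- a series with invertible linear coefficient can be cancelled on the left -/
theorem psubst_inj {w : PowerSeries R} (hw0 : PowerSeries.constantCoeff w = 0)
    (hw : IsUnit (PowerSeries.coeff 1 w)) (ha : constantCoeff a = 0) (hb : constantCoeff b = 0)
    (h : w.subst a = w.subst b) : a = b := by
  have h1 := congrArg (fun x => (w.substInvOfIsUnit hw).subst x) h
  simp only [← psubst_psubst ha hw0, ← psubst_psubst hb hw0,
    PowerSeries.subst_substInvOfIsUnit_left w hw0 hw] at h1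
  rwa [PowerSeries.subst_X (hs1 ha), PowerSeries.subst_X (hs1 hb)] at h1

/-- the inverse of an isomorphism -/
theorem IsIso.symm {w : PowerSeries R} (hw : IsIso F G w) :
    IsIso G F (w.substInvOfIsUnit hw.2) := by
  have hv0 := PowerSeries.constantCoeff_substInvOfIsUnit w hw.2
  have key : ∀ x : MvPowerSeries (Fin 2) R, constantCoeff x = 0 →
      w.subst ((w.substInvOfIsUnit hw.2).subst x) = x := by
    intro x hx
    rw [← psubst_psubst hx hv0, PowerSeries.subst_substInvOfIsUnit_right w hw.1.1 hw.2,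
      PowerSeries.subst_X (hs1 hx)]
  refine ⟨⟨hv0, ?_⟩, ?_⟩
  · have h0 := c0_subst (rc_c0X (R := R) (0 : Fin 2)) hv0
    have h1 := c0_subst (rc_c0X (R := R) (1 : Fin 2)) hv0
    apply psubst_inj hw.1.1 hw.2 (c0_subst G.zero_constantCoeff hv0) (c0_fadd h0 h1)
    rw [hw.1.fadd h0 h1, key _ G.zero_constantCoeff, key _ (rc_c0X _), key _ (rc_c0X _), fadd_X_X]
  · rw [PowerSeries.coeff_one_substInvOfIsUnit]
    exact Units.isUnit _

theorem IsIso.comp {H : FormalGroup R} {v w : PowerSeries R} (hv : IsIso F G v)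
    (hw : IsIso G H w) : IsIso F H (w.subst v) := by
  refine ⟨hv.1.comp hw.1, ?_⟩
  have h : PowerSeries.coeff 1 (w.subst v) = PowerSeries.coeff 1 w * PowerSeries.coeff 1 v :=
    coeff_single_psubst (a := v) hv.1.1 w ()
  rw [h]
  exact hw.2.mul hv.2

theorem IsIso.map {w : PowerSeries R} (hw : IsIso F G w) (ρ : R →+* R') :
    IsIso (F.map ρ) (G.map ρ) (PowerSeries.map ρ w) := by
  refine ⟨hw.1.map ρ, ?_⟩
  rw [PowerSeries.coeff_map]
  exact hw.2.map ρ

end

end Vale.Agent.P217
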