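import Vale.Agent.P217.RCong

/-! P217: dual numbers, directional derivatives and the chain rule.
PLAN.
* `isAdicComplete_dual`: `DualNumber A = A × A` as an `A`-module, so it is `I`-adically complete as a
  module (product; or prove Hausdorff / precomplete componentwise); `IsAdicComplete.map_algebraMap_iff`.
* `good_dual`: `(inl x + eps y)^(N+1) = inl (x^(N+1)) + (N+1) x^N y eps` lies in `I.map inl`.
* `dualHom`: `f ↦ (ψ f, D f)` is a ring homomorphism when `D` is additive, `D 1 = 0` and satisfies Leibniz.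
* `ev_dual`: both sides are ring homomorphisms (`dualHom` with `D f = ∑ v i * ev (∂_i f)`), `eq_ev`.
* `pderiv_subst`: `dualHom (substAlgHom) (D ∘ subst)` sends `X i` to `(a i, D (a i))`, constants to
  `(C r, 0)`; by `eq_ev`, `ev_dual` and `subst_eq_ev` the second components agree.
* `ev_add_sub_mem`: `f ↦ mk (ev a f + ∑ δ_i ev a (∂_i f))` is a ring homomorphism to `A ⧸ J` (compose
  `ev_dual`-type Leibniz with `δ_i δ_j ∈ J`); compare with `mk ∘ ev (a + δ)` by `hom_sub_mem` (first ideal `⊥`,
  second ideal the image of `span (range a ∪ range δ)`, a power of which lies in `I`), pull back, use `hJ`.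
* `snd_psubst`: write `w = map inl w0 + C eps * map inl w1`, `a = map inl a0 + C eps * map inl a1`
  (`dual_decomp`), use `taylor1` with `e = C eps * map inl a1`, `e^2 = 0`, and `map_psubst`. -/

namespace Vale.Agent.P217

open MvPowerSeries TrivSqZeroExt

noncomputable section

variable {σ τ R A T : Type*} [CommRing R] [CommRing A] [CommRing T]

theorem rd_mem_map (J : Ideal A) (x : DualNumber A) :
    x ∈ J.map (algebraMap A (DualNumber A)) ↔ fst x ∈ J ∧ snd x ∈ J := by
  constructor
  · intro hx
    refine Submodule.span_induction (p := fun x _ => fst x ∈ J ∧ snd x ∈ J) ?_ ?_ ?_ ?_ hx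
    · rintro _ ⟨y, hy, rfl⟩
      exact ⟨hy, J.zero_mem⟩
    · exact ⟨J.zero_mem, J.zero_mem⟩
    · intro x y _ _ hx hy
      exact ⟨J.add_mem hx.1 hy.1, J.add_mem hx.2 hy.2⟩
    · intro c x _ hx
      rw [smul_eq_mul, fst_mul, DualNumber.snd_mul]
      exact ⟨J.mul_mem_left _ hx.1, J.add_mem (J.mul_mem_left _ hx.2) (J.mul_mem_left _ hx.1)⟩
  · rintro ⟨h1, h2⟩
    have e : x = algebraMap A (DualNumber A) (fst x)
        + algebraMap A (DualNumber A) (snd x) * DualNumber.eps := by
      ext <;> simp [algebraMap_eq_inl]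
    rw [e]
    exact Ideal.add_mem _ (Ideal.mem_map_of_mem _ h1)
      (Ideal.mul_mem_right _ _ (Ideal.mem_map_of_mem _ h2))

theorem isAdicComplete_dual (I : Ideal A) [IsAdicComplete I A] :
    IsAdicComplete (I.map (algebraMap A (DualNumber A))) (DualNumber A) := by
  have key : ∀ (n : ℕ) (x y : DualNumber A),
      x ≡ y [SMOD ((I.map (algebraMap A (DualNumber A))) ^ n • ⊤ :
        Submodule (DualNumber A) (DualNumber A))] ↔
      (fst x ≡ fst y [SMOD (I ^ n • ⊤ : Submodule A A)]) ∧
        (snd x ≡ snd y [SMOD (I ^ n • ⊤ : Submodule A A)]) := by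
    intro n x y
    rw [SModEq.sub_mem, SModEq.sub_mem, SModEq.sub_mem, smul_eq_mul, smul_eq_mul, Ideal.mul_top,
      Ideal.mul_top, ← Ideal.map_pow, rd_mem_map, fst_sub, snd_sub]
  refine { haus' := ?_, prec' := ?_ }
  · intro x hx
    ext
    · exact IsHausdorff.haus' (I := I) _ fun n => ((key n x 0).1 (hx n)).1
    · exact IsHausdorff.haus' (I := I) _ fun n => ((key n x 0).1 (hx n)).2
  · intro f hf
    obtain ⟨L1, h1⟩ := IsPrecomplete.prec' (I := I) (fun n => fst (f n))
      (fun hmn => ((key _ _ _).1 (hf hmn)).1)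
    obtain ⟨L2, h2⟩ := IsPrecomplete.prec' (I := I) (fun n => snd (f n))
      (fun hmn => ((key _ _ _).1 (hf hmn)).2)
    refine ⟨inl L1 + inr L2, fun n => (key _ _ _).2 ⟨?_, ?_⟩⟩
    · simpa using h1 n
    · simpa using h2 n

theorem good_dual {a : σ → A} (hg : Good a) (v : σ → A) :
    Good fun i => (inl (a i) + inr (v i) : DualNumber A) := by
  obtain ⟨I, hI, ha⟩ := hg
  refine ⟨I.map (algebraMap A (DualNumber A)), isAdicComplete_dual I, fun i => ?_⟩
  refine Ideal.add_mem _ ?_ ?_
  · exact Ideal.map_radical_le (algebraMap A (DualNumber A)) (Ideal.mem_map_of_mem _ (ha i))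
  · refine ⟨2, ?_⟩
    rw [pow_two, inr_mul_inr]
    exact Ideal.zero_mem _

/-- the ring homomorphism `f ↦ ψ f + (D f) ε` -/
def dualHom (ψ : T →+* A) (D : T →+ A) (h1 : D 1 = 0)
    (hm : ∀ f g, D (f * g) = ψ f * D g + ψ g * D f) : T →+* DualNumber A where
  toFun f := inl (ψ f) + inr (D f)
  map_one' := by
    ext
    · simp
    · simp [h1]
  map_mul' := by
    intro f g
    ext
    · simp
    · simp [hm, mul_comm]
  map_zero' := by
    ext
    · simp
    · simp
  map_add' := by
    intro f g
    ext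
    · simp
    · simp

theorem rd_dualHom_apply (ψ : T →+* A) (D : T →+ A) (h1 : D 1 = 0)
    (hm : ∀ f g, D (f * g) = ψ f * D g + ψ g * D f) (f : T) :
    dualHom ψ D h1 hm f = inl (ψ f) + inr (D f) := rfl

/-- the directional derivative along `v`, followed by `ψ` -/
def rdD [Fintype σ] (ψ : MvPowerSeries σ R →+* A) (v : σ → A) : MvPowerSeries σ R →+ A where
  toFun f := ∑ i, v i * ψ (pderiv R i f)
  map_zero' := by simp
  map_add' f g := by simp [mul_add, Finset.sum_add_distrib]

theorem rdD_apply [Fintype σ] (ψ : MvPowerSeries σ R →+* A) (v : σ → A) (f : MvPowerSeries σ R) :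
    rdD ψ v f = ∑ i, v i * ψ (pderiv R i f) := rfl

theorem rdD_C [Fintype σ] (ψ : MvPowerSeries σ R →+* A) (v : σ → A) (r : R) :
    rdD ψ v (C r) = 0 := by simp [rdD_apply]

theorem rdD_one [Fintype σ] (ψ : MvPowerSeries σ R →+* A) (v : σ → A) : rdD ψ v 1 = 0 := by
  rw [← map_one (C : R →+* MvPowerSeries σ R), rdD_C]

theorem rdD_X [Fintype σ] (ψ : MvPowerSeries σ R →+* A) (v : σ → A) (i : σ) :
    rdD ψ v (X i) = v i := by
  rw [rdD_apply, Finset.sum_eq_single i]
  · simp
  · intro j _ hj
    rw [pderiv_X_of_ne hj.symm]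
    simp
  · simp

theorem rdD_mul [Fintype σ] (ψ : MvPowerSeries σ R →+* A) (v : σ → A) (f g : MvPowerSeries σ R) :
    rdD ψ v (f * g) = ψ f * rdD ψ v g + ψ g * rdD ψ v f := by
  simp only [rdD_apply, Derivation.leibniz, smul_eq_mul, map_add, map_mul, Finset.mul_sum,
    ← Finset.sum_add_distrib]
  refine Finset.sum_congr rfl fun i _ => ?_
  ring

theorem ev_dual [Fintype σ] (φ : R →+* A) {a : σ → A} (hg : Good a) (v : σ → A)
    (f : MvPowerSeries σ R) :
    ev ((algebraMap A (DualNumber A)).comp φ) (fun i => (inl (a i) + inr (v i) : DualNumber A)) f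
      = inl (ev φ a f) + inr (∑ i, v i * ev φ a (pderiv R i f)) := by
  have h := eq_ev (φ := (algebraMap A (DualNumber A)).comp φ) (good_dual hg v)
    (dualHom (ev φ a) (rdD (ev φ a) v) (rdD_one _ _) (rdD_mul _ _))
    (fun r => by rw [rd_dualHom_apply, rdD_C, ev_C, inr_zero, add_zero]; rfl)
    (fun i => by rw [rd_dualHom_apply, rdD_X, ev_X φ hg])
  rw [← h]
  rfl

/-- chain rule -/
theorem pderiv_subst [Fintype σ] [Finite τ] {a : σ → MvPowerSeries τ R}
    (ha : ∀ i, constantCoeff (a i) = 0) (t : τ) (f : MvPowerSeries σ R) :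
    pderiv R t (subst a f) = ∑ i, pderiv R t (a i) * subst a (pderiv R i f) := by
  have hg : Good a := good_of_constantCoeff ha
  let D : MvPowerSeries σ R →+ MvPowerSeries τ R :=
    { toFun := fun f => pderiv R t (ev C a f)
      map_zero' := by simp
      map_add' := fun f g => by simp }
  have hD : ∀ f, D f = pderiv R t (ev C a f) := fun _ => rfl
  have h := eq_ev (φ := (algebraMap (MvPowerSeries τ R) (DualNumber (MvPowerSeries τ R))).comp C)
    (good_dual hg fun i => pderiv R t (a i))
    (dualHom (ev C a) D (by rw [hD, map_one, pderiv_one])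
      (fun f g => by rw [hD, hD, hD, map_mul, Derivation.leibniz]; rfl))
    (fun r => by rw [rd_dualHom_apply, hD, ev_C, pderiv_C, inr_zero, add_zero]; rfl)
    (fun i => by rw [rd_dualHom_apply, hD, ev_X C hg])
  have h2 := ev_dual (C : R →+* MvPowerSeries τ R) hg (fun i => pderiv R t (a i)) f
  rw [← h, rd_dualHom_apply, hD] at h2
  have h3 := congrArg snd h2
  simp only [snd_add, snd_inl, snd_inr, zero_add] at h3
  simp only [subst_eq_ev ha]
  exact h3

theorem pderiv_psubst [Finite τ] {a : MvPowerSeries τ R} (ha : constantCoeff a = 0) (t : τ)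
    (w : PowerSeries R) :
    pderiv R t (w.subst a) = (PowerSeries.derivative R w).subst a * pderiv R t a := by
  have h := pderiv_subst (σ := Unit) (a := fun _ => a) (fun _ => ha) t w
  rw [Fintype.sum_unique, mul_comm] at h
  exact h

/-- first order Taylor expansion of an evaluation: `f(a + δ) = f(a) + ∑ δ_i ∂_i f(a)` modulo `(δ)^2`,
for a closed ideal `J` containing all products `δ_i δ_j` -/
theorem ev_add_sub_mem [Fintype σ] (φ : R →+* A) (I : Ideal A) [IsAdicComplete I A] {a δ : σ → A}
    (ha : ∀ i, a i ∈ I.radical) (hδ : ∀ i, δ i ∈ I.radical) (J : Ideal A)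
    (hJ : ∀ x, (∀ k, x ∈ J ⊔ I ^ k) → x ∈ J) (hδJ : ∀ i j, δ i * δ j ∈ J)
    (f : MvPowerSeries σ R) :
    ev φ (fun i => a i + δ i) f - ev φ a f - ∑ i, δ i * ev φ a (pderiv R i f) ∈ J := by
  have hg : Good a := Good.of_mem I ha
  have hg' : Good fun i => a i + δ i := Good.of_mem I fun i => Ideal.add_mem _ (ha i) (hδ i)
  have hDD : ∀ f g, rdD (ev φ a) δ f * rdD (ev φ a) δ g ∈ J := by
    intro f g
    rw [rdD_apply, rdD_apply, Finset.sum_mul_sum]
    refine Ideal.sum_mem _ fun i _ => Ideal.sum_mem _ fun j _ => ?_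
    rw [mul_mul_mul_comm]
    exact J.mul_mem_right _ (hδJ i j)
  let χ : MvPowerSeries σ R →+* A ⧸ J :=
    { toFun := fun f => Ideal.Quotient.mk J (ev φ a f + rdD (ev φ a) δ f)
      map_one' := by rw [rdD_one, map_one, add_zero, map_one]
      map_mul' := fun f g => by
        rw [← map_mul (Ideal.Quotient.mk J), Ideal.Quotient.eq, rdD_mul, map_mul]
        have e : ev φ a f * ev φ a g + (ev φ a f * rdD (ev φ a) δ g + ev φ a g * rdD (ev φ a) δ f)
            - (ev φ a f + rdD (ev φ a) δ f) * (ev φ a g + rdD (ev φ a) δ g)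
            = -(rdD (ev φ a) δ f * rdD (ev φ a) δ g) := by ring
        rw [e]
        exact neg_mem (hDD f g)
      map_zero' := by simp
      map_add' := fun f g => by
        rw [← map_add (Ideal.Quotient.mk J), map_add (ev φ a), map_add (rdD (ev φ a) δ)]
        congr 1
        ring }
  have hχ : ∀ f, χ f = Ideal.Quotient.mk J (ev φ a f + rdD (ev φ a) δ f) := fun _ => rfl
  obtain ⟨L, hL⟩ := exists_pow_span_le (I := I) (a := fun i => a i + δ i)
    (fun i => Ideal.add_mem _ (ha i) (hδ i))
  apply hJ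
  intro k
  have hX : ∀ i, χ (X i) = Ideal.Quotient.mk J (a i + δ i) := fun i => by
    rw [hχ, rdD_X, ev_X φ hg]
  have hX' : ∀ i, ((Ideal.Quotient.mk J).comp (ev φ fun i => a i + δ i)) (X i)
      = Ideal.Quotient.mk J (a i + δ i) := fun i => by
    rw [RingHom.comp_apply, ev_X φ hg']
  have hm : ∀ i, Ideal.Quotient.mk J (a i + δ i)
      ∈ (Ideal.span (Set.range fun i => a i + δ i)).map (Ideal.Quotient.mk J) := fun i =>
    Ideal.mem_map_of_mem _ (Ideal.subset_span ⟨i, rfl⟩)
  have h := hom_sub_mem (ψ := (Ideal.Quotient.mk J).comp (ev φ fun i => a i + δ i)) (ψ' := χ) ⊥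
    ((Ideal.span (Set.range fun i => a i + δ i)).map (Ideal.Quotient.mk J))
    (fun r => by
      rw [hχ, rdD_C, RingHom.comp_apply, ev_C, ev_C, add_zero, sub_self]; exact Ideal.zero_mem _)
    (fun i => by rw [hX, hX', sub_self]; exact Ideal.zero_mem _)
    (fun i => by rw [hX']; exact hm i) (fun i => by rw [hX]; exact hm i) (L * k) f
  rw [bot_sup_eq, ← Ideal.map_pow, pow_mul, hχ, RingHom.comp_apply, ← map_sub] at h
  have h2 := Ideal.map_mono (f := Ideal.Quotient.mk J) (Ideal.pow_right_mono hL k) h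
  rw [← Ideal.mem_comap, Ideal.comap_map_quotientMk] at h2
  rw [sub_sub]
  exact h2

/-- first component of a series over the dual numbers -/
def fstS (a : MvPowerSeries σ (DualNumber A)) : MvPowerSeries σ A :=
  MvPowerSeries.map (fstHom A A A).toRingHom a

/-- second component of a series over the dual numbers -/
def sndS (a : MvPowerSeries σ (DualNumber A)) : MvPowerSeries σ A := fun d => snd (coeff d a)

theorem coeff_fstS (a : MvPowerSeries σ (DualNumber A)) (d : σ →₀ ℕ) :
    coeff d (fstS a) = fst (coeff d a) := rfl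

theorem coeff_sndS (a : MvPowerSeries σ (DualNumber A)) (d : σ →₀ ℕ) :
    coeff d (sndS a) = snd (coeff d a) := rfl

theorem dual_decomp (a : MvPowerSeries σ (DualNumber A)) :
    a = MvPowerSeries.map (algebraMap A (DualNumber A)) (fstS a)
      + C DualNumber.eps * MvPowerSeries.map (algebraMap A (DualNumber A)) (sndS a) := by
  ext1 d
  rw [map_add, coeff_C_mul, coeff_map, coeff_map, coeff_fstS, coeff_sndS]
  ext <;> simp [algebraMap_eq_inl]

theorem sndS_add (a b : MvPowerSeries σ (DualNumber A)) : sndS (a + b) = sndS a + sndS b := by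
  ext1 d
  rw [map_add, coeff_sndS, coeff_sndS, coeff_sndS, map_add, snd_add]

theorem sndS_mul (a b : MvPowerSeries σ (DualNumber A)) :
    sndS (a * b) = fstS a * sndS b + fstS b * sndS a := by
  classical
  ext1 d
  rw [mul_comm (fstS b), map_add, coeff_sndS, coeff_mul, coeff_mul, coeff_mul, snd_sum,
    ← Finset.sum_add_distrib]
  refine Finset.sum_congr rfl fun q _ => ?_
  rw [DualNumber.snd_mul, coeff_fstS, coeff_fstS, coeff_sndS, coeff_sndS]

theorem sndS_natCast_mul (j : ℕ) (a : MvPowerSeries σ (DualNumber A)) :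
    sndS (C (j : DualNumber A) * a) = C (j : A) * sndS a := by
  ext1 d
  rw [coeff_sndS, coeff_C_mul, coeff_C_mul, DualNumber.snd_mul, coeff_sndS]
  simp

theorem rd_fstS_map (x : MvPowerSeries σ A) :
    fstS (MvPowerSeries.map (algebraMap A (DualNumber A)) x) = x := by
  ext1 d
  rw [coeff_fstS, coeff_map]
  rfl

theorem rd_sndS_map (x : MvPowerSeries σ A) :
    sndS (MvPowerSeries.map (algebraMap A (DualNumber A)) x) = 0 := by
  ext1 d
  rw [coeff_sndS, coeff_map]
  rfl

theorem rd_sndS_eps_mul (x : MvPowerSeries σ (DualNumber A)) :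
    sndS (C DualNumber.eps * x) = fstS x := by
  ext1 d
  rw [coeff_sndS, coeff_C_mul, DualNumber.snd_mul, coeff_fstS]
  simp

theorem rd_fstS_psubst {a : MvPowerSeries σ (DualNumber A)} (ha : constantCoeff a = 0)
    (w : PowerSeries (DualNumber A)) :
    fstS (w.subst a) = PowerSeries.subst (fstS a) (fstS w : PowerSeries A) :=
  map_psubst _ ha w

theorem rd_map_derivative {R' : Type*} [CommRing R'] (ρ : R →+* R') (w : PowerSeries R) :
    PowerSeries.map ρ (PowerSeries.derivative R w)
      = PowerSeries.derivative R' (PowerSeries.map ρ w) := by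
  ext n
  simp [PowerSeries.coeff_derivative]

theorem snd_psubst {a : MvPowerSeries σ (DualNumber A)} (ha : constantCoeff a = 0)
    (w : PowerSeries (DualNumber A)) :
    sndS (w.subst a) = PowerSeries.subst (fstS a) (sndS w : PowerSeries A)
      + (PowerSeries.derivative A (fstS w : PowerSeries A)).subst (fstS a) * sndS a := by
  have h0 : constantCoeff (fstS a) = 0 := c0_map _ ha
  have h1 : constantCoeff (sndS a) = 0 := by
    rw [← coeff_zero_eq_constantCoeff_apply, coeff_sndS, coeff_zero_eq_constantCoeff_apply, ha]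
    rfl
  have h0' := c0_map (algebraMap A (DualNumber A)) h0
  have h1' : constantCoeff (C DualNumber.eps
      * MvPowerSeries.map (algebraMap A (DualNumber A)) (sndS a)) = 0 := by
    rw [map_mul, c0_map _ h1, mul_zero]
  obtain ⟨z, hz⟩ := taylor1 h0' h1'
    (PowerSeries.map (algebraMap A (DualNumber A)) (fstS w : PowerSeries A))
  rw [← dual_decomp, mul_pow, ← map_pow, DualNumber.eps_pow_two, map_zero, zero_mul, zero_mul,
    add_zero, ← map_psubst _ h0, ← rd_map_derivative, ← map_psubst _ h0] at hz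
  have hw : w = PowerSeries.map (algebraMap A (DualNumber A)) (fstS w : PowerSeries A)
      + PowerSeries.C DualNumber.eps
        * PowerSeries.map (algebraMap A (DualNumber A)) (sndS w : PowerSeries A) := dual_decomp w
  have e1 : w.subst a = (PowerSeries.map (algebraMap A (DualNumber A)) (fstS w : PowerSeries A)).subst a
      + C DualNumber.eps
        * (PowerSeries.map (algebraMap A (DualNumber A)) (sndS w : PowerSeries A)).subst a := by
    conv_lhs => rw [hw]
    rw [PowerSeries.subst_add (hs1 ha), PowerSeries.subst_mul (hs1 ha), PowerSeries.subst_C]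
  have e2 : (fstS (PowerSeries.map (algebraMap A (DualNumber A)) (sndS w : PowerSeries A))
      : PowerSeries A) = sndS w := rd_fstS_map _
  rw [e1, hz, sndS_add, sndS_add, rd_sndS_map, rd_sndS_eps_mul, rd_fstS_psubst ha, e2,
    mul_left_comm, rd_sndS_eps_mul, ← map_mul, rd_fstS_map, zero_add, add_comm]

end

end Vale.Agent.P217
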