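import Vale.Agent.P217.RDual

/-! P217: invariant differential and logarithm.
PLAN.
* `psi F = F_Y(X, 0)` has constant coefficient 1 (`lin_coeff_Y`); `omega F` is its inverse.
* `map_omega`: `map_subst`, `pderiv` commutes with `map` (coefficients), uniqueness of inverses.
* `psi_fadd`: apply `pderiv R 2` to `F.assoc` with `pderiv_subst` (twice), then substitute
  `![X 0, X 1, 0]`: `psi (F(X,Y)) = F_Y(X,Y) * psi(Y)`.
* `IsLog.fadd`: universal case `a = X 0`, `b = X 1`: both first derivatives of
  `l(F) - l(X0) - l(X1)` vanish (`pderiv_psubst`, `psi_fadd`; for the variable `0` use commutativity: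
  swap the variables), `pderiv.ext` (torsion free because positive integers are units); then substitute.
* `IsLog.hom`: `g = l' ∘ w` is additive for `F`; differentiate `g(F(X,Y)) = g(X) + g(Y)` in `Y` at `Y = 0`:
  `g'(X) psi(X) = g'(0)`, so `g' = g'(0) omega`, and `PowerSeries.derivative.ext`. -/

namespace Vale.Agent.P217

open MvPowerSeries

noncomputable section

variable {σ R R' : Type*} [CommRing R] [CommRing R'] {F G : FormalGroup R}

/-- `F_Y(X, 0)` -/
def psi (F : FormalGroup R) : PowerSeries R :=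
  subst ![PowerSeries.X (R := R), 0] (pderiv R (1 : Fin 2) F.toPowerSeries)

/-- the invariant differential `dX / F_Y(X, 0)` -/
def omega (F : FormalGroup R) : PowerSeries R := PowerSeries.invOfUnit (psi F) 1

theorem rlog_c0_subst {τ : Type*} [Finite σ] {a : σ → MvPowerSeries τ R}
    (ha : ∀ i, constantCoeff (a i) = 0) (f : MvPowerSeries σ R) :
    constantCoeff (subst a f) = constantCoeff f := by
  have hs := hasSubst_of_constantCoeff_zero ha
  have h1 := constantCoeff_subst_eq_zero hs ha (f := f - C (constantCoeff f)) (by simp)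
  rw [subst_sub hs, subst_C, map_sub, constantCoeff_C, sub_eq_zero] at h1
  exact h1

theorem rlog_subst2 {τ : Type*} {d : σ → MvPowerSeries τ R} (hd : HasSubst d)
    {a b : MvPowerSeries σ R} (ha : constantCoeff a = 0) (hb : constantCoeff b = 0)
    (f : MvPowerSeries (Fin 2) R) :
    subst d (subst ![a, b] f) = subst ![subst d a, subst d b] f := by
  rw [subst_comp_subst_apply (hs2 ha hb) hd]
  congr 1
  funext i; fin_cases i <;> rfl

theorem rlog_subst_zero {τ : Type*} {d : σ → MvPowerSeries τ R} (hd : HasSubst d) :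
    subst d (0 : MvPowerSeries σ R) = 0 := by
  rw [← coe_substAlgHom hd]; exact map_zero _

theorem rlog_psi_subst {a : MvPowerSeries σ R} (ha : constantCoeff a = 0) :
    (psi F).subst a = subst ![a, 0] (pderiv R (1 : Fin 2) F.toPowerSeries) := by
  have h := rlog_subst2 (hs1 ha).const (a := (PowerSeries.X : PowerSeries R)) (b := 0)
    PowerSeries.constantCoeff_X (map_zero _) (pderiv R (1 : Fin 2) F.toPowerSeries)
  rw [rlog_subst_zero (hs1 ha).const] at h
  have hX : subst (fun _ : Unit => a) (PowerSeries.X : PowerSeries R) = a :=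
    PowerSeries.subst_X (hs1 ha)
  rw [hX] at h
  exact h

theorem rlog_pderiv_fadd [Finite σ] (t : σ) {a b : MvPowerSeries σ R} (ha : constantCoeff a = 0)
    (hb : constantCoeff b = 0) : pderiv R t (fadd F a b)
      = pderiv R t a * subst ![a, b] (pderiv R (0 : Fin 2) F.toPowerSeries)
        + pderiv R t b * subst ![a, b] (pderiv R (1 : Fin 2) F.toPowerSeries) := by
  rw [fadd, pderiv_subst (fun i => by fin_cases i <;> simpa), Fin.sum_univ_two]
  rfl

theorem rlog_map_pderiv (ρ : R →+* R') (t : σ) (f : MvPowerSeries σ R) :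
    map ρ (pderiv R t f) = pderiv R' t (map ρ f) := by
  ext d
  simp [coeff_pderiv]

theorem c0_psi (F : FormalGroup R) : PowerSeries.constantCoeff (psi F) = 1 := by
  have h := rlog_c0_subst (a := ![PowerSeries.X (R := R), 0])
    (fun i => by fin_cases i <;> simp [PowerSeries.X]) (pderiv R (1 : Fin 2) F.toPowerSeries)
  refine h.trans ?_
  rw [← coeff_zero_eq_constantCoeff_apply, coeff_pderiv, zero_add, F.lin_coeff_Y]
  simp

theorem psi_mul_omega (F : FormalGroup R) : psi F * omega F = 1 :=
  PowerSeries.mul_invOfUnit _ _ (by rw [c0_psi]; rfl)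

theorem c0_omega (F : FormalGroup R) : PowerSeries.constantCoeff (omega F) = 1 := by
  have h := congrArg PowerSeries.constantCoeff (psi_mul_omega F)
  rwa [map_mul, c0_psi, one_mul, map_one] at h

theorem rlog_map_psi (F : FormalGroup R) (ρ : R →+* R') :
    PowerSeries.map ρ (psi F) = psi (F.map ρ) := by
  have h := map_subst (h := ρ) (hs2 (a := (PowerSeries.X : PowerSeries R)) (b := 0)
    PowerSeries.constantCoeff_X (map_zero _)) (pderiv R (1 : Fin 2) F.toPowerSeries)
  refine h.trans ?_
  rw [rlog_map_pderiv, psi, FormalGroup.map_toPowerSeries]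
  congr 1
  funext i; fin_cases i
  · exact map_X ρ ()
  · exact map_zero _

theorem map_omega (F : FormalGroup R) (ρ : R →+* R') :
    PowerSeries.map ρ (omega F) = omega (F.map ρ) := by
  have h1 := congrArg (PowerSeries.map ρ) (psi_mul_omega F)
  rw [map_mul, map_one, rlog_map_psi] at h1
  have h2 := psi_mul_omega (F.map ρ)
  linear_combination (omega (F.map ρ)) * h1 - (PowerSeries.map ρ (omega F)) * h2

theorem psi_fadd (F : FormalGroup R) : (psi F).subst F.toPowerSeries
    = pderiv R (1 : Fin 2) F.toPowerSeries * (psi F).subst (X 1 : MvPowerSeries (Fin 2) R) := by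
  have x : ∀ i : Fin 3, constantCoeff (X i : MvPowerSeries (Fin 3) R) = 0 := constantCoeff_X
  have y : ∀ i : Fin 2, constantCoeff (X i : MvPowerSeries (Fin 2) R) = 0 := constantCoeff_X
  have h := congrArg (pderiv R (2 : Fin 3)) (fadd_assoc (F := F) (x 0) (x 1) (x 2))
  rw [rlog_pderiv_fadd _ (c0_fadd (x 0) (x 1)) (x 2), rlog_pderiv_fadd _ (x 0) (x 1),
    rlog_pderiv_fadd _ (x 0) (c0_fadd (x 1) (x 2)), rlog_pderiv_fadd _ (x 1) (x 2),
    pderiv_X_self, pderiv_X_of_ne (by decide : (0 : Fin 3) ≠ 2),
    pderiv_X_of_ne (by decide : (1 : Fin 3) ≠ 2)] at h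
  simp only [zero_mul, zero_add, one_mul, add_zero] at h
  have hd : HasSubst (![X 0, X 1, 0] : Fin 3 → MvPowerSeries (Fin 2) R) :=
    hasSubst_of_constantCoeff_zero fun i => by fin_cases i <;> simp
  have h' := congrArg (subst (![X 0, X 1, 0] : Fin 3 → MvPowerSeries (Fin 2) R)) h
  rw [subst_mul hd, rlog_subst2 hd (c0_fadd (x 0) (x 1)) (x 2), rlog_subst2 hd (x 1) (x 2),
    rlog_subst2 hd (x 0) (c0_fadd (x 1) (x 2)), subst_fadd hd (x 0) (x 1),
    subst_fadd hd (x 1) (x 2), subst_X hd, subst_X hd, subst_X hd] at h'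
  have e0 : (![X 0, X 1, 0] : Fin 3 → MvPowerSeries (Fin 2) R) 0 = X 0 := rfl
  have e1 : (![X 0, X 1, 0] : Fin 3 → MvPowerSeries (Fin 2) R) 1 = X 1 := rfl
  have e2 : (![X 0, X 1, 0] : Fin 3 → MvPowerSeries (Fin 2) R) 2 = 0 := rfl
  have e : (![X 0, X 1] : Fin 2 → MvPowerSeries (Fin 2) R) = X := by
    funext i; fin_cases i <;> rfl
  rw [e0, e1, e2, fadd_X_X, fadd_zero (y 1), e, subst_self] at h'
  rw [rlog_psi_subst F.zero_constantCoeff, rlog_psi_subst (y 1), h', mul_comm]
  rfl

theorem rlog_omega_psi_subst {a : MvPowerSeries σ R} (ha : constantCoeff a = 0) :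
    (psi F).subst a * (omega F).subst a = 1 := by
  rw [← PowerSeries.subst_mul (hs1 ha), psi_mul_omega, ← PowerSeries.coe_substAlgHom (hs1 ha)]
  exact map_one _

theorem rlog_omega_fadd {a b : MvPowerSeries σ R} (ha : constantCoeff a = 0)
    (hb : constantCoeff b = 0) :
    (omega F).subst (fadd F a b) * subst ![a, b] (pderiv R (1 : Fin 2) F.toPowerSeries)
      = (omega F).subst b := by
  have h := congrArg (subst ![a, b]) (psi_fadd F)
  rw [subst_psubst (hs2 ha hb) F.zero_constantCoeff, subst_mul (hs2 ha hb),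
    subst_psubst (hs2 ha hb) (constantCoeff_X _), subst_X (hs2 ha hb)] at h
  have h' : (psi F).subst (fadd F a b)
      = subst ![a, b] (pderiv R (1 : Fin 2) F.toPowerSeries) * (psi F).subst b := h
  have h1 := rlog_omega_psi_subst (F := F) (c0_fadd (F := F) ha hb)
  have h2 := rlog_omega_psi_subst (F := F) hb
  rw [h'] at h1
  linear_combination (omega F).subst b * h1
    - (omega F).subst (fadd F a b) * subst ![a, b] (pderiv R (1 : Fin 2) F.toPowerSeries) * h2

/-- `l` is the logarithm of `F` -/
def IsLog (F : FormalGroup R) (l : PowerSeries R) : Prop :=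
  PowerSeries.constantCoeff l = 0 ∧ PowerSeries.derivative R l = omega F

/-- all positive integers are units -/
def QAlg (R : Type*) [CommRing R] : Prop := ∀ j : ℕ, j ≠ 0 → IsUnit (j : R)

theorem QAlg.dual (h : QAlg R) : QAlg (DualNumber R) := fun j hj => by
  have := (h j hj).map (algebraMap R (DualNumber R))
  rwa [map_natCast] at this

theorem rlog_torsionFree (h : QAlg R) : IsAddTorsionFree R := by
  refine ⟨fun n hn a b hab => ?_⟩
  have hab' : (n : R) * a = (n : R) * b := by simpa only [nsmul_eq_mul] using hab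
  exact (h n hn).mul_left_cancel hab'

theorem exists_isLog (h : QAlg R) (F : FormalGroup R) : ∃ l, IsLog F l := by
  have hu : ∀ j : ℕ, ∃ u : R, u * ((j : R) + 1) = 1 := fun j => by
    have := (h (j + 1) (Nat.succ_ne_zero j)).exists_left_inv
    simpa using this
  choose u hu using hu
  refine ⟨PowerSeries.X * PowerSeries.mk fun j => PowerSeries.coeff j (omega F) * u j, by simp, ?_⟩
  ext j
  rw [PowerSeries.coeff_derivative, PowerSeries.coeff_succ_X_mul, PowerSeries.coeff_mk, mul_assoc,
    hu, mul_one]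

theorem IsLog.coeff {l : PowerSeries R} (hl : IsLog F l) (j : ℕ) :
    ((j + 1 : ℕ) : R) * PowerSeries.coeff (j + 1) l = PowerSeries.coeff j (omega F) := by
  rw [← hl.2, PowerSeries.coeff_derivative, mul_comm]
  push_cast
  rfl

theorem IsLog.unique (h : QAlg R) {l l' : PowerSeries R} (hl : IsLog F l) (hl' : IsLog F l') :
    l = l' := by
  have := rlog_torsionFree h
  exact PowerSeries.derivative.ext (hl.2.trans hl'.2.symm) (hl.1.trans hl'.1.symm)

theorem IsLog.map {l : PowerSeries R} (hl : IsLog F l) (ρ : R →+* R') :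
    IsLog (F.map ρ) (PowerSeries.map ρ l) := by
  refine ⟨c0_map ρ hl.1, ?_⟩
  rw [← map_omega, ← hl.2]
  exact (rlog_map_pderiv ρ () l).symm

theorem IsLog.fadd [Finite σ] (h : QAlg R) (hF : F.IsComm) {l : PowerSeries R} (hl : IsLog F l)
    {a b : MvPowerSeries σ R} (ha : constantCoeff a = 0) (hb : constantCoeff b = 0) :
    l.subst (P217.fadd F a b) = l.subst a + l.subst b := by
  have := rlog_torsionFree h
  have y : ∀ i : Fin 2, constantCoeff (X i : MvPowerSeries (Fin 2) R) = 0 := constantCoeff_X
  have key : l.subst (P217.fadd F (X 0) (X 1) : MvPowerSeries (Fin 2) R)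
      = l.subst (X 0) + l.subst (X 1) := by
    refine pderiv.ext (fun i => ?_) ?_
    · rw [map_add, pderiv_psubst (y 0), pderiv_psubst (y 1)]
      fin_cases i
      · rw [fadd_comm hF (y 0) (y 1), pderiv_psubst (c0_fadd (y 1) (y 0)),
          rlog_pderiv_fadd _ (y 1) (y 0), hl.2]
        have e1 : pderiv R (0 : Fin 2) (X 1 : MvPowerSeries (Fin 2) R) = 0 :=
          pderiv_X_of_ne (by decide)
        simp only [Fin.zero_eta, e1, pderiv_X_self, zero_mul, mul_zero, zero_add, add_zero, one_mul,
          mul_one]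
        exact rlog_omega_fadd (y 1) (y 0)
      · rw [pderiv_psubst (c0_fadd (y 0) (y 1)), rlog_pderiv_fadd _ (y 0) (y 1), hl.2]
        have e1 : pderiv R (1 : Fin 2) (X 0 : MvPowerSeries (Fin 2) R) = 0 :=
          pderiv_X_of_ne (by decide)
        simp only [Fin.mk_one, e1, pderiv_X_self, zero_mul, mul_zero, zero_add, one_mul, mul_one]
        exact rlog_omega_fadd (y 0) (y 1)
    · rw [map_add, c0_subst (y 0) hl.1, c0_subst (y 1) hl.1, c0_subst (c0_fadd (y 0) (y 1)) hl.1,
        add_zero]
  have h' := congrArg (subst ![a, b]) key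
  rw [subst_add (hs2 ha hb), subst_psubst (hs2 ha hb) (c0_fadd (y 0) (y 1)),
    subst_psubst (hs2 ha hb) (y 0), subst_psubst (hs2 ha hb) (y 1),
    subst_fadd (hs2 ha hb) (y 0) (y 1), subst_X (hs2 ha hb), subst_X (hs2 ha hb)] at h'
  exact h'

theorem IsLog.nmul [Finite σ] (h : QAlg R) (hF : F.IsComm) {l : PowerSeries R} (hl : IsLog F l)
    (j : ℕ) {a : MvPowerSeries σ R} (ha : constantCoeff a = 0) :
    l.subst (P217.nmul F j a) = C (j : R) * l.subst a := by
  induction j with
  | zero =>
    rw [nmul_zero ha, Nat.cast_zero, map_zero, zero_mul]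
    exact PowerSeries.subst_zero_of_constantCoeff_zero hl.1
  | succ j ih =>
    rw [nmul_succ _ ha, hl.fadd h hF (c0_nmul j ha) ha, ih, Nat.cast_succ, map_add, map_one,
      add_mul, one_mul]

theorem IsLog.hom (h : QAlg R) (hG : G.IsComm) {l l' w : PowerSeries R} (hl : IsLog F l)
    (hl' : IsLog G l') (hw : IsHom F G w) :
    l'.subst w = PowerSeries.C (PowerSeries.coeff 1 w) * l := by
  have := rlog_torsionFree h
  have y : ∀ i : Fin 2, constantCoeff (X i : MvPowerSeries (Fin 2) R) = 0 := constantCoeff_X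
  have hw0 : constantCoeff w = 0 := hw.1
  obtain ⟨g, hg⟩ : ∃ g : PowerSeries R, g = l'.subst w := ⟨_, rfl⟩
  have key : g.subst (P217.fadd F (X 0) (X 1) : MvPowerSeries (Fin 2) R)
      = g.subst (X 0) + g.subst (X 1) := by
    rw [hg, psubst_psubst (c0_fadd (y 0) (y 1)) hw.1, psubst_psubst (y 0) hw.1,
      psubst_psubst (y 1) hw.1, hw.fadd (y 0) (y 1),
      hl'.fadd h hG (c0_subst (y 0) hw.1) (c0_subst (y 1) hw.1)]
  have h1 := congrArg (pderiv R (1 : Fin 2)) key
  have e1 : pderiv R (1 : Fin 2) (X 0 : MvPowerSeries (Fin 2) R) = 0 := pderiv_X_of_ne (by decide)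
  rw [map_add, pderiv_psubst (y 0), pderiv_psubst (y 1), pderiv_psubst (c0_fadd (y 0) (y 1)), e1,
    pderiv_X_self, mul_zero, zero_add, mul_one] at h1
  have hX : constantCoeff (PowerSeries.X : PowerSeries R) = 0 := PowerSeries.constantCoeff_X
  have hd := hs2 hX (map_zero _)
  have h2 := congrArg (subst ![(PowerSeries.X : PowerSeries R), 0]) h1
  rw [subst_mul hd, subst_psubst hd (c0_fadd (y 0) (y 1)), subst_psubst hd (y 1),
    subst_fadd hd (y 0) (y 1), subst_X hd, subst_X hd, fadd_X_X] at h2
  have h3 : (PowerSeries.derivative R g).subst (P217.fadd F (PowerSeries.X : PowerSeries R) 0)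
      * psi F = (PowerSeries.derivative R g).subst (0 : PowerSeries R) := h2
  rw [fadd_zero hX, PowerSeries.X_subst] at h3
  have h4 : (PowerSeries.derivative R g).subst (0 : PowerSeries R)
      = PowerSeries.C (PowerSeries.coeff 1 w) := by
    have h5 : PowerSeries.constantCoeff (PowerSeries.derivative R g) = PowerSeries.coeff 1 w := by
      rw [hg, PowerSeries.derivative_subst (hs1 hw0), map_mul, hl'.2]
      have h6 : PowerSeries.constantCoeff ((omega G).subst w : PowerSeries R) = 1 :=
        (rlog_c0_subst (a := fun _ : Unit => w) (fun _ => hw0) (omega G)).trans (c0_omega G)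
      rw [h6, one_mul, ← PowerSeries.coeff_zero_eq_constantCoeff_apply,
        PowerSeries.coeff_derivative]
      simp
    rw [← h5]
    exact subst_zero_eq_C_constantCoeff
  rw [h4] at h3
  rw [← hg]
  refine PowerSeries.derivative.ext ?_ ?_
  · rw [Derivation.leibniz, PowerSeries.derivative_C, smul_zero, add_zero, smul_eq_mul, hl.2]
    linear_combination omega F * h3 - PowerSeries.derivative R g * psi_mul_omega F
  · rw [map_mul, hl.1, mul_zero, hg]
    exact c0_subst hw0 hl'.1

end

end Vale.Agent.P217
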