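import Vale.Agent.P217.ZKey
import Vale.Agent.P217.ROrb

/-! P217: first order behaviour of the orbit of a point in characteristic zero.
Notation: `y' = y ∘ σ`, `F1 = F.map y`, `F2 = F.map y' = (F.map σ).map y`, `l`, `g` their logarithms,
`P1`, `P2` their `p`-series, `A = map y a'`, `δ i = y' (X i) - y (X i)`, `T = Tm p P1`.
PLAN.
* `step_bdd`: `H = map y w` is an isomorphism `F1 → F2` (`IsIso.map`, `map_map_fg`), `g(H) = c l`
  (`IsLog.hom`).  In `E0`, `w ≡ h2 := fadd (F.map σ) X (nmul (F.map σ) M a')` modulo `cId mE` (`σ f - f ∈ mE`,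
  `fadd_congr`, `psubst_congr`, `map_mulSeries`; or map everything to `E0 ⧸ mE` where `F` and `F.map σ`
  become equal).  `g(map y h2) = g + M g(A)` (`map_fadd`, `map_nmul`, `IsLog.fadd`, `IsLog.nmul`); `lip0`.
* `step_T1`: `T g = g(P1) - g(P2)` (`IsLog.nmul`, `nmul_X`); `taylor0` at `a = P2`, `e = P1 - P2`;
  `IsPt.taylor` coefficientwise: `Bdd (ε^2) (P2 - P1 - Dm δ)`; `Bdd ε (ω2(P2) - ω1(P1))` by `map_omega`,
  `IsPt.lip`, `Bdd.psubst`, `Bdd.psubst_sub`.
* `step_T2`: `T (g(A)) = g(U) - g(V2)`, `T (l(A)) = l(U) - l(V1)` with `U = A(P1)`, `Vi = nmul Fi p A`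
  (`psubst_psubst`, `IsLog.nmul`); `Bdd ρ (U - V1)` because `a` is an endomorphism modulo `mE`
  (`IsHom.nmul`, `nmul_X`), `Bdd ε (V1 - V2)`; the difference is
  `((g - l)(U) - (g - l)(V1)) + (g(V1) - g(V2))`, use `lip0` twice (`(g - l)' = ω2 - ω1`).
* `approx`: `B` from `IsPt.exists_goodB`; `σ, w` from `orb0` for a large `N`; `ε = ‖δ‖ ≤ ρ^(N+1)`
  (`IsPt.pow`).  `b1 = c l - g - p^N g(A)` is bounded and
  `T b1 - U D δ = -(T g + U D δ) - p^N (T g(A) - T l(A)) - p^N T l(A)` (`T l = 0`).  `key` gives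
  `ε ≤ max (B ε^2) (B ‖p‖^N)`, so `ε ≤ B ‖p‖^N` once `B ρ^(N+1) < 1`.  Take `b = p^(-N) b1`,
  `ν = p^(-N) δ`: the error is at most `B^3 ‖p‖^N`; `IsPt.taylor` with `y (σ f) = y f = 0` bounds
  `∑ δ_i y(∂_i f)` by `ε^2` (`y f = 0` from `σ = RingEquiv.refl`, `inStab_refl`). -/

namespace Vale.Agent.P217

open MvPowerSeries IsLocalRing

noncomputable section

variable {C : Type*} [NormedField C] [IsUltrametricDist C]
  {p n : ℕ} [Fact p.Prime] {k : Type} [Field k] [CharP k p] [PerfectRing k p]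
  {F : FormalGroup (E0 p n k)} {y : E0 p n k →+* C} {ρ B : ℝ}

omit [IsUltrametricDist C] in
theorem zest_T {G : FormalGroup C} (h : QAlg C) (hG : G.IsComm) {l A P : PowerSeries C}
    (hl : IsLog G l) (hA : PowerSeries.constantCoeff A = 0) (hP : PowerSeries.constantCoeff P = 0)
    (q : ℕ) : Tm q P (l.subst A) = l.subst (A.subst P : PowerSeries C) - l.subst (nmul G q A) := by
  rw [Tm, hl.nmul h hG q hA, psubst_psubst hP hA]
  rfl

omit [IsUltrametricDist C] in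
theorem zest_T' {G : FormalGroup C} (h : QAlg C) (hG : G.IsComm) {l P : PowerSeries C}
    (hl : IsLog G l) (q : ℕ) : Tm q P l = l.subst P - l.subst (mulSeries G q) := by
  rw [Tm, ← nmul_X, hl.nmul h hG q PowerSeries.constantCoeff_X, PowerSeries.X_subst]
  rfl

omit [IsUltrametricDist C] in
theorem zest_omega (hy : IsPt y ρ) {l : PowerSeries C} (hl : IsLog (F.map y) l) :
    Bdd 1 (PowerSeries.derivative C l) := by
  rw [hl.2, ← map_omega]
  exact bdd_map_one y hy.le_one _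

theorem zest_lip (hy : IsPt y ρ) (σ : E0 p n k ≃+* E0 p n k)
    (hσ : ∀ c : WittVector p k, σ (MvPowerSeries.C c) = MvPowerSeries.C c) {ε : ℝ} (hε : 0 ≤ ε)
    (hερ : ε ≤ ρ) (hδ : ∀ i, ‖y (σ (X i)) - y (X i)‖ ≤ ε) (f : PowerSeries (E0 p n k)) :
    Bdd ε (PowerSeries.map (y.comp σ.toRingHom) f - PowerSeries.map y f) := by
  refine bdd_iff.2 fun j => ?_
  rw [map_sub, PowerSeries.coeff_map, PowerSeries.coeff_map]
  exact hy.lip σ hσ hε (hερ.trans hy.lt_one.le) hδ _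

theorem zest_cId {τ : Type*} {σ : E0 p n k ≃+* E0 p n k} (hσ : ∀ f, σ f - f ∈ mE p n k)
    (a : MvPowerSeries τ (E0 p n k)) : a - map σ.toRingHom a ∈ cId τ (mE p n k) := by
  refine mem_cId.2 fun d => ?_
  rw [map_sub, coeff_map, ← neg_mem_iff, neg_sub]
  exact hσ _

omit [CharP k p] [PerfectRing k p] in
theorem inStab_refl (F : FormalGroup (E0 p n k)) : InStab F (RingEquiv.refl _) := by
  refine ⟨⟨RingEquiv.refl k, fun a => congrArg MvPowerSeries.C ?_⟩, PowerSeries.X, ?_, ?_⟩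
  · ext i
    rw [WittVector.map_coeff]
    rfl
  · have e : F.map (RingEquiv.refl (E0 p n k)).toRingHom = F := by
      cases F
      exact FormalGroup.ext (congrArg (fun φ : _ →+* _ => φ _) (MvPowerSeries.map_id))
    rw [e]
    exact isHom_X
  · rw [PowerSeries.coeff_one_X]
    exact isUnit_one

theorem step_bdd (hF : F.IsComm) (hy : IsPt y ρ) (hB : GoodB C ρ B) (σ : E0 p n k ≃+* E0 p n k)
    (hσ : ∀ f, σ f - f ∈ mE p n k) {w a' : PowerSeries (E0 p n k)}
    (hw : IsIso F (F.map σ.toRingHom) w) (ha0 : PowerSeries.constantCoeff a' = 0) (M : ℕ)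
    (hwh : w - fadd F PowerSeries.X (nmul F M a') ∈ cId Unit (mE p n k))
    {l g : PowerSeries C} (hl : IsLog (F.map y) l) (hg : IsLog (F.map (y.comp σ.toRingHom)) g) :
    ∃ c : C, Bdd B (PowerSeries.C c * l - g
      - PowerSeries.C (M : C) * g.subst (PowerSeries.map y a')) := by
  have hq := hy.qAlg
  have hF2 := isComm_map hF (y.comp σ.toRingHom)
  have hH := (hw.map y).1
  rw [map_map_fg] at hH
  have hn0 := c0_nmul (F := F.map σ.toRingHom) M ha0
  have hX0 : constantCoeff (PowerSeries.X : PowerSeries (E0 p n k)) = 0 :=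
    PowerSeries.constantCoeff_X
  have h1 : w - fadd (F.map σ.toRingHom) PowerSeries.X (nmul (F.map σ.toRingHom) M a') ∈
      cId Unit (mE p n k) := by
    rw [← sub_add_sub_cancel _ (fadd F PowerSeries.X (nmul F M a'))]
    refine add_mem hwh (fadd_congr hX0 (c0_nmul M ha0) hX0 hn0 (zest_cId hσ _)
      (by rw [sub_self]; exact zero_mem _) (psubst_congr ha0 ha0
        (by rw [sub_self]; exact zero_mem _) ?_))
    rw [← map_mulSeries]
    exact zest_cId hσ _
  have h2 : g.subst (map y (fadd (F.map σ.toRingHom) PowerSeries.X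
      (nmul (F.map σ.toRingHom) M a'))) =
      g + PowerSeries.C (M : C) * g.subst (PowerSeries.map y a') := by
    rw [map_fadd y hX0 hn0, map_nmul y M ha0, map_map_fg,
      hg.fadd hq hF2 (c0_map y hX0) (c0_nmul M (c0_map y ha0)), hg.nmul hq hF2 M (c0_map y ha0)]
    exact congrArg (· + _) ((congrArg g.subst (PowerSeries.map_X y)).trans (PowerSeries.X_subst g))
  have h3 := bdd_map y hy.le_rho h1
  rw [map_sub] at h3
  have h4 := lip0 hB hy.lt_one.le (zest_omega (hy.comp σ) hg) hH.1 (c0_map y (c0_fadd hX0 hn0))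
    (bdd_map_one y hy.le_one _) h3 le_rfl
  rw [h2, hl.hom hq hF2 hg hH, ← sub_sub] at h4
  exact ⟨_, h4.mono (by nlinarith [hy.lt_one, hB.1])⟩

theorem step_T1 (hF : F.IsComm) (hy : IsPt y ρ) (hB : GoodB C ρ B) (σ : E0 p n k ≃+* E0 p n k)
    (hσ : ∀ c : WittVector p k, σ (MvPowerSeries.C c) = MvPowerSeries.C c) {ε : ℝ} (hε : 0 ≤ ε)
    (hερ : ε ≤ ρ) (hδ : ∀ i, ‖y (σ (X i)) - y (X i)‖ ≤ ε)
    {g : PowerSeries C} (hg : IsLog (F.map (y.comp σ.toRingHom)) g) :
    Bdd (B * ε ^ 2) (Tm p (mulSeries (F.map y) p) g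
      + Um F y * Dm F y fun i => y (σ (X i)) - y (X i)) := by
  have hy' := hy.comp σ
  have hP1 := c0_mulSeries (F := F.map y) p
  have hP2 := c0_mulSeries (F := F.map (y.comp σ.toRingHom)) p
  have he := (zest_lip hy σ hσ hε hερ hδ (mulSeries F p)).neg
  have hω := zest_lip hy σ hσ hε hερ hδ (omega F)
  have hD : Bdd (ε ^ 2) (PowerSeries.map (y.comp σ.toRingHom) (mulSeries F p) -
      PowerSeries.map y (mulSeries F p) - Dm F y fun i => y (σ (X i)) - y (X i)) := by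
    refine bdd_iff.2 fun j => ?_
    rw [map_sub, map_sub, PowerSeries.coeff_map, PowerSeries.coeff_map, Dm, PowerSeries.coeff_mk]
    exact hy.taylor σ hσ hε hδ _
  rw [map_mulSeries, map_mulSeries] at hD
  rw [map_mulSeries, map_mulSeries, neg_sub] at he
  rw [map_omega, map_omega] at hω
  have hω2 := zest_omega hy' hg
  have h1 := taylor0 hB hω2 hP2 ((map_sub _ _ _).trans (sub_eq_zero.2 (hP1.trans hP2.symm)))
    (mulSeries_bdd hy' p) he hερ
  have h2 := hω2.psubst_sub hP1 hP2 (mulSeries_bdd hy p) (mulSeries_bdd hy' p) he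
  have h3 := hω.psubst hP1 (mulSeries_bdd hy p)
  have h4 := hω2.psubst hP2 (mulSeries_bdd hy' p)
  rw [PowerSeries.subst_sub (hs1 hP1)] at h3
  rw [add_sub_cancel, hg.2] at h1
  rw [hg.2, one_mul] at h2
  rw [hg.2] at h4
  have h5 := (h2.sub h3).mul (Dm_bdd (F := F) hy hε hδ)
  have hε2 : ε ^ 2 ≤ B * ε ^ 2 := le_mul_of_one_le_left (sq_nonneg ε) hB.1
  have h6 := ((h1.mono (le_of_eq (by rw [one_mul]))).sub
    ((h4.mul hD).mono ((one_mul _).le.trans hε2))).add (h5.mono ((sq ε).ge.trans hε2))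
  rw [zest_T' hy.qAlg (isComm_map hF _) hg, Um]
  refine (congrArg (Bdd _) ?_).mp h6
  ring

omit [IsUltrametricDist C] in
theorem zest_UV (hy : IsPt y ρ) {a' : PowerSeries (E0 p n k)}
    (ha0 : PowerSeries.constantCoeff a' = 0)
    (ha : IsHom (F.map res) (F.map res) (PowerSeries.map res a')) :
    Bdd ρ ((PowerSeries.map y a').subst (mulSeries (F.map y) p) -
      nmul (F.map y) p (PowerSeries.map y a') : PowerSeries C) := by
  have hP := c0_mulSeries (F := F) p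
  have h1 : (a'.subst (mulSeries F p) : PowerSeries (E0 p n k)) - nmul F p a' ∈
      cId Unit (mE p n k) := by
    refine orb_cId_res ?_
    have h2 := ha.nmul p PowerSeries.constantCoeff_X
    rw [nmul_X, PowerSeries.X_subst, ← map_mulSeries] at h2
    rw [map_psubst res hP, map_nmul res p ha0]
    exact h2
  have h3 := bdd_map y hy.le_rho h1
  rw [map_sub, map_psubst y hP, map_nmul y p ha0] at h3
  rw [← map_mulSeries]
  exact h3

theorem step_T0 (hF : F.IsComm) (hy : IsPt y ρ) (hB : GoodB C ρ B) {a' : PowerSeries (E0 p n k)}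
    (ha0 : PowerSeries.constantCoeff a' = 0)
    (ha : IsHom (F.map res) (F.map res) (PowerSeries.map res a'))
    {l : PowerSeries C} (hl : IsLog (F.map y) l) :
    Bdd B (Tm p (mulSeries (F.map y) p) (l.subst (PowerSeries.map y a'))) := by
  have hP := c0_mulSeries (F := F) p
  have hA : PowerSeries.constantCoeff (PowerSeries.map y a') = 0 := c0_map y ha0
  rw [zest_T hy.qAlg (isComm_map hF y) hl hA (c0_mulSeries p)]
  refine (lip0 hB hy.lt_one.le (zest_omega hy hl) (c0_subst (c0_mulSeries p) hA) (c0_nmul p hA)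
    ((mulSeries_bdd hy p).psubst hA (bdd_map_one y hy.le_one _)) (zest_UV hy ha0 ha) le_rfl).mono ?_
  nlinarith [hy.lt_one, hB.1]

theorem step_T2 (hF : F.IsComm) (hy : IsPt y ρ) (hB : GoodB C ρ B) (σ : E0 p n k ≃+* E0 p n k)
    (hσ : ∀ c : WittVector p k, σ (MvPowerSeries.C c) = MvPowerSeries.C c) {ε : ℝ} (hε : 0 ≤ ε)
    (hερ : ε ≤ ρ) (hδ : ∀ i, ‖y (σ (X i)) - y (X i)‖ ≤ ε) {a' : PowerSeries (E0 p n k)}
    (ha0 : PowerSeries.constantCoeff a' = 0)
    (ha : IsHom (F.map res) (F.map res) (PowerSeries.map res a'))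
    {l g : PowerSeries C} (hl : IsLog (F.map y) l) (hg : IsLog (F.map (y.comp σ.toRingHom)) g) :
    Bdd (B * ε) (Tm p (mulSeries (F.map y) p) (g.subst (PowerSeries.map y a'))
      - Tm p (mulSeries (F.map y) p) (l.subst (PowerSeries.map y a'))) := by
  have hy' := hy.comp σ
  have hA : PowerSeries.constantCoeff (PowerSeries.map y a') = 0 := c0_map y ha0
  have hA1 : Bdd 1 (PowerSeries.map y a') := bdd_map_one y hy.le_one _
  have hU := c0_subst (c0_mulSeries (F := F.map y) p) hA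
  have he := (zest_lip hy σ hσ hε hερ hδ (mulSeries F p)).neg
  have hω := zest_lip hy σ hσ hε hερ hδ (omega F)
  rw [map_mulSeries, map_mulSeries, neg_sub] at he
  rw [map_omega, map_omega, ← hl.2, ← hg.2, ← map_sub] at hω
  have h1 := lip0 hB hy.lt_one.le hω hU (c0_nmul p hA) ((mulSeries_bdd hy p).psubst hA hA1)
    (zest_UV hy ha0 ha) le_rfl
  have h2 := he.psubst hA hA1
  rw [PowerSeries.subst_sub (hs1 hA)] at h2
  have h3 := lip0 hB hy.lt_one.le (zest_omega hy' hg) (c0_nmul (F := F.map y) p hA)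
    (c0_nmul (F := F.map (y.comp σ.toRingHom)) p hA) ((mulSeries_bdd hy' p).psubst hA hA1) h2 hερ
  rw [PowerSeries.subst_sub (hs1 hU), PowerSeries.subst_sub (hs1 (c0_nmul p hA))] at h1
  have hB0 : 0 ≤ B * ε := mul_nonneg (zero_le_one.trans hB.1) hε
  have h4 := (h1.mono (γ := B * ε) (by nlinarith [hy.lt_one])).add
    (h3.mono (le_of_eq (by rw [one_mul])))
  rw [zest_T hy.qAlg (isComm_map hF y) hl hA (c0_mulSeries p),
    zest_T hy.qAlg (isComm_map hF _) hg hA (c0_mulSeries p)]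
  refine (congrArg (Bdd _) ?_).mp h4
  ring

theorem approx {Γ : FormalGroup (ZMod p)} (hn : 1 ≤ n) (hΓ : IsHonda p n Γ)
    (hU : IsUniversal (Γ.map (ZMod.castHom dvd_rfl k)) F) (hH : HeightCoords F) (hy : IsPt y ρ)
    {a : PowerSeries k}
    (ha : IsHom (Γ.map (ZMod.castHom dvd_rfl k)) (Γ.map (ZMod.castHom dvd_rfl k)) a)
    {a' : PowerSeries (E0 p n k)} (ha0 : PowerSeries.constantCoeff a' = 0)
    (ha' : PowerSeries.map res a' = a) {l : PowerSeries C} (hl : IsLog (F.map y) l)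
    {f : E0 p n k} (hf : ∀ σ, InStab F σ → y (σ f) = 0) (η : ℝ) (hη : 0 < η) :
    ∃ (b : PowerSeries C) (β : ℝ) (ν : Fin (n - 1) → C),
      PowerSeries.constantCoeff b = 0 ∧ Bdd β b ∧
      Bdd η (Tm p (mulSeries (F.map y) p) b - Um F y * Dm F y ν
        + Tm p (mulSeries (F.map y) p) (l.subst (PowerSeries.map y a'))) ∧
      ‖∑ i, ν i * y (pderiv (WittVector p k) i f)‖ ≤ η := by
  obtain ⟨B, hB⟩ := hy.exists_goodB
  have hB1 := hB.1
  have hB0 : 0 < B := zero_lt_one.trans_le hB1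
  have hρ0 := hy.rho_pos
  have hρ1 := hy.lt_one
  obtain ⟨N, hN⟩ := exists_pow_lt_of_lt_one (lt_min (inv_pos.2 hB0) (div_pos hη (pow_pos hB0 3))) hρ1
  have hρN : ρ ^ (N + 1) ≤ ρ ^ N := pow_le_pow_of_le_one hρ0.le hρ1.le (Nat.le_succ N)
  obtain ⟨σ, w, hst, hσ, hw, hm, hwh⟩ := orb0 hn hΓ hU ha ha0 ha' (Nat.le_add_left 1 N)
  have hA : IsHom (F.map res) (F.map res) (PowerSeries.map res a') := by
    rw [hU.special, ha']
    exact ha
  obtain ⟨g, hg⟩ := exists_isLog hy.qAlg (F.map (y.comp σ.toRingHom))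
  obtain ⟨c, hc⟩ := step_bdd hU.comm hy hB σ
    (fun f => Ideal.pow_le_self (Nat.succ_ne_zero _) (hm f)) hw ha0 _ hwh hl hg
  obtain ⟨δ, hδ⟩ : ∃ δ : Fin (n - 1) → C, δ = fun i => y (σ (X i)) - y (X i) := ⟨_, rfl⟩
  have hε0 := norm_nonneg δ
  have hδ1 : ∀ i, ‖y (σ (X i)) - y (X i)‖ ≤ ‖δ‖ := fun i => by
    have := norm_le_pi_norm δ i
    rwa [congrFun hδ i] at this
  have hε1 : ‖δ‖ ≤ ρ ^ (N + 1) * ρ := by
    refine (pi_norm_le_iff_of_nonneg (by positivity)).2 fun i => ?_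
    rw [congrFun hδ i, ← map_sub, ← pow_succ]
    exact hy.pow (hm _)
  have hρN1 : ρ ^ (N + 1) ≤ 1 := pow_le_one₀ hρ0.le hρ1.le
  have hερ : ‖δ‖ ≤ ρ := hε1.trans (mul_le_of_le_one_left hρ0.le hρN1)
  have h1 := step_T1 hU.comm hy hB σ hσ hε0 hερ hδ1 hg
  have h0 := step_T0 hU.comm hy hB ha0 hA hl
  have h2 := step_T2 hU.comm hy hB σ hσ hε0 hερ hδ1 ha0 hA hl hg
  have h3 := hy.taylor σ hσ hε0 hδ1 f
  have hf0 : y f = 0 := hf _ (inStab_refl F)
  rw [hf σ hst, hf0, sub_self, zero_sub, norm_neg] at h3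
  rw [← hδ] at h1
  obtain ⟨t, ht⟩ : ∃ t : C, t = ((p ^ (N + 1) : ℕ) : C) := ⟨_, rfl⟩
  rw [← ht] at hc
  have ht0 : t ≠ 0 := by
    rw [ht, Nat.cast_pow]
    exact pow_ne_zero _ hy.p_ne
  have ht1 : ‖t‖ ≤ ρ ^ (N + 1) := by
    rw [ht, Nat.cast_pow, norm_pow]
    exact pow_le_pow_left₀ (norm_nonneg _) hy.norm_p _
  have htp := norm_pos_iff.2 ht0
  have hP := c0_mulSeries (F := F.map y) p
  have hTl : Tm p (mulSeries (F.map y) p) l = 0 := by
    rw [zest_T' hy.qAlg (isComm_map hU.comm y) hl, sub_self]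
  have hb0 : PowerSeries.constantCoeff (PowerSeries.C c * l - g
      - PowerSeries.C t * g.subst (PowerSeries.map y a')) = 0 := by
    have h4 : PowerSeries.constantCoeff (g.subst (PowerSeries.map y a') : PowerSeries C) = 0 :=
      c0_subst (c0_map y ha0) hg.1
    rw [map_sub, map_sub, map_mul, map_mul, hl.1, hg.1, h4]
    ring
  have hTb := Tm_sub (p := p) hP (PowerSeries.C c * l - g)
    (PowerSeries.C t * g.subst (PowerSeries.map y a'))
  rw [Tm_sub hP (PowerSeries.C c * l) g, Tm_C_mul hP, Tm_C_mul hP, hTl] at hTb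
  generalize PowerSeries.C c * l - g - PowerSeries.C t * g.subst (PowerSeries.map y a') = b1
    at hc hb0 hTb
  have h2' : Bdd (‖t‖ * (B * ‖δ‖)) (PowerSeries.C t * _) := h2.C_mul t
  have h0' : Bdd (‖t‖ * B) (PowerSeries.C t * _) := h0.C_mul t
  have hε2 : ‖δ‖ ≤ ‖t‖ * B := by
    have h5 := ((h1.neg.mono (le_max_left _ (‖t‖ * B))).sub (h2'.mono (le_max_of_le_right
      (mul_le_mul_of_nonneg_left (mul_le_of_le_one_right hB0.le (hερ.trans hρ1.le)) htp.le)))).sub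
      (h0'.mono (le_max_right _ _))
    have h6 := (key hn hH (mulSeries_sub_mem hΓ hU) hy hb0 hc (μ := δ)
      ((congrArg (Bdd _) (by rw [hTb]; ring)).mp h5)).2
    have h7 := (pi_norm_le_iff_of_nonneg (le_max_of_le_right (by positivity))).2 h6
    refine (le_max_iff.1 h7).elim (fun h8 => ?_) id
    have h9 : B * ‖δ‖ < 1 := by
      have := (lt_inv_comm₀ (pow_pos hρ0 N) hB0).1 (hN.trans_le (min_le_left _ _))
      rw [lt_inv_comm₀ hB0 (pow_pos hρ0 N), ← one_div, lt_div_iff₀' hB0] at this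
      exact lt_of_le_of_lt (mul_le_mul_of_nonneg_left
        ((hε1.trans (mul_le_of_le_one_right (by positivity) hρ1.le)).trans hρN) hB0.le) this
    have h10 : ‖δ‖ ≤ 0 := by nlinarith
    exact h10.trans (by positivity)
  have hη1 : B ^ 3 * ‖t‖ ≤ η := by
    have := (lt_div_iff₀' (pow_pos hB0 3)).1 (hN.trans_le (min_le_right _ _))
    exact (mul_le_mul_of_nonneg_left (ht1.trans hρN) (by positivity)).trans this.le
  have hsq : ‖t⁻¹‖ * (B * ‖δ‖ ^ 2) ≤ η := by
    rw [norm_inv, inv_mul_le_iff₀ htp]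
    calc B * ‖δ‖ ^ 2 ≤ B * (‖t‖ * B) ^ 2 := by gcongr
      _ = ‖t‖ * (B ^ 3 * ‖t‖) := by ring
      _ ≤ ‖t‖ * η := by gcongr
  refine ⟨PowerSeries.C t⁻¹ * b1, _, t⁻¹ • δ, by rw [map_mul, hb0, mul_zero], hc.C_mul t⁻¹, ?_, ?_⟩
  · have h5 : Bdd (‖t⁻¹‖ * (B * ‖δ‖ ^ 2)) (PowerSeries.C t⁻¹ * _) := h1.C_mul t⁻¹
    have h6 : B * ‖δ‖ ≤ η := by
      refine le_trans ?_ hη1
      calc B * ‖δ‖ ≤ B * (‖t‖ * B) := by gcongr
        _ = B ^ 2 * ‖t‖ := by ring
        _ ≤ B ^ 3 * ‖t‖ := by gcongr; norm_num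
    have h7 : PowerSeries.C t⁻¹ * PowerSeries.C t = (1 : PowerSeries C) := by
      rw [← map_mul, inv_mul_cancel₀ ht0, map_one]
    refine (congrArg (Bdd _) ?_).mp ((h5.mono hsq).neg.sub (h2.mono h6))
    rw [Tm_C_mul hP, Dm_smul, hTb]
    linear_combination (Tm p (mulSeries (F.map y) p) (g.subst (PowerSeries.map y a'))) * h7
  · have e : ∑ i, (t⁻¹ • δ) i * y (pderiv (WittVector p k) i f) = t⁻¹ *
        ∑ i, (y (σ (X i)) - y (X i)) * y (pderiv (WittVector p k) i f) := by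
      rw [Finset.mul_sum]
      exact Finset.sum_congr rfl fun i _ => by rw [hδ, Pi.smul_apply, smul_eq_mul, mul_assoc]
    rw [e, norm_mul]
    refine le_trans (mul_le_mul_of_nonneg_left (h3.trans ?_) (norm_nonneg _)) hsq
    exact le_mul_of_one_le_left (sq_nonneg _) hB1

end

end Vale.Agent.P217
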