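import Vale.Agent.P217.ZPt
import Vale.Agent.P217.RIdeal

/-! P217: the operator `T f = f([p]X) - p f` and the key estimate.
Notation: `P = mulSeries (F.map y) p = map y (mulSeries F p)` (`map_mulSeries`), `q = p^n`.
PLAN.
* `key`: let `β0 = ⨆ j, ‖coeff j b‖` (so `Bdd β0 b`), `μ0 = ‖μ‖` (sup norm), `M = max β0 μ0`.
  `Bdd (β0 ρ) (b(P) - b(X^q))` (`Bdd.psubst_sub`, `bdd_map`), `Bdd (ρ β0) (p b)`.  So
  `r' = b(X^q) - U D` has `Bdd (max (ρ M) ε)`.  Multiply by `V = (psi (F.map y)).subst P` (`U V = 1`,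
  `psi_mul_omega`, `Bdd 1 V`): `D = V b(X^q) - V r'`, and `X^q ∣ b(X^q)` (`pow_dvd_psubst` with `k = 1`,
  `a = X^q`), so `‖coeff j D‖ ≤ max (ρ M) ε` for `j < q`.  `HeightCoords` with `h = n` and `heightIdeal_top`
  give `X i = ∑_{j<q} r_j c_j`, `c_j = coeff j [p]_F ∈ mE` (`span_range` form: `Ideal.mem_span_range_iff`
  or an induction over the span: the set of `f` with `‖∑ μ_l y(∂_l f)‖ ≤ max (ρ M) ε` and `f ∈ mE` is an
  ideal).  Apply the derivation `f ↦ ∑ μ_l y(∂_l f)` to get `‖μ i‖ ≤ max (ρ M) ε` (`pderiv_X`).  Then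
  `coeff (q j) (b(X^q)) = coeff j b` (`PowerSeries.coeff_subst_X_pow` or `expand`) gives
  `β0 ≤ max (ρ M) ε`.  So `M ≤ max (ρ M) ε`, hence `M ≤ ε`.
* `exact_of_approx`: choose `b_j, ν_j` for `η = 1/(j+1)`; `key` applied to differences shows that
  `ν_j i` and `coeff d b_j` are Cauchy, uniformly; limits `ν`, `b` with `Bdd (1/(j+1)) (b - b_j)`; conclude with
  `eq_zero_of_bdd`, `Tm_bdd`, `Dm_bdd`.
* `eq_zero_of_Tm`: strong induction on `j`: if `f` has order `≥ j ≥ 2` then the coefficient of `X^j` in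
  `f(P)` is `f_j p^j`; `p^j ≠ p`.  (Write `f = X^j g`, `P = X P'`.) -/

namespace Vale.Agent.P217

open MvPowerSeries IsLocalRing

noncomputable section

variable {C : Type*} [NormedField C] [IsUltrametricDist C]

/-- `T f = f(P) - p f` -/
def Tm (p : ℕ) (P f : PowerSeries C) : PowerSeries C := f.subst P - PowerSeries.C (p : C) * f

omit [IsUltrametricDist C] in
theorem Tm_add {p : ℕ} {P : PowerSeries C} (hP : PowerSeries.constantCoeff P = 0)
    (f g : PowerSeries C) : Tm p P (f + g) = Tm p P f + Tm p P g := by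
  rw [Tm, Tm, Tm, PowerSeries.subst_add (hs1 hP)]
  ring

omit [IsUltrametricDist C] in
theorem Tm_sub {p : ℕ} {P : PowerSeries C} (hP : PowerSeries.constantCoeff P = 0)
    (f g : PowerSeries C) : Tm p P (f - g) = Tm p P f - Tm p P g := by
  rw [Tm, Tm, Tm, PowerSeries.subst_sub (hs1 hP)]
  ring

omit [IsUltrametricDist C] in
theorem Tm_C_mul {p : ℕ} {P : PowerSeries C} (hP : PowerSeries.constantCoeff P = 0) (c : C)
    (f : PowerSeries C) : Tm p P (PowerSeries.C c * f) = PowerSeries.C c * Tm p P f := by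
  have e : PowerSeries.subst P (PowerSeries.C c : PowerSeries C) = PowerSeries.C c :=
    PowerSeries.subst_C c
  rw [Tm, Tm, PowerSeries.subst_mul (hs1 hP), e]
  ring

theorem Tm_bdd {p : ℕ} {P f : PowerSeries C} (hP : PowerSeries.constantCoeff P = 0) (hP1 : Bdd 1 P)
    {β : ℝ} (hf : Bdd β f) : Bdd β (Tm p P f) :=
  (hf.psubst hP hP1).sub ((hf.C_mul (p : C)).mono
    (mul_le_of_le_one_left hf.nonneg (IsUltrametricDist.norm_natCast_le_one C p)))

omit [IsUltrametricDist C] in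
theorem eq_zero_of_Tm {p : ℕ} (hp0 : (p : C) ≠ 0) (hp1 : ‖(p : C)‖ < 1) {P f : PowerSeries C}
    (hP : PowerSeries.constantCoeff P = 0) (hP1 : PowerSeries.coeff 1 P = p)
    (hf0 : PowerSeries.constantCoeff f = 0) (hf1 : PowerSeries.coeff 1 f = 0)
    (hT : Tm p P f = 0) : f = 0 := by
  obtain ⟨P', e⟩ := PowerSeries.X_dvd_iff.2 hP
  have h1 : PowerSeries.constantCoeff P' = p := by
    rw [← hP1, e, PowerSeries.coeff_succ_X_mul, PowerSeries.coeff_zero_eq_constantCoeff]
  have key : ∀ j, PowerSeries.X ^ (j + 2) ∣ f := by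
    intro j
    induction j with
    | zero =>
      refine PowerSeries.X_pow_dvd_iff.2 fun m hm => ?_
      obtain rfl | rfl : m = 0 ∨ m = 1 := by omega
      · rw [PowerSeries.coeff_zero_eq_constantCoeff, hf0]
      · exact hf1
    | succ j ih =>
      obtain ⟨g, rfl⟩ := ih
      have h2 : (PowerSeries.X : PowerSeries C) ^ (j + 2) *
          (P' ^ (j + 2) * g.subst P - PowerSeries.C (p : C) * g) = 0 := by
        rw [← hT, Tm, PowerSeries.subst_mul (hs1 hP), PowerSeries.subst_pow (hs1 hP),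
          PowerSeries.subst_X (hs1 hP)]
        nth_rewrite 2 [e]
        ring
      have h3 := congrArg PowerSeries.constantCoeff
        ((mul_eq_zero.1 h2).resolve_left (pow_ne_zero _ PowerSeries.X_ne_zero))
      have h4 : PowerSeries.constantCoeff (g.subst P : PowerSeries C) =
          PowerSeries.constantCoeff g := rlog_c0_subst (a := fun _ : Unit => P) (fun _ => hP) g
      rw [map_sub, map_mul, map_mul, map_pow, h1, h4, PowerSeries.constantCoeff_C, map_zero,
        ← sub_mul, mul_eq_zero, sub_eq_zero, pow_succ, mul_eq_right₀ hp0] at h3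
      rw [add_right_comm, pow_succ]
      refine mul_dvd_mul_left _ (PowerSeries.X_dvd_iff.2 (h3.resolve_left fun h5 => ?_))
      have h6 := pow_lt_one₀ (norm_nonneg _) hp1 j.succ_ne_zero
      rw [← norm_pow, h5, norm_one] at h6
      exact lt_irrefl _ h6
  ext j
  exact PowerSeries.X_pow_dvd_iff.1 (key j) j (by omega)

omit [IsUltrametricDist C] in
theorem zk_lim [CompleteSpace C] {s : ℕ → C} {e : ℕ → ℝ} (he : Filter.Tendsto e .atTop (nhds 0))
    (h : ∀ i j, i ≤ j → ‖s i - s j‖ ≤ e i) : ∃ l, ∀ i, ‖s i - l‖ ≤ e i := by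
  obtain ⟨l, hl⟩ := cauchySeq_tendsto_of_complete
    (cauchySeq_of_le_tendsto_0' e (fun i j hij => (dist_eq_norm _ _).trans_le (h i j hij)) he)
  exact ⟨l, fun i => le_of_tendsto (tendsto_const_nhds.sub hl).norm
    ((Filter.eventually_ge_atTop i).mono (h i))⟩

theorem zk_add {x z : C} {ε : ℝ} (hx : ‖x‖ ≤ ε) (hz : ‖z‖ ≤ ε) : ‖x + z‖ ≤ ε :=
  (IsUltrametricDist.norm_add_le_max x z).trans (max_le hx hz)

variable {p n : ℕ} [Fact p.Prime] {k : Type} [Field k] [CharP k p] [PerfectRing k p]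
  {F : FormalGroup (E0 p n k)} {y : E0 p n k →+* C} {ρ : ℝ}

/-- derivative of the `p`-series at the point `y` in the direction `μ` -/
def Dm (F : FormalGroup (E0 p n k)) (y : E0 p n k →+* C) (μ : Fin (n - 1) → C) : PowerSeries C :=
  PowerSeries.mk fun j =>
    ∑ i, μ i * y (pderiv (WittVector p k) i (PowerSeries.coeff j (mulSeries F p)))

/-- the unit `ω([p] X)` -/
def Um (F : FormalGroup (E0 p n k)) (y : E0 p n k →+* C) : PowerSeries C :=
  (omega (F.map y)).subst (mulSeries (F.map y) p)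

omit [IsUltrametricDist C] [CharP k p] [PerfectRing k p] in
theorem Dm_add (μ ν : Fin (n - 1) → C) : Dm F y (μ + ν) = Dm F y μ + Dm F y ν := by
  ext j
  simp only [Dm, map_add, PowerSeries.coeff_mk, Pi.add_apply, add_mul, Finset.sum_add_distrib]

omit [IsUltrametricDist C] [CharP k p] [PerfectRing k p] in
theorem Dm_sub (μ ν : Fin (n - 1) → C) : Dm F y (μ - ν) = Dm F y μ - Dm F y ν := by
  ext j
  simp only [Dm, map_sub, PowerSeries.coeff_mk, Pi.sub_apply, sub_mul, Finset.sum_sub_distrib]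

omit [IsUltrametricDist C] [CharP k p] [PerfectRing k p] in
theorem Dm_smul (c : C) (μ : Fin (n - 1) → C) :
    Dm F y (c • μ) = PowerSeries.C c * Dm F y μ := by
  ext j
  simp only [Dm, PowerSeries.coeff_C_mul, PowerSeries.coeff_mk, Pi.smul_apply, smul_eq_mul,
    Finset.mul_sum, mul_assoc]

theorem zk_der (hy : IsPt y ρ) {μ : Fin (n - 1) → C} {ε : ℝ} (hε : 0 ≤ ε) (hμ : ∀ i, ‖μ i‖ ≤ ε)
    (f : E0 p n k) : ‖∑ i, μ i * y (pderiv (WittVector p k) i f)‖ ≤ ε :=
  IsUltrametricDist.norm_sum_le_of_forall_le_of_nonneg hε fun i _ => (norm_mul _ _).trans_le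
    ((mul_le_of_le_one_right (norm_nonneg _) (hy.le_one _)).trans (hμ i))

theorem Dm_bdd (hy : IsPt y ρ) {μ : Fin (n - 1) → C} {ε : ℝ} (hε : 0 ≤ ε) (hμ : ∀ i, ‖μ i‖ ≤ ε) :
    Bdd ε (Dm F y μ) :=
  bdd_iff.2 fun j => by
    rw [Dm, PowerSeries.coeff_mk]
    exact zk_der hy hε hμ _

theorem mulSeries_bdd (hy : IsPt y ρ) (j : ℕ) : Bdd 1 (mulSeries (F.map y) j) := by
  rw [← map_mulSeries]
  exact bdd_map_one y hy.le_one _

theorem Um_bdd (hy : IsPt y ρ) : Bdd 1 (Um F y) := by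
  refine Bdd.psubst ?_ (c0_mulSeries p) (mulSeries_bdd hy p)
  rw [← map_omega]
  exact bdd_map_one y hy.le_one _

theorem zk_mu (hn : 1 ≤ n) (hH : HeightCoords F) (hy : IsPt y ρ) {μ : Fin (n - 1) → C} {M M' : ℝ}
    (hM : 0 ≤ M) (hμ : ∀ i, ‖μ i‖ ≤ M) (h1 : ρ * M ≤ M')
    (h : ∀ j < p ^ n, ‖PowerSeries.coeff j (Dm F y μ)‖ ≤ M') (i : Fin (n - 1)) : ‖μ i‖ ≤ M' := by
  have e := (hH n hn le_rfl).trans (heightIdeal_top hn)
  have key : ∀ f ∈ Ideal.span {x | ∃ j < p ^ n, x = PowerSeries.coeff j (mulSeries F p)},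
      ‖∑ l, μ l * y (pderiv (WittVector p k) l f)‖ ≤ M' := by
    intro f hf
    induction hf using Submodule.span_induction with
    | mem x hx =>
      obtain ⟨j, hj, rfl⟩ := hx
      simpa only [Dm, PowerSeries.coeff_mk] using h j hj
    | zero =>
      simp only [map_zero, mul_zero, Finset.sum_const_zero, norm_zero]
      exact (mul_nonneg hy.rho_pos.le hM).trans h1
    | add x z _ _ hx hz =>
      simp only [map_add, mul_add, Finset.sum_add_distrib]
      exact zk_add hx hz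
    | smul r x hx ih =>
      have e2 : ∑ l, μ l * y (pderiv (WittVector p k) l (r • x)) =
          y r * ∑ l, μ l * y (pderiv (WittVector p k) l x) +
            y x * ∑ l, μ l * y (pderiv (WittVector p k) l r) := by
        rw [Finset.mul_sum, Finset.mul_sum, ← Finset.sum_add_distrib]
        refine Finset.sum_congr rfl fun l _ => ?_
        rw [smul_eq_mul, Derivation.leibniz, smul_eq_mul, smul_eq_mul, map_add, map_mul, map_mul]
        ring
      rw [e2]
      refine zk_add ((norm_mul _ _).trans_le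
        ((mul_le_of_le_one_left (norm_nonneg _) (hy.le_one _)).trans ih))
        ((norm_mul _ _).trans_le (le_trans ?_ h1))
      exact mul_le_mul (hy.le_rho x (e ▸ hx)) (zk_der hy hM hμ r) (norm_nonneg _) hy.rho_pos.le
  have h2 := key (X i) (e ▸ X_mem_mE i)
  rwa [Finset.sum_eq_single i (fun l _ hl => by rw [pderiv_X_of_ne hl.symm, map_zero, mul_zero])
    (by simp), pderiv_X_self, map_one, mul_one] at h2

theorem zk_step (hn : 1 ≤ n) (hH : HeightCoords F)
    (hP : mulSeries F p - PowerSeries.X ^ p ^ n ∈ cId Unit (mE p n k)) (hy : IsPt y ρ)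
    {b : PowerSeries C} (hb0 : PowerSeries.constantCoeff b = 0) {M ε : ℝ} (hb : Bdd M b)
    {μ : Fin (n - 1) → C} (hμ : ∀ i, ‖μ i‖ ≤ M)
    (h : Bdd ε (Tm p (mulSeries (F.map y) p) b - Um F y * Dm F y μ)) :
    Bdd (max (ρ * M) ε) b ∧ ∀ i, ‖μ i‖ ≤ max (ρ * M) ε := by
  have hq : p ^ n ≠ 0 := pow_ne_zero n (Fact.out : p.Prime).ne_zero
  have q0 : PowerSeries.constantCoeff (PowerSeries.X ^ p ^ n : PowerSeries C) = 0 := by
    rw [map_pow, PowerSeries.constantCoeff_X, zero_pow hq]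
  have q1 : Bdd 1 (PowerSeries.X ^ p ^ n : PowerSeries C) := by
    have := (bdd_X (C := C) ()).pow (p ^ n)
    rwa [one_pow] at this
  have h1 : Bdd ρ (mulSeries (F.map y) p - PowerSeries.X ^ p ^ n) := by
    have e : PowerSeries.map y (mulSeries F p - PowerSeries.X ^ p ^ n) =
        mulSeries (F.map y) p - PowerSeries.X ^ p ^ n := by
      rw [map_sub, map_pow, PowerSeries.map_X, map_mulSeries]
    rw [← e]
    exact bdd_map y hy.le_rho hP
  have h2 := (hb.psubst_sub (c0_mulSeries p) q0 (mulSeries_bdd hy p) q1 h1).mono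
    ((mul_comm _ _).trans_le (le_max_left _ ε))
  have h3 := (hb.C_mul (p : C)).mono
    ((mul_le_mul_of_nonneg_right hy.norm_p hb.nonneg).trans (le_max_left _ ε))
  have h4 : Bdd (max (ρ * M) ε)
      (b.subst (PowerSeries.X ^ p ^ n : PowerSeries C) - Um F y * Dm F y μ) := by
    have e : b.subst (PowerSeries.X ^ p ^ n : PowerSeries C) - Um F y * Dm F y μ =
        Tm p (mulSeries (F.map y) p) b - Um F y * Dm F y μ - (b.subst (mulSeries (F.map y) p) -
          b.subst (PowerSeries.X ^ p ^ n : PowerSeries C)) + PowerSeries.C (p : C) * b := by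
      rw [Tm]
      ring
    rw [e]
    exact ((h.mono (le_max_right _ _)).sub h2).add h3
  have hV : Bdd 1 ((psi (F.map y)).subst (mulSeries (F.map y) p)) := by
    refine Bdd.psubst ?_ (c0_mulSeries p) (mulSeries_bdd hy p)
    rw [← rlog_map_psi]
    exact bdd_map_one y hy.le_one _
  have hVU : (psi (F.map y)).subst (mulSeries (F.map y) p) * Um F y = 1 :=
    rlog_omega_psi_subst (c0_mulSeries p)
  have h5 : ∀ i, ‖μ i‖ ≤ max (ρ * M) ε := by
    refine zk_mu hn hH hy hb.nonneg hμ (le_max_left _ _) fun j hj => ?_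
    have h6 := bdd_iff.1 (hV.mul h4) j
    have h7 := pow_dvd_psubst (a := (PowerSeries.X ^ p ^ n : PowerSeries C)) q0 (w := b) (k := 1)
      fun l hl => by rw [Nat.lt_one_iff.1 hl, PowerSeries.coeff_zero_eq_constantCoeff, hb0]
    rw [pow_one] at h7
    rwa [mul_sub, ← mul_assoc, hVU, one_mul, one_mul, map_sub,
      PowerSeries.X_pow_dvd_iff.1 (h7.mul_left _) j hj, zero_sub, norm_neg] at h6
  refine ⟨bdd_iff.2 fun j => ?_, h5⟩
  have h8 := bdd_iff.1 (h4.add (((Um_bdd (F := F) hy).mul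
    (Dm_bdd (F := F) hy h4.nonneg h5)).mono (one_mul _).le)) (p ^ n * j)
  rwa [sub_add_cancel, ← PowerSeries.expand_apply _ hq, PowerSeries.coeff_expand_mul] at h8

theorem key (hn : 1 ≤ n) (hH : HeightCoords F)
    (hP : mulSeries F p - PowerSeries.X ^ p ^ n ∈ cId Unit (mE p n k)) (hy : IsPt y ρ)
    {b : PowerSeries C} (hb0 : PowerSeries.constantCoeff b = 0) {β ε : ℝ} (hb : Bdd β b)
    {μ : Fin (n - 1) → C} (h : Bdd ε (Tm p (mulSeries (F.map y) p) b - Um F y * Dm F y μ)) :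
    Bdd ε b ∧ ∀ i, ‖μ i‖ ≤ ε := by
  set S := {M : ℝ | Bdd M b ∧ ∀ i, ‖μ i‖ ≤ M}
  have h1 : S.Nonempty := ⟨max β ‖μ‖, hb.mono (le_max_left _ _),
    fun i => (norm_le_pi_norm μ i).trans (le_max_right _ _)⟩
  have h2 : sInf S ∈ S :=
    ⟨fun d => le_csInf h1 fun M hM => hM.1 d, fun i => le_csInf h1 fun M hM => hM.2 i⟩
  have h3 : sInf S ≤ max (ρ * sInf S) ε :=
    csInf_le ⟨0, fun M hM => hM.1.nonneg⟩ (zk_step hn hH hP hy hb0 h2.1 h2.2 h)
  have h4 : sInf S ≤ ε := by
    rcases le_max_iff.1 h3 with h5 | h5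
    · nlinarith [h.nonneg, hy.lt_one, h2.1.nonneg]
    · exact h5
  exact ⟨h2.1.mono h4, fun i => (h2.2 i).trans h4⟩

theorem exact_of_approx [CompleteSpace C] (hn : 1 ≤ n) (hH : HeightCoords F)
    (hP : mulSeries F p - PowerSeries.X ^ p ^ n ∈ cId Unit (mE p n k)) (hy : IsPt y ρ)
    (t : PowerSeries C) (lam : Fin (n - 1) → C)
    (h : ∀ η : ℝ, 0 < η → ∃ (b : PowerSeries C) (β : ℝ) (ν : Fin (n - 1) → C),
      PowerSeries.constantCoeff b = 0 ∧ Bdd β b ∧
      Bdd η (Tm p (mulSeries (F.map y) p) b - Um F y * Dm F y ν + t) ∧ ‖∑ i, ν i * lam i‖ ≤ η) :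
    ∃ (b : PowerSeries C) (β : ℝ) (ν : Fin (n - 1) → C),
      PowerSeries.constantCoeff b = 0 ∧ Bdd β b ∧
      Tm p (mulSeries (F.map y) p) b + t = Um F y * Dm F y ν ∧ ∑ i, ν i * lam i = 0 := by
  obtain ⟨e, e0, e1, he⟩ := exists_seq_strictAnti_tendsto (0 : ℝ)
  choose b β ν h0 h1 h2 h3 using fun j => h (e j) (e1 j)
  have P0 := c0_mulSeries (F := F.map y) p
  have hk : ∀ i j, i ≤ j → Bdd (e i) (b i - b j) ∧ ∀ l, ‖(ν i - ν j) l‖ ≤ e i := by
    intro i j hij
    refine key hn hH hP hy (by rw [map_sub, h0, h0, sub_zero])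
      (((h1 i).mono (le_max_left _ (β j))).sub ((h1 j).mono (le_max_right _ _))) ?_
    have := (h2 i).sub ((h2 j).mono (e0.antitone hij))
    rw [Tm_sub P0, Dm_sub]
    convert this using 1
    ring
  choose B hB using fun d => zk_lim (s := fun i => PowerSeries.coeff d (b i)) he
    fun i j hij => by simpa only [map_sub] using bdd_iff.1 (hk i j hij).1 d
  choose N hN using fun l => zk_lim (s := fun i => ν i l) he fun i j hij => (hk i j hij).2 l
  have hb : ∀ i, Bdd (e i) (b i - PowerSeries.mk B) := fun i => bdd_iff.2 fun d => by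
    rw [map_sub, PowerSeries.coeff_mk]
    exact hB d i
  have z : ∀ (x : C) (c : ℝ), (∀ i, ‖x‖ ≤ e i * c) → x = 0 := fun x c hx =>
    norm_le_zero_iff.1 (ge_of_tendsto' (by simpa using he.mul_const c) hx)
  refine ⟨PowerSeries.mk B, max (β 0) (e 0), N, z _ 1 fun i => ?_, ?_, ?_,
    z _ (1 + ∑ l, ‖lam l‖) fun i => ?_⟩
  · have := bdd_iff.1 (hb i) 0
    rwa [PowerSeries.coeff_zero_eq_constantCoeff, map_sub, h0, zero_sub, norm_neg,
      ← mul_one (e i)] at this
  · have := ((h1 0).mono (le_max_left _ (e 0))).sub ((hb 0).mono (le_max_right _ _))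
    rwa [sub_sub_cancel] at this
  · refine sub_eq_zero.1 (eq_zero_of_bdd fun η hη => ?_)
    obtain ⟨i, hi⟩ := (he.eventually_le_const hη).exists
    have := ((h2 i).sub (Tm_bdd (p := p) P0 (mulSeries_bdd hy p) (hb i))).add
      (((Um_bdd (F := F) hy).mul (Dm_bdd (F := F) (μ := ν i - N) hy (e1 i).le
        fun l => hN l i)).mono (one_mul _).le)
    rw [Tm_sub P0, Dm_sub] at this
    convert this.mono hi using 1
    ring
  · have e2 : ∑ l, N l * lam l = ∑ l, ν i l * lam l - ∑ l, (ν i l - N l) * lam l := by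
      rw [← Finset.sum_sub_distrib]
      exact Finset.sum_congr rfl fun l _ => by ring
    rw [e2, mul_add, mul_one, Finset.mul_sum]
    refine (norm_sub_le _ _).trans (add_le_add (h3 i) ((norm_sum_le _ _).trans
      (Finset.sum_le_sum fun l _ => (norm_mul _ _).trans_le ?_)))
    exact mul_le_mul_of_nonneg_right (hN l i) (norm_nonneg _)

end

end Vale.Agent.P217
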