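import Vale.Agent.P217.ZKey

/-! P217: the logarithm has unbounded coefficients in degrees that are powers of `p`.
PLAN.
* `exists_choose_not_dvd`: take `i = p^e` with `p^e ∥ d` (Kummer/Lucas), or use that
  `(X + 1)^d = X^d + 1` in `(ZMod p)[X]` forces `d` to be a power of `p` (write `d = p^e d'`,
  `(X+1)^d = (X^(p^e) + 1)^d'`, the coefficient of `X^(p^e)` is `d'`).  Mathlib:
  `Nat.Prime.dvd_choose_pow_iff`, `Choose.choose_modEq_choose_mod_mul_choose_div_nat`,
  `Nat.factorization_choose`, `Nat.Prime.emultiplicity_choose`.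
* `bdd_of_pow_bdd`: strong induction on `d`.  For `d` not a power of `p`, `d ≥ 2`, take the coefficient of
  `X0^i X1^(d-i)` in `l(G) = l(X0) + l(X1)` (`IsLog.fadd`, `fadd_X_X`): the right side is zero, the left side
  is the finite sum `∑_j l_j coeff (G^j)` (`PowerSeries.coeff_subst`); `j > d` gives zero (order),
  `j = d` gives `choose d i * l_d` (`G = X0 + X1 + X0 X1 z`, `fadd_eq`), and `j < d` are bounded by `β`.
  Easier variant: split `l = l_{<d} + l_d X^d + X^(d+1) r`.
* `log_unbounded`: if `l` is bounded, `Tm p P l = 0` (`IsLog.nmul`, `nmul_X`) and `key` with `μ = 0`,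
  `ε = 0` give `l = 0`, but `coeff 1 l = 1` (`IsLog.coeff`, `c0_omega`).
* `log_unbounded_class`: otherwise choose a bound for each class `i < n` and take the maximum
  (every `s` is `s % n + n * (s / n)`). -/

namespace Vale.Agent.P217

open MvPowerSeries IsLocalRing

noncomputable section

theorem exists_choose_not_dvd {p : ℕ} (hp : p.Prime) {d : ℕ} (hd : d ≠ 0)
    (hpow : ∀ s, d ≠ p ^ s) : ∃ i, 0 < i ∧ i < d ∧ ¬ p ∣ d.choose i := by
  haveI := Fact.mk hp
  by_contra h
  push Not at h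
  refine hpow _ (Choose.eq_pow_multiplicity_of_choose_modEq_zero_nat (p := p)
    (Nat.pos_of_ne_zero hd) fun i hi => ?_)
  rw [Finset.mem_Icc] at hi
  exact (Nat.modEq_zero_iff_dvd).2 (h i (by omega) (by omega))

variable {C : Type*} [NormedField C] [IsUltrametricDist C]

theorem zlog_pow {A : Type*} [CommRing A] (I : Ideal A) {s t : A} (hs : s ∈ I) (ht : t ∈ I ^ 2)
    (d : ℕ) : (s + t) ^ d - s ^ d ∈ I ^ (d + 1) := by
  induction d with
  | zero => simp
  | succ d ih =>
    have e : (s + t) ^ (d + 1) - s ^ (d + 1) = ((s + t) ^ d - s ^ d) * (s + t) + s ^ d * t := by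
      ring
    rw [e]
    refine add_mem ?_ ?_
    · rw [pow_succ]
      exact Ideal.mul_mem_mul ih (add_mem hs (Ideal.pow_le_self two_ne_zero ht))
    · rw [add_assoc, pow_add]
      exact Ideal.mul_mem_mul (Ideal.pow_mem_pow hs d) ht

theorem zlog_order {σ R : Type*} [CommRing R] {k : ℕ} {f : MvPowerSeries σ R}
    (hf : f ∈ Ideal.span (Set.range (X : σ → MvPowerSeries σ R)) ^ k) : (k : ℕ∞) ≤ f.order := by
  induction k generalizing f with
  | zero => simp
  | succ k ih =>
    rw [pow_succ] at hf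
    refine Submodule.mul_induction_on hf (fun a ha b hb => ?_) fun a b ha hb => ?_
    · refine le_trans ?_ le_order_mul
      push_cast
      exact add_le_add (ih ha) (one_le_order_iff_constCoeff_eq_zero.2 (rc_c0_of_mem_span_X hb))
    · exact (le_min ha hb).trans min_order_le_add

theorem zlog_coeff {R : Type*} [CommRing R] (G : FormalGroup R) {u : PowerSeries R} {d : ℕ}
    (hu : ∀ j < d, PowerSeries.coeff j u = 0) {e : Fin 2 →₀ ℕ} (he : e 0 + e 1 = d) :
    coeff e (u.subst G.toPowerSeries) = d.choose (e 0) * PowerSeries.coeff d u := by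
  have h0 : constantCoeff G.toPowerSeries = 0 :=
    fadd_X_X (F := G) ▸ c0_fadd (rc_c0X 0) (rc_c0X 1)
  have hz : ∀ f ∈ Ideal.span (Set.range (X : Fin 2 → MvPowerSeries (Fin 2) R)) ^ (d + 1),
      coeff e f = 0 := fun f hf => coeff_of_lt_order (lt_of_lt_of_le (by
    rw [Finsupp.degree_eq_sum, Fin.sum_univ_two, he]
    exact_mod_cast Nat.lt_succ_self d) (zlog_order hf))
  have h1 := pow_dvd_psubst h0 (w := u - PowerSeries.C (PowerSeries.coeff d u) * PowerSeries.X ^ d)
    (k := d + 1) fun j hj => by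
      rw [map_sub, PowerSeries.coeff_C_mul, PowerSeries.coeff_X_pow]
      split_ifs with h
      · rw [h, mul_one, sub_self]
      · rw [hu j (by omega), mul_zero, sub_zero]
  have h2 := hz _ (Ideal.mem_of_dvd _ h1 (Ideal.pow_mem_pow (rc_mem_span_X h0) _))
  rw [PowerSeries.subst_sub (hs1 h0), PowerSeries.subst_mul (hs1 h0), PowerSeries.subst_pow (hs1 h0),
    PowerSeries.subst_X (hs1 h0), PowerSeries.subst_C, map_sub, coeff_C_mul, sub_eq_zero] at h2
  obtain ⟨r, hr⟩ := rc_fadd_univ G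
  have hX : ∀ i, (X i : MvPowerSeries (Fin 2) R) ∈ Ideal.span (Set.range X) := fun i =>
    Ideal.subset_span ⟨i, rfl⟩
  have h3 := hz _ (zlog_pow _ (add_mem (hX 0) (hX 1)) (t := X 0 * X 1 * r)
    (Ideal.mul_mem_right _ _ (by rw [sq]; exact Ideal.mul_mem_mul (hX 0) (hX 1))) d)
  have h4 := PowerSeries.coeff_subst_X_zero_add_X_one (PowerSeries.X ^ d : PowerSeries R) e
  have h5 : constantCoeff (X 0 + X 1 : MvPowerSeries (Fin 2) R) = 0 := by simp
  rw [PowerSeries.subst_pow (hs1 h5), PowerSeries.subst_X (hs1 h5), he,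
    PowerSeries.coeff_X_pow_self, mul_one] at h4
  rw [← hr, map_sub, sub_eq_zero] at h3
  rw [h2, h3, h4, mul_comm]
theorem bdd_of_pow_bdd {p : ℕ} (hp : p.Prime) (hp0 : (p : C) ≠ 0) (hp1 : ‖(p : C)‖ < 1)
    {G : FormalGroup C} (hG : G.IsComm) (hG1 : Bdd 1 G.toPowerSeries) {l : PowerSeries C}
    (hl : IsLog G l) {β : ℝ} (h : ∀ s, ‖PowerSeries.coeff (p ^ s) l‖ ≤ β) : Bdd β l := by
  have hβ : 0 ≤ β := (norm_nonneg _).trans (h 0)
  have h0 : constantCoeff G.toPowerSeries = 0 :=
    fadd_X_X (F := G) ▸ c0_fadd (rc_c0X 0) (rc_c0X 1)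
  refine bdd_iff.2 fun d => ?_
  induction d using Nat.strong_induction_on with
  | _ d ih =>
  rcases eq_or_ne d 0 with rfl | hd
  · simpa [hl.1] using hβ
  by_cases hpow : ∃ s, d = p ^ s
  · obtain ⟨s, rfl⟩ := hpow
    exact h s
  obtain ⟨i, hi0, hi, hc⟩ := exists_choose_not_dvd hp hd (not_exists.1 hpow)
  obtain ⟨a, ha⟩ : ∃ a : PowerSeries C,
      a = PowerSeries.mk fun j => if j < d then PowerSeries.coeff j l else 0 := ⟨_, rfl⟩
  have ha1 : Bdd β a := bdd_iff.2 fun j => by
    rw [ha, PowerSeries.coeff_mk]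
    split_ifs with hj
    · exact ih j hj
    · simpa using hβ
  obtain ⟨e, he0, he1⟩ : ∃ e : Fin 2 →₀ ℕ, e 0 = i ∧ e 1 = d - i :=
    ⟨Finsupp.single 0 i + Finsupp.single 1 (d - i), by simp, by simp⟩
  have h1 := zlog_coeff G (u := l - a) (d := d) (fun j hj => by simp [ha, hj]) (e := e) (by omega)
  have h2 := hl.fadd (qAlg_of_norm hp hp0 hp1) hG (rc_c0X (0 : Fin 2)) (rc_c0X 1)
  rw [fadd_X_X] at h2
  rw [PowerSeries.subst_sub (hs1 h0), h2, map_sub, map_add, PowerSeries.coeff_subst_single,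
    PowerSeries.coeff_subst_single, if_neg, if_neg, he0] at h1
  · have h3 := congrArg norm h1
    rw [norm_mul, norm_natCast_eq_one hp hp1 hc, one_mul, add_zero, zero_sub, norm_neg] at h3
    have h4 := ha1.psubst h0 hG1 e
    rw [h3] at h4
    simpa [ha] using h4
  · intro h'
    have := congrArg (· 0) h'
    simp at this
    omega
  · intro h'
    have := congrArg (· 1) h'
    simp at this
    omega

variable {p n : ℕ} [Fact p.Prime] {k : Type} [Field k] [CharP k p] [PerfectRing k p]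
  {F : FormalGroup (E0 p n k)} {y : E0 p n k →+* C} {ρ : ℝ}

theorem log_unbounded (hn : 1 ≤ n) (hF : F.IsComm) (hH : HeightCoords F)
    (hP : mulSeries F p - PowerSeries.X ^ p ^ n ∈ cId Unit (mE p n k)) (hy : IsPt y ρ)
    {l : PowerSeries C} (hl : IsLog (F.map y) l) (β : ℝ) : ¬ Bdd β l := fun hb => by
  have h1 := hl.nmul hy.qAlg (isComm_map hF y) p (a := (PowerSeries.X : PowerSeries C))
    PowerSeries.constantCoeff_X
  rw [nmul_X, PowerSeries.X_subst] at h1
  have h2 : Dm F y 0 = 0 := by simpa using Dm_sub (F := F) (y := y) 0 0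
  have h3 := (key hn hH hP hy hl.1 hb (μ := 0) (ε := 0) (by
    rw [h2, mul_zero, sub_zero, Tm, h1]
    exact (congrArg (Bdd 0) (sub_self (PowerSeries.C (p : C) * l))).mpr (bdd_zero le_rfl))).1
  have h4 := hl.coeff 0
  rw [norm_le_zero_iff.1 (bdd_iff.1 h3 _), mul_zero, PowerSeries.coeff_zero_eq_constantCoeff_apply,
    c0_omega] at h4
  exact zero_ne_one h4

theorem log_unbounded_class (hn : 1 ≤ n) (hF : F.IsComm) (hH : HeightCoords F)
    (hP : mulSeries F p - PowerSeries.X ^ p ^ n ∈ cId Unit (mE p n k)) (hy : IsPt y ρ)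
    {l : PowerSeries C} (hl : IsLog (F.map y) l) :
    ∃ i < n, ∀ β : ℝ, ∃ j, β < ‖PowerSeries.coeff (p ^ (i + n * j)) l‖ := by
  by_contra h
  push Not at h
  choose! β hβ using h
  refine log_unbounded hn hF hH hP hy hl (∑ i ∈ Finset.range n, |β i|)
    (bdd_of_pow_bdd Fact.out hy.p_ne (hy.norm_p.trans_lt hy.lt_one) (isComm_map hF y)
      (bdd_map_one y hy.le_one _) hl fun s => ?_)
  have h1 := hβ (s % n) (Nat.mod_lt _ hn) (s / n)
  rw [Nat.mod_add_div] at h1
  exact h1.trans ((le_abs_self _).trans (Finset.single_le_sum (f := fun i => |β i|)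
    (fun _ _ => abs_nonneg _) (Finset.mem_range.2 (Nat.mod_lt _ hn))))

end

end Vale.Agent.P217
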