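import Vale.Agent.P217.ZEst
import Vale.Agent.P217.ZLog
import Vale.Agent.P217.RHom

/-! P217: the ideal of an orbit in characteristic zero is stable under the derivations.
PLAN.
* `exists_dual`: for `i0 < n` put `c ζ = (q-1)⁻¹ (θ ζ ^ p^i0)⁻¹` (and `c 0 = 0`).  For `ζ ≠ 0`,
  `θ ζ ^ p^s` only depends on `s % n` (`ζ^q = ζ`, `FiniteField.pow_card`).  The character
  `ζ ↦ θ ζ ^ p^i (θ ζ ^ p^i0)⁻¹` of `kˣ` is nontrivial for `i ≠ i0`, `i, i0 < n` (otherwise, by injectivity,
  `X^(p^i) - X^(p^i0)`, of degree `< q`, vanishes on `k`: `Polynomial.card_roots'` or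
  `FiniteField.X_pow_card_sub_X`-style degree count), so `sum_hom_units_eq_zero` applies.
  `(q - 1 : C) ≠ 0` by `CharZero`.
* `lin_final`: the linear map `c ↦ (∑ c r • ν r, ∑ c r * coeff 1 (g r + b r))` from `Fin n → C` to
  `(Fin (n-1) → C) × C` is not surjective when `lam ≠ 0` (its image lies in `∑ ν i * lam i = 0`), hence not
  injective (`LinearMap.injective_iff_surjective_of_finrank_eq_finrank`).
* `pderiv_vanish`: let `S` be the `C`-submodule of all `g` with `constantCoeff g = 0` such that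
  `T (g + b) = U D ν` for some bounded `b` with `b(0) = 0` and some `ν` with `∑ ν i * lam i = 0`
  (`lam i = y (∂_i f)`; `Tm_add`, `Tm_C_mul`, `Dm_add`, `Dm_smul`).  `approx` + `exact_of_approx` +
  `isHom_scale_frob` put `l.subst (C (θ ζ) * X ^ p^r)` in `S`, where `θ ζ = y (C (teichmuller p ζ))`
  (`θ` is injective: distinct Teichmueller lifts differ by a unit of `E0`, `mem_mE`, `res_C`).  With
  `i0` from `log_unbounded_class` and `c` from `exists_dual`, `g r = ∑ ζ, C (c ζ) * l.subst (...)` lies in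
  `S` and `coeff (p^(r + s)) (g r) = if s % n = i0 then coeff (p^s) l else 0`.  If `lam ≠ 0`, `lin_final`
  and `eq_zero_of_Tm` give `∑ c r * g r = - ∑ c r * b r` bounded, with some `c r ≠ 0`; look at the
  degrees `p^(r + i0 + n (j+1))`: only `g r` contributes.  Contradiction. -/

namespace Vale.Agent.P217

open MvPowerSeries IsLocalRing

noncomputable section

theorem zlin_exists {p n : ℕ} (hp : p.Prime) {k : Type} [Field k] [Fintype k]
    (hk : Fintype.card k = p ^ n) {i j : ℕ} (hi : i < n) (hj : j < n) (hij : i ≠ j) :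
    ∃ a : k, a ^ p ^ i ≠ a ^ p ^ j := by
  by_contra h
  push Not at h
  have h1 : (Polynomial.X ^ p ^ i - Polynomial.X ^ p ^ j : Polynomial k) = 0 := by
    refine Polynomial.eq_zero_of_natDegree_lt_card_of_eval_eq_zero _ Function.injective_id
      (fun a => by simp [h a]) ((Polynomial.natDegree_sub_le _ _).trans_lt ?_)
    rw [Polynomial.natDegree_X_pow, Polynomial.natDegree_X_pow, hk]
    exact max_lt (Nat.pow_lt_pow_right hp.one_lt hi) (Nat.pow_lt_pow_right hp.one_lt hj)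
  have h2 := congrArg Polynomial.natDegree (sub_eq_zero.1 h1)
  rw [Polynomial.natDegree_X_pow, Polynomial.natDegree_X_pow] at h2
  exact hij (Nat.pow_right_injective hp.two_le h2)

theorem exists_dual {p n : ℕ} [Fact p.Prime] {k : Type} [Field k] [Fintype k]
    (hk : Fintype.card k = p ^ n) {C : Type*} [Field C] [CharZero C] (θ : k →* C)
    (hθ : Function.Injective θ) (hθ0 : θ 0 = 0) {i0 : ℕ} (hi : i0 < n) :
    ∃ c : k → C, ∀ s, ∑ ζ, c ζ * θ ζ ^ p ^ s = if s % n = i0 then 1 else 0 := by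
  classical
  have hp : p.Prime := Fact.out
  have hne : ∀ ζ : k, ζ ≠ 0 → θ ζ ≠ 0 := fun ζ h h1 => h (hθ (h1.trans hθ0.symm))
  have hq : (Fintype.card k : C) - 1 ≠ 0 := by
    rw [sub_ne_zero]
    exact_mod_cast Fintype.one_lt_card.ne'
  refine ⟨fun ζ => ((Fintype.card k : C) - 1)⁻¹ * (θ ζ ^ p ^ i0)⁻¹, fun s => ?_⟩
  have hs : ∀ ζ : k, θ ζ ^ p ^ s = θ ζ ^ p ^ (s % n) := fun ζ => by
    rw [← map_pow, ← map_pow]
    congr 1
    conv_lhs => rw [← Nat.mod_add_div s n, pow_add, pow_mul, pow_mul, ← hk, FiniteField.pow_card_pow]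
  simp only [hs, mul_assoc]
  rw [← Finset.mul_sum]
  split_ifs with h
  · rw [h, Finset.sum_congr rfl (g := fun ζ => 1 - if ζ = 0 then 1 else 0) fun ζ _ => ?_,
      Finset.sum_sub_distrib, Finset.sum_ite_eq', if_pos (Finset.mem_univ _), Finset.sum_const,
      Finset.card_univ, nsmul_eq_mul, mul_one, inv_mul_cancel₀ hq]
    split_ifs with h0
    · rw [h0, hθ0, zero_pow (pow_ne_zero _ hp.ne_zero), mul_zero, sub_self]
    · rw [inv_mul_cancel₀ (pow_ne_zero _ (hne ζ h0)), sub_zero]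
  · obtain ⟨a, ha⟩ := zlin_exists hp hk (Nat.mod_lt s (Nat.zero_lt_of_lt hi)) hi h
    have ha0 : a ≠ 0 := fun h0 => ha (by
      rw [h0, zero_pow (pow_ne_zero _ hp.ne_zero), zero_pow (pow_ne_zero _ hp.ne_zero)])
    have h1 := Equiv.sum_comp (Equiv.mulLeft₀ a ha0) fun ζ => (θ ζ ^ p ^ i0)⁻¹ * θ ζ ^ p ^ (s % n)
    have h2 : ∀ ζ, (θ (Equiv.mulLeft₀ a ha0 ζ) ^ p ^ i0)⁻¹ * θ (Equiv.mulLeft₀ a ha0 ζ) ^ p ^ (s % n)
        = (θ a ^ p ^ i0)⁻¹ * θ a ^ p ^ (s % n) * ((θ ζ ^ p ^ i0)⁻¹ * θ ζ ^ p ^ (s % n)) := fun ζ => by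
      rw [Equiv.mulLeft₀_apply, map_mul, mul_pow, mul_pow, mul_inv]
      ring
    rw [Finset.sum_congr rfl fun ζ _ => h2 ζ, ← Finset.mul_sum] at h1
    refine mul_eq_zero_of_right _ (by_contra fun h3 => ha (hθ ?_))
    rw [map_pow, map_pow]
    exact ((inv_mul_eq_one₀ (pow_ne_zero _ (hne a ha0))).1 ((mul_eq_right₀ h3).1 h1)).symm

theorem lin_final {C : Type*} [Field C] {n : ℕ} (hn : 1 ≤ n) (ν : Fin n → Fin (n - 1) → C)
    (μ : Fin n → C) {lam : Fin (n - 1) → C} (hlam : lam ≠ 0) (h : ∀ r, ∑ i, ν r i * lam i = 0) :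
    ∃ c : Fin n → C, c ≠ 0 ∧ ∑ r, c r • ν r = 0 ∧ ∑ r, c r * μ r = 0 := by
  classical
  by_contra hc
  push Not at hc
  let L : (Fin n → C) →ₗ[C] (Fin (n - 1) → C) × C := Fintype.linearCombination C fun r => (ν r, μ r)
  have hL : ∀ c, L c = (∑ r, c r • ν r, ∑ r, c r * μ r) := fun c => by
    rw [Fintype.linearCombination_apply]
    exact Prod.ext (Prod.fst_sum.trans rfl) (Prod.snd_sum.trans rfl)
  have h1 : Function.Injective L := (injective_iff_map_eq_zero L).2 fun c h0 => by_contra fun h2 => by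
    rw [hL, Prod.mk_eq_zero] at h0
    exact hc c h2 h0.1 h0.2
  have h2 := (LinearMap.injective_iff_surjective_of_finrank_eq_finrank (by
    simp only [Module.finrank_prod, Module.finrank_fin_fun, Module.finrank_self]
    omega)).1 h1
  obtain ⟨i, hi⟩ := Function.ne_iff.1 hlam
  obtain ⟨c, h3⟩ := h2 (Pi.single i 1, 0)
  rw [hL, Prod.mk.injEq] at h3
  have h4 : ∑ j, (∑ r, c r • ν r) j * lam j = 0 := by
    simp only [Finset.sum_apply, Finset.sum_mul, Pi.smul_apply, smul_eq_mul, mul_assoc]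
    rw [Finset.sum_comm]
    exact Finset.sum_eq_zero fun r _ => by rw [← Finset.mul_sum, h r, mul_zero]
  rw [h3.1, Finset.sum_eq_single i (fun j _ hj => by
    rw [Pi.single_eq_of_ne hj, zero_mul]) (fun h5 => absurd (Finset.mem_univ i) h5),
    Pi.single_eq_same, one_mul] at h4
  exact hi h4

theorem coeff_subst_scale_frob {C : Type*} [CommRing C] (l : PowerSeries C) (t : C) {m : ℕ}
    (hm : m ≠ 0) (j : ℕ) :
    PowerSeries.coeff (m * j) (l.subst (PowerSeries.C t * PowerSeries.X ^ m) : PowerSeries C)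
      = t ^ j * PowerSeries.coeff j l := by
  have h0 : PowerSeries.constantCoeff (PowerSeries.C t * PowerSeries.X ^ m : PowerSeries C) = 0 := by
    rw [map_mul, map_pow, PowerSeries.constantCoeff_X, zero_pow hm, mul_zero]
  rw [PowerSeries.coeff_subst' (hs1 h0), finsum_eq_single _ j fun d hd => ?_]
  · rw [mul_pow, ← map_pow, ← pow_mul, PowerSeries.coeff_C_mul, PowerSeries.coeff_X_pow_self,
      mul_one, smul_eq_mul, mul_comm]
  · rw [mul_pow, ← map_pow, ← pow_mul, PowerSeries.coeff_C_mul, PowerSeries.coeff_X_pow,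
      if_neg fun h => hd (Nat.eq_of_mul_eq_mul_left (Nat.pos_of_ne_zero hm) h).symm, mul_zero,
      smul_zero]

variable {C : Type*} [NormedField C] [IsUltrametricDist C] [CompleteSpace C]
  {p n : ℕ} [Fact p.Prime] {k : Type} [Field k] [CharP k p] [PerfectRing k p]
  {F : FormalGroup (E0 p n k)} {y : E0 p n k →+* C} {ρ : ℝ}

/-- bounded series without constant term -/
def zlinB (C : Type*) [NormedField C] [IsUltrametricDist C] : Submodule C (PowerSeries C) where
  carrier := {b | PowerSeries.constantCoeff b = 0 ∧ ∃ β, Bdd β b}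
  zero_mem' := ⟨map_zero _, 0, bdd_zero le_rfl⟩
  add_mem' := fun ⟨h1, β, h2⟩ ⟨h3, γ, h4⟩ => ⟨by rw [map_add, h1, h3, add_zero], max β γ,
    (h2.mono (le_max_left _ _)).add (h4.mono (le_max_right _ _))⟩
  smul_mem' := fun c b ⟨h1, β, h2⟩ => ⟨by rw [PowerSeries.smul_eq_C_mul, map_mul, h1, mul_zero],
    ‖c‖ * β, by rw [PowerSeries.smul_eq_C_mul]; exact h2.C_mul c⟩

/-- the operator `T` as a linear map -/
def zlinT (F : FormalGroup (E0 p n k)) (y : E0 p n k →+* C) : PowerSeries C →ₗ[C] PowerSeries C where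
  toFun := Tm p (mulSeries (F.map y) p)
  map_add' := Tm_add (c0_mulSeries p)
  map_smul' c f := by
    rw [PowerSeries.smul_eq_C_mul, PowerSeries.smul_eq_C_mul, Tm_C_mul (c0_mulSeries p)]
    rfl

/-- the operator `U D` as a linear map -/
def zlinD (F : FormalGroup (E0 p n k)) (y : E0 p n k →+* C) :
    (Fin (n - 1) → C) →ₗ[C] PowerSeries C where
  toFun ν := Um F y * Dm F y ν
  map_add' μ ν := by rw [Dm_add, mul_add]
  map_smul' c ν := by
    rw [Dm_smul, PowerSeries.smul_eq_C_mul, mul_left_comm]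
    rfl

/-- the series which are tangent to the orbit -/
def zlinS (F : FormalGroup (E0 p n k)) (y : E0 p n k →+* C) (lam : Fin (n - 1) → C) :
    Submodule C (PowerSeries C) where
  carrier := {g | PowerSeries.constantCoeff g = 0 ∧ ∃ b ∈ zlinB C, ∃ ν,
    zlinT F y b + zlinT F y g = zlinD F y ν ∧ ∑ i, ν i * lam i = 0}
  zero_mem' := ⟨map_zero _, 0, zero_mem _, 0, by rw [map_zero, map_zero, add_zero], by simp⟩
  add_mem' := fun ⟨h1, b, h2, ν, h3, h4⟩ ⟨h5, b', h6, ν', h7, h8⟩ =>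
    ⟨by rw [map_add, h1, h5, add_zero], b + b', add_mem h2 h6, ν + ν', by
      rw [map_add, map_add, map_add, ← h3, ← h7, add_add_add_comm], by
      simp only [Pi.add_apply, add_mul, Finset.sum_add_distrib, h4, h8, add_zero]⟩
  smul_mem' := fun c g ⟨h1, b, h2, ν, h3, h4⟩ =>
    ⟨by rw [PowerSeries.smul_eq_C_mul, map_mul, h1, mul_zero], c • b, Submodule.smul_mem _ c h2,
      c • ν, by rw [map_smul, map_smul, map_smul, ← h3, smul_add], by
      simp only [Pi.smul_apply, smul_eq_mul, mul_assoc, ← Finset.mul_sum, h4, mul_zero]⟩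

omit [CompleteSpace C] in
theorem zlin_bdd (hn : 1 ≤ n) (hy : IsPt y ρ) {lam : Fin (n - 1) → C} (hlam : lam ≠ 0)
    (g : Fin n → PowerSeries C) (hg : ∀ r, g r ∈ zlinS F y lam) :
    ∃ a : Fin n → C, a ≠ 0 ∧ ∃ β, Bdd β (∑ r, a r • g r) := by
  choose b hb ν h1 h2 using fun r => (hg r).2
  obtain ⟨a, ha, h3, h4⟩ := lin_final hn ν (fun r => PowerSeries.coeff 1 (b r + g r)) hlam h2
  have h5 : ∑ r, a r • (b r + g r) = 0 := by
    refine eq_zero_of_Tm hy.p_ne (hy.norm_p.trans_lt hy.lt_one) (c0_mulSeries (F := F.map y) p)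
      (coeff_one_mulSeries _ p) ?_ ?_ ?_
    · rw [map_sum]
      refine Finset.sum_eq_zero fun r _ => ?_
      rw [PowerSeries.smul_eq_C_mul, map_mul, map_add, (hb r).1, (hg r).1, add_zero, mul_zero]
    · rw [map_sum]
      exact h4
    · change zlinT F y _ = 0
      rw [map_sum, ← map_zero (zlinD F y), ← h3, map_sum]
      exact Finset.sum_congr rfl fun r _ => by rw [map_smul, map_smul, map_add, h1]
  simp only [smul_add, Finset.sum_add_distrib] at h5
  refine ⟨a, ha, ?_⟩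
  rw [eq_neg_of_add_eq_zero_right h5]
  exact (neg_mem (Submodule.sum_mem (zlinB C) fun r _ => Submodule.smul_mem _ _ (hb r))).2

theorem pderiv_vanish [Fintype k] (hk : Fintype.card k = p ^ n) {Γ : FormalGroup (ZMod p)}
    (hn : 1 ≤ n) (hΓ : IsHonda p n Γ) (hU : IsUniversal (Γ.map (ZMod.castHom dvd_rfl k)) F)
    (hH : HeightCoords F) (hy : IsPt y ρ) {f : E0 p n k} (hf : ∀ σ, InStab F σ → y (σ f) = 0)
    (i : Fin (n - 1)) : y (pderiv (WittVector p k) i f) = 0 := by
  by_contra hne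
  have hp : p.Prime := Fact.out
  have hlam : (fun i => y (pderiv (WittVector p k) i f)) ≠ 0 := fun h => hne (congrFun h i)
  have hP := mulSeries_sub_mem hΓ hU
  have : CharZero C := charZero_of_inj_zero fun j hj => by_contra fun h => (hy.qAlg j h).ne_zero hj
  obtain ⟨l, hl⟩ := exists_isLog hy.qAlg (F.map y)
  obtain ⟨i0, hi0, hub⟩ := log_unbounded_class hn hU.comm hH hP hy hl
  let θ : k →* C := ((y.comp (MvPowerSeries.C : WittVector p k →+* E0 p n k)).toMonoidHom).comp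
    (WittVector.teichmuller p)
  have hθ : ∀ ζ, θ ζ = y (MvPowerSeries.C (WittVector.teichmuller p ζ)) := fun _ => rfl
  have hres : ∀ ζ : k, res (MvPowerSeries.C (WittVector.teichmuller p ζ) : E0 p n k) = ζ :=
    fun ζ => (res_C _).trans (WittVector.teichmuller_coeff_zero p ζ)
  have hinj : Function.Injective θ := fun a b hab => by_contra fun h => by
    have h1 : IsUnit (MvPowerSeries.C (WittVector.teichmuller p a) -
        MvPowerSeries.C (WittVector.teichmuller p b) : E0 p n k) := by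
      refine notMem_maximalIdeal.1 fun h2 => h ?_
      have h3 := mem_mE.1 h2
      rwa [map_sub, hres, hres, sub_eq_zero] at h3
    have h2 := norm_eq_one_of_isUnit y hy.le_one h1
    rw [map_sub, ← hθ, ← hθ, hab, sub_self, norm_zero] at h2
    exact zero_ne_one h2
  obtain ⟨c, hc⟩ := exists_dual hk θ hinj
    (by rw [hθ, WittVector.teichmuller_zero, map_zero, map_zero]) hi0
  have h0 : ∀ {A : Type} [CommRing A] (t : A) (r : ℕ),
      PowerSeries.constantCoeff (PowerSeries.C t * PowerSeries.X ^ p ^ r) = 0 := fun t r => by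
    rw [map_mul, map_pow, PowerSeries.constantCoeff_X, zero_pow (pow_ne_zero _ hp.ne_zero), mul_zero]
  have hS : ∀ (r : ℕ) (ζ : k), l.subst (PowerSeries.C (θ ζ) * PowerSeries.X ^ p ^ r) ∈
      zlinS F y fun i => y (pderiv (WittVector p k) i f) := fun r ζ => by
    have e : PowerSeries.map y (PowerSeries.C (MvPowerSeries.C (WittVector.teichmuller p ζ)) *
        PowerSeries.X ^ p ^ r) = PowerSeries.C (θ ζ) * PowerSeries.X ^ p ^ r := by
      rw [map_mul, map_pow, PowerSeries.map_C, PowerSeries.map_X, hθ]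
    rw [← e]
    obtain ⟨b, β, ν, h1, h2, h3, h4⟩ := exact_of_approx hn hH hP hy _ _
      (approx hn hΓ hU hH hy (isHom_scale_frob hΓ ζ (hk ▸ FiniteField.pow_card ζ) r)
        (h0 (MvPowerSeries.C (WittVector.teichmuller p ζ)) r)
        (by rw [map_mul, map_pow, PowerSeries.map_C, PowerSeries.map_X, hres]) hl hf)
    exact ⟨c0_subst (c0_map y (h0 _ r)) hl.1, b, ⟨h1, β, h2⟩, ν, h3, h4⟩
  obtain ⟨g, hg⟩ : ∃ g : ℕ → PowerSeries C, ∀ r, g r =
      ∑ ζ, c ζ • l.subst (PowerSeries.C (θ ζ) * PowerSeries.X ^ p ^ r) := ⟨_, fun _ => rfl⟩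
  have hco : ∀ r s, PowerSeries.coeff (p ^ (r + s)) (g r) =
      if s % n = i0 then PowerSeries.coeff (p ^ s) l else 0 := fun r s => by
    rw [hg, map_sum, pow_add, ← boole_mul, ← hc, Finset.sum_mul]
    refine Finset.sum_congr rfl fun ζ _ => ?_
    rw [map_smul, coeff_subst_scale_frob l _ (pow_ne_zero _ hp.ne_zero), smul_eq_mul, mul_assoc]
  obtain ⟨a, ha, β, hβ⟩ := zlin_bdd hn hy hlam (fun r => g r) fun r =>
    hg r ▸ Submodule.sum_mem _ fun ζ _ => Submodule.smul_mem _ _ (hS r ζ)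
  obtain ⟨r, hr⟩ := Function.ne_iff.1 ha
  have hr0 : 0 < ‖a r‖ := norm_pos_iff.2 hr
  obtain ⟨j, hj⟩ := hub (max (β / ‖a r‖) ‖PowerSeries.coeff (p ^ (i0 + n * 0)) l‖)
  obtain ⟨j, rfl⟩ : ∃ j', j = j' + 1 := Nat.exists_eq_succ_of_ne_zero fun h => by
    subst h
    exact lt_irrefl _ ((le_max_right _ _).trans_lt hj)
  have h1 := bdd_iff.1 hβ (p ^ (r + (i0 + n * (j + 1))))
  rw [map_sum, Finset.sum_eq_single r (fun r' _ hr' => ?_) fun h => absurd (Finset.mem_univ r) h,
    map_smul, hco, Nat.add_mul_mod_self_left, Nat.mod_eq_of_lt hi0, if_pos rfl, norm_smul,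
    ← le_div_iff₀' hr0] at h1
  · exact lt_irrefl _ (((le_max_left _ _).trans_lt hj).trans_le h1)
  · have e : (r : ℕ) + (i0 + n * (j + 1)) = r' + (r + n - r' + i0 + n * j) := by
      have := r'.2
      rw [Nat.mul_succ]
      omega
    rw [map_smul, e, hco, if_neg, smul_zero]
    rw [Nat.add_mul_mod_self_left]
    intro h2
    have h3 : (r + n - r' + i0) % n = (0 + i0) % n := by rw [h2, zero_add, Nat.mod_eq_of_lt hi0]
    have h4 := (Nat.modEq_zero_iff_dvd).1 (Nat.ModEq.add_right_cancel' i0 h3)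
    have h5 := r.2
    have h6 := r'.2
    have h7 : (r' : ℕ) ≠ r := fun h => hr' (Fin.ext h)
    obtain ⟨u, hu⟩ := h4
    rcases u with _ | _ | u
    · omega
    · omega
    · rw [Nat.mul_succ, Nat.mul_succ] at hu
      omega

end

end Vale.Agent.P217
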