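import Vale.Agent.P217.ZLin

/-! P217: an invariant ideal vanishing at a point of characteristic zero is zero.
PLAN.
* `hasse α g` has coefficients `(∏ i, choose (d i + α i) (α i)) * g (d + α)`; `hasse 0 g = g`,
  `∂_i (hasse α g) = (α i + 1) * hasse (α + single i 1) g` (`coeff_pderiv`, `Nat.succ_mul_choose_eq` /
  `Nat.add_one_mul_choose_eq`), constant coefficient `g α`.
* `eq_zero_of_stable`: `f = p^j g` with a unit coefficient at `d` (`exists_pow_mul_unit_coeff`);
  `g ∈ S`, all `hasse α g ∈ S` by induction on `α` (`Finsupp.induction_linear` does not fit; induct on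
  `α.degree` or use `Finsupp.induction₂`-like peeling of one unit vector), `hasse d g` is a unit
  (`isUnit_iff_constantCoeff`), so `S = ⊤`.
* `eq_bot_of_point`: `S` = the ideal of all `f` killed by every `y'` with `IsPt y' ρ` which kills `J`.
  For such `y'` and `InStab F σ`, `y' ∘ σ` is again such a point (`IsPt.comp`, `Ideal.mem_map_of_mem` and
  invariance), so `pderiv_vanish` applies; `S` is saturated because `C` has characteristic zero
  (`IsPt.qAlg`), proper because `y 1 ≠ 0`, and contains `J`. -/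

namespace Vale.Agent.P217

open MvPowerSeries IsLocalRing

noncomputable section

/-- divided derivative -/
def hasse {σ R : Type*} [Fintype σ] [CommRing R] (α : σ →₀ ℕ) (g : MvPowerSeries σ R) :
    MvPowerSeries σ R :=
  fun d => ((∏ i, (d i + α i).choose (α i) : ℕ) : R) * coeff (d + α) g

theorem zmain_coeff {σ R : Type*} [Fintype σ] [CommRing R] (α d : σ →₀ ℕ)
    (g : MvPowerSeries σ R) :
    coeff d (hasse α g) = ((∏ i, (d i + α i).choose (α i) : ℕ) : R) * coeff (d + α) g := rfl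

theorem zmain_nat {σ : Type*} [Fintype σ] (α d : σ →₀ ℕ) (i : σ) :
    (∏ j, ((d + Finsupp.single i 1 : σ →₀ ℕ) j + α j).choose (α j)) * (d i + 1) =
      (α i + 1) * ∏ j, (d j + (α + Finsupp.single i 1 : σ →₀ ℕ) j).choose
        ((α + Finsupp.single i 1 : σ →₀ ℕ) j) := by
  classical
  rw [← Finset.mul_prod_erase _ _ (Finset.mem_univ i),
    ← Finset.mul_prod_erase _ _ (Finset.mem_univ i)]
  have e : ∏ j ∈ Finset.univ.erase i, ((d + Finsupp.single i 1 : σ →₀ ℕ) j + α j).choose (α j) =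
      ∏ j ∈ Finset.univ.erase i, (d j + (α + Finsupp.single i 1 : σ →₀ ℕ) j).choose
        ((α + Finsupp.single i 1 : σ →₀ ℕ) j) := by
    refine Finset.prod_congr rfl fun j hj => ?_
    simp [Finsupp.single_eq_of_ne (Finset.ne_of_mem_erase hj)]
  rw [e]
  simp only [Finsupp.add_apply, Finsupp.single_eq_same]
  have h := Nat.choose_succ_right_eq (d i + 1 + α i) (α i)
  rw [Nat.add_sub_cancel] at h
  rw [mul_right_comm, ← h, show d i + (α i + 1) = d i + 1 + α i by ring]
  ring

theorem zmain_zero {σ R : Type*} [Fintype σ] [CommRing R] (g : MvPowerSeries σ R) :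
    hasse 0 g = g := by
  ext d
  simp [zmain_coeff]

theorem pderiv_hasse {σ R : Type*} [Fintype σ] [CommRing R] (α : σ →₀ ℕ) (g : MvPowerSeries σ R)
    (i : σ) : pderiv R i (hasse α g)
      = ((α i + 1 : ℕ) : MvPowerSeries σ R) * hasse (α + Finsupp.single i 1) g := by
  ext d
  rw [coeff_pderiv, ← map_natCast (C : R →+* MvPowerSeries σ R), coeff_C_mul, zmain_coeff,
    zmain_coeff, ← mul_assoc, ← Nat.cast_mul, ← zmain_nat, Nat.cast_mul, add_right_comm,
    add_assoc, mul_right_comm, Nat.cast_add, Nat.cast_one]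

variable {p n : ℕ} [Fact p.Prime] {k : Type} [Field k] [CharP k p] [PerfectRing k p]

theorem eq_zero_of_stable {S : Ideal (E0 p n k)} (hS : S ≠ ⊤)
    (hD : ∀ f ∈ S, ∀ i, pderiv (WittVector p k) i f ∈ S)
    (hsat : ∀ j : ℕ, j ≠ 0 → ∀ f, (j : E0 p n k) * f ∈ S → f ∈ S) : S = ⊥ := by
  refine (Submodule.eq_bot_iff S).2 fun f hf => by_contra fun h0 => hS ?_
  obtain ⟨j, g, d, rfl, hd⟩ := exists_pow_mul_unit_coeff h0
  have hg : g ∈ S := hsat (p ^ j) (pow_ne_zero _ (Fact.out : p.Prime).ne_zero) g (by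
    rwa [Nat.cast_pow])
  have h1 : ∀ α, hasse α g ∈ S := by
    intro α
    induction α using Finsupp.induction with
    | zero => rwa [zmain_zero]
    | single_add a b α _ _ ih =>
      rename_i h2 h3
      clear h2 h3
      induction b with
      | zero => rwa [Finsupp.single_zero, zero_add]
      | succ b ihb =>
        have h4 := hD _ ihb a
        rw [pderiv_hasse] at h4
        rw [Finsupp.single_add, add_right_comm]
        exact hsat _ (Nat.succ_ne_zero _) _ h4
  refine Ideal.eq_top_of_isUnit_mem S (h1 d) (isUnit_iff_constantCoeff.2 ?_)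
  rw [← coeff_zero_eq_constantCoeff_apply, zmain_coeff]
  simpa using hd

theorem eq_bot_of_point {C : Type*} [NormedField C] [IsUltrametricDist C] [CompleteSpace C]
    [Fintype k] (hk : Fintype.card k = p ^ n) {Γ : FormalGroup (ZMod p)}
    {F : FormalGroup (E0 p n k)} (hn : 1 ≤ n) (hΓ : IsHonda p n Γ)
    (hU : IsUniversal (Γ.map (ZMod.castHom dvd_rfl k)) F) (hH : HeightCoords F)
    {J : Ideal (E0 p n k)} (hJ : Invariant F J) {y : E0 p n k →+* C} (h1 : ∀ f, ‖y f‖ ≤ 1)
    (h2 : ∀ f ∈ mE p n k, ‖y f‖ < 1) (hp : (p : C) ≠ 0) (hyJ : ∀ f ∈ J, y f = 0) : J = ⊥ := by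
  obtain ⟨ρ, hy⟩ := exists_isPt h1 h2 hp
  let S : Ideal (E0 p n k) :=
    ⨅ z : {z : E0 p n k →+* C // IsPt z ρ ∧ ∀ f ∈ J, z f = 0}, RingHom.ker z.1
  have hS : ∀ f, f ∈ S ↔ ∀ z : E0 p n k →+* C, IsPt z ρ → (∀ f ∈ J, z f = 0) → z f = 0 :=
    fun f => Ideal.mem_iInf.trans ⟨fun h z a b => h ⟨z, a, b⟩, fun h z => h z.1 z.2.1 z.2.2⟩
  have h0 : S = ⊥ := by
    refine eq_zero_of_stable (fun h => ?_) (fun f hf i => ?_) fun j hj f hf => ?_
    · have h3 := (hS 1).1 (h ▸ Submodule.mem_top) y hy hyJ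
      rw [map_one] at h3
      exact one_ne_zero h3
    · refine (hS _).2 fun z hz hzJ => pderiv_vanish hk hn hΓ hU hH hz (fun σ hσ => ?_) i
      refine (hS f).1 hf (z.comp σ.toRingHom) (hz.comp σ) fun g hg => hzJ _ ?_
      rw [← hJ σ hσ]
      exact Ideal.mem_map_of_mem _ hg
    · refine (hS _).2 fun z hz hzJ => ?_
      have h3 := (hS _).1 hf z hz hzJ
      rw [map_mul, map_natCast, mul_eq_zero] at h3
      exact h3.resolve_left (hy.qAlg j hj).ne_zero
  exact eq_bot_iff.2 (h0 ▸ fun f hf => (hS f).2 fun z _ hzJ => hzJ f hf)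

end

end Vale.Agent.P217
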