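import Vale.Agent.P217.RLog

/-! P217: power series with bounded coefficients over an ultrametric field.
PLAN.
* finite sums: `IsUltrametricDist.norm_sum_le_of_forall_le_of_nonneg` (or `exists_norm_finset_sum_le`).
* `bdd_subst`: `coeff_subst` writes a coefficient as a `finsum` with finite support
  (`coeff_subst_finite`, `finsum_eq_sum_of_support_subset`); each term `coeff d w • coeff e (∏ a i ^ d i)`.
* `Bdd.psubst_sub`: `PowerSeries.coeff_subst`; `a^j - b^j = (∑ a^i b^(j-1-i)) (a - b)`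
  (`Commute.geom_sum₂`, `geom_sum₂_mul`); subtract the two finsums (`finsum_sub_distrib`).
* `exists_goodB`: write `j = p^e j'` with `p ∤ j'` (`Nat.exists_eq_pow_mul_and_not_dvd`), `‖j‖ = ‖p‖^e`, and
  `j ≥ 2^e`; choose `L` with `ρ^L ≤ ‖p‖` (`exists_pow_lt_of_lt_one`); `j - 2 ≥ L e` as soon as
  `e ≥ L + 2`..., finitely many small `e` are bounded by `‖p‖⁻¹ ^ e0`.
* `taylor0`: universal series `W = f(X0 + X1) - f(X0) - f'(X0) X1` in `MvPowerSeries (Fin 2) C`; its
  coefficient at `(i, j)` is `choose (i+j) j * f_(i+j)` for `j ≥ 2` and zero for `j ≤ 1`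
  (`PowerSeries.coeff_subst_X_zero_add_X_one`, `coeff_subst_single`, see also `taylor1` in RCong);
  `j * choose (i+j) j = (i+j) * choose (i+j-1) (j-1)` gives `‖j‖ ‖W_(i,j)‖ ≤ γ`; then `bdd_subst` with
  radii `![1, ε]` and `subst_psubst`. -/

namespace Vale.Agent.P217

open MvPowerSeries

noncomputable section

variable {σ τ : Type*} {C : Type*} [NormedField C] [IsUltrametricDist C]
  {β γ ε ρ B : ℝ} {a b e : MvPowerSeries σ C}

/-- all coefficients have norm at most `β` -/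
def Bdd (β : ℝ) (a : MvPowerSeries σ C) : Prop := ∀ d, ‖coeff d a‖ ≤ β

omit [IsUltrametricDist C] in
theorem bdd_iff {f : PowerSeries C} : Bdd β f ↔ ∀ j, ‖PowerSeries.coeff j f‖ ≤ β := by
  refine ⟨fun h j => h _, fun h d => ?_⟩
  rw [← PowerSeries.coeff_def rfl]
  exact h _

omit [IsUltrametricDist C] in
theorem Bdd.mono (h : Bdd β a) (hβ : β ≤ γ) : Bdd γ a := fun d => (h d).trans hβ

omit [IsUltrametricDist C] in
theorem Bdd.nonneg (h : Bdd β a) : 0 ≤ β := (norm_nonneg _).trans (h 0)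

omit [IsUltrametricDist C] in
theorem bdd_zero (hβ : 0 ≤ β) : Bdd β (0 : MvPowerSeries σ C) := by
  intro d
  simpa using hβ

omit [IsUltrametricDist C] in
theorem bdd_one : Bdd 1 (1 : MvPowerSeries σ C) := by
  classical
  intro d
  rw [coeff_one]
  split_ifs <;> simp

omit [IsUltrametricDist C] in
theorem bdd_X (i : σ) : Bdd 1 (X i : MvPowerSeries σ C) := by
  classical
  intro d
  rw [coeff_X]
  split_ifs <;> simp

theorem Bdd.add (ha : Bdd β a) (hb : Bdd β b) : Bdd β (a + b) := by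
  intro d
  rw [map_add]
  exact (IsUltrametricDist.norm_add_le_max _ _).trans (max_le (ha d) (hb d))

omit [IsUltrametricDist C] in
theorem Bdd.neg (ha : Bdd β a) : Bdd β (-a) := by
  intro d
  rw [map_neg, norm_neg]
  exact ha d

theorem Bdd.sub (ha : Bdd β a) (hb : Bdd β b) : Bdd β (a - b) := by
  rw [sub_eq_add_neg]
  exact ha.add hb.neg

theorem Bdd.mul (ha : Bdd β a) (hb : Bdd γ b) : Bdd (β * γ) (a * b) := by
  classical
  intro d
  rw [coeff_mul]
  refine IsUltrametricDist.norm_sum_le_of_forall_le_of_nonneg (mul_nonneg ha.nonneg hb.nonneg)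
    fun p _ => ?_
  rw [norm_mul]
  exact mul_le_mul (ha _) (hb _) (norm_nonneg _) ha.nonneg

omit [IsUltrametricDist C] in
theorem Bdd.C_mul (ha : Bdd β a) (c : C) : Bdd (‖c‖ * β) (MvPowerSeries.C c * a) := by
  intro d
  rw [coeff_C_mul, norm_mul]
  exact mul_le_mul_of_nonneg_left (ha d) (norm_nonneg _)

theorem Bdd.pow (ha : Bdd β a) (j : ℕ) : Bdd (β ^ j) (a ^ j) := by
  induction j with
  | zero => simpa using bdd_one
  | succ j ih => simpa only [pow_succ] using ih.mul ha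

theorem bdd_sum {ι : Type*} (s : Finset ι) {f : ι → MvPowerSeries σ C} (hβ : 0 ≤ β)
    (h : ∀ i ∈ s, Bdd β (f i)) : Bdd β (∑ i ∈ s, f i) := by
  intro d
  rw [map_sum]
  exact IsUltrametricDist.norm_sum_le_of_forall_le_of_nonneg hβ fun i hi => h i hi d

omit [IsUltrametricDist C] in
theorem eq_zero_of_bdd (h : ∀ η : ℝ, 0 < η → Bdd η a) : a = 0 := by
  ext d
  rw [map_zero, ← norm_le_zero_iff]
  exact le_of_forall_pos_le_add fun η hη => by simpa using h η hη d

omit [IsUltrametricDist C] in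
theorem bdd_map {R : Type*} [CommRing R] (y : R →+* C) {J : Ideal R} (hJ : ∀ r ∈ J, ‖y r‖ ≤ β)
    {f : MvPowerSeries σ R} (hf : f ∈ cId σ J) : Bdd β (map y f) := by
  intro d
  rw [coeff_map]
  exact hJ _ (mem_cId.mp hf d)

omit [IsUltrametricDist C] in
theorem bdd_map_one {R : Type*} [CommRing R] (y : R →+* C) (hy : ∀ r, ‖y r‖ ≤ 1)
    (f : MvPowerSeries σ R) : Bdd 1 (map y f) := by
  intro d
  rw [coeff_map]
  exact hy _

theorem zn_finsum {ι : Type*} {f : ι → C} (hβ : 0 ≤ β) (h : ∀ i, ‖f i‖ ≤ β) :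
    ‖∑ᶠ i, f i‖ ≤ β := by
  rcases f.support.finite_or_infinite with hf | hf
  · rw [finsum_eq_sum f hf]
    exact IsUltrametricDist.norm_sum_le_of_forall_le_of_nonneg hβ fun i _ => h i
  · rwa [finsum_of_infinite_support hf, norm_zero]

theorem bdd_subst [Fintype τ] {s : τ → MvPowerSeries σ C} (hs : HasSubst s) {r : τ → ℝ}
    (hr : ∀ i, Bdd (r i) (s i)) {w : MvPowerSeries τ C} (hβ : 0 ≤ β)
    (hw : ∀ d, ‖coeff d w‖ * ∏ i, r i ^ d i ≤ β) : Bdd β (subst s w) := by
  classical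
  intro m
  rw [coeff_subst hs]
  refine zn_finsum hβ fun d => le_trans ?_ (hw d)
  have key : ∀ t : Finset τ, Bdd (∏ i ∈ t, r i ^ d i) (∏ i ∈ t, s i ^ d i) := fun t => by
    induction t using Finset.induction_on with
    | empty => simpa using bdd_one
    | insert i t hi ih => simpa only [Finset.prod_insert hi] using ((hr i).pow _).mul ih
  rw [smul_eq_mul, norm_mul, Finsupp.prod_pow]
  exact mul_le_mul_of_nonneg_left (key _ m) (norm_nonneg _)

theorem Bdd.psubst {w : PowerSeries C} (hw : Bdd β w) (ha0 : constantCoeff a = 0) (ha : Bdd 1 a) :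
    Bdd β (w.subst a) := by
  intro m
  rw [PowerSeries.coeff_subst (hs1 ha0)]
  refine zn_finsum hw.nonneg fun j => ?_
  rw [smul_eq_mul, norm_mul, ← mul_one β]
  exact mul_le_mul (hw _) (by simpa using ha.pow j m) (norm_nonneg _) hw.nonneg

theorem Bdd.psubst_sub {w : PowerSeries C} (hw : Bdd β w) (ha0 : constantCoeff a = 0)
    (hb0 : constantCoeff b = 0) (ha : Bdd 1 a) (hb : Bdd 1 b) (hab : Bdd ε (a - b)) :
    Bdd (β * ε) (w.subst a - w.subst b) := by
  intro m
  rw [map_sub, PowerSeries.coeff_subst (hs1 ha0), PowerSeries.coeff_subst (hs1 hb0),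
    ← finsum_sub_distrib (PowerSeries.coeff_subst_finite (hs1 ha0) w m)
      (PowerSeries.coeff_subst_finite (hs1 hb0) w m)]
  refine zn_finsum (mul_nonneg hw.nonneg hab.nonneg) fun j => ?_
  have h1 : Bdd 1 (∑ i ∈ Finset.range j, a ^ i * b ^ (j - 1 - i)) :=
    bdd_sum _ zero_le_one fun i _ => by simpa using (ha.pow i).mul (hb.pow (j - 1 - i))
  rw [← smul_sub, ← map_sub, ← geom_sum₂_mul, smul_eq_mul, norm_mul]
  exact mul_le_mul (hw _) (by simpa using h1.mul hab m) (norm_nonneg _) hw.nonneg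

theorem norm_natCast_eq_one {p : ℕ} (hp : p.Prime) (hp1 : ‖(p : C)‖ < 1) {j : ℕ} (hj : ¬ p ∣ j) :
    ‖(j : C)‖ = 1 := by
  refine le_antisymm (IsUltrametricDist.norm_natCast_le_one C j) (not_lt.mp fun h => ?_)
  obtain ⟨u, v, e⟩ := Nat.isCoprime_iff_coprime.mpr ((Nat.Prime.coprime_iff_not_dvd hp).mpr hj)
  have e' : (u : C) * p + v * j = 1 := by exact_mod_cast congrArg (Int.cast : ℤ → C) e
  have h1 := IsUltrametricDist.norm_add_le_max ((u : C) * p) (v * j)
  rw [e', norm_one, norm_mul, norm_mul] at h1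
  exact not_lt.mpr h1 (max_lt
    (mul_lt_one_of_nonneg_of_lt_one_right (IsUltrametricDist.norm_intCast_le_one C u)
      (norm_nonneg _) hp1)
    (mul_lt_one_of_nonneg_of_lt_one_right (IsUltrametricDist.norm_intCast_le_one C v)
      (norm_nonneg _) h))

theorem qAlg_of_norm {p : ℕ} (hp : p.Prime) (hp0 : (p : C) ≠ 0) (hp1 : ‖(p : C)‖ < 1) :
    QAlg C := by
  intro j hj
  obtain ⟨k, j', h, rfl⟩ := Nat.exists_eq_pow_mul_and_not_dvd hj p hp.ne_one
  rw [isUnit_iff_ne_zero, Nat.cast_mul, Nat.cast_pow]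
  refine mul_ne_zero (pow_ne_zero _ hp0) (norm_ne_zero_iff.mp ?_)
  rw [norm_natCast_eq_one hp hp1 h]
  exact one_ne_zero

/-- the constant controlling the denominators of logarithms on the disc of radius `ρ` -/
def GoodB (C : Type*) [NormedField C] (ρ B : ℝ) : Prop :=
  1 ≤ B ∧ ∀ j : ℕ, j ≠ 0 → ρ ^ (j - 2) ≤ B * ‖(j : C)‖

theorem exists_goodB {p : ℕ} (hp : p.Prime) (hp0 : (p : C) ≠ 0) (hp1 : ‖(p : C)‖ < 1)
    (h0 : 0 ≤ ρ) (h1 : ρ < 1) : ∃ B, GoodB C ρ B := by
  have hq := norm_pos_iff.mpr hp0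
  obtain ⟨L, hL⟩ := exists_pow_lt_of_lt_one hq h1
  refine ⟨(‖(p : C)‖ ^ (L + 1))⁻¹, (one_le_inv₀ (by positivity)).mpr (pow_le_one₀ hq.le hp1.le),
    fun j hj => ?_⟩
  obtain ⟨k, j', h, rfl⟩ := Nat.exists_eq_pow_mul_and_not_dvd hj p hp.ne_one
  have h2 : L * (k - (L + 1)) ≤ p ^ k * j' - 2 := by
    rcases le_total k (L + 1) with h3 | h3
    · simp [Nat.sub_eq_zero_of_le h3]
    · obtain ⟨m, rfl⟩ := Nat.exists_eq_add_of_le h3
      have h4 : (L + 1 + 1) * (m + 1) ≤ 2 ^ (L + 1) * 2 ^ m :=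
        Nat.mul_le_mul Nat.lt_two_pow_self Nat.lt_two_pow_self
      have h5 : 2 ^ (L + 1 + m) ≤ p ^ (L + 1 + m) := Nat.pow_le_pow_left hp.two_le _
      have h6 : p ^ (L + 1 + m) ≤ p ^ (L + 1 + m) * j' :=
        Nat.le_mul_of_pos_right _ (Nat.pos_of_ne_zero (right_ne_zero_of_mul hj))
      rw [← pow_add] at h4
      rw [Nat.add_sub_cancel_left]
      refine Nat.le_sub_of_add_le ?_
      nlinarith
  rw [Nat.cast_mul, Nat.cast_pow, norm_mul, norm_pow, norm_natCast_eq_one hp hp1 h, mul_one,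
    le_inv_mul_iff₀ (by positivity)]
  calc _ ≤ ‖(p : C)‖ ^ (L + 1) * ‖(p : C)‖ ^ (k - (L + 1)) := by
        refine mul_le_mul_of_nonneg_left ((pow_le_pow_of_le_one h0 h1.le h2).trans ?_)
          (by positivity)
        rw [pow_mul]
        exact pow_le_pow_left₀ (by positivity) hL.le _
    _ ≤ _ := by
        rw [← pow_add]
        exact pow_le_pow_of_le_one hq.le hp1.le (by omega)

theorem zn_coeff {f : PowerSeries C} (hf : Bdd γ (PowerSeries.derivative C f)) (d : Fin 2 →₀ ℕ)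
    {k : ℕ} (hk : d 1 = k + 2) :
    0 ≤ ‖coeff d (f.subst (X 0 + X 1 : MvPowerSeries (Fin 2) C) -
      f.subst (X 0 : MvPowerSeries (Fin 2) C) -
      (PowerSeries.derivative C f).subst (X 0 : MvPowerSeries (Fin 2) C) * X 1)‖ ∧
    ‖((k + 2 : ℕ) : C)‖ * ‖coeff d (f.subst (X 0 + X 1 : MvPowerSeries (Fin 2) C) -
      f.subst (X 0 : MvPowerSeries (Fin 2) C) -
      (PowerSeries.derivative C f).subst (X 0 : MvPowerSeries (Fin 2) C) * X 1)‖ ≤ γ := by
  refine ⟨norm_nonneg _, ?_⟩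
  have e1 : d ≠ Finsupp.single 0 (d 0) := fun e => by
    have := congrArg (fun d : Fin 2 →₀ ℕ => d 1) e
    simp [hk] at this
  have e2 : Finsupp.single (1 : Fin 2) 1 ≤ d := by
    rw [Finsupp.single_le_iff]
    omega
  have e3 : d - Finsupp.single (1 : Fin 2) 1 ≠
      Finsupp.single 0 ((d - Finsupp.single (1 : Fin 2) 1 : Fin 2 →₀ ℕ) 0) := fun e => by
    have := congrArg (fun d : Fin 2 →₀ ℕ => d 1) e
    simp [hk] at this
  have e4 : ((k + 2 : ℕ) : C) * (d 0 + (k + 2)).choose (d 0) =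
      (d 0 + (k + 1)).choose (k + 1) * ((d 0 + (k + 1) : ℕ) + 1 : C) := by
    have := Nat.add_one_mul_choose_eq (d 0 + (k + 1)) (k + 1)
    rw [Nat.choose_symm_add, mul_comm]
    exact_mod_cast congrArg (Nat.cast : ℕ → C) (this.symm.trans (mul_comm _ _))
  rw [map_sub, map_sub, PowerSeries.coeff_subst_X_zero_add_X_one, PowerSeries.coeff_subst_single,
    X_def 1, coeff_mul_monomial, if_neg e1, if_pos e2, PowerSeries.coeff_subst_single, if_neg e3,
    zero_mul, sub_zero, sub_zero, hk, ← norm_mul, ← mul_assoc, e4, mul_assoc, norm_mul,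
    mul_comm (_ + 1 : C), ← one_mul γ]
  refine mul_le_mul (IsUltrametricDist.norm_natCast_le_one C _) ?_ (norm_nonneg _) zero_le_one
  have := bdd_iff.mp hf (d 0 + (k + 1))
  rwa [PowerSeries.coeff_derivative] at this

theorem taylor0 (hB : GoodB C ρ B) {f : PowerSeries C}
    (hf : Bdd γ (PowerSeries.derivative C f)) (ha0 : constantCoeff a = 0)
    (he0 : constantCoeff e = 0) (ha : Bdd 1 a) (he : Bdd ε e) (hε : ε ≤ ρ) :
    Bdd (γ * B * ε ^ 2)
      (f.subst (a + e) - f.subst a - (PowerSeries.derivative C f).subst a * e) := by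
  have hs := hs2 ha0 he0
  have h01 : constantCoeff (X 0 + X 1 : MvPowerSeries (Fin 2) C) = 0 := by simp
  have hβ : 0 ≤ γ * B * ε ^ 2 :=
    mul_nonneg (mul_nonneg hf.nonneg (zero_le_one.trans hB.1)) (sq_nonneg _)
  have h := bdd_subst hs (r := ![1, ε]) (fun i => by fin_cases i; exacts [ha, he])
    (w := f.subst (X 0 + X 1 : MvPowerSeries (Fin 2) C) - f.subst (X 0 : MvPowerSeries (Fin 2) C)
      - (PowerSeries.derivative C f).subst (X 0 : MvPowerSeries (Fin 2) C) * X 1) hβ fun d => by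
      rcases lt_or_ge (d 1) 2 with h2 | h2
      · rwa [X_pow_dvd_iff.mp (rc_taylor_univ f) d h2, norm_zero, zero_mul]
      obtain ⟨k, hk⟩ := Nat.exists_eq_add_of_le' h2
      have h3 := hB.2 (k + 2) (by omega)
      have h4 := zn_coeff hf d hk
      rw [Nat.add_sub_cancel] at h3
      simp only [Fin.prod_univ_two, Matrix.cons_val_zero, Matrix.cons_val_one, one_pow, one_mul, hk]
      generalize ‖coeff d (_ : MvPowerSeries (Fin 2) C)‖ = x at h4 ⊢
      have h5 := (pow_le_pow_left₀ he.nonneg hε k).trans h3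
      calc x * ε ^ (k + 2) = x * ε ^ k * ε ^ 2 := by ring
        _ ≤ x * (B * ‖((k + 2 : ℕ) : C)‖) * ε ^ 2 := by gcongr; exact h4.1
        _ = ‖((k + 2 : ℕ) : C)‖ * x * B * ε ^ 2 := by ring
        _ ≤ _ := by gcongr; exacts [zero_le_one.trans hB.1, h4.2]
  rwa [subst_sub hs, subst_sub hs, subst_mul hs, subst_psubst hs h01, subst_psubst hs (rc_c0X _),
    subst_psubst hs (rc_c0X _), subst_add hs, subst_X hs, subst_X hs] at h

/-- a series with bounded derivative is Lipschitz on small discs -/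
theorem lip0 (hB : GoodB C ρ B) (hρ : ρ ≤ 1) {f : PowerSeries C}
    (hf : Bdd γ (PowerSeries.derivative C f)) (ha0 : constantCoeff a = 0)
    (hb0 : constantCoeff b = 0) (hb : Bdd 1 b) (hab : Bdd ε (a - b)) (hε : ε ≤ ρ) :
    Bdd (γ * B * ε) (f.subst a - f.subst b) := by
  have he0 : constantCoeff (a - b) = 0 := by rw [map_sub, ha0, hb0, sub_zero]
  have h1 := taylor0 hB hf hb0 he0 hb hab hε
  have h0 := hab.nonneg
  have hγ := hf.nonneg
  have hB0 := zero_le_one.trans hB.1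
  have h2 := (h1.mono (γ := γ * B * ε) (by
    rw [sq, ← mul_assoc]
    exact mul_le_of_le_one_right (by positivity) (hε.trans hρ))).add
    (((hf.psubst hb0 hb).mul hab).mono (by
      gcongr
      exact le_mul_of_one_le_right hγ hB.1))
  rwa [add_sub_cancel, sub_add_cancel] at h2

end

end Vale.Agent.P217
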